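import Vale.Agent.P147.Fresh

open MeasureTheory Filter Topology
open scoped ENNReal

namespace Vale.Agent.P147

variable {d : ℕ}

namespace RegenAux

/-- strict ladder path -/
def Lad (D : Dir d) (γ : Pa d) : Prop := ∀ x ∈ dep 0 γ, D.lev x < D.H γ

/-- the killing event -/
def Kil (D : Dir d) (g : Pa d) : Set (ℕ → St d) :=
  cyl (g ++ [D.e]) ∩ sh (g ++ [D.e]).length ⁻¹' D.Stay

/-- admissible extension -/
def Q (D : Dir d) (g γ : Pa d) : Prop := g <+: γ ∧ Lad D γ ∧ Disjoint (Kil D g) (cyl γ)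

/-- the stages -/
def S (D : Dir d) : ℕ → Set (Pa d)
  | 0 => {[]}
  | r + 1 => {γ | ∃ g ∈ S D r, Q D g γ ∧ ∀ γ' : Pa d, γ' <+: γ → Q D g γ' → γ' = γ}

theorem pf_eq {F : Set (Pa d)} (h : PF F) {a b c : Pa d} (ha : a ∈ F) (hb : b ∈ F)
    (hac : a <+: c) (hbc : b <+: c) : a = b := by
  rcases List.prefix_or_prefix_of_prefix hac hbc with h1 | h1
  · exact h a ha b hb h1
  · exact (h b hb a ha h1).symm

theorem pf_S (D : Dir d) : ∀ r, PF (S D r)
  | 0 => by
    intro a ha b hb _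
    simp only [S, Set.mem_singleton_iff] at ha hb
    rw [ha, hb]
  | r + 1 => by
    intro a ha b hb hab
    obtain ⟨g, hg, hq, -⟩ := ha
    obtain ⟨g', hg', hq', hmin⟩ := hb
    have : g = g' := pf_eq (pf_S D r) hg hg' (hq.1.trans hab) hq'.1
    subst this
    exact hmin a hab hq

theorem lad_S (D : Dir d) : ∀ r, ∀ g ∈ S D r, Lad D g
  | 0 => by
    intro g hg
    simp only [S, Set.mem_singleton_iff] at hg
    subst hg
    intro x hx
    simp [dep] at hx
  | r + 1 => by
    intro g hg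
    obtain ⟨_, _, hq, -⟩ := hg
    exact hq.2.1

theorem mem_dep_e (D : Dir d) {g : Pa d} {x : V d} (hx : x ∈ dep 0 (g ++ [D.e])) :
    x ∈ dep 0 g ∨ x = disp g := by
  rw [dep_append, List.mem_append] at hx
  rcases hx with hx | hx
  · exact Or.inl hx
  · right
    simpa [dep] using hx

theorem lev_e_app (D : Dir d) (g : Pa d) : D.lev (disp (g ++ [D.e])) = D.H g + 1 := by
  simp [Dir.H, D.lev_e]

theorem gap_e (D : Dir d) {g : Pa d} (hg : Lad D g) : D.Gap (g ++ [D.e]) := by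
  intro x hx
  rw [lev_e_app]
  rcases mem_dep_e D hx with h | h
  · have := hg x h
    linarith
  · rw [h]; simp [Dir.H]

theorem lad_e (D : Dir d) {g : Pa d} (hg : Lad D g) : Lad D (g ++ [D.e]) := by
  intro x hx
  have := gap_e D hg x hx
  unfold Dir.H
  linarith

theorem kil_mass (W : RW d) (D : Dir d) {g : Pa d} (hg : Lad D g) :
    W.P (Kil D g) = W.w [D.e] * W.P D.Stay * W.w g := by
  unfold Kil
  rw [W.P_cyl_stay D (lad_e D hg), W.w_append]
  · ring
  · intro x hx hx'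
    have h1 := hg x hx
    have h2 : x = disp g := by simpa [dep] using hx'
    rw [h2] at h1
    exact lt_irrefl _ h1

theorem eq_of_mem_cyl {s t : ℕ → St d} {n : ℕ} (h : t ∈ cyl (pre s n)) {i : ℕ} (hi : i < n) :
    t i = s i := by
  have h1 : pre t n = pre s n := by
    have := h
    simp only [cyl, Set.mem_ofPred_eq, pre_length] at this
    exact this
  unfold pre at h1
  exact List.map_inj_left.1 h1 i (List.mem_range.2 hi)

theorem ev_disj (D : Dir d) {g : Pa d} {s : ℕ → St d} (hs : s ∉ Kil D g) :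
    ∃ n₀, ∀ n, n₀ ≤ n → Disjoint (Kil D g) (cyl (pre s n)) := by
  set k := (g ++ [D.e]).length with hk
  by_cases h1 : s ∈ cyl (g ++ [D.e])
  · have h2 : sh k s ∉ D.Stay := fun h => hs ⟨h1, h⟩
    simp only [Dir.Stay, Set.mem_ofPred_eq, not_forall, not_le] at h2
    obtain ⟨m, hm⟩ := h2
    refine ⟨k + m, fun n hn => Set.disjoint_left.2 fun t ht htc => ?_⟩
    have h3 : 0 ≤ D.lev (pos (sh k t) m) := ht.2 m
    have h4 : pos (sh k t) m = pos (sh k s) m := by
      unfold pos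
      refine Finset.sum_congr rfl fun i hi => ?_
      have hi' := Finset.mem_range.1 hi
      show stp (t (k + i)) = stp (s (k + i))
      rw [eq_of_mem_cyl htc (by omega)]
    rw [h4] at h3
    linarith
  · refine ⟨k, fun n hn => Set.disjoint_left.2 fun t ht htc => h1 ?_⟩
    have h3 : pre t k = g ++ [D.e] := ht.1
    show pre s k = g ++ [D.e]
    rw [← h3]
    unfold pre
    refine List.map_inj_left.2 fun i hi => ?_
    have hi' := List.mem_range.1 hi
    exact (eq_of_mem_cyl htc (by omega)).symm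

theorem ex_lad (D : Dir d) {s : ℕ → St d} (hs : ∀ K : ℕ, ∃ n, (K : ℝ) ≤ D.lev (pos s n))
    (n₀ : ℕ) : ∃ n, n₀ ≤ n ∧ Lad D (pre s n) := by
  classical
  obtain ⟨K, hK⟩ := exists_nat_gt (∑ i ∈ Finset.range n₀, |D.lev (pos s i)|)
  have hex := hs K
  refine ⟨Nat.find hex, ?_, ?_⟩
  · by_contra hlt
    push Not at hlt
    have h1 := Nat.find_spec hex
    have h2 : |D.lev (pos s (Nat.find hex))| ≤ ∑ i ∈ Finset.range n₀, |D.lev (pos s i)| :=
      Finset.single_le_sum (f := fun i => |D.lev (pos s i)|) (fun i _ => abs_nonneg _)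
        (Finset.mem_range.2 hlt)
    have h3 := le_abs_self (D.lev (pos s (Nat.find hex)))
    linarith
  · intro x hx
    obtain ⟨i, hi, rfl⟩ := mem_dep_pre.1 hx
    have h1 := Nat.find_min hex hi
    have h2 := Nat.find_spec hex
    unfold Dir.H
    rw [disp_pre]
    push Not at h1
    linarith

theorem eq_pre_of_prefix {s : ℕ → St d} {n : ℕ} {γ : Pa d} (h : γ <+: pre s n) :
    γ = pre s γ.length := by
  have h1 : s ∈ cyl γ := cyl_mono h (mem_cyl_pre s n)
  exact h1.symm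

theorem step (D : Dir d) {s : ℕ → St d} (hs : ∀ K : ℕ, ∃ n, (K : ℝ) ≤ D.lev (pos s n))
    (hn : ¬ ∃ n, 1 ≤ n ∧ D.Gap (pre s n) ∧ sh n s ∈ D.Stay) :
    ∀ r, ∃ g ∈ S D r, s ∈ cyl g
  | 0 => ⟨[], rfl, by rw [cyl_nil]; trivial⟩
  | r + 1 => by
    classical
    obtain ⟨g, hg, hsg⟩ := step D hs hn r
    have hl := lad_S D r g hg
    have hk : s ∉ Kil D g := by
      rintro ⟨h1, h2⟩
      apply hn
      refine ⟨(g ++ [D.e]).length, by simp, ?_, h2⟩
      have h3 : pre s (g ++ [D.e]).length = g ++ [D.e] := h1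
      rw [h3]
      exact gap_e D hl
    obtain ⟨n₀, hn₀⟩ := ev_disj D hk
    obtain ⟨n, hn1, hn2⟩ := ex_lad D hs (max n₀ g.length)
    have hex : ∃ n, Q D g (pre s n) := by
      refine ⟨n, ?_, hn2, hn₀ n (le_trans (le_max_left _ _) hn1)⟩
      have h3 : pre s g.length = g := hsg
      rw [← h3]
      exact pre_prefix s (le_trans (le_max_right _ _) hn1)
    refine ⟨pre s (Nat.find hex), ⟨g, hg, Nat.find_spec hex, fun γ' hγ' hq => ?_⟩,
      mem_cyl_pre s _⟩
    have h1 := eq_pre_of_prefix hγ'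
    have h2 : γ'.length ≤ Nat.find hex := by simpa using hγ'.length_le
    have h3 : Nat.find hex ≤ γ'.length := Nat.find_min' hex (h1 ▸ hq)
    rw [h1, le_antisymm h2 h3]

end RegenAux

open RegenAux in
/-- a walk with unbounded level has a regeneration time -/
theorem RW.regen (W : RW d) (D : Dir d) (hp : 0 < W.P D.Stay) :
    W.P {s | (∀ K : ℕ, ∃ n, (K : ℝ) ≤ D.lev (pos s n)) ∧
      ¬ ∃ n, 1 ≤ n ∧ D.Gap (pre s n) ∧ sh n s ∈ D.Stay} = 0 := by
  have hc : 0 < W.w [D.e] * W.P D.Stay := ENNReal.mul_pos (W.w_pos _).ne' hp.ne'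
  have h0 := W.trial_null (S D) _ hc (pf_S D)
    (fun r γ' h => by
      obtain ⟨g, hg, hq, -⟩ := h
      exact ⟨g, hg, hq.1⟩)
    (fun r γ hγ => by
      refine ⟨Kil D γ, ?_, ?_, (kil_mass W D (lad_S D r γ hγ)).ge, ?_⟩
      · exact (measurableSet_cyl _).inter (measurable_sh _ D.measurableSet_Stay)
      · exact fun s hs => cyl_mono (List.prefix_append _ _) hs.1
      · intro γ' hγ' hpre
        obtain ⟨g, hg, hq, -⟩ := hγ'
        have : g = γ := pf_eq (pf_S D r) hg hγ hq.1 hpre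
        subst this
        exact hq.2.2)
  refine measure_mono_null (fun s hs => ?_) h0
  simp only [Set.mem_iInter, Set.mem_iUnion]
  intro r
  obtain ⟨g, hg, hsg⟩ := step D hs.1 hs.2 r
  exact ⟨g, hg, hsg⟩

end Vale.Agent.P147
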