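import Vale.Agent.P147.Fresh

open MeasureTheory Filter Topology
open scoped ENNReal

namespace Vale.Agent.P147

variable {d : ℕ}

/-- the end point is the first visit to the part of its column below `b` -/
def Dir.NewCol (D : Dir d) (b : ℝ) (γ : Pa d) : Prop :=
  D.lev (disp γ) ≤ b ∧ ∀ p ∈ dep 0 γ, ∀ j : ℤ, p = disp γ + j • stp D.e → b < D.lev p

open Classical in
/-- number of proper prefixes that open a new column -/
noncomputable def Dir.ncol (D : Dir d) (b : ℝ) (γ : Pa d) : ℕ :=
  Nat.count (fun n => D.NewCol b (γ.take n)) γ.length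

theorem slabB_count_congr {p q : ℕ → Prop} [DecidablePred p] [DecidablePred q] {n : ℕ}
    (h : ∀ i < n, p i ↔ q i) : Nat.count p n = Nat.count q n := by
  rw [Nat.count_eq_card_filter_range, Nat.count_eq_card_filter_range]
  congr 1
  exact Finset.filter_congr fun i hi => h i (Finset.mem_range.1 hi)

open Classical in
theorem Dir.ncol_take (D : Dir d) (b : ℝ) (γ : Pa d) {n : ℕ} (hn : n ≤ γ.length) :
    D.ncol b (γ.take n) = Nat.count (fun i => D.NewCol b (γ.take i)) n := by
  unfold Dir.ncol
  rw [List.length_take, min_eq_left hn]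
  refine slabB_count_congr fun i hi => ?_
  rw [List.take_take, min_eq_left hi.le]

theorem slabB_pre_take (s : ℕ → St d) {n m : ℕ} (h : n ≤ m) : (pre s m).take n = pre s n := by
  have := List.prefix_iff_eq_take.1 (pre_prefix s h)
  rw [pre_length] at this
  exact this.symm

theorem slabB_prefix_replicate {a : Pa d} {N : ℕ} {u : St d} (h : a <+: List.replicate N u) :
    a = List.replicate a.length u :=
  List.eq_replicate_iff.2 ⟨rfl, fun _ hb => List.eq_of_mem_replicate (h.subset hb)⟩

theorem Dir.disp_rep (D : Dir d) (j : ℕ) :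
    disp (List.replicate j D.neg.e) = (-(j : ℤ)) • stp D.e := by
  rw [disp_replicate, D.stp_neg_e, smul_neg, neg_smul, natCast_zsmul]

theorem Dir.newCol_infinite (D : Dir d) (a b : ℝ) {s : ℕ → St d} (h1 : ∀ n, a ≤ D.lev (pos s n))
    (h2 : Set.Infinite {x | D.lev x ≤ b ∧ ∃ n, pos s n = x}) :
    Set.Infinite {n | D.NewCol b (pre s n)} := by
  intro hfin
  apply h2
  refine (hfin.biUnion (t := fun n => (fun j : ℤ => pos s n + j • stp D.e) ''
    Set.Icc ⌈a - D.lev (pos s n)⌉ ⌊b - D.lev (pos s n)⌋)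
    fun n _ => (Set.finite_Icc _ _).image _).subset ?_
  rintro x ⟨hx, n, hn⟩
  classical
  have hex : ∃ m, D.lev (pos s m) ≤ b ∧ ∃ j : ℤ, pos s m = x + j • stp D.e :=
    ⟨n, hn ▸ hx, 0, by rw [hn, zero_smul, add_zero]⟩
  obtain ⟨hm1, j, hj⟩ := Nat.find_spec hex
  simp only [Set.mem_iUnion, exists_prop, Set.mem_image, Set.mem_Icc]
  refine ⟨Nat.find hex, ⟨?_, ?_⟩, -j, ⟨?_, ?_⟩, ?_⟩
  · rwa [disp_pre]
  · intro p hp k hk
    obtain ⟨i, hi, rfl⟩ := mem_dep_pre.1 hp
    by_contra hc
    refine Nat.find_min hex hi ⟨not_lt.1 hc, j + k, ?_⟩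
    rw [hk, disp_pre, hj, add_smul, add_assoc]
  · rw [Int.ceil_le, hj, D.lev_add, D.lev_zsmul, D.lev_e]
    have := h1 n
    rw [hn] at this
    push_cast
    linarith
  · rw [Int.le_floor, hj, D.lev_add, D.lev_zsmul, D.lev_e]
    push_cast
    linarith
  · rw [hj, neg_smul, add_neg_cancel_right]

/-- a walk that stays above a level visits finitely many sites of a slab -/
theorem RW.slabB (W : RW d) (D : Dir d) (a b : ℝ) :
    W.P {s | (∀ n, a ≤ D.lev (pos s n)) ∧
      Set.Infinite {x | D.lev x ≤ b ∧ ∃ n, pos s n = x}} = 0 := by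
  classical
  obtain ⟨N, hN⟩ := exists_nat_gt (b - a)
  set S : ℕ → Set (Pa d) := fun r =>
    {γ | (∀ p ∈ pts 0 γ, a ≤ D.lev p) ∧ D.NewCol b γ ∧ D.ncol b γ = r} with hS
  have hlt : ∀ {γ γ' : Pa d}, γ <+: γ' → γ ≠ γ' → D.NewCol b γ → D.ncol b γ < D.ncol b γ' := by
    intro γ γ' hp hne hg
    have e1 : γ = γ'.take γ.length := List.prefix_iff_eq_take.1 hp
    have hl : γ.length < γ'.length := by
      rcases hp.length_le.lt_or_eq with h | h
      · exact h
      · exact absurd (hp.eq_of_length h) hne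
    have e2 : D.ncol b γ = Nat.count (fun i => D.NewCol b (γ'.take i)) γ.length := by
      conv_lhs => rw [e1]
      exact D.ncol_take b γ' hl.le
    rw [e2]
    exact Nat.count_strict_mono (by rw [← e1]; exact hg) hl
  refine measure_mono_null ?_ (W.trial_null S (W.w [D.neg.e] ^ N)
    (ENNReal.pow_pos (W.w_pos _) N) ?_ ?_ ?_)
  · rintro s ⟨h1, h2⟩
    have hinf := D.newCol_infinite a b h1 h2
    simp only [Set.mem_iInter, Set.mem_iUnion, exists_prop]
    intro r
    refine ⟨pre s (Nat.nth (fun n => D.NewCol b (pre s n)) r), ⟨?_, ?_, ?_⟩, mem_cyl_pre s _⟩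
    · intro p hp
      obtain ⟨i, -, rfl⟩ := mem_pts_pre.1 hp
      exact h1 i
    · exact Nat.nth_mem_of_infinite hinf r
    · unfold Dir.ncol
      rw [pre_length]
      refine Eq.trans (slabB_count_congr fun i hi => ?_) (Nat.count_nth_of_infinite hinf r)
      rw [slabB_pre_take s hi.le]
  · intro r γ hγ γ' hγ' hp
    by_contra hne
    have := hlt hp hne hγ.2.1
    rw [hγ.2.2, hγ'.2.2] at this
    exact lt_irrefl _ this
  · intro r γ' hγ'
    have hc : r < Nat.count (fun i => D.NewCol b (γ'.take i)) γ'.length := by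
      have := hγ'.2.2
      unfold Dir.ncol at this
      omega
    have hl := Nat.nth_lt_of_lt_count hc
    have hfin : ∀ hf : (Set.ofPred fun i => D.NewCol b (γ'.take i)).Finite, r < hf.toFinset.card :=
      fun hf => hc.trans_le (Nat.count_le_card hf _)
    refine ⟨γ'.take (Nat.nth (fun i => D.NewCol b (γ'.take i)) r), ⟨?_, ?_, ?_⟩,
      List.take_prefix _ _⟩
    · exact fun p hp => hγ'.1 p (pts_prefix (List.take_prefix _ _) hp)
    · exact Nat.nth_mem r hfin
    · rw [D.ncol_take b γ' hl.le]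
      exact Nat.count_nth hfin
  · intro r γ hγ
    refine ⟨cyl (γ ++ List.replicate N D.neg.e), measurableSet_cyl _,
      cyl_mono (List.prefix_append _ _), ?_, ?_⟩
    · rw [W.P_cyl, W.w_append, W.w_replicate, mul_comm]
      intro p hp hp'
      obtain ⟨u, v, huv, -, hpu⟩ := mem_dep_iff.1 hp'
      have hu := slabB_prefix_replicate (a := u) ⟨v, huv.symm⟩
      rw [hu, D.disp_rep] at hpu
      have h3 := hγ.2.1.2 p hp _ hpu
      have h4 := hγ.2.1.1
      rw [hpu, D.lev_add, D.lev_zsmul, D.lev_e] at h3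
      push_cast at h3
      have : (0 : ℝ) ≤ u.length := Nat.cast_nonneg _
      linarith
    · intro γ' hγ' hp
      rw [Set.disjoint_left]
      intro s hs hs'
      rcases prefix_or_of_mem_cyl hs hs' with h | h
      · have h3 := hγ'.1 _ (mem_pts_iff.2 ⟨_, h, rfl⟩)
        have h4 := hγ.2.1.1
        rw [zero_add, disp_append, D.disp_rep, D.lev_add, D.lev_zsmul, D.lev_e] at h3
        push_cast at h3
        linarith
      · obtain ⟨u, rfl⟩ := hp
        have hu := slabB_prefix_replicate ((List.prefix_append_right_inj γ).1 h)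
        have hne : u ≠ [] := by
          rintro rfl
          have h5 := hγ'.2.2
          rw [List.append_nil, hγ.2.2] at h5
          omega
        have h3 := hγ'.2.1.2 (disp γ) (mem_dep_iff.2 ⟨γ, u, rfl, hne, (zero_add _).symm⟩)
          u.length (by
            rw [disp_append]
            conv_rhs => rw [hu]
            rw [D.disp_rep, List.length_replicate, neg_smul, neg_add_cancel_right])
        exact absurd hγ.2.1.1 (not_le.2 h3)

end Vale.Agent.P147
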