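import Vale.Agent.P147.SlabA
import Vale.Agent.P147.SlabB
import Vale.Agent.P147.Regen

open MeasureTheory Filter Topology
open scoped ENNReal

namespace Vale.Agent.P147

variable {d : ℕ}

namespace RW

variable (W : RW d) (D : Dir d)

theorem slab (a b : ℝ) :
    W.P {s | (∀ n, a ≤ D.lev (pos s n)) ∧ ∃ᶠ n in atTop, D.lev (pos s n) ≤ b} = 0 := by
  have h1 := W.slabB D a b
  have h2 : W.P (⋃ x : V d, {s | (∀ n, a ≤ D.lev (pos s n)) ∧ ∃ᶠ n in atTop, pos s n = x}) = 0 :=
    measure_iUnion_null fun x => W.slabA D a x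
  refine measure_mono_null (fun s hs => ?_) (measure_union_null h1 h2)
  by_cases hf : Set.Infinite {x | D.lev x ≤ b ∧ ∃ n, pos s n = x}
  · exact Or.inl ⟨hs.1, hf⟩
  · right
    have hfin : Set.Finite {x | D.lev x ≤ b ∧ ∃ n, pos s n = x} := Set.not_infinite.1 hf
    by_contra hx
    simp only [Set.mem_iUnion, not_exists] at hx
    have h3 : ∀ x ∈ {x | D.lev x ≤ b ∧ ∃ n, pos s n = x}, ∀ᶠ n in atTop, pos s n ≠ x := by
      intro x _
      by_contra h4
      exact hx x ⟨hs.1, by simpa [Filter.Frequently] using h4⟩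
    have h4 := (Filter.eventually_all_finite hfin).2 h3
    obtain ⟨n, hn1, hn2⟩ := (hs.2.and_eventually h4).exists
    exact hn2 _ ⟨hn1, n, rfl⟩ rfl

theorem stay_bdd (K : ℝ) : W.P (D.Stay ∩ {s | ∀ n, D.lev (pos s n) ≤ K}) = 0 := by
  refine measure_mono_null (fun s hs => ?_) (W.slab D 0 K)
  exact ⟨hs.1, (Eventually.of_forall hs.2).frequently⟩

theorem stay_pos (h : 0 < W.P D.Esc) : 0 < W.P D.Stay := by
  by_contra h0
  have h1 : W.P D.Stay = 0 := by simpa using h0
  have h2 : W.P (⋃ γ : Pa d, cyl γ ∩ sh γ.length ⁻¹' D.Stay) = 0 :=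
    measure_iUnion_null fun γ => le_antisymm (h1 ▸ W.P_cyl_stay_le D γ) zero_le
  refine h.ne' (measure_mono_null (fun s hs => ?_) h2)
  have h3 : Tendsto (fun n => D.lev (pos s n)) cofinite atTop := by
    rw [Nat.cofinite_eq_atTop]; exact hs
  obtain ⟨n, hn⟩ := h3.exists_forall_le
  refine Set.mem_iUnion.2 ⟨pre s n, mem_cyl_pre s n, fun m => ?_⟩
  have h4 := hn (n + m)
  rw [pos_add, D.lev_add] at h4
  rw [pre_length]
  linarith

theorem kal_bdd_below :
    W.P {s | (∃ a : ℝ, ∀ n, a ≤ D.lev (pos s n)) ∧ s ∉ D.Esc} = 0 := by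
  have h2 : W.P (⋃ A : ℕ, ⋃ B : ℕ, {s | (∀ n, -(A : ℝ) ≤ D.lev (pos s n)) ∧
      ∃ᶠ n in atTop, D.lev (pos s n) ≤ (B : ℝ)}) = 0 :=
    measure_iUnion_null fun A => measure_iUnion_null fun B => W.slab D _ _
  refine measure_mono_null (fun s hs => ?_) h2
  obtain ⟨⟨a, ha⟩, he⟩ := hs
  have h3 : ∃ b : ℝ, ∃ᶠ n in atTop, D.lev (pos s n) ≤ b := by
    by_contra h4
    apply he
    refine tendsto_atTop.2 fun b => ?_
    have h5 : ¬ ∃ᶠ n in atTop, D.lev (pos s n) ≤ b := fun h => h4 ⟨b, h⟩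
    exact (not_frequently.1 h5).mono fun n hn => (not_le.1 hn).le
  obtain ⟨b, hb⟩ := h3
  obtain ⟨A, hA⟩ := exists_nat_ge (-a)
  obtain ⟨B, hB⟩ := exists_nat_ge b
  refine Set.mem_iUnion.2 ⟨A, Set.mem_iUnion.2 ⟨B, fun n => ?_, hb.mono fun n hn => hn.trans hB⟩⟩
  have := ha n
  linarith

theorem kalikow (h : 0 < W.P D.Esc) (h1 : W.P D.Esc ≠ 1) : 0 < W.P D.neg.Esc := by
  by_contra h0
  have h2 : W.P D.neg.Esc = 0 := by simpa using h0
  apply h1
  rw [← prob_compl_eq_zero_iff D.measurableSet_Esc]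
  have h3 := W.regen D (W.stay_pos D h)
  have h4 := W.kal_bdd_below D
  have h5 := W.kal_bdd_below D.neg
  refine measure_mono_null (fun s hs => ?_)
    (measure_union_null (measure_union_null h2 h3) (measure_union_null h4 h5))
  by_cases hu : ∀ K : ℕ, ∃ n, (K : ℝ) ≤ D.lev (pos s n)
  · by_cases hr : ∃ n, 1 ≤ n ∧ D.Gap (pre s n) ∧ sh n s ∈ D.Stay
    · right; left
      obtain ⟨n, -, -, hn⟩ := hr
      refine ⟨⟨-∑ i ∈ Finset.range (n + 1), |D.lev (pos s i)|, fun m => ?_⟩, hs⟩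
      have key : ∀ i ≤ n, -∑ i ∈ Finset.range (n + 1), |D.lev (pos s i)| ≤ D.lev (pos s i) := by
        intro i hi
        have a1 : |D.lev (pos s i)| ≤ ∑ i ∈ Finset.range (n + 1), |D.lev (pos s i)| :=
          Finset.single_le_sum (f := fun i => |D.lev (pos s i)|) (fun i _ => abs_nonneg _)
            (Finset.mem_range.2 (by omega))
        have a2 := neg_abs_le (D.lev (pos s i))
        linarith
      rcases le_total m n with hm | hm
      · exact key m hm
      · obtain ⟨k, rfl⟩ := Nat.exists_eq_add_of_le hm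
        have a1 := hn k
        have a2 := key n le_rfl
        rw [pos_add, D.lev_add]
        linarith
    · left; right
      exact ⟨hu, hr⟩
  · by_cases hn : s ∈ D.neg.Esc
    · left; left; exact hn
    · right; right
      push Not at hu
      obtain ⟨K, hK⟩ := hu
      refine ⟨⟨-(K : ℝ), fun n => ?_⟩, hn⟩
      have := hK n
      rw [D.neg_lev]
      linarith

end RW

end Vale.Agent.P147
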