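import Vale.Agent.P147.Dec
import Vale.Agent.P147.Kal

open MeasureTheory Filter Topology
open scoped ENNReal

namespace Vale.Agent.P147

variable {d : ℕ}

theorem meas_biUnion_ind {X ι : Type} [MeasurableSpace X] [Countable ι] (μ : Measure X)
    (S : Set ι) (A : ι → Set X) (hm : ∀ i, MeasurableSet (A i)) (hd : S.PairwiseDisjoint A) :
    μ (⋃ i ∈ S, A i) = ∑' i, indE (i ∈ S) * μ (A i) := by
  rw [measure_biUnion S.to_countable hd fun i _ => hm i, tsum_subtype S fun i => μ (A i)]
  refine tsum_congr fun γ => ?_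
  by_cases h : γ ∈ S
  · rw [Set.indicator_of_mem h, indE_pos h, one_mul]
  · rw [Set.indicator_of_notMem h, indE_neg h, zero_mul]

namespace RW

variable (W : RW d) (D : Dir d)

theorem BE_zero (f : List (Pa d) → ℝ≥0∞) : W.BE D 0 f = f [] := by
  unfold BE
  rw [tsum_list, indE_pos (p := D.BL 0 []) ⟨rfl, by simp⟩]
  have : ∀ (a : Pa d) (l : List (Pa d)), indE (D.BL 0 (a :: l)) = 0 := fun a l =>
    indE_neg fun h => by simpa using h.1
  simp [this]

theorem BE_succ (n : ℕ) (f : List (Pa d) → ℝ≥0∞) :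
    W.BE D (n + 1) f = ∑' b, indE (D.Blk b) * W.w b * W.BE D n fun L => f (b :: L) := by
  unfold BE
  rw [tsum_list, indE_neg (p := D.BL (n + 1) []) fun h => by simpa using h.1]
  simp only [zero_mul, zero_add]
  refine tsum_congr fun b => ?_
  rw [← ENNReal.tsum_mul_left]
  refine tsum_congr fun L => ?_
  have : D.BL (n + 1) (b :: L) = (D.Blk b ∧ D.BL n L) := by
    simp only [Dir.BL, List.length_cons, Nat.add_right_cancel_iff, List.forall_mem_cons, eq_iff_iff]
    tauto
  rw [this, indE_and, List.map_cons, List.prod_cons]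
  ring

theorem BE_add (n m : ℕ) (f : List (Pa d) → ℝ≥0∞) :
    W.BE D (n + m) f = W.BE D n fun L => W.BE D m fun K => f (L ++ K) := by
  induction n generalizing f with
  | zero => simp [BE_zero]
  | succ n ih =>
    rw [Nat.add_right_comm, BE_succ, BE_succ]
    simp only [ih, List.cons_append]

theorem BE_reverse (n : ℕ) (f : List (Pa d) → ℝ≥0∞) :
    W.BE D n (fun L => f L.reverse) = W.BE D n f := by
  unfold BE
  rw [← (Function.Involutive.toPerm List.reverse List.reverse_reverse).tsum_eq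
    fun L => indE (D.BL n L) * (L.map W.w).prod * f L]
  refine tsum_congr fun L => ?_
  change _ = indE (D.BL n L.reverse) * (L.reverse.map W.w).prod * f L.reverse
  simp [Dir.BL, List.prod_reverse]

theorem BE_mono {n : ℕ} {f g : List (Pa d) → ℝ≥0∞} (h : ∀ L, D.BL n L → f L ≤ g L) :
    W.BE D n f ≤ W.BE D n g := by
  refine ENNReal.tsum_le_tsum fun L => ?_
  by_cases hL : D.BL n L
  · exact mul_le_mul_right (h L hL) _
  · simp [indE_neg hL]

theorem BE_add_fun (n : ℕ) (f g : List (Pa d) → ℝ≥0∞) :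
    W.BE D n (fun L => f L + g L) = W.BE D n f + W.BE D n g := by
  simp only [BE, mul_add, ENNReal.tsum_add]

theorem BE_mul (n : ℕ) (c : ℝ≥0∞) (f : List (Pa d) → ℝ≥0∞) :
    W.BE D n (fun L => c * f L) = c * W.BE D n f := by
  unfold BE
  rw [← ENNReal.tsum_mul_left]
  exact tsum_congr fun L => by ring

theorem BE_tsum {ι : Type} (n : ℕ) (f : ι → List (Pa d) → ℝ≥0∞) :
    W.BE D n (fun L => ∑' i, f i L) = ∑' i, W.BE D n (f i) := by
  unfold BE
  rw [ENNReal.tsum_comm]
  exact tsum_congr fun L => ENNReal.tsum_mul_left.symm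

theorem w_flatten {L : List (Pa d)} (h : ∀ b ∈ L, D.Blk b) :
    W.w L.flatten = (L.map W.w).prod := by
  induction L with
  | nil => simp [w_nil]
  | cons b L ih =>
    have hL : ∀ c ∈ L, D.Blk c := fun c hc => h c (List.mem_cons_of_mem _ hc)
    rw [List.flatten_cons, W.w_append, ih hL, List.map_cons, List.prod_cons]
    intro p hp hp'
    have h1 := ((h b List.mem_cons_self).dep_lev hp).2
    have h2 := (Dir.pts_flatten_lev hL (mem_pts.2 (Or.inl hp'))).1
    simp only [Dir.lev_zero, Dir.H] at h1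
    linarith

theorem P_flatten_stay {L : List (Pa d)} (h : ∀ b ∈ L, D.Blk b) :
    W.P (cyl L.flatten ∩ sh L.flatten.length ⁻¹' D.Stay) = (L.map W.w).prod * W.P D.Stay := by
  rw [W.P_cyl_stay D, W.w_flatten D h]
  intro x hx
  have := Dir.gap_flatten h x hx
  unfold Dir.H
  linarith

/-- block lists followed by staying are disjoint events -/
theorem BE_le_P (n : ℕ) (Q : List (Pa d) → Prop) (A : Set (ℕ → St d))
    (h : ∀ L, D.BL n L → Q L → cyl L.flatten ∩ sh L.flatten.length ⁻¹' D.Stay ⊆ A) :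
    W.P D.Stay * W.BE D n (fun L => indE (Q L)) ≤ W.P A := by
  have h1 := meas_biUnion_ind W.P {L : List (Pa d) | D.BL n L ∧ Q L}
    (fun L => cyl L.flatten ∩ sh L.flatten.length ⁻¹' D.Stay)
    (fun L => (measurableSet_cyl _).inter (measurable_sh _ D.measurableSet_Stay))
    fun L hL L' hL' hne => Set.disjoint_left.2 fun s hs hs' =>
      hne (Dir.flatten_inj_stay hL.1 hL'.1 hs.1 hs.2 hs'.1 hs'.2)
  refine le_trans (le_of_eq ?_) (h1.symm.le.trans (measure_mono
    (Set.iUnion₂_subset fun L hL => h L hL.1 hL.2)))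
  unfold BE
  rw [← ENNReal.tsum_mul_left]
  refine tsum_congr fun L => ?_
  simp only [Set.mem_setOf_eq]
  by_cases hL : D.BL n L
  · rw [W.P_flatten_stay D hL.2, indE_and]
    ring
  · rw [indE_and, indE_neg hL]
    simp

theorem BE_pre (n : ℕ) (π : Pa d) :
    W.P D.Stay * W.BE D n (fun L => indE (π <+: L.flatten)) ≤ W.w π := by
  rw [← W.P_cyl]
  exact W.BE_le_P D n _ _ fun L _ hL => Set.inter_subset_left.trans (cyl_mono hL)

theorem nu_true (hp : 0 < W.P D.Stay) : W.nu D (fun _ => True) = 1 := by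
  have h1 := meas_biUnion_ind W.P {b : Pa d | D.Blk b}
    (fun b => cyl b ∩ sh b.length ⁻¹' D.Stay)
    (fun b => (measurableSet_cyl _).inter (measurable_sh _ D.measurableSet_Stay))
    fun b hb b' hb' hne => Set.disjoint_left.2 fun s hs hs' => hne (by
      have := Dir.flatten_inj_stay (D := D) (n := 1) (L := [b]) (L' := [b']) (s := s)
        ⟨rfl, by simpa using hb⟩ ⟨rfl, by simpa using hb'⟩ (by simpa using hs.1)
        (by simpa using hs.2) (by simpa using hs'.1) (by simpa using hs'.2)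
      simpa using this)
  have h2 : ∑' b : Pa d, indE (b ∈ {b : Pa d | D.Blk b}) *
      W.P (cyl b ∩ sh b.length ⁻¹' D.Stay) = W.nu D (fun _ => True) * W.P D.Stay := by
    unfold nu
    rw [← ENNReal.tsum_mul_right]
    refine tsum_congr fun b => ?_
    simp only [Set.mem_setOf_eq, and_true]
    by_cases hb : D.Blk b
    · have := W.P_flatten_stay D (L := [b]) (by simpa using hb)
      simp only [List.flatten_cons, List.flatten_nil, List.append_nil, List.map_cons, List.map_nil,
        List.prod_cons, List.prod_nil, mul_one] at this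
      rw [this, mul_assoc]
    · simp [indE_neg hb]
  have h3 : W.P (⋃ b ∈ {b : Pa d | D.Blk b}, cyl b ∩ sh b.length ⁻¹' D.Stay) = W.P D.Stay := by
    refine le_antisymm (measure_mono (Set.iUnion₂_subset fun b hb s hs =>
      Dir.stay_of_up hb.2.1 hs.1 hs.2)) ?_
    have h4 : W.P (⋃ K : ℕ, D.Stay ∩ {s | ∀ n, D.lev (pos s n) ≤ K}) = 0 :=
      measure_iUnion_null fun K => W.stay_bdd D K
    have h5 := measure_union_null (W.regen D hp) h4
    refine le_trans (measure_mono fun s hs => ?_) ((measure_union_le _ _).trans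
      (le_of_eq ((congrArg _ h5).trans (add_zero _))))
    by_cases c1 : ∃ n, 1 ≤ n ∧ D.Gap (pre s n) ∧ sh n s ∈ D.Stay
    · obtain ⟨b, hb, hb1, hb2⟩ := Dir.first_block hs c1
      exact Or.inl (Set.mem_iUnion₂.2 ⟨b, hb, hb1, hb2⟩)
    by_cases c2 : ∀ K : ℕ, ∃ n, (K : ℝ) ≤ D.lev (pos s n)
    · exact Or.inr (Or.inl ⟨c2, c1⟩)
    · push Not at c2
      obtain ⟨K, hK⟩ := c2
      exact Or.inr (Or.inr (Set.mem_iUnion.2 ⟨K, hs, fun n => (hK n).le⟩))
  rw [h3, h2] at h1
  exact (ENNReal.mul_left_inj hp.ne' (measure_ne_top _ _)).1 (by rw [one_mul]; exact h1.symm)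

theorem BE_const (hp : 0 < W.P D.Stay) (n : ℕ) (c : ℝ≥0∞) : W.BE D n (fun _ => c) = c := by
  induction n with
  | zero => rw [BE_zero]
  | succ n ih =>
    have := W.nu_true D hp
    simp only [nu, and_true] at this
    rw [BE_succ, ih, ENNReal.tsum_mul_right, this, one_mul]

theorem BE_one_eq (Q : Pa d → Prop) :
    W.BE D 1 (fun L => indE (∃ b ∈ L, Q b)) = W.nu D Q := by
  rw [BE_succ]
  refine tsum_congr fun b => ?_
  rw [BE_zero, indE_and]
  simp only [List.mem_singleton, exists_eq_left]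
  ring

end RW

end Vale.Agent.P147
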