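import Mathlib

namespace Vale.Agent.P147

/-- sites of the lattice -/
abbrev V (d : ℕ) : Type := Fin d → ℤ

/-- unit steps: a coordinate and a sign -/
abbrev St (d : ℕ) : Type := Fin d × Bool

/-- the lattice vector of a unit step -/
def stp {d : ℕ} (u : St d) : V d := Pi.single u.1 (if u.2 then 1 else -1)

/-- position after `n` steps of the walk from the origin with step sequence `s` -/
def pos {d : ℕ} (s : ℕ → St d) (n : ℕ) : V d := ∑ i ∈ Finset.range n, stp (s i)

end Vale.Agent.P147
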