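import Vale.Agent.P147.Base

open MeasureTheory Filter Topology
open scoped ENNReal

namespace Vale.Agent.P147

variable {d : ℕ}

theorem boot_step (F η : ℕ → ℝ) (C : ℝ) (hF0 : ∀ t, 0 ≤ F t)
    (hanti : Antitone F) (hC : 1 ≤ C)
    (h : ∀ i w m t : ℕ, F w ≤ 1 / 2 ^ (i + 2) →
      C * (m + 1) * (i + 1) * 2 ^ i * (1 + ∑ s ∈ Finset.range w, F s) ≤ t →
      F t ≤ η i / 2 ^ i + C / 2 ^ m)
    (c i k w : ℕ) (hc : C ≤ 2 ^ c) (hη : η i ≤ 1 / 2 ^ (k + 3)) (hw : F w ≤ 1 / 2 ^ (i + 2))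
    (X : ℝ) (hX : C * (((i + k + 3 + c : ℕ) : ℝ) + 1) * (i + 1) + 2 ≤ X) :
    ∃ t : ℕ, F t ≤ 1 / 2 ^ (i + k + 2) ∧
      1 + ∑ s ∈ Finset.range t, F s ≤ (1 + ∑ s ∈ Finset.range w, F s) * X ∧
      ((t : ℝ) ≤ w ∨ (t : ℝ) ≤ 2 ^ i * (1 + ∑ s ∈ Finset.range w, F s) * X) := by
  set μ : ℝ := 1 + ∑ s ∈ Finset.range w, F s with hμ
  set Y : ℝ := C * (((i + k + 3 + c : ℕ) : ℝ) + 1) * (i + 1) with hY
  have hμ1 : 1 ≤ μ := by
    have := Finset.sum_nonneg fun s (_ : s ∈ Finset.range w) => hF0 s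
    linarith
  have hY0 : 0 ≤ Y := by positivity
  have h2i : (1 : ℝ) ≤ 2 ^ i := one_le_pow₀ (by norm_num)
  have hZ0 : 0 ≤ Y * 2 ^ i * μ := by positivity
  have hceil : ((⌈Y * 2 ^ i * μ⌉₊ : ℕ) : ℝ) ≤ Y * 2 ^ i * μ + 1 := (Nat.ceil_lt_add_one hZ0).le
  refine ⟨max w ⌈Y * 2 ^ i * μ⌉₊, ?_, ?_, ?_⟩
  · have h1 := h i w (i + k + 3 + c) (max w ⌈Y * 2 ^ i * μ⌉₊) hw (by
      exact le_trans (Nat.le_ceil (Y * 2 ^ i * μ)) (Nat.cast_le.2 (le_max_right _ _)))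
    have h2 : η i / 2 ^ i ≤ 1 / 2 ^ (i + k + 3) := by
      rw [div_le_iff₀ (by positivity)]
      refine hη.trans (le_of_eq ?_)
      rw [show i + k + 3 = (k + 3) + i by ring, pow_add (2 : ℝ) (k + 3) i]
      field_simp
    have h3 : C / 2 ^ (i + k + 3 + c) ≤ 1 / 2 ^ (i + k + 3) := by
      rw [div_le_iff₀ (by positivity)]
      refine hc.trans (le_of_eq ?_)
      rw [pow_add (2 : ℝ) (i + k + 3) c]
      field_simp
    have h4 : (1 : ℝ) / 2 ^ (i + k + 2) = 1 / 2 ^ (i + k + 3) + 1 / 2 ^ (i + k + 3) := by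
      rw [pow_succ (2 : ℝ) (i + k + 2)]
      field_simp
      norm_num
    linarith
  · rw [← Finset.sum_range_add_sum_Ico F (le_max_left w ⌈Y * 2 ^ i * μ⌉₊), ← add_assoc, ← hμ]
    have h1 : ∑ s ∈ Finset.Ico w (max w ⌈Y * 2 ^ i * μ⌉₊), F s ≤
        (Finset.Ico w (max w ⌈Y * 2 ^ i * μ⌉₊)).card • (1 / 2 ^ (i + 2) : ℝ) :=
      Finset.sum_le_card_nsmul _ _ _ fun s hs => (hanti (Finset.mem_Ico.1 hs).1).trans hw
    have h2 : (Finset.Ico w (max w ⌈Y * 2 ^ i * μ⌉₊)).card ≤ ⌈Y * 2 ^ i * μ⌉₊ := by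
      rw [Nat.card_Ico]; omega
    have h3 : ((Finset.Ico w (max w ⌈Y * 2 ^ i * μ⌉₊)).card : ℝ) ≤ Y * 2 ^ i * μ + 1 :=
      le_trans (by exact_mod_cast h2) hceil
    rw [nsmul_eq_mul] at h1
    have h4 : (Y * 2 ^ i * μ + 1) * (1 / 2 ^ (i + 2) : ℝ) ≤ Y * μ + μ := by
      rw [mul_one_div, div_le_iff₀ (by positivity), pow_add]
      have h5 : 0 ≤ Y * μ * 2 ^ i := by positivity
      have h6 : 1 ≤ μ * 2 ^ i := one_le_mul_of_one_le_of_one_le hμ1 h2i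
      nlinarith
    have h5 := mul_le_mul_of_nonneg_right h3 (show (0 : ℝ) ≤ 1 / 2 ^ (i + 2) by positivity)
    have h6 : μ * (Y + 2) ≤ μ * X := mul_le_mul_of_nonneg_left hX (by linarith)
    nlinarith
  · rcases le_total ⌈Y * 2 ^ i * μ⌉₊ w with hh | hh
    · left; rw [max_eq_left hh]
    · right
      rw [max_eq_right hh]
      have h6 : 1 ≤ 2 ^ i * μ := one_le_mul_of_one_le_of_one_le h2i hμ1
      have h7 : 2 ^ i * μ * (Y + 2) ≤ 2 ^ i * μ * X := mul_le_mul_of_nonneg_left hX (by linarith)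
      nlinarith

theorem boot (F η : ℕ → ℝ) (C : ℝ) (hF0 : ∀ t, 0 ≤ F t) (hF1 : ∀ t, F t ≤ 1)
    (hanti : Antitone F) (hlim : Tendsto F atTop (𝓝 0)) (hη : ∀ i, 0 ≤ η i) (hs : Summable η)
    (hC : 1 ≤ C)
    (h : ∀ i w m t : ℕ, F w ≤ 1 / 2 ^ (i + 2) →
      C * (m + 1) * (i + 1) * 2 ^ i * (1 + ∑ s ∈ Finset.range w, F s) ≤ t →
      F t ≤ η i / 2 ^ i + C / 2 ^ m) :
    ∃ β : ℕ, ∀ᶠ I : ℕ in atTop, F (2 ^ (β * I)) ≤ 1 / 2 ^ I := by
  obtain ⟨c, hc⟩ : ∃ c : ℕ, C ≤ 2 ^ c := by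
    obtain ⟨c, hc⟩ := pow_unbounded_of_one_lt C (show (1 : ℝ) < 2 by norm_num)
    exact ⟨c, hc.le⟩
  obtain ⟨i0, hi0⟩ : ∃ i0 : ℕ, ∀ i, i0 ≤ i → η i ≤ 1 / 2 ^ (1 + 3) :=
    eventually_atTop.1 (hs.tendsto_atTop_zero.eventually_le_const (by positivity))
  obtain ⟨w0, hw0⟩ : ∃ w0 : ℕ, F w0 ≤ 1 / 2 ^ (i0 + 2) :=
    (hlim.eventually_le_const (show (0 : ℝ) < 1 / 2 ^ (i0 + 2) by positivity)).exists
  obtain ⟨s, hsS⟩ : ∃ s : ℕ, ∑' i, η i ≤ s := exists_nat_ge _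
  have hsum : ∀ n, ∑ j ∈ Finset.range n, η j ≤ s := fun n =>
    (hs.sum_le_tsum _ fun j _ => hη j).trans hsS
  refine ⟨1 + w0 + (2 * c + 15) * (2 + 8 * s), ?_⟩
  filter_upwards [eventually_ge_atTop 4] with I hI
  set g := Nat.log 4 I with hg
  have hg1 : 1 ≤ g := Nat.log_pos (by norm_num) hI
  have hgI : 4 ^ g ≤ I := Nat.pow_log_le_self 4 (by omega)
  have hIg : I < 4 ^ (g + 1) := Nat.lt_pow_succ_log_self (by norm_num) I
  have hg2 : g < 2 ^ g := Nat.lt_two_pow_self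
  have h24 : 2 ^ g * 2 ^ g = 4 ^ g := by rw [← mul_pow]; norm_num
  have hgle : g ≤ I := by nlinarith
  set X : ℝ := 2 ^ ((2 * c + 15) * g) with hXdef
  have hX1 : 1 ≤ X := one_le_pow₀ (by norm_num)
  have hXok : ∀ i k : ℕ, i < I → k ≤ g →
      C * (((i + k + 3 + c : ℕ) : ℝ) + 1) * (i + 1) + 2 ≤ X := by
    intro i k hi hk
    have a1 : i + 1 ≤ 4 ^ (g + 1) := by omega
    have a0 : 1 ≤ 4 ^ (g + 1) := Nat.one_le_pow _ _ (by norm_num)
    have a2 : i + k + 3 + c + 1 ≤ 2 ^ (c + 6) * 4 ^ (g + 1) := by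
      have b1 : c + 6 < 2 ^ (c + 6) := Nat.lt_two_pow_self
      have b2 : (c + 6) * 4 ^ (g + 1) ≤ 2 ^ (c + 6) * 4 ^ (g + 1) :=
        Nat.mul_le_mul_right _ b1.le
      have b3 : (c + 4) * 1 ≤ (c + 4) * 4 ^ (g + 1) := Nat.mul_le_mul_left _ a0
      nlinarith
    have a3 : 2 ^ c * (i + k + 3 + c + 1) * (i + 1) ≤ 2 ^ (2 * c + 10 + 4 * g) := by
      calc 2 ^ c * (i + k + 3 + c + 1) * (i + 1)
          ≤ 2 ^ c * (2 ^ (c + 6) * 4 ^ (g + 1)) * 4 ^ (g + 1) := by gcongr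
        _ = 2 ^ (2 * c + 10 + 4 * g) := by
          rw [show (4 : ℕ) = 2 ^ 2 by norm_num, ← pow_mul, ← pow_add, ← pow_add, ← pow_add]
          congr 1; ring
    have a4 : 2 ^ (2 * c + 10 + 4 * g) + 2 ≤ 2 ^ ((2 * c + 15) * g) := by
      have b1 : 2 ≤ 2 ^ (2 * c + 10 + 4 * g) := by
        calc 2 = 2 ^ 1 := by norm_num
          _ ≤ _ := Nat.pow_le_pow_right (by norm_num) (by omega)
      have b2 : 2 ^ (2 * c + 10 + 4 * g + 1) ≤ 2 ^ ((2 * c + 15) * g) :=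
        Nat.pow_le_pow_right (by norm_num) (by nlinarith)
      rw [pow_succ] at b2
      omega
    have a5 : ((2 ^ c * (i + k + 3 + c + 1) * (i + 1) + 2 : ℕ) : ℝ) ≤ X := by
      rw [hXdef]
      exact_mod_cast (Nat.add_le_add_right a3 2).trans a4
    refine le_trans ?_ a5
    push_cast
    gcongr
  have hgR : (0 : ℝ) < g := by exact_mod_cast hg1
  have key : ∀ n : ℕ, ∃ i w : ℕ, i0 ≤ i ∧ F w ≤ 1 / 2 ^ (i + 2) ∧
      1 + ∑ s ∈ Finset.range w, F s ≤ (1 + w0) * X ^ n ∧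
      (w : ℝ) ≤ 2 ^ I * ((1 + w0) * X ^ n) ∧
      (I ≤ i ∨ (n : ℝ) ≤ i / g + 2 ^ (g + 3) * ∑ j ∈ Finset.range i, η j) := by
    intro n
    have h2I : (1 : ℝ) ≤ 2 ^ I := one_le_pow₀ (by norm_num)
    induction n with
    | zero =>
      refine ⟨i0, w0, le_rfl, hw0, ?_, ?_, Or.inr ?_⟩
      · have := Finset.sum_le_card_nsmul (Finset.range w0) F 1 fun s _ => hF1 s
        simp only [Finset.card_range, nsmul_eq_mul, mul_one] at this
        simp only [pow_zero, mul_one]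
        linarith
      · simp only [pow_zero, mul_one]
        have : (0 : ℝ) ≤ w0 := Nat.cast_nonneg _
        nlinarith
      · have := Finset.sum_nonneg fun j (_ : j ∈ Finset.range i0) => hη j
        simp only [Nat.cast_zero]
        positivity
    | succ n ih =>
      obtain ⟨i, w, h1, h2, h3, h4, h5⟩ := ih
      have hM : (0 : ℝ) ≤ (1 + w0) * X ^ n := by positivity
      have hM1 : (1 + w0 : ℝ) * X ^ n ≤ (1 + w0) * X ^ (n + 1) := by
        rw [pow_succ, ← mul_assoc]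
        exact le_mul_of_one_le_right hM hX1
      by_cases hi : I ≤ i
      · refine ⟨i, w, h1, h2, h3.trans hM1, h4.trans ?_, Or.inl hi⟩
        gcongr
      have hi' : i < I := not_le.1 hi
      have h5' := h5.resolve_left hi
      have fin : ∀ k : ℕ, k ≤ g → η i ≤ 1 / 2 ^ (k + 3) →
          ((n + 1 : ℕ) : ℝ) ≤ ((i + k : ℕ) : ℝ) / g +
            2 ^ (g + 3) * ∑ j ∈ Finset.range (i + k), η j →
          ∃ i w : ℕ, i0 ≤ i ∧ F w ≤ 1 / 2 ^ (i + 2) ∧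
            1 + ∑ s ∈ Finset.range w, F s ≤ (1 + w0) * X ^ (n + 1) ∧
            (w : ℝ) ≤ 2 ^ I * ((1 + w0) * X ^ (n + 1)) ∧
            (I ≤ i ∨ ((n + 1 : ℕ) : ℝ) ≤ i / g + 2 ^ (g + 3) * ∑ j ∈ Finset.range i, η j) := by
        intro k hk hk1 hk2
        obtain ⟨t, t1, t2, t3⟩ := boot_step F η C hF0 hanti hC h c i k w hc hk1 h2 X
          (hXok i k hi' hk)
        have e1 : (1 + ∑ s ∈ Finset.range w, F s) * X ≤ (1 + w0) * X ^ (n + 1) := by
          rw [pow_succ, ← mul_assoc]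
          exact mul_le_mul_of_nonneg_right h3 (by linarith)
        refine ⟨i + k, t, by omega, t1, t2.trans e1, ?_, Or.inr hk2⟩
        rcases t3 with t3 | t3
        · refine t3.trans (h4.trans ?_)
          gcongr
        · refine t3.trans ?_
          rw [mul_assoc]
          have e2 : (0 : ℝ) ≤ (1 + ∑ s ∈ Finset.range w, F s) * X := by
            have := Finset.sum_nonneg fun s (_ : s ∈ Finset.range w) => hF0 s
            positivity
          exact mul_le_mul (pow_le_pow_right₀ (by norm_num) hi'.le) e1 e2 (by positivity)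
      by_cases hb : η i ≤ 1 / 2 ^ (g + 3)
      · refine fin g le_rfl hb ?_
        have e1 : ∑ j ∈ Finset.range i, η j ≤ ∑ j ∈ Finset.range (i + g), η j :=
          Finset.sum_le_sum_of_subset_of_nonneg (Finset.range_mono (by omega))
            fun j _ _ => hη j
        have e2 : ((i + g : ℕ) : ℝ) / g = i / g + 1 := by
          push_cast; field_simp
        have e3 := mul_le_mul_of_nonneg_left e1 (show (0 : ℝ) ≤ 2 ^ (g + 3) by positivity)
        rw [e2]; push_cast; linarith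
      · refine fin 1 hg1 (hi0 i h1) ?_
        have e1 : (1 : ℝ) ≤ 2 ^ (g + 3) * η i := by
          have := (not_le.1 hb).le
          rw [div_le_iff₀ (by positivity)] at this
          linarith
        have e2 : (i : ℝ) / g ≤ ((i + 1 : ℕ) : ℝ) / g := by
          push_cast; gcongr; linarith
        rw [Finset.sum_range_succ, mul_add]
        push_cast at e2 ⊢; linarith
  obtain ⟨i, w, h1, h2, h3, h4, h5⟩ := key (I / g + 1 + 2 ^ (g + 3) * s)
  have hi : I ≤ i := by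
    by_contra hi
    have h5' := h5.resolve_left hi
    have e1 : (i : ℝ) / g < ((I / g + 1 : ℕ) : ℝ) := by
      rw [div_lt_iff₀ hgR]
      have : i < (I / g + 1) * g := by
        have := Nat.lt_div_mul_add (a := I) hg1
        nlinarith [not_le.1 hi]
      exact_mod_cast this
    have e2 := mul_le_mul_of_nonneg_left (hsum i) (show (0 : ℝ) ≤ 2 ^ (g + 3) by positivity)
    push_cast at h5' e1
    linarith
  have hw : w ≤ 2 ^ ((1 + w0 + (2 * c + 15) * (2 + 8 * s)) * I) := by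
    have e1 : g * (I / g + 1 + 2 ^ (g + 3) * s) ≤ (2 + 8 * s) * I := by
      have a1 : g * (I / g) ≤ I := Nat.mul_div_le I g
      have a2 : g * 2 ^ g ≤ I := by nlinarith
      have a3 : g * (2 ^ (g + 3) * s) ≤ 8 * s * I := by
        calc g * (2 ^ (g + 3) * s) = 8 * s * (g * 2 ^ g) := by ring
          _ ≤ 8 * s * I := Nat.mul_le_mul_left _ a2
      nlinarith
    have e2 : 1 + w0 ≤ 2 ^ (w0 * I) := by
      have a1 : w0 < 2 ^ w0 := Nat.lt_two_pow_self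
      have a2 : 2 ^ w0 ≤ 2 ^ (w0 * I) := Nat.pow_le_pow_right (by norm_num) (by nlinarith)
      omega
    have e3 : 2 ^ I * ((1 + w0) * (2 ^ ((2 * c + 15) * g)) ^ (I / g + 1 + 2 ^ (g + 3) * s)) ≤
        2 ^ ((1 + w0 + (2 * c + 15) * (2 + 8 * s)) * I) := by
      rw [← pow_mul, mul_assoc (2 * c + 15)]
      calc 2 ^ I * ((1 + w0) * 2 ^ ((2 * c + 15) * (g * (I / g + 1 + 2 ^ (g + 3) * s))))
          ≤ 2 ^ I * (2 ^ (w0 * I) * 2 ^ ((2 * c + 15) * ((2 + 8 * s) * I))) := by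
            gcongr; norm_num
        _ = _ := by
          rw [← pow_add, ← pow_add]; congr 1; ring
    refine le_trans ?_ e3
    rw [hXdef] at h4
    exact_mod_cast h4
  refine (hanti hw).trans (h2.trans ?_)
  exact one_div_le_one_div_of_le (by positivity) (pow_le_pow_right₀ (by norm_num) (by omega))

end Vale.Agent.P147
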