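import Vale.Agent.P147.CDefs

open Filter Topology

namespace Vale.Agent.P147

variable {d : ℕ}

theorem FM.Al.bd {D : Dir d} {F : FM D} {L : List (Pa d)} {n : ℕ} {t : ℝ} (h : F.Al L 0 n t)
    {r : ℕ} (hr : r ≤ n) :
    F.h * r - t ≤ D.lev (sumd (L.take r)) ∧ D.lev (sumd (L.take r)) ≤ F.h * r + t := by
  have := abs_le.mp (h r hr)
  rw [List.drop_zero] at this
  constructor <;> linarith [this.1, this.2]

namespace Par

variable {p : Par} {D : Dir d} {Fp : FM D} {Fm : FM D.neg}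

theorem M_succ (q : ℕ) : p.M (q + 1) = p.M q + p.M q := by
  unfold M; ring
theorem M_mono {q q' : ℕ} (h : q ≤ q') : p.M q ≤ p.M q' :=
  Nat.mul_le_mul_left _ (Nat.pow_le_pow_right (by norm_num) h)
theorem M_cast (q : ℕ) : (p.M q : ℝ) = p.k * 2 ^ q := by
  unfold M; push_cast; ring
theorem hm_pos : 0 < Fm.h := lt_of_lt_of_le one_pos Fm.one_le_h
theorem lam_pos : 0 < Fp.h / Fm.h := div_pos (lt_of_lt_of_le one_pos Fp.one_le_h) hm_pos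
theorem hm_lam (x : ℝ) : Fm.h * (Fp.h / Fm.h * x) = Fp.h * x := by
  have := hm_pos (Fm := Fm)
  field_simp
theorem io_le (q j : ℕ) : (io Fp Fm q j : ℝ) ≤ Fp.h / Fm.h * (j * 2 ^ q) :=
  Nat.floor_le (by have := lam_pos (Fp := Fp) (Fm := Fm); positivity)
theorem io_ge (q j : ℕ) : Fp.h / Fm.h * (j * 2 ^ q) - 1 ≤ io Fp Fm q j := by
  have := Nat.lt_floor_add_one (Fp.h / Fm.h * (j * 2 ^ q))
  unfold io
  linarith
theorem hm_io_le (q j : ℕ) : Fm.h * io Fp Fm q j ≤ Fp.h * (j * 2 ^ q) := by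
  rw [← hm_lam (Fm := Fm)]
  exact mul_le_mul_of_nonneg_left (io_le q j) hm_pos.le
theorem hm_io_ge (q j : ℕ) : Fp.h * (j * 2 ^ q) - Fm.h ≤ Fm.h * io Fp Fm q j := by
  have := mul_le_mul_of_nonneg_left (io_ge (Fp := Fp) (Fm := Fm) q j) (hm_pos (Fm := Fm)).le
  rw [mul_sub, hm_lam] at this
  linarith

namespace Ar

variable (h : p.Ar Fp Fm)
include h

theorem k16 : 16 * p.hs ≤ p.k := by
  have h1 := h.hs1
  have h2 := h.k2
  unfold k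
  nlinarith
theorem hs1' : (1 : ℝ) ≤ p.hs := by exact_mod_cast h.hs1
theorem k2' : 2 * (p.hs : ℝ) ≤ p.k' := by exact_mod_cast h.k2
theorem lam_le : Fp.h / Fm.h ≤ p.hs := by
  rw [div_le_iff₀ hm_pos]
  have h1 := h.hp
  have h2 := Fm.one_le_h
  have h3 := h.hs1'
  nlinarith
theorem lam_k : 8 * (p.k' : ℝ) ≤ Fp.h / Fm.h * p.k := by
  have h0 : 1 ≤ Fp.h / Fm.h * p.hs := by
    rw [div_mul_eq_mul_div, one_le_div hm_pos]
    have h1 := h.hm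
    have h2 := Fp.one_le_h
    have h3 := h.hs1'
    nlinarith
  have e : Fp.h / Fm.h * p.k = Fp.h / Fm.h * p.hs * (8 * p.k') := by
    unfold k; push_cast; ring
  rw [e]
  have : (0 : ℝ) ≤ 8 * p.k' := by positivity
  nlinarith
theorem lam_k16 : 16 * (p.hs : ℝ) ≤ Fp.h / Fm.h * p.k := by
  have := h.lam_k
  have := h.k2'
  linarith
theorem hp_k : 16 * Fm.h ≤ Fp.h * p.k := by
  have h1 := mul_le_mul_of_nonneg_left h.lam_k16 (hm_pos (Fm := Fm)).le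
  rw [hm_lam] at h1
  have h2 := h.hs1'
  have h3 := hm_pos (Fm := Fm)
  nlinarith
theorem A_cast (q : ℕ) :
    (p.A Fp Fm q : ℝ) = (⌊Fp.h / Fm.h * (p.k * 2 ^ q)⌋₊ : ℝ) - 3 * 2 ^ q := by
  have h1 : 3 * 2 ^ q ≤ ⌊Fp.h / Fm.h * (p.k * 2 ^ q)⌋₊ := by
    refine Nat.le_floor ?_
    have h2 := h.lam_k16
    have h3 := h.hs1'
    have h4 : (0 : ℝ) < 2 ^ q := by positivity
    push_cast
    nlinarith
  unfold A
  rw [Nat.cast_sub h1]
  push_cast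
  ring
theorem A_le (q : ℕ) : (p.A Fp Fm q : ℝ) ≤ Fp.h / Fm.h * (p.k * 2 ^ q) - 3 * 2 ^ q := by
  rw [h.A_cast]
  have := Nat.floor_le (a := Fp.h / Fm.h * (p.k * 2 ^ q))
    (by have := lam_pos (Fp := Fp) (Fm := Fm); positivity)
  linarith
theorem A_ge (q : ℕ) : Fp.h / Fm.h * (p.k * 2 ^ q) - 3 * 2 ^ q - 1 ≤ p.A Fp Fm q := by
  rw [h.A_cast]
  have := Nat.lt_floor_add_one (Fp.h / Fm.h * (p.k * 2 ^ q))
  linarith
theorem hm_A_le (q : ℕ) : Fm.h * p.A Fp Fm q ≤ Fp.h * (p.k * 2 ^ q) - 3 * (Fm.h * 2 ^ q) := by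
  have := mul_le_mul_of_nonneg_left (h.A_le q) (hm_pos (Fm := Fm)).le
  rw [mul_sub, hm_lam] at this
  linarith
theorem hm_A_ge (q : ℕ) :
    Fp.h * (p.k * 2 ^ q) - 3 * (Fm.h * 2 ^ q) - Fm.h ≤ Fm.h * p.A Fp Fm q := by
  have := mul_le_mul_of_nonneg_left (h.A_ge q) (hm_pos (Fm := Fm)).le
  rw [mul_sub, mul_sub, hm_lam] at this
  linarith
theorem A_le_M (q : ℕ) : p.A Fp Fm q ≤ p.hs * p.M q := by
  have h1 := h.A_le q
  have h2 : (0 : ℝ) ≤ p.k * 2 ^ q := by positivity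
  have h3 := mul_le_mul_of_nonneg_right h.lam_le h2
  have h4 : (0 : ℝ) < 2 ^ q := by positivity
  have : (p.A Fp Fm q : ℝ) ≤ p.hs * p.M q := by
    rw [M_cast]; linarith
  exact_mod_cast this
theorem tt_le_M (q : ℕ) : 2 * p.tt q ≤ p.M q := by
  have h1 := h.hs1
  unfold tt M k
  rw [← mul_assoc]
  refine Nat.mul_le_mul_right _ (Nat.mul_le_mul_right _ (by omega))
theorem tt_le_A (q : ℕ) : p.A Fp Fm q + 2 * p.tt q ≤ p.A Fp Fm (q + 1) := by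
  have h1 := h.A_le q
  have h2 := h.A_ge (q + 1)
  have h3 : (1 : ℝ) ≤ 2 ^ q := one_le_pow₀ (by norm_num)
  have h4 := mul_le_mul_of_nonneg_right h.lam_k (le_trans zero_le_one h3)
  have h5 := h.k2'
  have h6 := h.hs1'
  have h7 : (2 : ℝ) * 2 ^ q ≤ p.k' * 2 ^ q := mul_le_mul_of_nonneg_right (by linarith) (by linarith)
  have : (p.A Fp Fm q : ℝ) + 2 * (p.k' * 2 ^ q) ≤ p.A Fp Fm (q + 1) := by
    rw [pow_succ] at h2
    linarith
  unfold tt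
  exact_mod_cast this
theorem A_add_pow (q : ℕ) : p.A Fp Fm q + 2 ^ q ≤ p.A Fp Fm (q + 1) := by
  have h1 := h.tt_le_A q
  have h2 := h.k2
  have h3 := h.hs1
  have h4 : 1 * 2 ^ q ≤ p.k' * 2 ^ q := Nat.mul_le_mul_right _ (by omega)
  unfold tt at h1
  omega
theorem A_mono {q q' : ℕ} (hq : q ≤ q') : p.A Fp Fm q ≤ p.A Fp Fm q' :=
  monotone_nat_of_le_succ (f := fun q => p.A Fp Fm q)
    (fun q => le_trans (Nat.le_add_right _ _) (h.A_add_pow q)) hq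
theorem A_io {q j : ℕ} (hj : j < p.k) :
    p.A Fp Fm (q + 1) + 2 ^ (q + 1) + io Fp Fm (q + 1) j + (p.Cc + 2) * 2 ^ (q + 1) ≤
      p.A Fp Fm (q + 3) := by
  have h1 := h.A_le (q + 1)
  have h2 := h.A_ge (q + 3)
  have h3 := io_le (Fp := Fp) (Fm := Fm) (q + 1) j
  have e : (2 : ℝ) ^ (q + 3) = 4 * 2 ^ (q + 1) := by ring
  rw [e] at h2
  have h4 : (1 : ℝ) ≤ 2 ^ (q + 1) := one_le_pow₀ (by norm_num)
  have : (p.A Fp Fm (q + 1) : ℝ) + 2 ^ (q + 1) + io Fp Fm (q + 1) j +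
      (8 * p.hs + 2) * 2 ^ (q + 1) ≤ p.A Fp Fm (q + 3) := by
    generalize (2 : ℝ) ^ (q + 1) = ρ at *
    have hj' : (j : ℝ) ≤ p.k := by exact_mod_cast hj.le
    have h5 : Fp.h / Fm.h * (j * ρ) ≤ Fp.h / Fm.h * (p.k * ρ) :=
      mul_le_mul_of_nonneg_left (mul_le_mul_of_nonneg_right hj' (by linarith)) lam_pos.le
    have h6 := mul_le_mul_of_nonneg_right h.lam_k16 (show 0 ≤ ρ by linarith)
    have h7 := mul_le_mul_of_nonneg_right h.hs1' (show 0 ≤ ρ by linarith)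
    linarith
  unfold Cc
  exact_mod_cast this
theorem M_win {q j : ℕ} (hj : j < p.k) :
    p.M (q + 1) + j * 2 ^ (q + 1) + 2 * 2 ^ (q + 1) ≤ p.M (q + 2) + 2 ^ (q + 1) := by
  have _ := h
  have h1 : (j + 1) * 2 ^ (q + 1) ≤ p.k * 2 ^ (q + 1) := Nat.mul_le_mul_right _ hj
  rw [M_succ (q + 1)]
  unfold M
  rw [add_mul] at h1
  omega
theorem pow_le_M (q : ℕ) : 16 * 2 ^ q ≤ p.M q := by
  have h1 := h.k16
  have h2 := h.hs1
  exact Nat.mul_le_mul_right _ (by omega)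
theorem A_le_n₁ (J : ℕ) : p.A Fp Fm (J + 2) ≤ p.n₁ J := by
  have h1 := h.A_le_M (J + 2)
  rw [M_succ (J + 1), mul_add] at h1
  unfold n₁ C₂
  rw [mul_assoc]
  omega

theorem align_win {q j κ : ℕ} (hj : j < p.k) (hκ : κ < 2 ^ (q + 1)) {L K : List (Pa d)}
    (hL : Fp.Al L 0 (p.M (q + 3)) ((2 ^ (q + 3) : ℕ) / 8))
    (hK : Fm.Al K 0 (p.A Fp Fm (q + 3)) ((2 ^ (q + 3) : ℕ) / 8)) :
    D.neg.lev (sumd (K.take (p.A Fp Fm (q + 1) + κ + io Fp Fm (q + 1) j))) ≤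
        D.lev (sumd (L.take (p.M (q + 1) + j * 2 ^ (q + 1)))) ∧
      D.lev (sumd (L.take (p.M (q + 1) + j * 2 ^ (q + 1) + 2 ^ (q + 1)))) <
        D.neg.lev (sumd (K.take (p.A Fp Fm (q + 3)))) ∧
      D.lev (sumd (L.take (p.M (q + 1) + j * 2 ^ (q + 1) + 2 * 2 ^ (q + 1))) +
        sumd (K.take (p.A Fp Fm (q + 1) + κ + io Fp Fm (q + 1) j))) ≤
        (p.Cc * 2 ^ (q + 1) : ℕ) := by
  have n1 := h.M_win (q := q) hj
  have n2 := h.A_io (q := q) hj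
  have n3 := h.pow_le_M (q + 2)
  have n4 : p.M (q + 3) = p.M (q + 2) + p.M (q + 2) := M_succ (q + 2)
  have n5 : 2 ^ (q + 2) = 2 * 2 ^ (q + 1) := by ring
  have a1 := hK.bd (r := p.A Fp Fm (q + 1) + κ + io Fp Fm (q + 1) j) (by omega)
  have a2 := hK.bd (r := p.A Fp Fm (q + 3)) le_rfl
  have a3 := hL.bd (r := p.M (q + 1) + j * 2 ^ (q + 1)) (by omega)
  have a4 := hL.bd (r := p.M (q + 1) + j * 2 ^ (q + 1) + 2 ^ (q + 1)) (by omega)
  have a5 := hL.bd (r := p.M (q + 1) + j * 2 ^ (q + 1) + 2 * 2 ^ (q + 1)) (by omega)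
  have b1 := h.hm_A_le (q + 1)
  have b2 := h.hm_A_ge (q + 1)
  have b3 := h.hm_A_ge (q + 3)
  have b4 := hm_io_le (Fp := Fp) (Fm := Fm) (q + 1) j
  have b5 := hm_io_ge (Fp := Fp) (Fm := Fm) (q + 1) j
  have hκ' : (κ : ℝ) ≤ 2 ^ (q + 1) := by exact_mod_cast hκ.le
  have hj' : (j : ℝ) + 1 ≤ p.k := by exact_mod_cast hj
  have hρ : (2 : ℝ) ≤ 2 ^ (q + 1) := by
    rw [pow_succ]; linarith [one_le_pow₀ (n := q) (show (1 : ℝ) ≤ 2 by norm_num)]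
  have e : (2 : ℝ) ^ (q + 3) = 4 * 2 ^ (q + 1) := by ring
  rw [D.lev_add, ← neg_neg (D.lev (sumd (K.take _))), ← D.neg_lev]
  unfold Cc
  push_cast at a1 a2 a3 a4 a5 ⊢
  rw [M_cast] at a3 a4 a5
  rw [e] at a1 a2 a3 a4 a5 b3
  generalize (2 : ℝ) ^ (q + 1) = ρ at *
  have c0 : 0 ≤ ρ := by linarith
  have c1 := mul_le_mul_of_nonneg_right Fm.one_le_h c0
  have c2 := mul_le_mul_of_nonneg_left hκ' (hm_pos (Fm := Fm)).le
  have c3 := mul_le_mul_of_nonneg_right h.hp_k c0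
  have c4 := mul_le_mul_of_nonneg_left hρ (hm_pos (Fm := Fm)).le
  have c5 := mul_le_mul_of_nonneg_right h.hp c0
  have c6 := mul_le_mul_of_nonneg_right h.hm c0
  have c7 := mul_le_mul_of_nonneg_right h.hs1' c0
  have c8 := mul_le_mul_of_nonneg_left (mul_le_mul_of_nonneg_right hj' c0)
    (le_trans zero_le_one Fp.one_le_h)
  have c9 : 0 ≤ Fm.h * κ := mul_nonneg (hm_pos (Fm := Fm)).le (Nat.cast_nonneg κ)
  have c10 := Fm.one_le_h
  refine ⟨by linarith [a1.2, a3.1], by linarith [a4.2, a2.1], by linarith [a5.2, a1.1]⟩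

theorem align_first {q : ℕ} {L K : List (Pa d)}
    (hL : Fp.Al L 0 (p.M (q + 2)) ((2 ^ (q + 2) : ℕ) / 8))
    (hK : Fm.Al K 0 (p.A Fp Fm (q + 2)) ((2 ^ (q + 2) : ℕ) / 8)) :
    D.lev (sumd (L.take (p.M (q + 1)))) < D.neg.lev (sumd (K.take (p.A Fp Fm (q + 2)))) := by
  have a2 := hK.bd (r := p.A Fp Fm (q + 2)) le_rfl
  have a3 := hL.bd (r := p.M (q + 1)) (M_mono (by omega))
  have b3 := h.hm_A_ge (q + 2)
  have hρ : (2 : ℝ) ≤ 2 ^ (q + 1) := by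
    rw [pow_succ]; linarith [one_le_pow₀ (n := q) (show (1 : ℝ) ≤ 2 by norm_num)]
  have e : (2 : ℝ) ^ (q + 2) = 2 * 2 ^ (q + 1) := by ring
  push_cast at a2 a3
  rw [M_cast] at a3
  rw [e] at a2 a3 b3
  generalize (2 : ℝ) ^ (q + 1) = ρ at *
  have c0 : 0 ≤ ρ := by linarith
  have c1 := mul_le_mul_of_nonneg_right Fm.one_le_h c0
  have c3 := mul_le_mul_of_nonneg_right h.hp_k c0
  have c4 := mul_le_mul_of_nonneg_left hρ (hm_pos (Fm := Fm)).le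
  linarith [a2.1, a3.2]

theorem align_top {J κ : ℕ} (hκ : κ < 2 ^ (J + 1)) {L K : List (Pa d)}
    (hL : Fp.Al L 0 (p.M (J + 2)) ((2 ^ (J + 2) : ℕ) / 8))
    (hK : Fm.Al K 0 (p.A Fp Fm (J + 2)) ((2 ^ (J + 2) : ℕ) / 8)) :
    D.neg.lev (sumd (K.take (p.A Fp Fm (J + 1) + κ))) + (2 ^ J : ℕ) ≤
      D.lev (sumd (L.take (p.M (J + 1)))) := by
  have n1 : p.A Fp Fm (J + 1) + 2 ^ (J + 1) ≤ p.A Fp Fm (J + 2) := h.A_add_pow (J + 1)
  have a2 := hK.bd (r := p.A Fp Fm (J + 1) + κ) (by omega)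
  have a3 := hL.bd (r := p.M (J + 1)) (M_mono (by omega))
  have b3 := h.hm_A_le (J + 1)
  have hκ' : (κ : ℝ) ≤ 2 ^ (J + 1) := by exact_mod_cast hκ.le
  have hρ : (0 : ℝ) ≤ 2 ^ J := by positivity
  have e : (2 : ℝ) ^ (J + 2) = 4 * 2 ^ J := by ring
  have e' : (2 : ℝ) ^ (J + 1) = 2 * 2 ^ J := by ring
  push_cast at a2 a3 ⊢
  rw [M_cast] at a3
  rw [e] at a2 a3
  rw [e'] at a3 b3 hκ'
  generalize (2 : ℝ) ^ J = ρ at *
  have c1 := mul_le_mul_of_nonneg_right Fm.one_le_h hρ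
  have c2 := mul_le_mul_of_nonneg_left hκ' (hm_pos (Fm := Fm)).le
  linarith [a2.2, a3.1]

theorem height_le {J n : ℕ} (hn : n ≤ 2 * p.M (J + 1)) {L K : List (Pa d)}
    (hlen : L.length = p.np J n) (hL : Fp.Al L 0 (p.M (J + 2)) ((2 ^ (J + 2) : ℕ) / 8))
    (hT : p.HardT Fp Fm J n L K) : D.lev (sumd L) ≤ p.C₂ J := by
  have a3 := hL.bd (r := p.M (J + 1)) (M_mono (by omega))
  have a4 := (abs_le.mp (hT.1 (n + 2 * 2 ^ J) le_rfl)).2
  have e0 : sumd L = sumd (L.take (p.M (J + 1))) +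
      sumd ((L.drop (p.M (J + 1))).take (n + 2 * 2 ^ J)) := by
    rw [← sumd_take_add, List.take_of_length_le]
    rw [hlen]; unfold np; omega
  rw [e0, D.lev_add]
  have hn' : (n : ℝ) ≤ 2 * p.M (J + 1) := by exact_mod_cast hn
  have b1 : (16 : ℝ) * 2 ^ (J + 1) ≤ p.M (J + 1) := by exact_mod_cast h.pow_le_M (J + 1)
  have hρ : (0 : ℝ) ≤ 2 ^ J := by positivity
  have e : (2 : ℝ) ^ (J + 2) = 4 * 2 ^ J := by ring
  have e' : (2 : ℝ) ^ (J + 1) = 2 * 2 ^ J := by ring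
  unfold C₂
  push_cast at a3 a4 ⊢
  rw [e] at a3
  rw [e'] at b1
  generalize (2 : ℝ) ^ J = ρ at *
  generalize (p.M (J + 1) : ℝ) = N at *
  have c0 : 0 ≤ N := by linarith
  have c1 := mul_le_mul_of_nonneg_right h.hp c0
  have c2 := mul_le_mul_of_nonneg_left hn' (le_trans zero_le_one Fp.one_le_h)
  have c3 := mul_le_mul_of_nonneg_left b1 (le_trans zero_le_one Fp.one_le_h)
  have c4 := mul_le_mul_of_nonneg_right h.hs1' c0
  linarith [a3.2]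

end Ar

end Par

end Vale.Agent.P147
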