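import Vale.Agent.P147.CA

open Filter Topology

namespace Vale.Agent.P147

variable {d : ℕ}

theorem take_take_of_le {α : Type} (L : List α) {a r : ℕ} (h : r ≤ a) :
    (L.take a).take r = L.take r := by
  rw [List.take_take, min_eq_left h]

theorem take_seg_of_le {α : Type} (L : List α) {a s r : ℕ} (h : s + r ≤ a) :
    ((L.take a).drop s).take r = (L.drop s).take r := by
  rw [List.drop_take, List.take_take, min_eq_left (by omega)]

theorem of_ind_ne_zero {q : Prop} (h : ind q ≠ 0) : q := by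
  by_contra hq
  exact h (ind_neg hq)

namespace Par

variable {p : Par} {D : Dir d} {Fp : FM D} {Fm : FM D.neg}

theorem Wt_nonneg (q : ℕ) (L K : List (Pa d)) : 0 ≤ p.Wt Fp Fm q L K :=
  mul_nonneg (ind_nonneg _) (av_nonneg fun _ _ => av_nonneg fun _ _ => ind_nonneg _)
theorem Wt_le_one (q : ℕ) (L K : List (Pa d)) : p.Wt Fp Fm q L K ≤ 1 :=
  mul_le_one₀ (ind_le_one _) (av_nonneg fun _ _ => av_nonneg fun _ _ => ind_nonneg _)
    (av_le_const Nat.one_le_two_pow fun _ _ =>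
      av_le_const Nat.one_le_two_pow fun _ _ => ind_le_one _)
theorem g_two (n : ℕ) (L K : List (Pa d)) :
    p.g Fp Fm (n + 2) L K = p.g Fp Fm (n + 1) L K * p.Wt Fp Fm (p.q₀ + n) L K := rfl
theorem g_one (L K : List (Pa d)) : p.g Fp Fm 1 L K = ind (p.W0 Fp Fm L K) := rfl
theorem g_zero (L K : List (Pa d)) : p.g Fp Fm 0 L K = 1 := rfl
theorem g_nonneg_succ (r : ℕ) (L K : List (Pa d)) : 0 ≤ p.g Fp Fm (r + 1) L K := by
  induction r with
  | zero => exact ind_nonneg _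
  | succ r ih => exact mul_nonneg ih (Wt_nonneg _ L K)
theorem g_nonneg (r : ℕ) (L K : List (Pa d)) : 0 ≤ p.g Fp Fm r L K := by
  cases r with
  | zero => exact zero_le_one
  | succ r => exact g_nonneg_succ r L K
theorem g_succ_le (r : ℕ) (L K : List (Pa d)) : p.g Fp Fm (r + 1) L K ≤ p.g Fp Fm r L K := by
  cases r with
  | zero => exact ind_le_one _
  | succ r => exact mul_le_of_le_one_right (g_nonneg _ L K) (Wt_le_one _ L K)
theorem g_anti {r r' : ℕ} (h : r ≤ r') (L K : List (Pa d)) :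
    p.g Fp Fm r' L K ≤ p.g Fp Fm r L K :=
  antitone_nat_of_succ_le (f := fun r => p.g Fp Fm r L K) (fun r => g_succ_le r L K) h
theorem g_le_Wt {r r' : ℕ} (h : r + 2 ≤ r') (L K : List (Pa d)) :
    p.g Fp Fm r' L K ≤ p.g Fp Fm (r - 1) L K * p.Wt Fp Fm (p.q₀ + r) L K :=
  (g_anti h L K).trans
    (mul_le_mul_of_nonneg_right (g_anti (by omega) L K) (Wt_nonneg _ L K))
theorem g_ne {r r' : ℕ} {L K : List (Pa d)} (h : p.g Fp Fm r' L K ≠ 0) (hr : r ≤ r') :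
    p.g Fp Fm r L K ≠ 0 := fun h0 =>
  h (le_antisymm ((g_anti hr L K).trans h0.le) (g_nonneg _ L K))
theorem g_W0 {r : ℕ} {L K : List (Pa d)} (h : p.g Fp Fm (r + 1) L K ≠ 0) : p.W0 Fp Fm L K :=
  of_ind_ne_zero (g_ne (r := 1) h (by omega))
theorem g_Hard {r r' : ℕ} {L K : List (Pa d)} (h : p.g Fp Fm (r + 1) L K ≠ 0) (hr : r' < r) :
    p.Hard Fp Fm (p.q₀ + r') L K :=
  of_ind_ne_zero (left_ne_zero_of_mul (right_ne_zero_of_mul (g_ne (r := r' + 2) h (by omega))))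

theorem Wev_take {q κ₁ a b : ℕ} (ha : ∀ j < p.k, j * 2 ^ (q + 1) + 2 * 2 ^ (q + 1) ≤ a)
    (hb : ∀ j < p.k, io Fp Fm (q + 1) j + (p.Cc + 2) * 2 ^ (q + 1) ≤ b) (x z : V d)
    (L K : List (Pa d)) :
    p.Wev Fp Fm q κ₁ x z L K ↔ p.Wev Fp Fm q κ₁ x z (L.take a) (K.take b) := by
  unfold Wev
  refine and_congr Iff.rfl (forall₂_congr fun j hj => ?_)
  have h1 := ha j hj
  have h2 := hb j hj
  unfold Rg Pr yy
  rw [take_take_of_le L h1, take_take_of_le K (le_trans (Nat.le_add_right _ _) h2),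
    take_seg_of_le L h1, take_seg_of_le K h2]

namespace Ar

variable (h : p.Ar Fp Fm)
include h

theorem g_Al {r r' : ℕ} {L K : List (Pa d)} (hg : p.g Fp Fm (r + 1) L K ≠ 0) (hr : r' ≤ r) :
    Fp.Al L 0 (p.M (p.q₀ + r' + 2)) ((2 ^ (p.q₀ + r' + 2) : ℕ) / 8) ∧
      Fm.Al K 0 (p.A Fp Fm (p.q₀ + r' + 2)) ((2 ^ (p.q₀ + r' + 2) : ℕ) / 8) := by
  induction r' with
  | zero => exact ⟨(g_W0 hg).2.1, (g_W0 hg).2.2.1⟩
  | succ r' ih =>
    obtain ⟨i1, i2⟩ := ih (by omega)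
    obtain ⟨j1, j2, -⟩ := g_Hard hg (show r' < r by omega)
    have k1 := i1.append j1
    have k2 := i2.append j2
    have e : (((2 ^ (p.q₀ + r' + 2) : ℕ) : ℝ) / 8 + (2 ^ (p.q₀ + r' + 2) : ℕ) / 8) =
        (2 ^ (p.q₀ + r' + 2 + 1) : ℕ) / 8 := by
      push_cast; ring
    rw [e, ← M_succ] at k1
    rw [e, Nat.add_sub_of_le (h.A_mono (by omega))] at k2
    exact ⟨k1, k2⟩

theorem Wt_take (q : ℕ) {a b : ℕ} (ha : p.M (q + 3) ≤ a) (hb : p.A Fp Fm (q + 3) ≤ b)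
    (L K : List (Pa d)) : p.Wt Fp Fm q L K = p.Wt Fp Fm q (L.take a) (K.take b) := by
  have m1 : p.M (q + 1) = p.M q + p.M q := M_succ q
  have m2 : p.M (q + 2) = p.M (q + 1) + p.M (q + 1) := M_succ (q + 1)
  have m3 : p.M (q + 3) = p.M (q + 2) + p.M (q + 2) := M_succ (q + 2)
  have m4 := h.pow_le_M (q + 1)
  have a1 : p.A Fp Fm q ≤ p.A Fp Fm (q + 1) := h.A_mono (by omega)
  have a2 : p.A Fp Fm (q + 1) + 2 ^ (q + 1) ≤ p.A Fp Fm (q + 2) := h.A_add_pow (q + 1)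
  have a3 : p.A Fp Fm (q + 2) ≤ p.A Fp Fm (q + 3) := h.A_mono (by omega)
  have hH : p.Hard Fp Fm q L K ↔ p.Hard Fp Fm q (L.take a) (K.take b) := by
    unfold Hard
    rw [FM.Al.take_iff (by omega), FM.Al.take_iff (by omega), take_take_of_le K hb]
  unfold Wt
  rw [← hH]
  congr 1
  refine av_congr fun κ hκ => av_congr fun κ₁ _ => ?_
  have e1 : p.x0 Fp Fm q (L.take a) (K.take b) = p.x0 Fp Fm q L K := by
    unfold x0
    rw [take_take_of_le L (by omega), take_take_of_le K (by omega)]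
  have e2 : p.zz Fp Fm q κ (L.take a) (K.take b) = p.zz Fp Fm q κ L K := by
    unfold zz
    rw [take_seg_of_le L (by omega), take_seg_of_le K (by omega)]
  rw [e1, e2, List.drop_take, List.drop_take, ← Wev_take]
  · intro j hj
    have := h.M_win (q := q) hj
    omega
  · intro j hj
    have := h.A_io (q := q) hj
    omega

theorem g_take' (n : ℕ) {a b : ℕ} (ha : p.M (p.q₀ + n + 2) ≤ a)
    (hb : p.A Fp Fm (p.q₀ + n + 2) ≤ b) (L K : List (Pa d)) :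
    p.g Fp Fm (n + 1) L K = p.g Fp Fm (n + 1) (L.take a) (K.take b) := by
  induction n with
  | zero =>
    have ha' : p.M (p.q₀ + 2) ≤ a := ha
    have hb' : p.A Fp Fm (p.q₀ + 2) ≤ b := hb
    have m2 : p.M (p.q₀ + 2) = p.M (p.q₀ + 1) + p.M (p.q₀ + 1) := M_succ (p.q₀ + 1)
    have m4 := h.pow_le_M (p.q₀ + 1)
    have m5 : p.b₀ ≤ a := by
      unfold b₀
      omega
    have hW : p.W0 Fp Fm L K ↔ p.W0 Fp Fm (L.take a) (K.take b) := by
      unfold W0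
      rw [FM.Al.take_iff (by omega), FM.Al.take_iff (by omega), take_take_of_le K hb',
        take_take_of_le L m5]
    rw [zero_add, g_one, g_one, hW]
  | succ n ih =>
    rw [g_two, g_two, ← ih (le_trans (M_mono (by omega)) ha) (le_trans (h.A_mono (by omega)) hb),
      ← h.Wt_take (p.q₀ + n) ha hb]

/-- the lagged weight only sees the frozen blocks -/
theorem g_take (r : ℕ) (L K : List (Pa d)) :
    p.g Fp Fm (r - 1) L K =
      p.g Fp Fm (r - 1) (L.take (p.M (p.q₀ + r))) (K.take (p.A Fp Fm (p.q₀ + r))) := by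
  rcases r with _ | _ | n
  · rfl
  · rfl
  · exact h.g_take' n le_rfl le_rfl L K

/-- `master_le` for scale `q₀ + r` -/
theorem window_le {r r' np nm : ℕ} (h1 : p.M (p.q₀ + r + 1) ≤ np)
    (h2 : p.A Fp Fm (p.q₀ + r + 1) + 2 ^ (p.q₀ + r + 1) + r' ≤ nm)
    (φ : V d → V d → List (Pa d) → List (Pa d) → ℝ)
    (hφ : ∀ x z L K, φ x z L K = φ x z L (K.take r')) {B : ℝ}
    (hB : ∀ x, EE (p.pi Fp Fm (p.q₀ + r)) (fun z =>
      E2 Fp Fm (np - p.M (p.q₀ + r + 1)) r' fun L₂ K₂ => φ x z L₂ K₂) ≤ B) :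
    E2 Fp Fm np nm (fun L K => p.g Fp Fm (r - 1) L K * av (2 ^ (p.q₀ + r + 1)) fun κ =>
      φ (p.x0 Fp Fm (p.q₀ + r) L K) (p.zz Fp Fm (p.q₀ + r) κ L K) (L.drop (p.M (p.q₀ + r + 1)))
        (K.drop (p.A Fp Fm (p.q₀ + r + 1) + κ))) ≤
      B * E2 Fp Fm np nm (p.g Fp Fm (r - 1)) := by
  have m1 : p.M (p.q₀ + r) + p.M (p.q₀ + r) = p.M (p.q₀ + r + 1) := (M_succ _).symm
  have a1 : p.A Fp Fm (p.q₀ + r) + (p.A Fp Fm (p.q₀ + r + 1) - p.A Fp Fm (p.q₀ + r)) =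
      p.A Fp Fm (p.q₀ + r + 1) := Nat.add_sub_of_le (h.A_mono (by omega))
  have key := master_le Fp Fm (a₁ := p.M (p.q₀ + r)) (w₁ := p.M (p.q₀ + r))
    (a₂ := p.A Fp Fm (p.q₀ + r)) (w₂ := p.A Fp Fm (p.q₀ + r + 1) - p.A Fp Fm (p.q₀ + r))
    (ρ := 2 ^ (p.q₀ + r + 1)) (r := r') (np := np) (nm := nm) (by omega) (by omega)
    (p.g Fp Fm (r - 1)) (g_nonneg _) (h.g_take r) φ hφ (B := B) (by rw [m1]; exact hB)
  rw [m1, a1] at key
  exact key

theorem x0_zz (q κ : ℕ) (L K : List (Pa d)) :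
    p.x0 Fp Fm q L K + p.zz Fp Fm q κ L K =
      sumd (L.take (p.M (q + 1))) + sumd (K.take (p.A Fp Fm (q + 1) + κ)) := by
  have a1 : p.A Fp Fm q ≤ p.A Fp Fm (q + 1) := h.A_mono (by omega)
  have e : p.A Fp Fm (q + 1) + κ = p.A Fp Fm q + (p.A Fp Fm (q + 1) - p.A Fp Fm q + κ) := by
    omega
  rw [M_succ, e, sumd_take_add, sumd_take_add K]
  unfold x0 zz
  abel

end Ar

end Par

end Vale.Agent.P147
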