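import Vale.Agent.P147.CB

open Filter Topology

namespace Vale.Agent.P147

variable {d : ℕ}

theorem cov_step {f : ℕ → Prop} : ∀ {r : ℕ}, ¬ f 0 → f r → ∃ r' < r, ¬ f r' ∧ f (r' + 1)
  | 0, h0, h1 => absurd h1 h0
  | r + 1, h0, h1 => by
    by_cases h : f r
    · obtain ⟨r', hr, h'⟩ := cov_step h0 h
      exact ⟨r', by omega, h'⟩
    · exact ⟨r, by omega, h, h1⟩

theorem cov_take_take {α : Type} (L : List α) {a b : ℕ} (h : a ≤ b) :
    (L.take b).take a = L.take a := by rw [List.take_take, min_eq_left h]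

theorem cov_pre {α : Type} (K : List α) (a i : ℕ) : (K.take a).drop i <+: (K.drop i).take a := by
  rw [List.drop_take]
  exact List.take_prefix_take_left (Nat.sub_le _ _)

theorem cov_mem_drop {α : Type} {K : List α} {a i : ℕ} (h : a ≤ i) {b : α} (hb : b ∈ K.drop i) :
    b ∈ K.drop a := by
  obtain ⟨c, rfl⟩ := Nat.exists_eq_add_of_le h
  rw [← List.drop_drop] at hb
  exact List.mem_of_mem_drop hb

theorem cov_lev_drop {D : Dir d} {X : List (Pa d)} (hX : ∀ b ∈ X, D.Blk b) (c : ℕ) :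
    D.lev (sumd (X.drop c)) ≤ D.lev (sumd X) := by
  have h1 : sumd X = sumd (X.take c) + sumd (X.drop c) := by
    rw [← sumd_append, List.take_append_drop]
  have h2 := Dir.length_le_lev (D := D) (L := X.take c) fun b hb => hX b (List.mem_of_mem_take hb)
  have h3 : (0 : ℝ) ≤ (X.take c).length := Nat.cast_nonneg _
  rw [h1, D.lev_add]
  linarith

namespace Par

variable {p : Par} {D : Dir d} {Fp : FM D} {Fm : FM D.neg}

/-- every aligned configuration has a first hit somewhere -/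
theorem Ar.cover (h : p.Ar Fp Fm) {r n : ℕ} (hn1 : p.M (p.q₀ + r + 1) ≤ n)
    (hn2 : n ≤ 2 * p.M (p.q₀ + r + 1)) {L K : List (Pa d)}
    (hL : Fp.Ok (p.np (p.q₀ + r) n) L) (hK : Fm.Ok (2 * p.n₁ (p.q₀ + r)) K)
    (hg : p.g Fp Fm (r + 1) L K ≠ 0) (hT : p.HardT Fp Fm (p.q₀ + r) n L K) :
    (∀ κ < 2 ^ (p.q₀ + r + 1), p.HT D (p.q₀ + r)
      (p.x0 Fp Fm (p.q₀ + r) L K + p.zz Fp Fm (p.q₀ + r) κ L K) (L.drop (p.M (p.q₀ + r + 1)))
      (K.drop (p.A Fp Fm (p.q₀ + r + 1) + κ))) ∨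
    p.H0 D (p.q₀ + r) n L K ∨
    ∃ r' < r, ∃ j < p.k, ∀ κ < 2 ^ (p.q₀ + r' + 1),
      p.Rg Fp Fm (p.q₀ + r') j (p.x0 Fp Fm (p.q₀ + r') L K + p.zz Fp Fm (p.q₀ + r') κ L K)
        (L.drop (p.M (p.q₀ + r' + 1))) (K.drop (p.A Fp Fm (p.q₀ + r' + 1) + κ)) ∧
      p.HW Fp Fm (p.q₀ + r) n (p.q₀ + r') j
        (p.x0 Fp Fm (p.q₀ + r') L K + p.zz Fp Fm (p.q₀ + r') κ L K)
        (L.drop (p.M (p.q₀ + r' + 1))) (K.drop (p.A Fp Fm (p.q₀ + r' + 1) + κ)) := by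
  have hLb := hL.blk
  have hKb := hK.blk
  have hAl := h.g_Al hg (le_refl r)
  have hht := h.height_le hn2 hL.1 hAl.1 hT
  have hlen : L.length = p.M (p.q₀ + r + 1) + n + 2 * 2 ^ (p.q₀ + r) := hL.1
  have hKlen : K.length = 2 * p.n₁ (p.q₀ + r) := hK.1
  have hn₁ : p.n₁ (p.q₀ + r) = p.C₂ (p.q₀ + r) + 1 := rfl
  have hAn := h.A_le_n₁ (p.q₀ + r)
  have hpw := h.pow_le_M (p.q₀ + r + 1)
  generalize hN : p.M (p.q₀ + r + 1) = N at hn1 hn2 hlen hpw
  obtain ⟨X, hX⟩ : ∃ X, X = L.take (N + n) := ⟨_, rfl⟩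
  obtain ⟨K', hK'⟩ : ∃ K', K' = K.take (p.n₁ (p.q₀ + r)) := ⟨_, rfl⟩
  have hXb : ∀ b ∈ X, D.Blk b := fun b hb => hLb b (List.mem_of_mem_take (hX ▸ hb))
  have hK'b : ∀ b ∈ K', D.neg.Blk b := fun b hb => hKb b (List.mem_of_mem_take (hK' ▸ hb))
  have hXlen : X.length = N + n := by rw [hX, List.length_take]; omega
  have hK'len : K'.length = p.C₂ (p.q₀ + r) + 1 := by rw [hK', List.length_take]; omega
  have hXt : ∀ c ≤ N + n, X.take c = L.take c := fun c hc => by rw [hX, cov_take_take _ hc]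
  have hKt : ∀ c ≤ p.n₁ (p.q₀ + r), K'.take c = K.take c := fun c hc => by
    rw [hK', cov_take_take _ hc]
  have hXL : D.lev (sumd X) ≤ D.lev (sumd L) := by
    have := Dir.lev_take_mono hLb (a := N + n) (b := L.length) (by omega)
    rwa [List.take_length, ← hX] at this
  have hlong : D.lev (sumd L) < K'.length := by rw [hK'len]; push_cast; linarith
  obtain ⟨π, η, hπ, hη, he, hd, ha⟩ := Dir.first_hit hXb hK'b (hXL.trans_lt hlong)
  rcases Dir.prefix_cases hπ N with hPN | ⟨hPN, -⟩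
  swap
  · left
    intro κ hκ
    have a1 := h.A_add_pow (p.q₀ + r + 1)
    have a2 : p.A Fp Fm (p.q₀ + r + 1) + κ ≤ p.n₁ (p.q₀ + r) := by
      have : p.A Fp Fm (p.q₀ + r + 1 + 1) = p.A Fp Fm (p.q₀ + r + 2) := rfl
      omega
    have a3 := h.align_top hκ hAl.1 hAl.2
    rw [hN] at a3
    have a4 := Dir.geo_top hLb hK'b (i := p.A Fp Fm (p.q₀ + r + 1) + κ) hlen (hX ▸ hPN)
      (hX ▸ dep_prefix hη ha) hlong (by rw [hKt _ a2]; exact a3) (fun b hb => by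
        refine hT.2 b (cov_mem_drop (i := p.A Fp Fm (p.q₀ + r + 1) + κ) ?_ ?_)
        · have := h.A_mono (Nat.le_succ (p.q₀ + r))
          exact le_trans this (Nat.le_add_right _ _)
        · rw [hK'] at hb
          exact List.mem_of_mem_take ((cov_pre _ _ _).subset hb))
    unfold HT
    rw [h.x0_zz, hN]
    have e : sumd (L.take N) + sumd (K.take (p.A Fp Fm (p.q₀ + r + 1) + κ)) + sumd (L.drop N) =
        sumd L + sumd (K'.take (p.A Fp Fm (p.q₀ + r + 1) + κ)) := by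
      rw [hKt _ a2, add_right_comm, ← sumd_append, List.take_append_drop]
    rw [e]
    exact Dir.TE_mono a4 (hK' ▸ cov_pre _ _ _)
  right
  have hC : ∀ c, D.lev (sumd (X.drop c)) ≤ p.C₂ (p.q₀ + r) := fun c =>
    (cov_lev_drop hXb c).trans (hXL.trans hht)
  by_cases hP0 : (X.drop (p.M (p.q₀ + 1))).reverse.flatten <+: π
  · left
    have hW := g_W0 hg
    have a1 : p.M (p.q₀ + 1) ≤ N := hN ▸ M_mono (by omega)
    have a2 : 2 ^ p.q₀ ≤ 2 ^ (p.q₀ + r + 1) := Nat.pow_le_pow_right (by norm_num) (by omega)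
    have a3 : p.M (p.q₀ + 1) + 2 ^ p.q₀ ≤ N + n := by omega
    have a4 : p.A Fp Fm (p.q₀ + 2) ≤ p.n₁ (p.q₀ + r) := (h.A_mono (by omega)).trans hAn
    have a5 := Dir.geo_window hXb hK'b hη he hd ha (m := 0) (c := p.M (p.q₀ + 1))
      (ρ := 2 ^ p.q₀) (i := 0) (i₂ := p.A Fp Fm (p.q₀ + 2)) (lam := (d * p.R₀ : ℕ))
      (Nat.zero_le _) (by omega) hP0 (by simpa using hπ) (by simp)
      (by rw [hXt _ (by omega), hKt _ a4]; exact h.align_first hW.2.1 hW.2.2.1)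
      (by rw [hKt _ a4, List.drop_zero]; exact hW.2.2.2)
      (by
        rw [hXt _ a3, List.take_zero, sumd_nil, add_zero]
        refine (le_abs_self _).trans ((D.abs_lev_le _).trans ?_)
        push_cast
        exact mul_le_mul_of_nonneg_left (by exact_mod_cast hW.1) (Nat.cast_nonneg _))
    have a6 := hC (p.M (p.q₀ + 1) + 2 ^ p.q₀)
    rw [List.drop_zero, List.drop_zero, Nat.sub_zero, List.take_zero, sumd_nil, add_zero,
      hXt _ a3, hK'] at a5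
    rw [hX, List.drop_take] at a5 a6
    unfold H0
    rw [hN]
    exact ⟨a6, a5⟩
  · right
    obtain ⟨r', hr', hP1, hP2⟩ := cov_step
      (f := fun r' => (X.drop (p.M (p.q₀ + r' + 1))).reverse.flatten <+: π) (r := r) hP0
      (by rw [hN]; exact hPN)
    have eM : p.M (p.q₀ + (r' + 1) + 1) =
        p.M (p.q₀ + r' + 1) + p.k * 2 ^ (p.q₀ + r' + 1) := M_succ (p.q₀ + r' + 1)
    obtain ⟨j, hj, hQ1, hQ2⟩ := cov_step
      (f := fun j => (X.drop (p.M (p.q₀ + r' + 1) + j * 2 ^ (p.q₀ + r' + 1))).reverse.flatten <+: π)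
      (r := p.k) (by simpa using hP1) (by rw [← eM]; exact hP2)
    refine ⟨r', hr', j, hj, fun κ hκ => ?_⟩
    have hAl' : Fp.Al L 0 (p.M (p.q₀ + r' + 3)) ((2 ^ (p.q₀ + r' + 3) : ℕ) / 8) ∧
        Fm.Al K 0 (p.A Fp Fm (p.q₀ + r' + 3)) ((2 ^ (p.q₀ + r' + 3) : ℕ) / 8) :=
      h.g_Al hg (r' := r' + 1) hr'
    have hH := g_Hard hg hr'
    obtain ⟨w1, w2, w3⟩ := h.align_win hj hκ hAl'.1 hAl'.2
    have a1 := h.M_win (q := p.q₀ + r') hj
    have a2 : p.M (p.q₀ + r' + 2) ≤ N := hN ▸ M_mono (by omega)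
    have a3 : 2 ^ (p.q₀ + r' + 1) ≤ 2 ^ (p.q₀ + r + 1) :=
      Nat.pow_le_pow_right (by norm_num) (by omega)
    have a4 := h.A_io (q := p.q₀ + r') hj
    have a5 : p.A Fp Fm (p.q₀ + r' + 3) ≤ p.n₁ (p.q₀ + r) := (h.A_mono (by omega)).trans hAn
    have hH3 := hH.2.2
    have ey : yy Fp Fm (p.q₀ + r') j (p.x0 Fp Fm (p.q₀ + r') L K + p.zz Fp Fm (p.q₀ + r') κ L K)
        (L.drop (p.M (p.q₀ + r' + 1))) (K.drop (p.A Fp Fm (p.q₀ + r' + 1) + κ)) =
        sumd (L.take (p.M (p.q₀ + r' + 1) + j * 2 ^ (p.q₀ + r' + 1) + 2 * 2 ^ (p.q₀ + r' + 1))) +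
          sumd (K.take (p.A Fp Fm (p.q₀ + r' + 1) + κ + io Fp Fm (p.q₀ + r' + 1) j)) := by
      unfold yy
      rw [h.x0_zz, add_assoc (p.M (p.q₀ + r' + 1)), sumd_take_add L,
        sumd_take_add K (p.A Fp Fm (p.q₀ + r' + 1) + κ)]
      abel
    unfold Rg HW
    rw [ey, hN, List.drop_drop, List.drop_drop, List.drop_drop,
      ← add_assoc (p.M (p.q₀ + r' + 1))]
    rw [add_mul, one_mul, ← add_assoc] at hQ2
    generalize (2 : ℕ) ^ (p.q₀ + r' + 1) = ρ at *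
    generalize p.M (p.q₀ + r' + 1) + j * ρ = m at *
    generalize hi : p.A Fp Fm (p.q₀ + r' + 1) + κ + io Fp Fm (p.q₀ + r' + 1) j = i at *
    have b1 : m + 2 * ρ ≤ N + n := by omega
    have b2 : i ≤ p.n₁ (p.q₀ + r) := by omega
    have b3 : m + ρ + ρ = m + 2 * ρ := by ring
    have b4 := Dir.geo_window hXb hK'b hη he hd ha (m := m) (c := m + ρ) (ρ := ρ) (i := i)
      (i₂ := p.A Fp Fm (p.q₀ + r' + 3)) (lam := (p.Cc * ρ : ℕ)) (Nat.le_add_right _ _) (by omega)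
      hQ2 (((Dir.prefix_cases hπ m).resolve_left hQ1).1)
      (by rw [hXt _ (by omega), hKt _ b2]; exact w1)
      (by rw [hXt _ (by omega), hKt _ a5]; exact w2)
      (by rw [hKt _ a5]; exact fun b hb => hH3 b (cov_mem_drop (by omega) hb))
      (by rw [b3, hXt _ b1, hKt _ b2]; exact w3)
    have b5 := hC (m + 2 * ρ)
    rw [b3, hXt _ b1, hKt _ b2, Nat.add_sub_cancel_left] at b4
    have b6 : (X.drop m).take (2 * ρ) = (L.drop m).take (2 * ρ) := by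
      rw [hX, List.drop_take, cov_take_take _ (by omega)]
    rw [b6] at b4
    rw [hX, List.drop_take] at b4 b5
    refine ⟨⟨?_, w3⟩, b5, Dir.KE_mono b4 (hK' ▸ cov_pre _ _ _)⟩
    have b7 := Dir.lev_take_mono hLb (a := m) (b := m + 2 * ρ) (Nat.le_add_right _ _)
    rw [D.neg_lev] at w1
    rw [D.lev_add]
    linarith

end Par

end Vale.Agent.P147
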