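import Vale.Agent.P147.CEnt1

open Filter Topology

namespace Vale.Agent.P147

variable {d : ℕ}

theorem ent_step {μ ν h k : Di d} (hμ : IsP μ) (hν : IsP ν) (hh : IsP h) (hk : IsP k) :
    ent (h * k * μ) - ent (h * k) ≤ ent (h * (μ * ν)) - ent h := by
  have h1 := ent_submod hk hμ hh
  have h2 := ent_le_mul (hμ.mul hh) hν
  rw [show k * μ * h = h * k * μ by ring, mul_comm k h] at h1
  rw [show μ * h * ν = h * (μ * ν) by ring] at h2
  linarith

theorem ent_steps {μ ν h c : Di d} (hμ : IsP μ) (hν : IsP ν) (hh : IsP h) (hc : IsP c) (u : ℕ) :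
    ent (h * c * μ ^ u) - ent (h * c) ≤ u * (ent (h * (μ * ν)) - ent h) := by
  induction u with
  | zero => simp
  | succ u ih =>
    have h1 := ent_step hμ hν hh (hc.mul (hμ.pow u))
    rw [show h * (c * μ ^ u) * μ = h * c * μ ^ (u + 1) by ring,
      show h * (c * μ ^ u) = h * c * μ ^ u by ring] at h1
    push_cast
    linarith

theorem ent_anti {P : Di d} (hP : IsP P) (j k : ℕ) :
    ent (P ^ (j + k + 1)) - ent (P ^ (j + k)) ≤ ent (P ^ (j + 1)) - ent (P ^ j) := by
  have h1 := ent_submod hP (hP.pow k) (hP.pow j)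
  rw [show P * P ^ k * P ^ j = P ^ (j + k + 1) by ring, show P * P ^ j = P ^ (j + 1) by ring,
    show P ^ k * P ^ j = P ^ (j + k) by ring] at h1
  linarith

theorem ent_mean {P : Di d} (hP : IsP P) (t k : ℕ) (hk : k ≤ t) :
    k * (ent (P ^ (2 * t + 1)) - ent (P ^ (2 * t))) ≤ ent (P ^ (t + k)) - ent (P ^ t) := by
  induction k with
  | zero => simp
  | succ k ih =>
    have h1 := ih (by omega)
    have h2 := ent_anti hP (t + k) (t - k)
    rw [show t + k + (t - k) = 2 * t by omega] at h2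
    rw [← add_assoc]
    push_cast
    linarith

/-- increments after `2 t` joint steps are bounded by the mean increment on `[t, 2t]` -/
theorem ent_inc {μ ν c : Di d} (hμ : IsP μ) (hν : IsP ν) (hc : IsP c) {t : ℕ} (ht : 1 ≤ t)
    (u : ℕ) :
    ent ((μ * ν) ^ (2 * t) * c * μ ^ u) - ent ((μ * ν) ^ (2 * t) * c) ≤
        u * ((ent ((μ * ν) ^ (2 * t)) - ent ((μ * ν) ^ t)) / t) ∧
      ent ((μ * ν) ^ (2 * t) * c * ν ^ u) - ent ((μ * ν) ^ (2 * t) * c) ≤
        u * ((ent ((μ * ν) ^ (2 * t)) - ent ((μ * ν) ^ t)) / t) := by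
  have hP := hμ.mul hν
  have ht' : (0 : ℝ) < t := by exact_mod_cast ht
  have h0 : ent ((μ * ν) ^ (2 * t) * (μ * ν)) - ent ((μ * ν) ^ (2 * t)) ≤
      (ent ((μ * ν) ^ (2 * t)) - ent ((μ * ν) ^ t)) / t := by
    have := ent_mean hP t t le_rfl
    rw [← two_mul, pow_succ] at this
    rw [le_div_iff₀ ht']
    linarith
  have hu : (0 : ℝ) ≤ u := Nat.cast_nonneg u
  constructor
  · exact (ent_steps hμ hν (hP.pow _) hc u).trans (mul_le_mul_of_nonneg_left h0 hu)
  · have := ent_steps hν hμ (hP.pow (2 * t)) hc u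
    rw [mul_comm ν μ] at this
    exact this.trans (mul_le_mul_of_nonneg_left h0 hu)

theorem exists_quantile {π : Di d} (hπ : IsP π) {δ : ℝ} (h0 : 0 < δ) (h1 : δ ≤ 1) :
    ∃ θ : ℝ, 0 < θ ∧ EE π (fun z => ind (θ < π.coeff z)) ≤ δ ∧
      δ ≤ EE π fun z => ind (θ ≤ π.coeff z) := by
  classical
  have hne : π.coeff.support.Nonempty := by
    by_contra hc
    have h2 := hπ.2
    rw [EE_eq_sum π _ subset_rfl, Finset.not_nonempty_iff_eq_empty.mp hc, Finset.sum_empty] at h2
    exact zero_ne_one h2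
  obtain ⟨z₀, hz₀, hmin⟩ := π.coeff.support.exists_min_image π.coeff hne
  have hS : (π.coeff.support.filter fun z =>
      δ ≤ EE π fun w => ind (π.coeff z ≤ π.coeff w)).Nonempty := by
    refine ⟨z₀, Finset.mem_filter.mpr ⟨hz₀, h1.trans (le_of_eq ?_)⟩⟩
    rw [← hπ.const 1]
    exact EE_congr fun w hw => (ind_pos (hmin w (Finsupp.mem_support_iff.mpr hw))).symm
  obtain ⟨z₁, hz₁, hmax⟩ := Finset.exists_max_image _ π.coeff hS
  obtain ⟨hz₁s, hz₁d⟩ := Finset.mem_filter.mp hz₁
  refine ⟨π.coeff z₁, hπ.pos (Finsupp.mem_support_iff.mp hz₁s), ?_, hz₁d⟩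
  by_contra hc
  have hc := not_le.mp hc
  have hT : (π.coeff.support.filter fun w => π.coeff z₁ < π.coeff w).Nonempty := by
    by_contra hT
    have : EE π (fun z => ind (π.coeff z₁ < π.coeff z)) ≤ 0 :=
      hπ.le_const fun w hw => le_of_eq (ind_neg fun hlt =>
        hT ⟨w, Finset.mem_filter.mpr ⟨Finsupp.mem_support_iff.mpr hw, hlt⟩⟩)
    linarith
  obtain ⟨z₂, hz₂, hmin₂⟩ := Finset.exists_min_image _ π.coeff hT
  obtain ⟨hz₂s, hz₂d⟩ := Finset.mem_filter.mp hz₂
  have h3 : EE π (fun z => ind (π.coeff z₁ < π.coeff z)) ≤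
      EE π fun w => ind (π.coeff z₂ ≤ π.coeff w) :=
    hπ.mono fun w hw => ind_mono fun hlt =>
      hmin₂ w (Finset.mem_filter.mpr ⟨Finsupp.mem_support_iff.mpr hw, hlt⟩)
  have h4 := hmax z₂ (Finset.mem_filter.mpr ⟨hz₂s, hc.le.trans h3⟩)
  linarith

theorem card_heavy {f : Di d} (hf : IsP f) {c : ℝ} (hc : 0 < c) :
    c * ((f.coeff.support.filter fun v => c < f.coeff v).card : ℝ) ≤ 1 := by
  have _ := hc
  refine le_trans ?_ (hf.sum_le_one (f.coeff.support.filter fun v => c < f.coeff v))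
  rw [mul_comm, ← nsmul_eq_mul, ← Finset.sum_const]
  exact Finset.sum_le_sum fun v hv => (Finset.mem_filter.mp hv).2.le

theorem avp_dom {π₀ ν : Di d} (hπ : IsP π₀) (hν : IsP ν) {ρ c j : ℕ} (hρ : 1 ≤ ρ)
    (hj : j < c * ρ) (x : V d) :
    (π₀ * avp ν ρ * ν ^ j).coeff x ≤ (c + 1) * (π₀ * avp ν ((c + 1) * ρ)).coeff x := by
  have hρ' : (0 : ℝ) < ρ := by exact_mod_cast hρ
  rw [mul_assoc, coeff_mul_eq, coeff_mul_eq π₀, EE_mul, EE_avp, EE_avp]
  have e : ∀ i, (EE (ν ^ i) fun z => EE (ν ^ j) fun u => π₀.coeff (x - (z + u))) =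
      EE (ν ^ (j + i)) fun u => π₀.coeff (x - u) := by
    intro i
    rw [add_comm j i, pow_add, EE_mul]
  simp only [e]
  unfold av
  have h1 : ∑ i ∈ Finset.range ρ, (EE (ν ^ (j + i)) fun u => π₀.coeff (x - u)) ≤
      ∑ k ∈ Finset.range ((c + 1) * ρ), EE (ν ^ k) fun u => π₀.coeff (x - u) := by
    have := Finset.sum_Ico_eq_sum_range (fun k => EE (ν ^ k) fun u => π₀.coeff (x - u)) j (j + ρ)
    rw [Nat.add_sub_cancel_left] at this
    rw [← this]
    refine Finset.sum_le_sum_of_subset_of_nonneg (fun k hk => ?_) fun k _ _ =>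
      (hν.pow k).nonneg fun u _ => hπ.1 _
    rw [Finset.mem_Ico] at hk
    rw [Finset.mem_range, add_mul, one_mul]
    omega
  refine (div_le_div_of_nonneg_right h1 hρ'.le).trans (le_of_eq ?_)
  push_cast
  field_simp

/-- the averaged law is mostly carried by points heavier than the quantile -/
theorem light_mass {π₀ ν : Di d} (hπ : IsP π₀) (hν : IsP ν) {ρ c : ℕ} (hρ : 1 ≤ ρ) (hc : 1 ≤ c)
    {X s θ δ : ℝ} (hX : ∀ j < c * ρ, ent (π₀ * avp ν ρ * ν ^ j) - ent (π₀ * avp ν ρ) ≤ X)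
    (hs : 2 < s) (hδ : δ ≤ EE (π₀ * avp ν ρ) fun z => ind (θ ≤ (π₀ * avp ν ρ).coeff z)) :
    EE (avp ν (c * ρ)) (fun v => ind (¬ θ * Real.exp (-s) < (avp ν (c * ρ)).coeff v)) * δ ≤
      (Real.log (c + 1) + X) / (s / 2 - 1) + Real.exp (-s / 2) := by
  have hcρ : 1 ≤ c * ρ := Nat.mul_pos hc hρ
  have hc1 : (0 : ℝ) < c + 1 := by positivity
  have hP : IsP (π₀ * avp ν ρ) := hπ.mul (hν.avp hρ)
  have hN : IsP (avp ν (c * ρ)) := hν.avp hcρ
  have hq : IsP (π₀ * avp ν ((c + 1) * ρ)) := hπ.mul (hν.avp (Nat.mul_pos (Nat.succ_pos c) hρ))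
  have hdom : ∀ j < c * ρ, ∀ x, (π₀ * avp ν ρ * ν ^ j).coeff x ≤
      (c + 1) * (π₀ * avp ν ((c + 1) * ρ)).coeff x := fun j hj x => avp_dom hπ hν hρ hj x
  generalize π₀ * avp ν ((c + 1) * ρ) = q at hq hdom
  generalize π₀ * avp ν ρ = P at hP hdom hX hδ
  have hpos : ∀ z u, P.coeff z ≠ 0 → (avp ν (c * ρ)).coeff u ≠ 0 → 0 < q.coeff (z + u) := by
    intro z u hz hu
    by_contra hq0
    have hq0 : q.coeff (z + u) = 0 := le_antisymm (not_lt.mp hq0) (hq.1 _)
    apply hu
    rw [coeff_eq_EE, EE_avp]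
    refine (av_congr fun j hj => ?_).trans (av_const hcρ 0)
    rw [← coeff_eq_EE]
    by_contra hj0
    have h1 := pos_mul_coeff hP (hν.pow j) z u hz hj0
    have h2 := hdom j hj (z + u)
    rw [hq0, mul_zero] at h2
    linarith
  have hG := gibbs_tail hP hN hq hpos (s := s / 2) (by linarith)
  have hE : (EE P fun z => EE (avp ν (c * ρ)) fun u =>
      Real.log (P.coeff z) - Real.log (q.coeff (z + u))) ≤ Real.log (c + 1) + X := by
    simp only [EE_avp]
    rw [EE_av P (c * ρ) fun j z => EE (ν ^ j) fun u =>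
      Real.log (P.coeff z) - Real.log (q.coeff (z + u))]
    refine av_le_const hcρ fun j hj => ?_
    have h1 : (EE P fun z => EE (ν ^ j) fun u =>
        Real.log (P.coeff z) - Real.log (q.coeff (z + u))) ≤ EE P fun z => EE (ν ^ j) fun u =>
          Real.log (c + 1) +
            (Real.log (P.coeff z) - Real.log ((P * ν ^ j).coeff (z + u))) := by
      refine hP.mono fun z hz => (hν.pow j).mono fun u hu => ?_
      have p1 := pos_mul_coeff hP (hν.pow j) z u hz hu
      have p2 := hdom j hj (z + u)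
      have p3 : 0 < q.coeff (z + u) := by
        by_contra h0
        have : (c + 1 : ℝ) * q.coeff (z + u) ≤ 0 :=
          mul_nonpos_of_nonneg_of_nonpos hc1.le (not_lt.mp h0)
        linarith
      have p4 := Real.log_le_log p1 p2
      rw [Real.log_mul hc1.ne' p3.ne'] at p4
      linarith
    have h2 : (EE P fun z => EE (ν ^ j) fun u => Real.log (c + 1) +
        (Real.log (P.coeff z) - Real.log ((P * ν ^ j).coeff (z + u)))) =
        Real.log (c + 1) + (ent (P * ν ^ j) - ent P) := by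
      rw [← ent_diff (hν.pow j), ← hP.const (Real.log (c + 1)), ← EE_add]
      refine EE_congr fun z _ => ?_
      rw [hP.const, EE_add, (hν.pow j).const]
    have h3 := hX j hj
    linarith
  generalize avp ν (c * ρ) = N at hN hG hE hpos ⊢
  have hH : (EE P fun z => EE N fun u => Real.exp (-s / 2) * q.coeff (z + u) / N.coeff u) ≤
      Real.exp (-s / 2) := by
    refine hP.le_const fun z _ => ?_
    rw [EE_div_self N fun u => Real.exp (-s / 2) * q.coeff (z + u), ← Finset.mul_sum]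
    have := hq.sum_shift_le_one N.coeff.support z
    simp only [add_comm _ z] at this
    exact mul_le_of_le_one_right (Real.exp_pos _).le this
  have hL : EE N (fun v => ind (¬ θ * Real.exp (-s) < N.coeff v)) * δ ≤
      EE P fun z => EE N fun v => ind (¬ θ * Real.exp (-s) < N.coeff v) * ind (θ ≤ P.coeff z) := by
    simp only [EE_mul_right]
    rw [EE_mul_left]
    exact mul_le_mul_of_nonneg_left hδ (hN.nonneg fun v _ => ind_nonneg _)
  have hM : (EE P fun z => EE N fun v =>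
      ind (¬ θ * Real.exp (-s) < N.coeff v) * ind (θ ≤ P.coeff z)) ≤
      (EE P fun z => EE N fun u => ind (¬ P.coeff z ≤ Real.exp (s / 2) * q.coeff (z + u))) +
        EE P fun z => EE N fun u => Real.exp (-s / 2) * q.coeff (z + u) / N.coeff u := by
    simp only [← EE_add]
    refine hP.mono fun z hz => hN.mono fun v hv => ?_
    have p1 := hN.pos hv
    have p2 := hpos z v hz hv
    have p3 : 0 ≤ Real.exp (-s / 2) * q.coeff (z + v) / N.coeff v := by positivity
    rw [← ind_and]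
    by_cases h1 : ¬ θ * Real.exp (-s) < N.coeff v ∧ θ ≤ P.coeff z
    · rw [ind_pos h1]
      by_cases h2 : P.coeff z ≤ Real.exp (s / 2) * q.coeff (z + v)
      · have h3 : N.coeff v ≤ Real.exp (-s / 2) * q.coeff (z + v) := by
          have e : Real.exp (-s / 2) = Real.exp (s / 2) * Real.exp (-s) := by
            rw [← Real.exp_add]; congr 1; ring
          have h4 := mul_le_mul_of_nonneg_right (h1.2.trans h2) (Real.exp_pos (-s)).le
          rw [e]
          have h5 := not_lt.mp h1.1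
          linarith
        have h6 : 1 ≤ Real.exp (-s / 2) * q.coeff (z + v) / N.coeff v := (one_le_div p1).mpr h3
        have := ind_nonneg (¬ P.coeff z ≤ Real.exp (s / 2) * q.coeff (z + v))
        linarith
      · rw [ind_pos h2]; linarith
    · rw [ind_neg h1]
      have := ind_nonneg (¬ P.coeff z ≤ Real.exp (s / 2) * q.coeff (z + v))
      linarith
  have hD := div_le_div_of_nonneg_right hE (show (0 : ℝ) ≤ s / 2 - 1 by linarith)
  linarith

end Vale.Agent.P147
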