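import Vale.Agent.P147.CG1

open Filter Topology

namespace Vale.Agent.P147

variable {d : ℕ}

namespace Dir

variable {D : Dir d}

/-- earlier points of a path of short blocks are not much above the current point -/
theorem back_lev {K : List (Pa d)} (hK : ∀ b ∈ K, D.Blk b) {r : ℝ} (hr : 0 ≤ r)
    (hH : ∀ b ∈ K, D.H b ≤ r) {y p : V d} {a c : Pa d} (h : K.flatten = a ++ c) (hc : c ≠ [])
    (hp : p ∈ pts y a) : D.lev p ≤ D.lev (y + disp a) + r := by
  induction K generalizing y a with
  | nil =>
    simp only [List.flatten_nil, List.nil_eq, List.append_eq_nil_iff] at h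
    exact absurd h.2 hc
  | cons b K ih =>
    have hb := hK b (by simp)
    have hbH := hH b (by simp)
    have hK' : ∀ b ∈ K, D.Blk b := fun b h => hK b (by simp [h])
    rw [List.flatten_cons] at h
    by_cases hba : b <+: a
    · obtain ⟨a₂, rfl⟩ := hba
      rw [List.append_assoc, List.append_cancel_left_eq] at h
      rw [disp_append, ← add_assoc]
      rcases mem_pts_append.1 hp with h1 | h1
      · have h2 := (hb.dep_lev h1).2
        have h3 := (pts_flatten_lev hK' (x := y + disp b) (p := y + disp b + disp a₂)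
          (mem_pts_iff.2 ⟨a₂, ⟨c, h.symm⟩, rfl⟩)).1
        rw [lev_add] at h3
        unfold H at h2
        linarith
      · exact ih hK' (fun b h => hH b (by simp [h])) h h1
    · have hab : a <+: b :=
        (List.prefix_or_prefix_of_prefix (l₃ := a ++ c) (List.prefix_append a c)
          ⟨_, h⟩).resolve_right hba
      obtain ⟨e, he⟩ := hab
      have he0 : e ≠ [] := by
        rintro rfl
        exact hba ⟨[], by simpa using he.symm⟩
      have h1 : y + disp a ∈ dep y b := mem_dep_iff.2 ⟨a, e, he.symm, he0, rfl⟩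
      have h2 : p ∈ dep y b := by
        rcases mem_pts.1 hp with h | h
        · exact dep_prefix ⟨e, he⟩ h
        · rw [h]; exact h1
      linarith [(hb.dep_lev h1).1, (hb.dep_lev h2).2]

/-- a hit below the windows gives the head-on event -/
theorem geo_top {L K : List (Pa d)} (hL : ∀ b ∈ L, D.Blk b) (hK : ∀ b ∈ K, D.neg.Blk b)
    {N n ρ i : ℕ} (hlen : L.length = N + n + 2 * ρ) {π : Pa d}
    (hπ : π <+: ((L.take (N + n)).drop N).reverse.flatten)
    (ha : -sumd (L.take (N + n)) + disp π ∈ dep 0 K.flatten)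
    (hlong : D.lev (sumd L) < K.length)
    (hi : D.neg.lev (sumd (K.take i)) + ρ ≤ D.lev (sumd (L.take N)))
    (hH : ∀ b ∈ K.drop i, D.neg.H b ≤ ρ) :
    D.TE (L.drop N) (sumd L + sumd (K.take i)) (K.drop i) ρ := by
  set y := sumd L + sumd (K.take i) with hy
  have hρ : (0 : ℝ) ≤ ρ := Nat.cast_nonneg ρ
  have hKd : ∀ b ∈ K.drop i, D.neg.Blk b := fun b h => hK b (List.mem_of_mem_drop h)
  have hKt : ∀ b ∈ K.take i, D.neg.Blk b := fun b h => hK b (List.mem_of_mem_take h)
  have hU : ∀ b ∈ (L.drop N).reverse, D.Blk b := fun b h =>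
    hL b (List.mem_of_mem_drop (List.mem_reverse.1 h))
  have hM : ∀ b ∈ ((L.take (N + n)).drop N).reverse, D.Blk b := fun b h =>
    hL b (List.mem_of_mem_take (List.mem_of_mem_drop (List.mem_reverse.1 h)))
  have hB : ∀ b ∈ L.drop (N + n), D.Blk b := fun b h => hL b (List.mem_of_mem_drop h)
  have sL : ∀ k, sumd L = sumd (L.take k) + sumd (L.drop k) := fun k => by
    rw [← sumd_append, List.take_append_drop]
  have sK : sumd K = sumd (K.take i) + sumd (K.drop i) := by
    rw [← sumd_append, List.take_append_drop]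
  -- levels of the up path
  have hup : ∀ x ∈ pts 0 (L.drop N).reverse.flatten, 0 ≤ D.lev x ∧ D.lev x ≤ D.lev y - ρ := by
    intro x hx
    have h1 := pts_flatten_lev hU hx
    have h2 := congrArg D.lev (sL N)
    simp only [lev_zero, sumd_reverse, zero_add, lev_add, neg_lev, hy] at h1 h2 hi ⊢
    exact ⟨h1.1, by linarith [h1.2]⟩
  -- the stopped down path
  have hend : D.lev (y + disp (K.drop i).flatten) < ρ := by
    have h1 := length_le_lev hK
    have h2 := congrArg D.lev sK
    simp only [disp_flatten, lev_add, neg_lev, hy] at h1 h2 ⊢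
    linarith
  obtain ⟨η, hη, hη1, hη2⟩ := exists_first (x := y) (γ := (K.drop i).flatten)
    (Q := fun p => D.lev p < ρ) ⟨_, mem_pts.2 (Or.inr rfl), hend⟩
  -- the hit point
  have hsplit : (L.drop N).reverse.flatten =
      (L.drop (N + n)).reverse.flatten ++ ((L.take (N + n)).drop N).reverse.flatten := by
    rw [← List.flatten_append, ← List.reverse_append]
    congr 2
    conv_lhs => rw [← List.take_append_drop (N + n) L]
    rw [List.drop_append_of_le_length (by simp; omega)]
  set a := sumd (L.drop (N + n)) + disp π with haa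
  have haU : a ∈ pts 0 (L.drop N).reverse.flatten := by
    refine mem_pts_iff.2 ⟨(L.drop (N + n)).reverse.flatten ++ π, ?_, by simp [haa]⟩
    rw [hsplit]
    exact (List.prefix_append_right_inj _).2 hπ
  have ha2 : 2 * (ρ : ℝ) ≤ D.lev a := by
    have h1 := length_le_lev hB
    have h2 := (pts_flatten_lev hM (x := 0) (p := 0 + disp π) (mem_pts_iff.2 ⟨π, hπ, rfl⟩)).1
    have h3 : (L.drop (N + n)).length = 2 * ρ := by simp; omega
    rw [h3] at h1
    push_cast at h1
    simp only [lev_zero, zero_add, lev_add, haa] at h2 ⊢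
    linarith
  have haK : a ∈ dep (sumd L) K.flatten := by
    rw [mem_dep_zero]
    convert ha using 1
    rw [haa, sL (N + n)]
    abel
  have haK' : a ∈ dep y (K.drop i).flatten := by
    rw [← List.take_append_drop i K, List.flatten_append, dep_append, List.mem_append] at haK
    rcases haK with h | h
    · exfalso
      have h1 := gap_flatten hKt _ (mem_dep_zero.1 h)
      have h2 := (hup a haU).2
      simp only [disp_flatten, lev_add, lev_sub, neg_lev, hy] at h1 h2
      linarith
    · rwa [disp_flatten] at h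
  obtain ⟨a₁, c₁, hc, hc0, ha1⟩ := mem_dep_iff.1 haK'
  have haη : a ∈ dep y η := by
    have hn : ¬ η <+: a₁ := fun h => by
      have h1 := back_lev hKd hρ hH hc hc0 (y := y) (p := y + disp η) (mem_pts_iff.2 ⟨η, h, rfl⟩)
      rw [← ha1, neg_lev, neg_lev] at h1
      linarith
    obtain ⟨e, he⟩ := (List.prefix_or_prefix_of_prefix hη ⟨c₁, hc.symm⟩).resolve_left hn
    refine mem_dep_iff.2 ⟨a₁, e, he.symm, ?_, ha1⟩
    rintro rfl
    exact hn ⟨[], by simpa using he.symm⟩
  obtain ⟨π', hπ', hq1, hq2⟩ := exists_first (x := 0) (γ := (L.drop N).reverse.flatten)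
    (Q := fun p => p ∈ dep y η) ⟨a, haU, haη⟩
  refine ⟨π', η, hπ', hη, fun x hx => hup x (pts_prefix hπ' hx), ⟨fun p hp => ⟨?_, ?_⟩, hη1⟩,
    fun p hp hp' => hq2 p hp' hp, by simpa using hq1⟩
  · exact not_lt.1 (hη2 p hp)
  · have := (pts_flatten_lev hKd (mem_pts.2 (Or.inl (dep_prefix hη hp)))).1
    rw [neg_lev, neg_lev] at this
    linarith

theorem TE_mono {up K K' : List (Pa d)} {y : V d} {K₀ : ℝ} (h : D.TE up y K K₀)
    (hK : K <+: K') : D.TE up y K' K₀ := by
  obtain ⟨π, η, h1, h2, h3⟩ := h
  obtain ⟨M, rfl⟩ := hK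
  refine ⟨π, η, h1, h2.trans ?_, h3⟩
  rw [List.flatten_append]
  exact List.prefix_append _ _

end Dir

end Vale.Agent.P147
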