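import Vale.Agent.P147.CEx

open Filter Topology

namespace Vale.Agent.P147

variable {d : ℕ}

theorem shift_sum_le (s t : Finset (V d)) (c : V d) (f : V d → ℝ) (h0 : ∀ w, 0 ≤ f w)
    (h : ∀ z ∈ s, z + c ∈ t) : ∑ z ∈ s, f (z + c) ≤ ∑ w ∈ t, f w := by
  have e : ∑ z ∈ s, f (z + c) = ∑ w ∈ s.map (addRightEmbedding c), f w := by
    rw [Finset.sum_map]
    rfl
  rw [e]
  refine Finset.sum_le_sum_of_subset_of_nonneg (fun w hw => ?_) fun w _ _ => h0 w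
  obtain ⟨z, hz, rfl⟩ := Finset.mem_map.mp hw
  exact h z hz

theorem mul_ind_le {a c : ℝ} (hc : 0 ≤ c) : a * ind (a ≤ c) ≤ c := by
  by_cases h : a ≤ c
  · rw [ind_pos h, mul_one]; exact h
  · rw [ind_neg h, mul_zero]; exact hc

section
variable {D : Dir d} (F : FM D)

theorem hitII {π : Di d} (hπ : IsP π) (s : ℝ) (u : ℕ) (x : V d) (Φ : List (Pa d) → V d → ℝ)
    (h0 : ∀ up y, 0 ≤ Φ up y) {B : ℝ} (hB : ∀ y, F.Ex u (fun up => Φ up y) ≤ B) :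
    EE π (fun z => F.Ex u fun up =>
      ind (π.coeff z ≤ Real.exp s * (π * F.law ^ u).coeff (z + sumd up)) *
        Φ up (x + z + sumd up)) ≤ Real.exp s * B := by
  classical
  have hg : IsP (π * F.law ^ u) := hπ.mul (F.law_isP.pow u)
  set g := π * F.law ^ u with hgd
  rw [← F.Ex_EE u π fun z up =>
    ind (π.coeff z ≤ Real.exp s * g.coeff (z + sumd up)) * Φ up (x + z + sumd up)]
  have h1 : ∀ up : List (Pa d), EE π (fun z =>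
      ind (π.coeff z ≤ Real.exp s * g.coeff (z + sumd up)) * Φ up (x + z + sumd up)) ≤
      Real.exp s * EE g fun w => Φ up (x + w) := by
    intro up
    rw [EE_eq_sum π _ (Finset.Subset.refl _), EE_eq_sum g _ (s := g.coeff.support ∪
      π.coeff.support.image (· + sumd up)) Finset.subset_union_left]
    refine le_trans ?_ (mul_le_mul_of_nonneg_left (shift_sum_le π.coeff.support _ (sumd up)
      (fun w => g.coeff w * Φ up (x + w)) (fun w => mul_nonneg (hg.1 w) (h0 _ _))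
      fun z hz => Finset.mem_union_right _ (Finset.mem_image_of_mem _ hz)) (Real.exp_pos s).le)
    rw [Finset.mul_sum]
    refine Finset.sum_le_sum fun z _ => ?_
    rw [← mul_assoc, ← mul_assoc, add_assoc]
    exact mul_le_mul_of_nonneg_right
      (mul_ind_le (mul_nonneg (Real.exp_pos s).le (hg.1 _))) (h0 _ _)
  refine (F.Ex_mono fun up _ => h1 up).trans ?_
  rw [F.Ex_mul_left, F.Ex_EE u g fun w up => Φ up (x + w)]
  exact mul_le_mul_of_nonneg_left (hg.le_const fun w _ => hB (x + w)) (Real.exp_pos s).le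

theorem hitI {π : Di d} (hπ : IsP π) {θ : ℝ} (hθ : 0 ≤ θ) (u : ℕ) (x : V d)
    (Φ : List (Pa d) → V d → ℝ) (h0 : ∀ up y, 0 ≤ Φ up y) (B : Finset (V d))
    (hB : ∀ z up, π.coeff z ≠ 0 → F.Ok u up → x + z + sumd up ∈ B) :
    EE π (fun z => F.Ex u fun up => ind (π.coeff z ≤ θ) * Φ up (x + z + sumd up)) ≤
      θ * ∑ b ∈ B, F.Ex u fun up => Φ up b := by
  have _ := hπ
  rw [← F.Ex_EE u π fun z up => ind (π.coeff z ≤ θ) * Φ up (x + z + sumd up),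
    ← F.Ex_sum u B fun b up => Φ up b, ← F.Ex_mul_left]
  refine F.Ex_mono fun up hup => ?_
  rw [EE_eq_sum π _ (Finset.Subset.refl _)]
  refine le_trans ?_ (mul_le_mul_of_nonneg_left (shift_sum_le π.coeff.support B (x + sumd up)
    (fun w => Φ up w) (fun w => h0 _ _) fun z hz => ?_) hθ)
  · rw [Finset.mul_sum]
    refine Finset.sum_le_sum fun z _ => ?_
    rw [← mul_assoc, show z + (x + sumd up) = x + z + sumd up by abel]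
    exact mul_le_mul_of_nonneg_right (mul_ind_le hθ) (h0 _ _)
  · rw [show z + (x + sumd up) = x + z + sumd up by abel]
    exact hB z up (Finsupp.mem_support_iff.mp hz) hup

end

section
variable {D : Dir d} (Fp : FM D) (Fm : FM D.neg)

theorem master_K {D' : Dir d} (G : FM D') {a₂ w₂ ρ r nm : ℕ} (h2 : a₂ + w₂ + ρ + r ≤ nm)
    (χ : List (Pa d) → V d → List (Pa d) → ℝ) :
    G.Ex nm (fun K => av ρ fun κ => χ (K.take a₂) (sumd ((K.drop a₂).take (w₂ + κ)))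
      ((K.drop (a₂ + w₂ + κ)).take r)) =
    G.Ex a₂ fun K₁ => EE (G.law ^ w₂ * avp G.law ρ) fun z => G.Ex r fun K₂ => χ K₁ z K₂ := by
  rw [G.Ex_av nm ρ fun κ K => χ (K.take a₂) (sumd ((K.drop a₂).take (w₂ + κ)))
    ((K.drop (a₂ + w₂ + κ)).take r)]
  have e1 : ∀ κ < ρ, G.Ex nm (fun K => χ (K.take a₂) (sumd ((K.drop a₂).take (w₂ + κ)))
      ((K.drop (a₂ + w₂ + κ)).take r)) = G.Ex a₂ fun K₁ => EE (G.law ^ w₂) fun z =>
        EE (G.law ^ κ) fun u => G.Ex r fun K₂ => χ K₁ (z + u) K₂ := by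
    intro κ hκ
    rw [add_assoc a₂ w₂ κ, G.Ex_split3 (a := a₂) (b := w₂ + κ) (c := r) (by omega)
      fun K₁ K₂ K₃ => χ K₁ (sumd K₂) K₃]
    refine G.Ex_congr fun K₁ _ => ?_
    rw [G.Ex_law (w₂ + κ) fun z => G.Ex r fun K₂ => χ K₁ z K₂, pow_add, EE_mul]
  rw [av_congr e1, ← G.Ex_av a₂ ρ fun κ K₁ => EE (G.law ^ w₂) fun z =>
    EE (G.law ^ κ) fun u => G.Ex r fun K₂ => χ K₁ (z + u) K₂]
  refine G.Ex_congr fun K₁ _ => ?_
  rw [EE_mul, ← EE_av (G.law ^ w₂) ρ fun κ z =>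
    EE (G.law ^ κ) fun u => G.Ex r fun K₂ => χ K₁ (z + u) K₂]
  refine EE_congr fun z _ => ?_
  rw [EE_avp]

theorem master_L {D' : Dir d} (G : FM D') {a₁ w₁ np : ℕ} (h1 : a₁ + w₁ ≤ np)
    (χ : List (Pa d) → V d → List (Pa d) → ℝ) :
    G.Ex np (fun L => χ (L.take a₁) (sumd ((L.drop a₁).take w₁)) (L.drop (a₁ + w₁))) =
    G.Ex a₁ fun L₁ => EE (G.law ^ w₁) fun y => G.Ex (np - (a₁ + w₁)) fun L₂ => χ L₁ y L₂ := by
  have e : ∀ L : List (Pa d), L.drop (a₁ + w₁) = (L.drop a₁).drop w₁ := fun L =>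
    List.drop_drop.symm
  simp only [e]
  rw [G.Ex_split (a := a₁) (by omega) fun L₁ L' => χ L₁ (sumd (L'.take w₁)) (L'.drop w₁)]
  refine G.Ex_congr fun L₁ _ => ?_
  rw [G.Ex_split (a := w₁) (by omega) fun L₂ L₃ => χ L₁ (sumd L₂) L₃, Nat.sub_sub,
    G.Ex_law w₁ fun y => G.Ex (np - (a₁ + w₁)) fun L₂ => χ L₁ y L₂]

/-- splitting both lists around a window -/
theorem master {a₁ w₁ a₂ w₂ ρ r np nm : ℕ} (h1 : a₁ + w₁ ≤ np) (h2 : a₂ + w₂ + ρ + r ≤ nm)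
    (ψ : List (Pa d) → List (Pa d) → V d → List (Pa d) → List (Pa d) → ℝ) :
    E2 Fp Fm np nm (fun L K => av ρ fun κ => ψ (L.take a₁) (K.take a₂)
      (sumd ((L.drop a₁).take w₁) + sumd ((K.drop a₂).take (w₂ + κ))) (L.drop (a₁ + w₁))
      ((K.drop (a₂ + w₂ + κ)).take r)) =
    Fp.Ex a₁ fun L₁ => Fm.Ex a₂ fun K₁ =>
      EE (Fp.law ^ w₁ * Fm.law ^ w₂ * avp Fm.law ρ) fun z =>
        E2 Fp Fm (np - (a₁ + w₁)) r fun L₂ K₂ => ψ L₁ K₁ z L₂ K₂ := by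
  unfold E2
  have e1 : ∀ L : List (Pa d), Fm.Ex nm (fun K => av ρ fun κ => ψ (L.take a₁) (K.take a₂)
      (sumd ((L.drop a₁).take w₁) + sumd ((K.drop a₂).take (w₂ + κ))) (L.drop (a₁ + w₁))
      ((K.drop (a₂ + w₂ + κ)).take r)) = Fm.Ex a₂ fun K₁ => EE (Fm.law ^ w₂ * avp Fm.law ρ)
        fun z => Fm.Ex r fun K₂ =>
          ψ (L.take a₁) K₁ (sumd ((L.drop a₁).take w₁) + z) (L.drop (a₁ + w₁)) K₂ := fun L =>
    master_K Fm h2 fun K₁ z K₂ =>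
      ψ (L.take a₁) K₁ (sumd ((L.drop a₁).take w₁) + z) (L.drop (a₁ + w₁)) K₂
  simp only [e1]
  rw [master_L Fp h1 fun L₁ y L₂ => Fm.Ex a₂ fun K₁ => EE (Fm.law ^ w₂ * avp Fm.law ρ)
    fun z => Fm.Ex r fun K₂ => ψ L₁ K₁ (y + z) L₂ K₂]
  refine Fp.Ex_congr fun L₁ _ => ?_
  have e2 : ∀ y : V d, Fp.Ex (np - (a₁ + w₁)) (fun L₂ => Fm.Ex a₂ fun K₁ =>
      EE (Fm.law ^ w₂ * avp Fm.law ρ) fun z => Fm.Ex r fun K₂ => ψ L₁ K₁ (y + z) L₂ K₂) =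
      Fm.Ex a₂ fun K₁ => EE (Fm.law ^ w₂ * avp Fm.law ρ) fun z =>
        Fp.Ex (np - (a₁ + w₁)) fun L₂ => Fm.Ex r fun K₂ => ψ L₁ K₁ (y + z) L₂ K₂ := by
    intro y
    rw [Fp.Ex_comm Fm]
    refine Fm.Ex_congr fun K₁ _ => ?_
    rw [Fp.Ex_EE _ _ fun z L₂ => Fm.Ex r fun K₂ => ψ L₁ K₁ (y + z) L₂ K₂]
  simp only [e2]
  rw [← Fm.Ex_EE a₂ (Fp.law ^ w₁) fun y K₁ => EE (Fm.law ^ w₂ * avp Fm.law ρ) fun z =>
    Fp.Ex (np - (a₁ + w₁)) fun L₂ => Fm.Ex r fun K₂ => ψ L₁ K₁ (y + z) L₂ K₂]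
  refine Fm.Ex_congr fun K₁ _ => ?_
  rw [mul_assoc, EE_mul (Fp.law ^ w₁)]

theorem E2_take {a₁ a₂ np nm : ℕ} (h1 : a₁ ≤ np) (h2 : a₂ ≤ nm)
    (G : List (Pa d) → List (Pa d) → ℝ) (hG : ∀ L K, G L K = G (L.take a₁) (K.take a₂)) :
    E2 Fp Fm np nm G = Fp.Ex a₁ fun L₁ => Fm.Ex a₂ fun K₁ => G L₁ K₁ := by
  unfold E2
  rw [← Fp.Ex_take h1 fun L₁ => Fm.Ex a₂ fun K₁ => G L₁ K₁]
  refine Fp.Ex_congr fun L _ => ?_
  rw [← Fm.Ex_take h2 fun K₁ => G (L.take a₁) K₁]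
  exact Fm.Ex_congr fun K _ => hG L K

theorem E2_mul_left' (np nm : ℕ) (c : ℝ) (φ : List (Pa d) → List (Pa d) → ℝ) :
    E2 Fp Fm np nm (fun L K => c * φ L K) = c * E2 Fp Fm np nm φ := by
  unfold E2
  rw [← Fp.Ex_mul_left]
  exact Fp.Ex_congr fun L _ => Fm.Ex_mul_left nm c _

theorem Ex2_le {a₁ a₂ : ℕ} (G T : List (Pa d) → List (Pa d) → ℝ) (hG0 : ∀ L K, 0 ≤ G L K)
    {B : ℝ} (hT : ∀ L K, T L K ≤ B) :
    (Fp.Ex a₁ fun L₁ => Fm.Ex a₂ fun K₁ => G L₁ K₁ * T L₁ K₁) ≤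
      B * Fp.Ex a₁ fun L₁ => Fm.Ex a₂ fun K₁ => G L₁ K₁ := by
  rw [← Fp.Ex_mul_left]
  refine Fp.Ex_mono fun L₁ _ => ?_
  rw [← Fm.Ex_mul_left]
  refine Fm.Ex_mono fun K₁ _ => ?_
  rw [mul_comm B]
  exact mul_le_mul_of_nonneg_left (hT _ _) (hG0 _ _)

theorem master_le {a₁ w₁ a₂ w₂ ρ r np nm : ℕ} (h1 : a₁ + w₁ ≤ np) (h2 : a₂ + w₂ + ρ + r ≤ nm)
    (G : List (Pa d) → List (Pa d) → ℝ) (hG0 : ∀ L K, 0 ≤ G L K)
    (hG : ∀ L K, G L K = G (L.take a₁) (K.take a₂))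
    (φ : V d → V d → List (Pa d) → List (Pa d) → ℝ)
    (hφ : ∀ x z L K, φ x z L K = φ x z L (K.take r)) {B : ℝ}
    (hB : ∀ x, EE (Fp.law ^ w₁ * Fm.law ^ w₂ * avp Fm.law ρ) (fun z =>
      E2 Fp Fm (np - (a₁ + w₁)) r fun L₂ K₂ => φ x z L₂ K₂) ≤ B) :
    E2 Fp Fm np nm (fun L K => G L K * av ρ fun κ => φ (sumd (L.take a₁) + sumd (K.take a₂))
      (sumd ((L.drop a₁).take w₁) + sumd ((K.drop a₂).take (w₂ + κ))) (L.drop (a₁ + w₁))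
      (K.drop (a₂ + w₂ + κ))) ≤ B * E2 Fp Fm np nm G := by
  have e : (fun L K : List (Pa d) => G L K * av ρ fun κ =>
      φ (sumd (L.take a₁) + sumd (K.take a₂))
      (sumd ((L.drop a₁).take w₁) + sumd ((K.drop a₂).take (w₂ + κ))) (L.drop (a₁ + w₁))
      (K.drop (a₂ + w₂ + κ))) = fun L K => av ρ fun κ => G (L.take a₁) (K.take a₂) *
      φ (sumd (L.take a₁) + sumd (K.take a₂))
      (sumd ((L.drop a₁).take w₁) + sumd ((K.drop a₂).take (w₂ + κ))) (L.drop (a₁ + w₁))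
      ((K.drop (a₂ + w₂ + κ)).take r) := by
    funext L K
    rw [av_mul_left, ← hG L K]
    congr 1
    exact av_congr fun κ _ => hφ _ _ _ _
  rw [e, master Fp Fm h1 h2 fun L₁ K₁ z L₂ K₂ => G L₁ K₁ * φ (sumd L₁ + sumd K₁) z L₂ K₂,
    E2_take Fp Fm (a₁ := a₁) (a₂ := a₂) (by omega) (by omega) G hG]
  simp only [E2_mul_left', EE_mul_left]
  exact Ex2_le Fp Fm G _ hG0 fun L₁ K₁ => hB _

theorem indep_le {a₁ a₂ np nm : ℕ} (h1 : a₁ ≤ np) (h2 : a₂ ≤ nm)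
    (G : List (Pa d) → List (Pa d) → ℝ) (hG0 : ∀ L K, 0 ≤ G L K)
    (hG : ∀ L K, G L K = G (L.take a₁) (K.take a₂))
    (φ : List (Pa d) → List (Pa d) → ℝ) {B : ℝ}
    (hB : E2 Fp Fm (np - a₁) (nm - a₂) φ ≤ B) :
    E2 Fp Fm np nm (fun L K => G L K * φ (L.drop a₁) (K.drop a₂)) ≤
      B * E2 Fp Fm np nm G := by
  have e : E2 Fp Fm np nm (fun L K => G L K * φ (L.drop a₁) (K.drop a₂)) =
      Fp.Ex a₁ fun L₁ => Fm.Ex a₂ fun K₁ => G L₁ K₁ * E2 Fp Fm (np - a₁) (nm - a₂) φ := by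
    have e1 : ∀ L : List (Pa d), Fm.Ex nm (fun K => G L K * φ (L.drop a₁) (K.drop a₂)) =
        Fm.Ex a₂ fun K₁ => Fm.Ex (nm - a₂) fun K₂ => G (L.take a₁) K₁ * φ (L.drop a₁) K₂ := by
      intro L
      rw [← Fm.Ex_split h2 fun K₁ K₂ => G (L.take a₁) K₁ * φ (L.drop a₁) K₂]
      exact Fm.Ex_congr fun K _ => by rw [← hG L K]
    unfold E2
    simp only [e1]
    rw [Fp.Ex_split h1 fun L₁ L₂ => Fm.Ex a₂ fun K₁ => Fm.Ex (nm - a₂) fun K₂ =>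
      G L₁ K₁ * φ L₂ K₂]
    refine Fp.Ex_congr fun L₁ _ => ?_
    rw [Fp.Ex_comm Fm]
    refine Fm.Ex_congr fun K₁ _ => ?_
    rw [← Fp.Ex_mul_left]
    exact Fp.Ex_congr fun L₂ _ => Fm.Ex_mul_left _ _ _
  rw [e, E2_take Fp Fm h1 h2 G hG]
  exact Ex2_le Fp Fm G _ hG0 fun _ _ => hB

end

end Vale.Agent.P147
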