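import Vale.Agent.P147.CEx

open Filter Topology

namespace Vale.Agent.P147

variable {d : ℕ}

theorem ifail_count (a θ H : ℝ) (hH : 0 ≤ H) (ρ : ℕ) :
    ∑ κ ∈ Finset.range ρ, ind (a ≤ θ + κ ∧ θ + κ < a + H) ≤ max 0 (θ + ρ - a) ∧
      ∑ κ ∈ Finset.range ρ, ind (a ≤ θ + κ ∧ θ + κ < a + H) ≤ H + 1 := by
  induction ρ with
  | zero =>
    simp only [Finset.range_zero, Finset.sum_empty]
    exact ⟨le_max_left _ _, by linarith⟩
  | succ ρ ih =>
    rw [Finset.sum_range_succ]
    push_cast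
    by_cases hp : a ≤ θ + ρ ∧ θ + ρ < a + H
    · rw [ind_pos hp]
      have h1 := ih.1
      rw [max_eq_right (by linarith [hp.1])] at h1
      exact ⟨le_max_of_le_right (by linarith), by linarith [hp.2]⟩
    · rw [ind_neg hp, add_zero]
      exact ⟨ih.1.trans (max_le_max le_rfl (by linarith)), ih.2⟩

theorem ifail_pt {D : Dir d} {K : List (Pa d)} (hK : ∀ b ∈ K, D.neg.Blk b) (τ : ℝ) (h0 : 0 ≤ τ)
    (h1 : τ < K.length) (T₀ : Finset (V d)) (M₀ : ℕ) :
    ind (¬ ∃ v ∈ Finset.image₂ (· + ·) T₀ (ball d M₀), D.FPt (-τ) 0 K.flatten v) ≤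
      ∑ l ∈ Finset.range K.length,
        ind (D.neg.lev (sumd (K.take l)) ≤ τ ∧
          τ < D.neg.lev (sumd (K.take l)) + D.neg.lev (sumd ((K.drop l).take 1))) *
        (ind (sumd (K.take l) ∉ T₀) + ind (M₀ < rad ((K.drop l).take 1).flatten)) := by
  classical
  have hex : ∃ l, τ < D.neg.lev (sumd (K.take l)) :=
    ⟨K.length, by rw [List.take_length]; exact h1.trans_le (Dir.length_le_lev hK)⟩
  have hpos : Nat.find hex ≠ 0 := by
    intro h
    have := Nat.find_spec hex
    rw [h] at this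
    simp at this
    linarith
  obtain ⟨l, hl⟩ := Nat.exists_eq_succ_of_ne_zero hpos
  have hl1 : τ < D.neg.lev (sumd (K.take (l + 1))) := by
    have := Nat.find_spec hex
    rwa [hl] at this
  have hl0 : D.neg.lev (sumd (K.take l)) ≤ τ := not_lt.1 (Nat.find_min hex (by omega))
  have hlK : l < K.length := by
    by_contra hc
    rw [List.take_of_length_le (by omega)] at hl0 hl1
    linarith
  rw [sumd_take_add, Dir.lev_add] at hl1
  refine le_trans ?_ (Finset.single_le_sum (f := fun l =>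
    ind (D.neg.lev (sumd (K.take l)) ≤ τ ∧
          τ < D.neg.lev (sumd (K.take l)) + D.neg.lev (sumd ((K.drop l).take 1))) *
        (ind (sumd (K.take l) ∉ T₀) + ind (M₀ < rad ((K.drop l).take 1).flatten)))
    (fun l _ => mul_nonneg (ind_nonneg _) (add_nonneg (ind_nonneg _) (ind_nonneg _)))
    (Finset.mem_range.2 hlK))
  rw [ind_pos (p := _ ∧ _) ⟨hl0, hl1⟩, one_mul]
  refine le_trans (ind_mono fun hf => ?_) (ind_or_le _ _)
  by_contra hc
  push Not at hc
  apply hf
  obtain ⟨a, ⟨e, he⟩, ha1, ha2⟩ := exists_first (x := sumd (K.take l))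
    (γ := ((K.drop l).take 1).flatten) (Q := fun p => D.lev p < -τ)
    ⟨_, mem_pts.2 (Or.inr rfl), by
      rw [Dir.neg_lev, Dir.neg_lev] at hl1
      rw [disp_flatten, Dir.lev_add]
      linarith⟩
  refine ⟨sumd (K.take l) + disp a, Finset.mem_image₂_of_mem hc.1 (mem_ball.2 ?_),
    (K.take l).flatten ++ a, e ++ ((K.drop l).drop 1).flatten, ?_, ?_, ha1, ?_⟩
  · exact (nrm_le_rad (mem_pts_iff.2 ⟨a, ⟨e, he⟩, (zero_add _).symm⟩)).trans hc.2
  · rw [List.append_assoc, ← List.append_assoc a, he, ← List.flatten_append, List.take_append_drop,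
      ← List.flatten_append, List.take_append_drop]
  · simp
  · intro p hp
    rw [dep_append, List.mem_append] at hp
    rcases hp with hp | hp
    · have := (Dir.dep_flatten_lev (fun b hb => hK b (List.mem_of_mem_take hb)) hp).2
      simp only [Dir.neg_lev, Dir.lev_zero] at this hl0
      linarith
    · rw [disp_flatten, zero_add] at hp
      exact not_lt.1 (ha2 p hp)

/-- the first point below an averaged level is predicted by `T₀ + ball` -/
theorem ifail {D : Dir d} {F : FM D.neg} {hs : ℕ} {om : ℕ → ℝ} {Wd : ℕ} (h : F.Good hs om Wd)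
    {ρ c : ℕ} (hρ : 1 ≤ ρ) (θ : ℝ) (h0 : 0 ≤ θ) (h1 : θ ≤ c * ρ) (T₀ : Finset (V d)) (M₀ : ℕ) :
    av ρ (fun κ => F.Ex ((c + 2) * ρ) fun K =>
      ind (¬ ∃ v ∈ Finset.image₂ (· + ·) T₀ (ball d M₀), D.FPt (-θ - κ) 0 K.flatten v)) ≤
      2 * (c + 2) * (om M₀ + hs * EE (avp F.law ((c + 2) * ρ)) fun v => ind (v ∉ T₀)) := by
  set N := (c + 2) * ρ with hN
  have hρp : (0 : ℝ) < ρ := by exact_mod_cast hρ
  have hNr : (N : ℝ) = (c + 2) * ρ := by rw [hN]; push_cast; ring
  have hNp : (0 : ℝ) < N := by rw [hNr]; positivity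
  rw [← F.Ex_av]
  have step1 : ∀ K, F.Ok N K → av ρ (fun κ =>
      ind (¬ ∃ v ∈ Finset.image₂ (· + ·) T₀ (ball d M₀), D.FPt (-θ - κ) 0 K.flatten v)) ≤
      ∑ l ∈ Finset.range N, 2 / ρ * (D.neg.lev (sumd ((K.drop l).take 1)) *
        (ind (sumd (K.take l) ∉ T₀) + ind (M₀ < rad ((K.drop l).take 1).flatten))) := by
    intro K hK
    refine (av_mono fun κ hκ => ?_).trans ((av_sum ρ (Finset.range N) fun l κ =>
      ind (D.neg.lev (sumd (K.take l)) ≤ θ + κ ∧
          θ + κ < D.neg.lev (sumd (K.take l)) + D.neg.lev (sumd ((K.drop l).take 1))) *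
        (ind (sumd (K.take l) ∉ T₀) + ind (M₀ < rad ((K.drop l).take 1).flatten))).le.trans ?_)
    · have hκ' : (κ : ℝ) < ρ := by exact_mod_cast hκ
      have := ifail_pt hK.blk (θ + κ) (by positivity) (by rw [hK.1, hNr]; nlinarith) T₀ M₀
      rw [hK.1, neg_add'] at this
      exact this
    · refine Finset.sum_le_sum fun l hl => ?_
      have hl' := Finset.mem_range.1 hl
      have hH : (1 : ℝ) ≤ D.neg.lev (sumd ((K.drop l).take 1)) := by
        have := Dir.length_le_lev (D := D.neg) (L := (K.drop l).take 1)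
          (fun b hb => hK.blk b (List.mem_of_mem_drop (List.mem_of_mem_take hb)))
        rw [List.length_take, List.length_drop, hK.1, min_eq_left (by omega)] at this
        exact_mod_cast this
      have hc := (ifail_count (D.neg.lev (sumd (K.take l))) θ _ (by linarith : (0 : ℝ) ≤
        D.neg.lev (sumd ((K.drop l).take 1))) ρ).2
      have hi : 0 ≤ ind (sumd (K.take l) ∉ T₀) + ind (M₀ < rad ((K.drop l).take 1).flatten) :=
        add_nonneg (ind_nonneg _) (ind_nonneg _)
      unfold av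
      rw [← Finset.sum_mul, div_le_iff₀ hρp]
      refine (mul_le_mul_of_nonneg_right (hc.trans (by linarith :
        _ ≤ 2 * D.neg.lev (sumd ((K.drop l).take 1)))) hi).trans (le_of_eq ?_)
      field_simp
  refine (F.Ex_mono step1).trans ?_
  rw [F.Ex_sum]
  have step2 : ∀ l ∈ Finset.range N, F.Ex N (fun K => 2 / ρ * (D.neg.lev (sumd ((K.drop l).take 1)) *
        (ind (sumd (K.take l) ∉ T₀) + ind (M₀ < rad ((K.drop l).take 1).flatten)))) ≤
      2 / ρ * (om M₀ + hs * EE (F.law ^ l) fun v => ind (v ∉ T₀)) := by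
    intro l hl
    have hl' := Finset.mem_range.1 hl
    rw [F.Ex_mul_left]
    refine mul_le_mul_of_nonneg_left ?_ (by positivity)
    rw [F.Ex_split hl'.le (fun L₁ L₂ => D.neg.lev (sumd (L₂.take 1)) *
      (ind (sumd L₁ ∉ T₀) + ind (M₀ < rad (L₂.take 1).flatten))), ← F.Ex_law, ← F.Ex_mul_left,
      ← F.Ex_const l (om M₀), ← F.Ex_add]
    refine F.Ex_mono fun L₁ _ => ?_
    rw [F.Ex_take (by omega : 1 ≤ N - l) (fun L₂ => D.neg.lev (sumd L₂) *
      (ind (sumd L₁ ∉ T₀) + ind (M₀ < rad L₂.flatten))), F.Ex_one]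
    have e : ∑ b ∈ F.S, F.ν b * (D.neg.lev (sumd [b]) *
        (ind (sumd L₁ ∉ T₀) + ind (M₀ < rad [b].flatten))) =
        ∑ b ∈ F.S, F.ν b * (ind (M₀ < rad b) * D.neg.H b) + F.h * ind (sumd L₁ ∉ T₀) := by
      rw [FM.h, Finset.sum_mul, ← Finset.sum_add_distrib]
      refine Finset.sum_congr rfl fun b _ => ?_
      simp only [sumd_cons, sumd_nil, add_zero, List.flatten_cons, List.flatten_nil,
        List.append_nil, Dir.H]
      ring
    rw [e]
    exact add_le_add (h.om_le M₀) (mul_le_mul_of_nonneg_right h.h_le (ind_nonneg _))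
  refine (Finset.sum_le_sum step2).trans (le_of_eq ?_)
  rw [EE_avp, ← Finset.mul_sum, Finset.sum_add_distrib, ← Finset.mul_sum, Finset.sum_const,
    Finset.card_range, nsmul_eq_mul]
  unfold av
  rw [hNr]
  field_simp

end Vale.Agent.P147
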