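import Vale.Agent.P147.CWl
import Vale.Agent.P147.CEnt2
import Vale.Agent.P147.CI
import Vale.Agent.P147.CH
import Vale.Agent.P147.CG2

open Filter Topology

namespace Vale.Agent.P147

variable {d : ℕ}

/-- parameters of the multiscale argument -/
structure Par where
  hs : ℕ
  k' : ℕ
  q₀ : ℕ
  M₀ : ℕ
  Mx : ℕ
  s₀ : ℝ
  η₀ : ℝ

namespace Par

variable (p : Par)

/-- number of windows per scale -/
def k : ℕ := 8 * p.hs * p.k'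
/-- upper block index of scale `q` -/
def M (q : ℕ) : ℕ := p.k * 2 ^ q
/-- slab constant -/
def Cc : ℕ := 8 * p.hs
/-- entropy time -/
def tt (q : ℕ) : ℕ := p.k' * 2 ^ q
/-- base index of the first region -/
def b₀ : ℕ := p.M (p.q₀ + 1) + 2 ^ p.q₀
/-- radius of the first region -/
def R₀ : ℕ := p.b₀ * p.Mx
/-- bound for the failure of the first-point predictor -/
noncomputable def al : ℝ → ℝ := fun o => 2 * (p.Cc + 2) *
  (o + 100 * p.hs * ((4 * (p.Cc + 2) + 2) / p.s₀ + 8 * (p.Cc + 2) / (p.k' * p.η₀)))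
/-- threshold at the top scale -/
noncomputable def stop : ℝ := 1 + 100 * (34 * p.hs * p.s₀ / p.η₀)
/-- height bound -/
def C₂ (J : ℕ) : ℕ := 5 * p.hs * p.M (J + 1)
/-- number of relevant lower blocks -/
def n₁ (J : ℕ) : ℕ := p.C₂ J + 1
/-- number of upper blocks -/
def np (J n : ℕ) : ℕ := p.M (J + 1) + n + 2 * 2 ^ J

variable {D : Dir d} (Fp : FM D) (Fm : FM D.neg)

/-- lower block index of scale `q` -/
noncomputable def A (q : ℕ) : ℕ := ⌊Fp.h / Fm.h * (p.k * 2 ^ q)⌋₊ - 3 * 2 ^ q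
/-- offset of window `j` -/
noncomputable def io (q j : ℕ) : ℕ := ⌊Fp.h / Fm.h * (j * 2 ^ q)⌋₊
/-- entropy increment -/
noncomputable def aa (q : ℕ) : ℝ :=
  ent ((Fp.law * Fm.law) ^ (2 * p.tt q)) - ent ((Fp.law * Fm.law) ^ p.tt q)
/-- threshold -/
noncomputable def ss (q : ℕ) : ℝ := max p.s₀ (p.η₀ * p.aa Fp Fm q)
/-- law of the free displacement -/
noncomputable def pi (q : ℕ) : Di d :=
  Fp.law ^ p.M q * Fm.law ^ (p.A Fp Fm (q + 1) - p.A Fp Fm q) * avp Fm.law (2 ^ (q + 1))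
open Classical in
/-- quantile of the free law -/
noncomputable def th (q : ℕ) : ℝ := Classical.epsilon fun θ : ℝ => 0 < θ ∧
  EE (p.pi Fp Fm q) (fun z => ind (θ < (p.pi Fp Fm q).coeff z)) ≤ 1 / 100 ∧
  1 / 100 ≤ EE (p.pi Fp Fm q) fun z => ind (θ ≤ (p.pi Fp Fm q).coeff z)
/-- heavy points -/
noncomputable def T₀ (q : ℕ) : Finset (V d) :=
  (avp Fm.law ((p.Cc + 2) * 2 ^ (q + 1))).coeff.support.filter fun v =>
    p.th Fp Fm q * Real.exp (-p.ss Fp Fm q) < (avp Fm.law ((p.Cc + 2) * 2 ^ (q + 1))).coeff v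
/-- predictor set -/
noncomputable def TT (q : ℕ) : Finset (V d) := Finset.image₂ (· + ·) (p.T₀ Fp Fm q) (ball d p.M₀)
/-- frozen displacement -/
noncomputable def x0 (q : ℕ) (L K : List (Pa d)) : V d :=
  sumd (L.take (p.M q)) + sumd (K.take (p.A Fp Fm q))
/-- free displacement -/
noncomputable def zz (q κ : ℕ) (L K : List (Pa d)) : V d :=
  sumd ((L.drop (p.M q)).take (p.M q)) +
    sumd ((K.drop (p.A Fp Fm q)).take (p.A Fp Fm (q + 1) - p.A Fp Fm q + κ))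
/-- start of the lower path seen from the base of window `j` -/
noncomputable def yy (q j : ℕ) (x : V d) (L₂ K₂ : List (Pa d)) : V d :=
  x + sumd (L₂.take (j * 2 ^ (q + 1) + 2 * 2 ^ (q + 1))) + sumd (K₂.take (io Fp Fm (q + 1) j))
/-- the shift predictor -/
def II (q : ℕ) (s : ℝ) (u : ℕ) (z U : V d) : Prop :=
  (p.pi Fp Fm q).coeff z ≤ Real.exp s * (p.pi Fp Fm q * Fp.law ^ u).coeff (z + U)
/-- one of the two predictors works in window `j` -/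
def Pr (q j κ₁ : ℕ) (x z : V d) (L₂ K₂ : List (Pa d)) : Prop :=
  p.II Fp Fm q (p.ss Fp Fm q) (2 * 2 ^ (q + 1)) z
      (sumd ((L₂.drop (j * 2 ^ (q + 1))).take (2 * 2 ^ (q + 1)))) ∨
    ∃ v ∈ p.TT Fp Fm q, D.FPt (-D.lev (yy Fp Fm q j (x + z) L₂ K₂) - κ₁) 0
      ((K₂.drop (io Fp Fm (q + 1) j)).take ((p.Cc + 2) * 2 ^ (q + 1))).flatten v
/-- the level of the lower start is in range -/
def Rg (q j : ℕ) (x : V d) (L₂ K₂ : List (Pa d)) : Prop :=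
  0 ≤ D.lev (yy Fp Fm q j x L₂ K₂) ∧ D.lev (yy Fp Fm q j x L₂ K₂) ≤ (p.Cc * 2 ^ (q + 1) : ℕ)
/-- predictor event -/
def Wev (q κ₁ : ℕ) (x z : V d) (L₂ K₂ : List (Pa d)) : Prop :=
  (p.pi Fp Fm q).coeff z ≤ p.th Fp Fm q ∧
    ∀ j < p.k, p.Rg Fp Fm q j (x + z) L₂ K₂ → p.Pr Fp Fm q j κ₁ x z L₂ K₂
/-- alignment event -/
def Hard (q : ℕ) (L K : List (Pa d)) : Prop :=
  Fp.Al L (p.M (q + 2)) (p.M (q + 2)) ((2 ^ (q + 2) : ℕ) / 8) ∧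
    Fm.Al K (p.A Fp Fm (q + 2)) (p.A Fp Fm (q + 3) - p.A Fp Fm (q + 2)) ((2 ^ (q + 2) : ℕ) / 8) ∧
    ∀ b ∈ (K.take (p.A Fp Fm (q + 3))).drop (p.A Fp Fm (q + 1)), D.neg.H b ≤ (2 ^ (q + 1) : ℕ)
/-- weight of scale `q + 1` -/
noncomputable def Wt (q : ℕ) (L K : List (Pa d)) : ℝ :=
  ind (p.Hard Fp Fm q L K) * av (2 ^ (q + 1)) fun κ => av (2 ^ (q + 1)) fun κ₁ =>
    ind (p.Wev Fp Fm q κ₁ (p.x0 Fp Fm q L K) (p.zz Fp Fm q κ L K) (L.drop (p.M (q + 1)))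
      (K.drop (p.A Fp Fm (q + 1) + κ)))
/-- initial event -/
def W0 (L K : List (Pa d)) : Prop :=
  nrm (sumd (L.take p.b₀)) ≤ p.R₀ ∧ Fp.Al L 0 (p.M (p.q₀ + 2)) ((2 ^ (p.q₀ + 2) : ℕ) / 8) ∧
    Fm.Al K 0 (p.A Fp Fm (p.q₀ + 2)) ((2 ^ (p.q₀ + 2) : ℕ) / 8) ∧
    ∀ b ∈ K.take (p.A Fp Fm (p.q₀ + 2)), D.neg.H b ≤ (2 ^ p.q₀ : ℕ)
/-- cumulative weight -/
noncomputable def g : ℕ → List (Pa d) → List (Pa d) → ℝ
  | 0, _, _ => 1
  | 1, L, K => ind (p.W0 Fp Fm L K)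
  | n + 2, L, K => g (n + 1) L K * p.Wt Fp Fm (p.q₀ + n) L K
/-- hit in window `j` of scale `q + 1` -/
def HW (J n q j : ℕ) (x : V d) (L₂ K₂ : List (Pa d)) : Prop :=
  D.lev (sumd ((L₂.drop (j * 2 ^ (q + 1) + 2 * 2 ^ (q + 1))).take
      (p.M (J + 1) + n - (p.M (q + 1) + j * 2 ^ (q + 1) + 2 * 2 ^ (q + 1))))) ≤ p.C₂ J ∧
    D.KE ((L₂.drop (j * 2 ^ (q + 1) + 2 * 2 ^ (q + 1))).take
      (p.M (J + 1) + n - (p.M (q + 1) + j * 2 ^ (q + 1) + 2 * 2 ^ (q + 1))))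
      ((L₂.drop (j * 2 ^ (q + 1))).take (2 * 2 ^ (q + 1))) (yy Fp Fm q j x L₂ K₂)
      ((K₂.drop (io Fp Fm (q + 1) j)).take (p.n₁ J)) (p.Cc * 2 ^ (q + 1) : ℕ)
/-- hit in the first region -/
def H0 (D : Dir d) (J n : ℕ) (L K : List (Pa d)) : Prop :=
  D.lev (sumd ((L.drop p.b₀).take (p.M (J + 1) + n - p.b₀))) ≤ p.C₂ J ∧
    D.KE ((L.drop p.b₀).take (p.M (J + 1) + n - p.b₀)) (L.take p.b₀) (sumd (L.take p.b₀))
      (K.take (p.n₁ J)) (d * p.R₀ : ℕ)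
/-- hit below the windows -/
def HT (D : Dir d) (J : ℕ) (x : V d) (L₂ K₂ : List (Pa d)) : Prop :=
  D.TE L₂ (x + sumd L₂) (K₂.take (p.n₁ J)) (2 ^ J : ℕ)
/-- alignment at the top scale -/
def HardT (J n : ℕ) (L K : List (Pa d)) : Prop :=
  Fp.Al L (p.M (J + 1)) (n + 2 * 2 ^ J) ((2 ^ J : ℕ) / 8) ∧
    ∀ b ∈ K.drop (p.A Fp Fm J), D.neg.H b ≤ (2 ^ J : ℕ)
/-- mean weight -/
noncomputable def S (J n r : ℕ) : ℝ := E2 Fp Fm (p.np J n) (2 * p.n₁ J) (p.g Fp Fm r)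

/-- arithmetic context -/
structure Ar : Prop where
  hs1 : 1 ≤ p.hs
  k2 : 2 * p.hs ≤ p.k'
  hp : Fp.h ≤ p.hs
  hm : Fm.h ≤ p.hs

/-- full context -/
structure Ctx (om : ℕ → ℝ) (Wd : ℕ) : Prop where
  ar : p.Ar Fp Fm
  eta : 0 < p.η₀
  s4 : 4 ≤ p.s₀
  gp : Fp.Good p.hs om Wd
  gm : Fm.Good p.hs om Wd
  cp : Fp.Conc (30 * p.hs * p.k) (2 ^ p.q₀) (1 / 200)
  cm : Fm.Conc (30 * p.hs * p.k) (2 ^ p.q₀) (1 / 200)
  alpha : 64 * p.hs / p.η₀ * p.al (om p.M₀) ≤ 1 / 100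
  far : p.b₀ * om p.Mx ≤ 1 / 200

end Par

end Vale.Agent.P147
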