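import Vale.Agent.P147.Path

open Filter Topology

namespace Vale.Agent.P147

variable {d : ℕ}

theorem EE_eq_sum (f : Di d) (φ : V d → ℝ) {s : Finset (V d)} (h : f.coeff.support ⊆ s) :
    EE f φ = ∑ z ∈ s, f.coeff z * φ z := Finsupp.sum_of_support_subset _ h _ (fun _ _ => zero_mul _)
theorem EE_zero (φ : V d → ℝ) : EE (0 : Di d) φ = 0 := by simp [EE]
theorem EE_one (φ : V d → ℝ) : EE (1 : Di d) φ = φ 0 := by simp [EE, AddMonoidAlgebra.one_def]
theorem EE_single (z : V d) (r : ℝ) (φ : V d → ℝ) :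
    EE (AddMonoidAlgebra.single z r : Di d) φ = r * φ z := by simp [EE]
theorem EE_add_left (f g : Di d) (φ : V d → ℝ) : EE (f + g) φ = EE f φ + EE g φ := by
  unfold EE
  rw [AddMonoidAlgebra.coeff_add]
  exact Finsupp.sum_add_index' (fun _ => zero_mul _) (fun _ _ _ => add_mul _ _ _)
theorem EE_smul_left (c : ℝ) (f : Di d) (φ : V d → ℝ) : EE (c • f) φ = c * EE f φ := by
  rw [EE_eq_sum (c • f) φ (s := f.coeff.support)
    (by rw [AddMonoidAlgebra.coeff_smul]; exact Finsupp.support_smul),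
    EE_eq_sum f φ subset_rfl, Finset.mul_sum]
  refine Finset.sum_congr rfl fun z _ => ?_
  rw [AddMonoidAlgebra.coeff_smul_apply, smul_eq_mul, mul_assoc]
theorem EE_sum_left {ι : Type} (s : Finset ι) (f : ι → Di d) (φ : V d → ℝ) :
    EE (∑ i ∈ s, f i) φ = ∑ i ∈ s, EE (f i) φ := by
  classical
  induction s using Finset.induction_on with
  | empty => simp [EE_zero]
  | insert a s ha ih => rw [Finset.sum_insert ha, Finset.sum_insert ha, EE_add_left, ih]
theorem EE_mul (f g : Di d) (φ : V d → ℝ) :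
    EE (f * g) φ = EE f fun z => EE g fun u => φ (z + u) := by
  rw [AddMonoidAlgebra.mul_def]
  simp only [Finsupp.sum, EE_sum_left, EE_single]
  simp only [EE, Finsupp.sum, Finset.mul_sum, mul_assoc]
theorem EE_comm (f g : Di d) (φ : V d → V d → ℝ) :
    EE f (fun z => EE g fun u => φ z u) = EE g fun u => EE f fun z => φ z u := by
  simp only [EE, Finsupp.sum, Finset.mul_sum]
  rw [Finset.sum_comm]
  exact Finset.sum_congr rfl fun _ _ => Finset.sum_congr rfl fun _ _ => by ring
theorem EE_add (f : Di d) (φ ψ : V d → ℝ) :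
    EE f (fun z => φ z + ψ z) = EE f φ + EE f ψ := by
  simp only [EE, Finsupp.sum, mul_add, Finset.sum_add_distrib]
theorem EE_sub (f : Di d) (φ ψ : V d → ℝ) :
    EE f (fun z => φ z - ψ z) = EE f φ - EE f ψ := by
  simp only [EE, Finsupp.sum, mul_sub, Finset.sum_sub_distrib]
theorem EE_mul_left (f : Di d) (c : ℝ) (φ : V d → ℝ) :
    EE f (fun z => c * φ z) = c * EE f φ := by
  simp only [EE, Finsupp.sum, Finset.mul_sum]
  exact Finset.sum_congr rfl fun _ _ => by ring
theorem EE_mul_right (f : Di d) (c : ℝ) (φ : V d → ℝ) :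
    EE f (fun z => φ z * c) = EE f φ * c := by
  simp only [EE, Finsupp.sum, Finset.sum_mul, mul_assoc]
theorem EE_sum {ι : Type} (f : Di d) (s : Finset ι) (φ : ι → V d → ℝ) :
    EE f (fun z => ∑ i ∈ s, φ i z) = ∑ i ∈ s, EE f (φ i) := by
  simp only [EE, Finsupp.sum, Finset.mul_sum]
  exact Finset.sum_comm
theorem EE_av (f : Di d) (n : ℕ) (φ : ℕ → V d → ℝ) :
    EE f (fun z => av n fun i => φ i z) = av n fun i => EE f (φ i) := by
  simp only [av, div_eq_mul_inv]
  rw [EE_mul_right, EE_sum]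
theorem EE_avp (ν : Di d) (n : ℕ) (φ : V d → ℝ) :
    EE (avp ν n) φ = av n fun j => EE (ν ^ j) φ := by
  rw [avp, EE_smul_left, EE_sum_left, av]
  ring
theorem EE_congr {f : Di d} {φ ψ : V d → ℝ} (h : ∀ z, f.coeff z ≠ 0 → φ z = ψ z) :
    EE f φ = EE f ψ := by
  simp only [EE, Finsupp.sum]
  exact Finset.sum_congr rfl fun z hz => by rw [h z (Finsupp.mem_support_iff.1 hz)]
theorem coeff_eq_EE (f : Di d) (x : V d) : f.coeff x = EE f fun z => ind (z = x) := by
  classical
  rw [EE_eq_sum f _ (s := insert x f.coeff.support) (Finset.subset_insert _ _),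
    Finset.sum_eq_single x]
  · rw [ind_pos rfl, mul_one]
  · intro z _ hz
    rw [ind_neg hz, mul_zero]
  · intro h
    exact absurd (Finset.mem_insert_self _ _) h
theorem coeff_mul_eq (f g : Di d) (x : V d) :
    (f * g).coeff x = EE g fun u => f.coeff (x - u) := by
  rw [coeff_eq_EE, EE_mul, EE_comm]
  refine EE_congr fun u _ => ?_
  rw [coeff_eq_EE f (x - u)]
  simp only [eq_sub_iff_add_eq]

namespace IsP

variable {f g : Di d}

theorem mono (hf : IsP f) {φ ψ : V d → ℝ} (h : ∀ z, f.coeff z ≠ 0 → φ z ≤ ψ z) :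
    EE f φ ≤ EE f ψ := by
  simp only [EE, Finsupp.sum]
  exact Finset.sum_le_sum fun z hz =>
    mul_le_mul_of_nonneg_left (h z (Finsupp.mem_support_iff.1 hz)) (hf.1 z)
theorem const (hf : IsP f) (c : ℝ) : EE f (fun _ => c) = c := by
  have := EE_mul_left f c fun _ => 1
  rw [hf.2] at this
  simpa using this
theorem le_const (hf : IsP f) {φ : V d → ℝ} {c : ℝ} (h : ∀ z, f.coeff z ≠ 0 → φ z ≤ c) :
    EE f φ ≤ c := (hf.mono h).trans (hf.const c).le
theorem nonneg (hf : IsP f) {φ : V d → ℝ} (h : ∀ z, f.coeff z ≠ 0 → 0 ≤ φ z) :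
    0 ≤ EE f φ := (hf.const 0).ge.trans (hf.mono h)
theorem one : IsP (1 : Di d) := by
  refine ⟨fun z => ?_, EE_one _⟩
  rw [coeff_eq_EE, EE_one]
  exact ind_nonneg _
theorem mul (hf : IsP f) (hg : IsP g) : IsP (f * g) := by
  refine ⟨fun z => ?_, ?_⟩
  · rw [coeff_mul_eq]
    exact hg.nonneg fun u _ => hf.1 _
  · rw [EE_mul]
    simp only [hg.2]
    exact hf.2
theorem pow (hf : IsP f) (n : ℕ) : IsP (f ^ n) := by
  induction n with
  | zero => simpa using one
  | succ n ih => rw [pow_succ]; exact ih.mul hf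
theorem avp (hf : IsP f) {n : ℕ} (hn : 1 ≤ n) : IsP (avp f n) := by
  refine ⟨fun z => ?_, ?_⟩
  · rw [coeff_eq_EE, EE_avp]
    exact div_nonneg (Finset.sum_nonneg fun j _ => (hf.pow j).nonneg fun _ _ => ind_nonneg _)
      (Nat.cast_nonneg _)
  · rw [EE_avp]
    have : (n : ℝ) ≠ 0 := by exact_mod_cast (by omega : n ≠ 0)
    simp [av, (hf.pow _).2, this]
theorem coeff_le_one (hf : IsP f) (z : V d) : f.coeff z ≤ 1 := by
  rw [coeff_eq_EE]
  exact hf.le_const fun _ _ => ind_le_one _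
theorem sum_le_one (hf : IsP f) (s : Finset (V d)) : ∑ z ∈ s, f.coeff z ≤ 1 := by
  classical
  have h := hf.2
  rw [EE_eq_sum f _ (s := s ∪ f.coeff.support) Finset.subset_union_right] at h
  simp only [mul_one] at h
  rw [← h]
  exact Finset.sum_le_sum_of_subset_of_nonneg Finset.subset_union_left fun z _ _ => hf.1 z
theorem sum_shift_le_one (hf : IsP f) (s : Finset (V d)) (u : V d) :
    ∑ z ∈ s, f.coeff (z + u) ≤ 1 := by
  classical
  have := hf.sum_le_one (s.image fun z => z + u)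
  rwa [Finset.sum_image fun a _ b _ h => add_right_cancel h] at this
theorem le_coeff_mul (hf : IsP f) (hg : IsP g) (z u : V d) :
    f.coeff z * g.coeff u ≤ (f * g).coeff (z + u) := by
  classical
  rw [coeff_mul_eq, EE_eq_sum g _ (s := insert u g.coeff.support) (Finset.subset_insert _ _)]
  have := Finset.single_le_sum (f := fun v => g.coeff v * f.coeff (z + u - v))
    (s := insert u g.coeff.support) (fun v _ => mul_nonneg (hg.1 _) (hf.1 _))
    (Finset.mem_insert_self _ _)
  simpa [mul_comm] using this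

end IsP

/-- support inside a ball -/
def Supp (f : Di d) (r : ℕ) : Prop := ∀ z, f.coeff z ≠ 0 → nrm z ≤ r

theorem Supp.mono {f : Di d} {r r' : ℕ} (h : Supp f r) (hr : r ≤ r') : Supp f r' := fun z hz => (h z hz).trans hr
theorem Supp.mul {f g : Di d} {r r' : ℕ} (h : Supp f r) (h' : Supp g r') :
    Supp (f * g) (r + r') := by
  intro x hx
  by_contra hc
  apply hx
  rw [coeff_mul_eq, EE_congr (ψ := fun _ => 0)]
  · simp [EE]
  · intro u hu
    by_contra h1
    have h2 := nrm_add_le (x - u) u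
    have h3 := h _ h1
    have h4 := h' _ hu
    rw [sub_add_cancel] at h2
    omega
theorem Supp.pow {f : Di d} {r : ℕ} (h : Supp f r) (n : ℕ) : Supp (f ^ n) (n * r) := by
  induction n with
  | zero =>
    intro z hz
    rw [pow_zero, coeff_eq_EE, EE_one] at hz
    by_cases h0 : (0 : V d) = z
    · rw [← h0, nrm_zero]; omega
    · exact absurd (ind_neg h0) hz
  | succ n ih => rw [pow_succ, Nat.succ_mul]; exact ih.mul h
theorem Supp.avp {f : Di d} {r : ℕ} (h : Supp f r) (n : ℕ) : Supp (avp f n) (n * r) := by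
  intro z hz
  by_contra hc
  apply hz
  rw [Vale.Agent.P147.avp, AddMonoidAlgebra.coeff_smul_apply, AddMonoidAlgebra.coeff_sum,
    Finsupp.finsetSum_apply, Finset.sum_eq_zero, smul_zero]
  intro j hj
  by_contra h1
  have h2 := h.pow j z h1
  have h3 := Nat.mul_le_mul_right r (Finset.mem_range.1 hj).le
  omega

theorem av_mono {n : ℕ} {f g : ℕ → ℝ} (h : ∀ i < n, f i ≤ g i) : av n f ≤ av n g :=
  div_le_div_of_nonneg_right (Finset.sum_le_sum fun i hi => h i (Finset.mem_range.1 hi))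
    (Nat.cast_nonneg _)
theorem av_congr {n : ℕ} {f g : ℕ → ℝ} (h : ∀ i < n, f i = g i) : av n f = av n g := by
  unfold av
  rw [Finset.sum_congr rfl fun i hi => h i (Finset.mem_range.1 hi)]
theorem av_const {n : ℕ} (hn : 1 ≤ n) (c : ℝ) : av n (fun _ => c) = c := by
  have : (n : ℝ) ≠ 0 := by exact_mod_cast (by omega : n ≠ 0)
  simp [av, this]
theorem av_le_const {n : ℕ} (hn : 1 ≤ n) {f : ℕ → ℝ} {c : ℝ} (h : ∀ i < n, f i ≤ c) :
    av n f ≤ c := (av_mono h).trans (av_const hn c).le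
theorem av_nonneg {n : ℕ} {f : ℕ → ℝ} (h : ∀ i < n, 0 ≤ f i) : 0 ≤ av n f :=
  div_nonneg (Finset.sum_nonneg fun i hi => h i (Finset.mem_range.1 hi)) (Nat.cast_nonneg _)
theorem av_add (n : ℕ) (f g : ℕ → ℝ) : av n (fun i => f i + g i) = av n f + av n g := by
  simp only [av, Finset.sum_add_distrib, add_div]
theorem av_sub (n : ℕ) (f g : ℕ → ℝ) : av n (fun i => f i - g i) = av n f - av n g := by
  simp only [av, Finset.sum_sub_distrib, sub_div]
theorem av_mul_left (n : ℕ) (c : ℝ) (f : ℕ → ℝ) : av n (fun i => c * f i) = c * av n f := by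
  simp only [av, ← Finset.mul_sum, mul_div_assoc]
theorem av_sum {ι : Type} (n : ℕ) (s : Finset ι) (f : ι → ℕ → ℝ) :
    av n (fun i => ∑ j ∈ s, f j i) = ∑ j ∈ s, av n (f j) := by
  simp only [av, ← Finset.sum_div]
  rw [Finset.sum_comm]
theorem av_comm (n m : ℕ) (f : ℕ → ℕ → ℝ) :
    av n (fun i => av m fun j => f i j) = av m fun j => av n fun i => f i j := by
  simp only [av, ← Finset.sum_div]
  rw [Finset.sum_comm, div_right_comm]

end Vale.Agent.P147
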