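import Vale.Agent.P147.CEE

open Filter Topology

namespace Vale.Agent.P147

variable {d : ℕ}

theorem IsP.pos {f : Di d} (hf : IsP f) {z : V d} (h : f.coeff z ≠ 0) : 0 < f.coeff z :=
  lt_of_le_of_ne (hf.1 z) (Ne.symm h)

theorem EE_div_self (f : Di d) (φ : V d → ℝ) :
    EE f (fun z => φ z / f.coeff z) = ∑ z ∈ f.coeff.support, φ z := by
  rw [EE_eq_sum f _ subset_rfl]
  refine Finset.sum_congr rfl fun z hz => ?_
  have := Finsupp.mem_support_iff.mp hz
  field_simp

theorem EE_ratio_le {f g q : Di d} (hg : IsP g) (hq : IsP q) :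
    EE f (fun z => EE g fun u => q.coeff (z + u) / f.coeff z) ≤ 1 := by
  rw [EE_comm]
  refine hg.le_const fun u _ => ?_
  rw [EE_div_self f fun z => q.coeff (z + u)]
  exact hq.sum_shift_le_one _ u

theorem log_gap {a b : ℝ} (ha : 0 < a) (hb : 0 < b) :
    0 ≤ Real.log a - Real.log b + (b / a - 1) := by
  have := Real.log_le_sub_one_of_pos (div_pos hb ha)
  rw [Real.log_div hb.ne' ha.ne'] at this
  linarith

theorem gibbs_aux {f g q : Di d} (hf : IsP f) (hg : IsP g) (hq : IsP q) {φ : V d → V d → ℝ}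
    (h : ∀ z u, f.coeff z ≠ 0 → g.coeff u ≠ 0 → φ z u ≤
      Real.log (f.coeff z) - Real.log (q.coeff (z + u)) + (q.coeff (z + u) / f.coeff z - 1)) :
    EE f (fun z => EE g fun u => φ z u) ≤
      EE f fun z => EE g fun u => Real.log (f.coeff z) - Real.log (q.coeff (z + u)) := by
  have h1 : EE f (fun z => EE g fun u => φ z u) ≤ EE f fun z => EE g fun u =>
      Real.log (f.coeff z) - Real.log (q.coeff (z + u)) + (q.coeff (z + u) / f.coeff z - 1) :=
    hf.mono fun z hz => hg.mono fun u hu => h z u hz hu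
  have h2 : (EE f fun z => EE g fun u =>
      Real.log (f.coeff z) - Real.log (q.coeff (z + u)) + (q.coeff (z + u) / f.coeff z - 1)) =
      (EE f fun z => EE g fun u => Real.log (f.coeff z) - Real.log (q.coeff (z + u))) +
        ((EE f fun z => EE g fun u => q.coeff (z + u) / f.coeff z) - 1) := by
    rw [← hf.const 1, ← EE_sub, ← EE_add]
    refine EE_congr fun z _ => ?_
    rw [hf.const 1, EE_add, EE_sub g (fun u => q.coeff (z + u) / f.coeff z), hg.const]
  have h3 := EE_ratio_le (f := f) hg hq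
  linarith

/-- tail form of the Gibbs inequality -/
theorem gibbs_tail {f g q : Di d} (hf : IsP f) (hg : IsP g) (hq : IsP q)
    (hpos : ∀ z u, f.coeff z ≠ 0 → g.coeff u ≠ 0 → 0 < q.coeff (z + u)) {s : ℝ} (hs : 1 < s) :
    EE f (fun z => EE g fun u => ind (¬ f.coeff z ≤ Real.exp s * q.coeff (z + u))) ≤
      (EE f fun z => EE g fun u => Real.log (f.coeff z) - Real.log (q.coeff (z + u))) /
        (s - 1) := by
  rw [le_div_iff₀ (by linarith), ← EE_mul_right]
  have e : (EE f fun z => (EE g fun u =>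
      ind (¬ f.coeff z ≤ Real.exp s * q.coeff (z + u))) * (s - 1)) = EE f fun z => EE g fun u =>
      ind (¬ f.coeff z ≤ Real.exp s * q.coeff (z + u)) * (s - 1) :=
    EE_congr fun z _ => (EE_mul_right _ _ _).symm
  rw [e]
  refine gibbs_aux hf hg hq fun z u hz hu => ?_
  have ha := hf.pos hz
  have hb := hpos z u hz hu
  by_cases hc : f.coeff z ≤ Real.exp s * q.coeff (z + u)
  · rw [ind_neg (not_not.mpr hc), zero_mul]
    exact log_gap ha hb
  · rw [ind_pos hc, one_mul]
    have h1 := Real.log_le_log (by positivity) (not_le.mp hc).le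
    rw [Real.log_mul (Real.exp_pos s).ne' hb.ne', Real.log_exp] at h1
    have := div_pos hb ha
    linarith

theorem ent_diff {f g : Di d} (hg : IsP g) :
    (EE f fun z => EE g fun u => Real.log (f.coeff z) - Real.log ((f * g).coeff (z + u))) =
      ent (f * g) - ent f := by
  unfold ent
  rw [EE_mul, ← EE_sub]
  refine EE_congr fun z _ => ?_
  rw [← hg.const (-Real.log (f.coeff z)), ← EE_sub]
  exact EE_congr fun u _ => by ring

theorem pos_mul_coeff {f g : Di d} (hf : IsP f) (hg : IsP g) (z u : V d) (hz : f.coeff z ≠ 0)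
    (hu : g.coeff u ≠ 0) : 0 < (f * g).coeff (z + u) :=
  lt_of_lt_of_le (mul_pos (hf.pos hz) (hg.pos hu)) (hf.le_coeff_mul hg z u)

theorem gibbs_tail_mul {f g : Di d} (hf : IsP f) (hg : IsP g) {s : ℝ} (hs : 1 < s) :
    EE f (fun z => EE g fun u => ind (¬ f.coeff z ≤ Real.exp s * (f * g).coeff (z + u))) ≤
      (ent (f * g) - ent f) / (s - 1) := by
  rw [← ent_diff hg]
  exact gibbs_tail hf hg (hf.mul hg) (pos_mul_coeff hf hg) hs

theorem ent_nonneg {f : Di d} (hf : IsP f) : 0 ≤ ent f :=
  hf.nonneg fun z _ => neg_nonneg.mpr (Real.log_nonpos (hf.1 z) (hf.coeff_le_one z))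

theorem ent_le_mul {f g : Di d} (hf : IsP f) (hg : IsP g) : ent f ≤ ent (f * g) := by
  have h := gibbs_aux hf hg (hf.mul hg) (φ := fun _ _ => 0) fun z u hz hu =>
    log_gap (hf.pos hz) (pos_mul_coeff hf hg z u hz hu)
  rw [ent_diff hg, hg.const, hf.const] at h
  linarith

theorem ent_le_log_card {f : Di d} (hf : IsP f) {r : ℕ} (h : Supp f r) :
    ent f ≤ d * Real.log (2 * r + 1) := by
  have hN : (0 : ℝ) < (2 * r + 1) ^ d := by positivity
  have h1 : ent f ≤ EE f fun z =>
      d * Real.log (2 * r + 1) - 1 + (((2 * r + 1 : ℝ) ^ d)⁻¹) / f.coeff z := by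
    refine hf.mono fun z hz => ?_
    have := log_gap (hf.pos hz) (inv_pos.mpr hN)
    rw [Real.log_inv, Real.log_pow] at this
    linarith
  rw [EE_add, hf.const, EE_div_self f fun _ => ((2 * r + 1 : ℝ) ^ d)⁻¹, Finset.sum_const,
    nsmul_eq_mul] at h1
  have h2 : f.coeff.support.card ≤ (2 * r + 1) ^ d := by
    rw [← card_ball]
    exact Finset.card_le_card fun z hz => mem_ball.mpr (h z (Finsupp.mem_support_iff.mp hz))
  have h3 : (f.coeff.support.card : ℝ) ≤ (2 * r + 1) ^ d := by exact_mod_cast h2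
  have h4 : (f.coeff.support.card : ℝ) * ((2 * r + 1 : ℝ) ^ d)⁻¹ ≤ 1 := by
    rw [← div_eq_mul_inv, div_le_one hN]; exact h3
  linarith

theorem sum_shift_le {φ : V d → ℝ} (h0 : ∀ s, 0 ≤ φ s) {T : Finset (V d)}
    (hT : ∀ s, s ∉ T → φ s = 0) (S : Finset (V d)) (w : V d) :
    ∑ z ∈ S, φ (w + z) ≤ ∑ s ∈ T, φ s := by
  classical
  rw [← Finset.sum_image (s := S) (g := fun z => w + z) (f := φ)
    fun a _ b _ e => add_left_cancel e]
  calc ∑ s ∈ S.image (fun z => w + z), φ s ≤ ∑ s ∈ S.image (fun z => w + z) ∪ T, φ s :=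
        Finset.sum_le_sum_of_subset_of_nonneg Finset.subset_union_left fun s _ _ => h0 s
    _ = ∑ s ∈ T, φ s :=
        (Finset.sum_subset Finset.subset_union_right fun s _ hs => hT s hs).symm

theorem submod_ratio {f g h : Di d} (hf : IsP f) (hg : IsP g) (hh : IsP h) :
    (EE f fun x => EE g fun y => EE h fun z =>
      ((f * h).coeff (x + z) * (g * h).coeff (y + z) / (f * g * h).coeff (x + y + z)) /
        h.coeff z) ≤ 1 := by
  have hA := hf.mul hh
  have hB := hg.mul hh
  have hC := (hf.mul hg).mul hh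
  have h1 : (EE f fun x => EE g fun y => EE h fun z =>
      ((f * h).coeff (x + z) * (g * h).coeff (y + z) / (f * g * h).coeff (x + y + z)) /
        h.coeff z) ≤ EE f fun x => EE g fun y => ∑ s ∈ (f * g * h).coeff.support,
          (f * h).coeff (s - y) * ((g * h).coeff (s - x) / (f * g * h).coeff s) := by
    refine hf.mono fun x _ => hg.mono fun y _ => ?_
    rw [EE_div_self h fun z =>
      (f * h).coeff (x + z) * (g * h).coeff (y + z) / (f * g * h).coeff (x + y + z)]
    refine le_trans (le_of_eq ?_) (sum_shift_le (φ := fun s =>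
      (f * h).coeff (s - y) * ((g * h).coeff (s - x) / (f * g * h).coeff s))
      (fun s => mul_nonneg (hA.1 _) (div_nonneg (hB.1 _) (hC.1 _))) (fun s hs => ?_)
      h.coeff.support (x + y))
    · refine Finset.sum_congr rfl fun z _ => ?_
      rw [show x + y + z - y = x + z by abel, show x + y + z - x = y + z by abel, mul_div_assoc]
    · rw [Finsupp.notMem_support_iff.mp hs, div_zero, mul_zero]
  refine h1.trans ?_
  have h2 : (EE f fun x => EE g fun y => ∑ s ∈ (f * g * h).coeff.support,
      (f * h).coeff (s - y) * ((g * h).coeff (s - x) / (f * g * h).coeff s)) =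
      ∑ s ∈ (f * g * h).coeff.support, (f * g * h).coeff s := by
    have e1 : ∀ x, (EE g fun y => ∑ s ∈ (f * g * h).coeff.support,
        (f * h).coeff (s - y) * ((g * h).coeff (s - x) / (f * g * h).coeff s)) =
        ∑ s ∈ (f * g * h).coeff.support, (g * h).coeff (s - x) := by
      intro x
      rw [EE_sum]
      refine Finset.sum_congr rfl fun s hs => ?_
      have hs' := Finsupp.mem_support_iff.mp hs
      rw [EE_mul_right, ← coeff_mul_eq, mul_right_comm f h g]
      field_simp
    simp only [e1]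
    rw [EE_sum]
    refine Finset.sum_congr rfl fun s _ => ?_
    rw [← coeff_mul_eq, mul_comm (g * h) f, mul_assoc]
  rw [h2]
  exact hC.sum_le_one _

/-- submodularity of the entropy of independent sums -/
theorem ent_submod {f g h : Di d} (hf : IsP f) (hg : IsP g) (hh : IsP h) :
    ent (f * g * h) + ent h ≤ ent (f * h) + ent (g * h) := by
  have e1 : ent (f * g * h) = EE f fun x => EE g fun y => EE h fun z =>
      -Real.log ((f * g * h).coeff (x + y + z)) := by
    unfold ent
    rw [EE_mul (f * g) h, EE_mul f g]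
  have e2 : ent h = EE f fun _ => EE g fun _ => EE h fun z => -Real.log (h.coeff z) := by
    rw [hf.const, hg.const]; rfl
  have e3 : ent (f * h) = EE f fun x => EE g fun _ => EE h fun z =>
      -Real.log ((f * h).coeff (x + z)) := by
    unfold ent
    rw [EE_mul f h]
    exact EE_congr fun x _ => (hg.const _).symm
  have e4 : ent (g * h) = EE f fun _ => EE g fun y => EE h fun z =>
      -Real.log ((g * h).coeff (y + z)) := by
    rw [hf.const]
    unfold ent
    rw [EE_mul g h]
  have e5 : (1 : ℝ) = EE f fun _ => EE g fun _ => EE h fun _ => 1 := by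
    rw [hf.const, hg.const, hh.const]
  have h1 := submod_ratio hf hg hh
  have h2 : ent (f * g * h) + ent h + 1 ≤ ent (f * h) + ent (g * h) +
      EE f fun x => EE g fun y => EE h fun z =>
        ((f * h).coeff (x + z) * (g * h).coeff (y + z) / (f * g * h).coeff (x + y + z)) /
          h.coeff z := by
    rw [e1, e2, e3, e4, e5]
    simp only [← EE_add]
    refine hf.mono fun x hx => hg.mono fun y hy => hh.mono fun z hz => ?_
    have p1 := pos_mul_coeff hf hh x z hx hz
    have p2 := pos_mul_coeff hg hh y z hy hz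
    have p3 := pos_mul_coeff (hf.mul hg) hh (x + y) z (pos_mul_coeff hf hg x y hx hy).ne' hz
    have p4 := hh.pos hz
    have := log_gap p4 (div_pos (mul_pos p1 p2) p3)
    rw [Real.log_div (mul_pos p1 p2).ne' p3.ne', Real.log_mul p1.ne' p2.ne'] at this
    linarith
  linarith

end Vale.Agent.P147
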