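import Vale.Agent.P147.Path

open MeasureTheory Filter Topology
open scoped ENNReal

namespace Vale.Agent.P147

variable {d : ℕ}

@[simp] theorem pre_length (s : ℕ → St d) (n : ℕ) : (pre s n).length = n := by simp [pre]
theorem pre_zero (s : ℕ → St d) : pre s 0 = [] := by simp [pre]
theorem pre_succ (s : ℕ → St d) (n : ℕ) : pre s (n + 1) = pre s n ++ [s n] := by
  simp [pre, List.range_succ]
theorem pos_zero (s : ℕ → St d) : pos s 0 = 0 := by simp [pos]
theorem pos_succ (s : ℕ → St d) (n : ℕ) : pos s (n + 1) = pos s n + stp (s n) := by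
  simp [pos, Finset.sum_range_succ]
theorem disp_pre (s : ℕ → St d) (n : ℕ) : disp (pre s n) = pos s n := by
  induction n with
  | zero => rw [pre_zero, pos_zero, disp_nil]
  | succ n ih => rw [pre_succ, pos_succ, disp_append, ih, disp_cons, disp_nil, add_zero]
theorem pos_add (s : ℕ → St d) (n m : ℕ) : pos s (n + m) = pos s n + pos (sh n s) m := by
  simp only [pos, sh, Finset.sum_range_add]
theorem pre_add (s : ℕ → St d) (n m : ℕ) : pre s (n + m) = pre s n ++ pre (sh n s) m := by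
  induction m with
  | zero => simp [pre_zero]
  | succ m ih => rw [← add_assoc, pre_succ, pre_succ, ih, List.append_assoc]; rfl
theorem sh_sh (s : ℕ → St d) (n m : ℕ) : sh m (sh n s) = sh (n + m) s := by
  funext i
  simp only [sh, add_assoc]
theorem pre_prefix (s : ℕ → St d) {n m : ℕ} (h : n ≤ m) : pre s n <+: pre s m := by
  obtain ⟨k, rfl⟩ := Nat.exists_eq_add_of_le h
  rw [pre_add]
  exact List.prefix_append _ _
theorem mem_dep_pre {s : ℕ → St d} {n : ℕ} {p : V d} :
    p ∈ dep 0 (pre s n) ↔ ∃ i < n, p = pos s i := by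
  induction n with
  | zero => simp [pre_zero, dep]
  | succ n ih =>
    rw [pre_succ, dep_append, List.mem_append, ih, zero_add, disp_pre]
    simp only [dep, List.mem_singleton]
    constructor
    · rintro (⟨i, hi, h⟩ | h)
      · exact ⟨i, by omega, h⟩
      · exact ⟨n, by omega, h⟩
    · rintro ⟨i, hi, h⟩
      rcases Nat.lt_succ_iff_lt_or_eq.mp hi with h' | rfl
      · exact Or.inl ⟨i, h', h⟩
      · exact Or.inr h
theorem mem_pts_pre {s : ℕ → St d} {n : ℕ} {p : V d} :
    p ∈ pts 0 (pre s n) ↔ ∃ i ≤ n, p = pos s i := by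
  rw [mem_pts, mem_dep_pre, zero_add, disp_pre]
  constructor
  · rintro (⟨i, hi, h⟩ | h)
    · exact ⟨i, hi.le, h⟩
    · exact ⟨n, le_rfl, h⟩
  · rintro ⟨i, hi, h⟩
    rcases hi.lt_or_eq with h' | rfl
    · exact Or.inl ⟨i, h', h⟩
    · exact Or.inr h
theorem mem_cyl_pre (s : ℕ → St d) (n : ℕ) : s ∈ cyl (pre s n) := by
  simp [cyl]
theorem mem_cyl_iff {s : ℕ → St d} {γ : Pa d} : s ∈ cyl γ ↔ ∃ n, γ = pre s n := by
  constructor
  · intro h
    exact ⟨γ.length, h.symm⟩
  · rintro ⟨n, rfl⟩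
    exact mem_cyl_pre s n
theorem mem_cyl_append {s : ℕ → St d} {a b : Pa d} :
    s ∈ cyl (a ++ b) ↔ s ∈ cyl a ∧ sh a.length s ∈ cyl b := by
  simp only [cyl, Set.mem_ofPred_eq, List.length_append, pre_add]
  constructor
  · intro h
    exact List.append_inj h (pre_length _ _)
  · rintro ⟨h1, h2⟩
    rw [h1, h2]
theorem cyl_nil : cyl ([] : Pa d) = Set.univ := by
  ext s
  simp [cyl, pre_zero]
theorem cyl_mono {a b : Pa d} (h : a <+: b) : cyl b ⊆ cyl a := by
  obtain ⟨c, rfl⟩ := h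
  exact fun s hs => (mem_cyl_append.mp hs).1
theorem prefix_of_mem_cyl {s : ℕ → St d} {a b : Pa d} (ha : s ∈ cyl a) (hb : s ∈ cyl b)
    (h : a.length ≤ b.length) : a <+: b := by
  have := pre_prefix s h
  rwa [ha, hb] at this
theorem prefix_or_of_mem_cyl {s : ℕ → St d} {a b : Pa d} (ha : s ∈ cyl a) (hb : s ∈ cyl b) :
    a <+: b ∨ b <+: a := by
  rcases le_total a.length b.length with h | h
  · exact Or.inl (prefix_of_mem_cyl ha hb h)
  · exact Or.inr (prefix_of_mem_cyl hb ha h)
theorem pos_of_mem_cyl {s : ℕ → St d} {γ : Pa d} (h : s ∈ cyl γ) : pos s γ.length = disp γ := by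
  rw [← disp_pre, h]
theorem measurableSet_pre_eq (n : ℕ) (γ : Pa d) :
    MeasurableSet {s : ℕ → St d | pre s n = γ} := by
  induction n generalizing γ with
  | zero =>
    simp only [pre_zero]
    exact MeasurableSet.const _
  | succ n ih =>
    have e : {s : ℕ → St d | pre s (n + 1) = γ} =
        ⋃ a : Pa d, ⋃ u : St d, {s : ℕ → St d | a ++ [u] = γ} ∩
          ({s : ℕ → St d | pre s n = a} ∩ (fun s : ℕ → St d => s n) ⁻¹' {u}) := by
      ext s
      simp only [Set.mem_ofPred_eq, Set.mem_iUnion, Set.mem_inter_iff, Set.mem_preimage,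
        Set.mem_singleton_iff, pre_succ]
      constructor
      · intro h
        exact ⟨_, _, h, rfl, rfl⟩
      · rintro ⟨a, u, h, rfl, rfl⟩
        exact h
    rw [e]
    refine MeasurableSet.iUnion fun a => MeasurableSet.iUnion fun u => ?_
    exact (MeasurableSet.const _).inter
      ((ih a).inter (measurable_pi_apply n (measurableSet_singleton u)))
theorem measurableSet_cyl (γ : Pa d) : MeasurableSet (cyl γ) := measurableSet_pre_eq _ γ
theorem measurable_sh (n : ℕ) : Measurable (sh n : (ℕ → St d) → ℕ → St d) :=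
  measurable_pi_lambda _ fun i => measurable_pi_apply (n + i)
theorem measurableSet_pre (n : ℕ) (Q : Pa d → Prop) :
    MeasurableSet {s : ℕ → St d | Q (pre s n)} := by
  have e : {s : ℕ → St d | Q (pre s n)} =
      ⋃ a : Pa d, {s : ℕ → St d | Q a} ∩ {s : ℕ → St d | pre s n = a} := by
    ext s
    simp only [Set.mem_ofPred_eq, Set.mem_iUnion, Set.mem_inter_iff]
    constructor
    · intro h
      exact ⟨_, h, rfl⟩
    · rintro ⟨a, h, rfl⟩
      exact h
  rw [e]
  exact MeasurableSet.iUnion fun a => (MeasurableSet.const _).inter (measurableSet_pre_eq n a)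
theorem measurableSet_pos (n : ℕ) (Q : V d → Prop) :
    MeasurableSet {s : ℕ → St d | Q (pos s n)} := by
  simpa only [disp_pre] using measurableSet_pre n fun γ : Pa d => Q (disp γ)

namespace Dir

variable (D : Dir d)

@[simp] theorem lev_zero : D.lev 0 = 0 := by simp [lev]
@[simp] theorem lev_add (x y : V d) : D.lev (x + y) = D.lev x + D.lev y := by
  simp [lev, mul_add, Finset.sum_add_distrib]
@[simp] theorem lev_neg (x : V d) : D.lev (-x) = -D.lev x := by
  simp [lev]
@[simp] theorem lev_sub (x y : V d) : D.lev (x - y) = D.lev x - D.lev y := by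
  rw [sub_eq_add_neg, lev_add, lev_neg, sub_eq_add_neg]
theorem lev_zsmul (n : ℤ) (x : V d) : D.lev (n • x) = n * D.lev x := by
  simp only [lev, Pi.smul_apply, smul_eq_mul, Int.cast_mul, Finset.mul_sum]
  exact Finset.sum_congr rfl fun i _ => by ring
theorem lev_nsmul (n : ℕ) (x : V d) : D.lev (n • x) = n * D.lev x := by
  rw [← natCast_zsmul, lev_zsmul, Int.cast_natCast]
theorem lev_stp (u : St d) : D.lev (stp u) = D.l u.1 * (if u.2 then 1 else -1) := by
  rw [lev, Finset.sum_eq_single u.1]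
  · rcases u with ⟨j, b⟩
    cases b <;> simp [stp]
  · intro i _ hi
    simp [stp, Pi.single_eq_of_ne hi]
  · intro h
    exact absurd (Finset.mem_univ _) h
theorem abs_lev_stp (u : St d) : |D.lev (stp u)| ≤ 1 := by
  rw [lev_stp]
  have := D.abs_le u.1
  split_ifs
  · simpa using this
  · simpa using this
theorem lev_e : D.lev (stp D.e) = 1 := D.he
@[simp] theorem neg_lev (x : V d) : D.neg.lev x = -D.lev x := by
  simp [lev, neg]
theorem stp_neg_e : stp D.neg.e = -stp D.e := by
  funext i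
  show stp (D.e.1, !D.e.2) i = -(stp D.e i)
  rcases D.e with ⟨j, b⟩
  by_cases h : i = j
  · subst h; cases b <;> simp [stp]
  · simp [stp, Pi.single_eq_of_ne h]
theorem neg_neg : D.neg.neg = D := by
  rcases D with ⟨l, ⟨j, b⟩, h1, h2⟩
  simp [neg]
theorem abs_lev_le (x : V d) : |D.lev x| ≤ d * nrm x := by
  refine (Finset.abs_sum_le_sum_abs _ _).trans ?_
  have h : ∀ i ∈ (Finset.univ : Finset (Fin d)), |D.l i * (x i : ℝ)| ≤ (nrm x : ℝ) := by
    intro i _
    rw [abs_mul]
    have h1 : |(x i : ℝ)| ≤ (nrm x : ℝ) := by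
      have h2 : ((x i).natAbs : ℝ) ≤ (nrm x : ℝ) := by exact_mod_cast natAbs_le_nrm x i
      rwa [Nat.cast_natAbs, Int.cast_abs] at h2
    calc |D.l i| * |(x i : ℝ)| ≤ 1 * (nrm x : ℝ) :=
          mul_le_mul (D.abs_le i) h1 (abs_nonneg _) zero_le_one
      _ = nrm x := one_mul _
  refine (Finset.sum_le_sum h).trans ?_
  simp
theorem measurable_lev_pos (n : ℕ) : Measurable fun s : ℕ → St d => D.lev (pos s n) :=
  fun t _ => measurableSet_pos n fun x => D.lev x ∈ t
theorem measurableSet_Stay : MeasurableSet D.Stay := by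
  have e : D.Stay = ⋂ n, {s : ℕ → St d | 0 ≤ D.lev (pos s n)} := by
    ext s; simp [Stay]
  rw [e]
  exact MeasurableSet.iInter fun n => measurableSet_pos n fun x => 0 ≤ D.lev x
theorem measurableSet_Esc : MeasurableSet D.Esc :=
  measurableSet_tendsto atTop D.measurable_lev_pos
theorem measurableSet_RS (a b : ℝ) : MeasurableSet (D.RS a b) := by
  have e : D.RS a b = ⋃ n, {s : ℕ → St d | D.lev (pos s n) < 0} ∩
      ((⋂ i, ⋂ _ : i < n, {s : ℕ → St d | 0 ≤ D.lev (pos s i) ∧ D.lev (pos s i) ≤ b}) ∩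
        ⋃ i, ⋃ _ : i < n, {s : ℕ → St d | a ≤ D.lev (pos s i)}) := by
    ext s; simp [RS]
  rw [e]
  refine MeasurableSet.iUnion fun n => (measurableSet_pos n fun x => D.lev x < 0).inter
    (MeasurableSet.inter ?_ ?_)
  · exact MeasurableSet.iInter fun i => MeasurableSet.iInter fun _ =>
      measurableSet_pos i fun x => 0 ≤ D.lev x ∧ D.lev x ≤ b
  · exact MeasurableSet.iUnion fun i => MeasurableSet.iUnion fun _ =>
      measurableSet_pos i fun x => a ≤ D.lev x
theorem measurableSet_ES (a : ℝ) : MeasurableSet (D.ES a) := by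
  have e : D.ES a = ⋃ n, {s : ℕ → St d | D.lev (pos s n) < 0} ∩
      ((⋂ i, ⋂ _ : i < n, {s : ℕ → St d | 0 ≤ D.lev (pos s i)}) ∩
        ⋃ i, ⋃ _ : i < n, {s : ℕ → St d | a ≤ D.lev (pos s i)}) := by
    ext s; simp [ES]
  rw [e]
  refine MeasurableSet.iUnion fun n => (measurableSet_pos n fun x => D.lev x < 0).inter
    (MeasurableSet.inter ?_ ?_)
  · exact MeasurableSet.iInter fun i => MeasurableSet.iInter fun _ =>
      measurableSet_pos i fun x => 0 ≤ D.lev x
  · exact MeasurableSet.iUnion fun i => MeasurableSet.iUnion fun _ =>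
      measurableSet_pos i fun x => a ≤ D.lev x
theorem pf_exit (a b : ℝ) (x : V d) : PF {ξ : Pa d | D.Exit a b x ξ} :=
  (pf_first x fun p => D.lev p < a).mono fun _ h =>
    ⟨h.2, fun p hp => not_lt.mpr (h.1 p hp).1⟩
theorem FPt_unique {c : ℝ} {x b b' : V d} {ξ : Pa d} (h : D.FPt c x ξ b) (h' : D.FPt c x ξ b') :
    b = b' := by
  obtain ⟨a₁, a₂, e, hb, hl, hd⟩ := h
  obtain ⟨c₁, c₂, e', hb', hl', hd'⟩ := h'
  have hA : a₁ ∈ {a : Pa d | D.lev (x + disp a) < c ∧ ∀ p ∈ dep x a, ¬ D.lev p < c} :=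
    ⟨by rw [hb]; exact hl, fun p hp => not_lt.mpr (hd p hp)⟩
  have hC : c₁ ∈ {a : Pa d | D.lev (x + disp a) < c ∧ ∀ p ∈ dep x a, ¬ D.lev p < c} :=
    ⟨by rw [hb']; exact hl', fun p hp => not_lt.mpr (hd' p hp)⟩
  have hpf := pf_first x fun p => D.lev p < c
  have h1 : a₁ <+: ξ := ⟨a₂, e.symm⟩
  have h2 : c₁ <+: ξ := ⟨c₂, e'.symm⟩
  have : a₁ = c₁ := by
    rcases List.prefix_or_prefix_of_prefix h1 h2 with h | h
    · exact hpf _ hA _ hC h
    · exact (hpf _ hC _ hA h).symm
  rw [← hb, ← hb', this]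
theorem FPt_prefix {c : ℝ} {x b : V d} {ξ ξ' : Pa d} (hp : ξ <+: ξ') (h : D.FPt c x ξ b) :
    D.FPt c x ξ' b := by
  obtain ⟨t, rfl⟩ := hp
  obtain ⟨a₁, a₂, rfl, hb, hl, hd⟩ := h
  exact ⟨a₁, a₂ ++ t, List.append_assoc _ _ _, hb, hl, hd⟩
theorem FPt_of_prefix {c : ℝ} {x b : V d} {ξ ξ' : Pa d} (hp : ξ <+: ξ') (h : D.FPt c x ξ' b)
    (hl : D.lev (x + disp ξ) < c) : D.FPt c x ξ b := by
  obtain ⟨a₁, a₂, e, hb, hl', hd⟩ := h
  have h1 : a₁ <+: ξ' := ⟨a₂, e.symm⟩
  rcases List.prefix_or_prefix_of_prefix h1 hp with ⟨t, ht⟩ | ⟨t, ht⟩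
  · exact ⟨a₁, t, ht.symm, hb, hl', hd⟩
  · by_cases h0 : t = []
    · subst h0
      rw [List.append_nil] at ht
      exact ⟨a₁, [], by rw [List.append_nil, ht], hb, hl', hd⟩
    · exact absurd hl (not_lt.mpr (hd _ (mem_dep_iff.mpr ⟨ξ, t, ht.symm, h0, rfl⟩)))
theorem FPt_translate {c : ℝ} {x b : V d} {ξ : Pa d} (y : V d) (h : D.FPt c x ξ b) :
    D.FPt (c + D.lev y) (x + y) ξ (b + y) := by
  obtain ⟨a₁, a₂, e, hb, hl, hd⟩ := h
  refine ⟨a₁, a₂, e, by rw [← hb]; abel, by rw [lev_add]; linarith, fun p hp => ?_⟩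
  have hp' : p - y ∈ dep x a₁ := by
    rw [mem_dep_zero] at hp ⊢
    have e2 : p - y - x = p - (x + y) := by abel
    rw [e2]; exact hp
  have := hd _ hp'
  rw [lev_sub] at this
  linarith

variable {D}

theorem Blk.one_le_H {b : Pa d} (h : D.Blk b) : 1 ≤ D.H b := by
  have h0 : (0 : V d) ∈ dep 0 b := mem_dep_iff.mpr ⟨[], b, rfl, h.1, by simp⟩
  have := h.2.2.1 0 h0
  rw [lev_zero, zero_add] at this
  exact this
theorem Blk.dep_lev {b : Pa d} (h : D.Blk b) {x p : V d} (hp : p ∈ dep x b) :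
    D.lev x ≤ D.lev p ∧ D.lev p + 1 ≤ D.lev x + D.H b := by
  rw [mem_dep_zero] at hp
  have h1 := h.2.1 _ (mem_pts.mpr (Or.inl hp))
  have h2 := h.2.2.1 _ hp
  rw [lev_sub] at h1 h2
  unfold H
  constructor <;> linarith
theorem Blk.H_le_rad {b : Pa d} (h : D.Blk b) : D.H b ≤ d * rad b := by
  have _ := h
  refine ((le_abs_self _).trans (D.abs_lev_le (disp b))).trans ?_
  have : (nrm (disp b) : ℝ) ≤ rad b := by exact_mod_cast nrm_disp_le_rad b
  exact mul_le_mul_of_nonneg_left this (Nat.cast_nonneg _)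
theorem length_le_lev {L : List (Pa d)} (h : ∀ b ∈ L, D.Blk b) :
    (L.length : ℝ) ≤ D.lev (sumd L) := by
  induction L with
  | nil => simp
  | cons b L ih =>
    have h1 := (h b List.mem_cons_self).one_le_H
    have h2 := ih fun c hc => h c (List.mem_cons_of_mem _ hc)
    rw [sumd_cons, lev_add, List.length_cons]
    unfold H at h1
    push_cast
    linarith
theorem dep_flatten_lev {L : List (Pa d)} (h : ∀ b ∈ L, D.Blk b) {x p : V d}
    (hp : p ∈ dep x L.flatten) :
    D.lev x ≤ D.lev p ∧ D.lev p + 1 ≤ D.lev x + D.lev (sumd L) := by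
  induction L generalizing x with
  | nil => simp [dep] at hp
  | cons b L ih =>
    have hb := h b List.mem_cons_self
    have hL : ∀ c ∈ L, D.Blk c := fun c hc => h c (List.mem_cons_of_mem _ hc)
    have h1 := hb.one_le_H
    have h2 := length_le_lev hL
    have h3 : (0 : ℝ) ≤ L.length := Nat.cast_nonneg _
    rw [List.flatten_cons, dep_append, List.mem_append] at hp
    rw [sumd_cons, lev_add]
    unfold H at h1
    rcases hp with hp | hp
    · have := hb.dep_lev hp
      unfold H at this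
      constructor <;> linarith [this.1, this.2]
    · have := ih hL hp
      rw [lev_add] at this
      constructor <;> linarith [this.1, this.2]
theorem pts_flatten_lev {L : List (Pa d)} (h : ∀ b ∈ L, D.Blk b) {x p : V d}
    (hp : p ∈ pts x L.flatten) : D.lev x ≤ D.lev p ∧ D.lev p ≤ D.lev x + D.lev (sumd L) := by
  rcases mem_pts.mp hp with hp | rfl
  · have := dep_flatten_lev h hp
    constructor <;> linarith [this.1, this.2]
  · have h2 := length_le_lev h
    have h3 : (0 : ℝ) ≤ L.length := Nat.cast_nonneg _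
    rw [disp_flatten, lev_add]
    constructor <;> linarith
theorem up_flatten {L : List (Pa d)} (h : ∀ b ∈ L, D.Blk b) : D.Up L.flatten := by
  intro p hp
  have := (pts_flatten_lev h hp).1
  rwa [lev_zero] at this
theorem gap_flatten {L : List (Pa d)} (h : ∀ b ∈ L, D.Blk b) : D.Gap L.flatten := by
  intro p hp
  have := (dep_flatten_lev h hp).2
  rwa [lev_zero, zero_add, ← disp_flatten] at this
theorem lev_take_add_le {L : List (Pa d)} (h : ∀ b ∈ L, D.Blk b) {a r : ℕ}
    (hab : a + r ≤ L.length) :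
    D.lev (sumd (L.take a)) + r ≤ D.lev (sumd (L.take (a + r))) := by
  rw [sumd_take_add, lev_add]
  have h1 := length_le_lev (D := D) (L := (L.drop a).take r)
    fun b hb => h b (List.mem_of_mem_drop (List.mem_of_mem_take hb))
  have h2 : ((L.drop a).take r).length = r := by
    rw [List.length_take, List.length_drop]; omega
  rw [h2] at h1
  linarith
theorem lev_take_mono {L : List (Pa d)} (h : ∀ b ∈ L, D.Blk b) {a b : ℕ} (hab : a ≤ b) :
    D.lev (sumd (L.take a)) ≤ D.lev (sumd (L.take b)) := by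
  obtain ⟨r, rfl⟩ := Nat.exists_eq_add_of_le hab
  rw [sumd_take_add, lev_add]
  have h1 := length_le_lev (D := D) (L := (L.drop a).take r)
    fun b hb => h b (List.mem_of_mem_drop (List.mem_of_mem_take hb))
  have h3 : (0 : ℝ) ≤ ((L.drop a).take r).length := Nat.cast_nonneg _
  linarith

end Dir

end Vale.Agent.P147
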