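import Vale.Agent.P147.CEE
import Vale.Agent.P147.Path2

open Filter Topology

namespace Vale.Agent.P147

variable {d : ℕ}

namespace FM

variable {D : Dir d} (F : FM D)

theorem Ex_zero (f : List (Pa d) → ℝ) : F.Ex 0 f = f [] := rfl
theorem Ex_succ (n : ℕ) (f : List (Pa d) → ℝ) :
    F.Ex (n + 1) f = ∑ b ∈ F.S, F.ν b * F.Ex n fun L => f (b :: L) := rfl
theorem ok_nil : F.Ok 0 [] := ⟨rfl, by simp⟩
theorem ok_cons {n : ℕ} {b : Pa d} {L : List (Pa d)} (hb : b ∈ F.S) (hL : F.Ok n L) :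
    F.Ok (n + 1) (b :: L) :=
  ⟨by rw [List.length_cons, hL.1], fun c hc => by
    rcases List.mem_cons.1 hc with rfl | hc
    · exact hb
    · exact hL.2 c hc⟩

theorem Ex_congr {n : ℕ} {f g : List (Pa d) → ℝ} (h : ∀ L, F.Ok n L → f L = g L) :
    F.Ex n f = F.Ex n g := by
  induction n generalizing f g with
  | zero => exact h [] F.ok_nil
  | succ n ih =>
    rw [Ex_succ, Ex_succ]
    exact Finset.sum_congr rfl fun b hb => by
      rw [ih fun L hL => h (b :: L) (F.ok_cons hb hL)]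
theorem Ex_mono {n : ℕ} {f g : List (Pa d) → ℝ} (h : ∀ L, F.Ok n L → f L ≤ g L) :
    F.Ex n f ≤ F.Ex n g := by
  induction n generalizing f g with
  | zero => exact h [] F.ok_nil
  | succ n ih =>
    rw [Ex_succ, Ex_succ]
    exact Finset.sum_le_sum fun b hb =>
      mul_le_mul_of_nonneg_left (ih fun L hL => h (b :: L) (F.ok_cons hb hL)) (F.nn b)
theorem Ex_const (n : ℕ) (c : ℝ) : F.Ex n (fun _ => c) = c := by
  induction n with
  | zero => rfl
  | succ n ih => rw [Ex_succ, ih, ← Finset.sum_mul, F.sum_one, one_mul]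
theorem Ex_le_const {n : ℕ} {f : List (Pa d) → ℝ} {c : ℝ} (h : ∀ L, F.Ok n L → f L ≤ c) :
    F.Ex n f ≤ c := by
  rw [← F.Ex_const n c]
  exact F.Ex_mono h
theorem Ex_nonneg {n : ℕ} {f : List (Pa d) → ℝ} (h : ∀ L, F.Ok n L → 0 ≤ f L) :
    0 ≤ F.Ex n f := by
  rw [← F.Ex_const n 0]
  exact F.Ex_mono h
theorem Ex_add (n : ℕ) (f g : List (Pa d) → ℝ) :
    F.Ex n (fun L => f L + g L) = F.Ex n f + F.Ex n g := by
  induction n generalizing f g with
  | zero => rfl
  | succ n ih => simp only [Ex_succ, ih, mul_add, Finset.sum_add_distrib]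
theorem Ex_sub (n : ℕ) (f g : List (Pa d) → ℝ) :
    F.Ex n (fun L => f L - g L) = F.Ex n f - F.Ex n g := by
  induction n generalizing f g with
  | zero => rfl
  | succ n ih => simp only [Ex_succ, ih, mul_sub, Finset.sum_sub_distrib]
theorem Ex_mul_left (n : ℕ) (c : ℝ) (f : List (Pa d) → ℝ) :
    F.Ex n (fun L => c * f L) = c * F.Ex n f := by
  induction n generalizing f with
  | zero => rfl
  | succ n ih =>
    simp only [Ex_succ, ih, Finset.mul_sum]
    exact Finset.sum_congr rfl fun b _ => by ring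
theorem Ex_mul_right (n : ℕ) (c : ℝ) (f : List (Pa d) → ℝ) :
    F.Ex n (fun L => f L * c) = F.Ex n f * c := by
  simp only [mul_comm _ c]
  exact F.Ex_mul_left n c f
theorem Ex_sum {ι : Type} (n : ℕ) (s : Finset ι) (f : ι → List (Pa d) → ℝ) :
    F.Ex n (fun L => ∑ i ∈ s, f i L) = ∑ i ∈ s, F.Ex n (f i) := by
  induction n generalizing f with
  | zero => rfl
  | succ n ih =>
    simp only [Ex_succ, ih, Finset.mul_sum]
    exact Finset.sum_comm
theorem Ex_av (n m : ℕ) (f : ℕ → List (Pa d) → ℝ) :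
    F.Ex n (fun L => av m fun i => f i L) = av m fun i => F.Ex n (f i) := by
  simp only [av, div_eq_mul_inv]
  rw [F.Ex_mul_right, F.Ex_sum]
theorem Ex_EE (n : ℕ) (π : Di d) (f : V d → List (Pa d) → ℝ) :
    F.Ex n (fun L => EE π fun z => f z L) = EE π fun z => F.Ex n (f z) := by
  simp only [EE, Finsupp.sum]
  rw [F.Ex_sum]
  exact Finset.sum_congr rfl fun z _ => F.Ex_mul_left n _ _
theorem Ex_comm {D' : Dir d} (G : FM D') (n m : ℕ) (f : List (Pa d) → List (Pa d) → ℝ) :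
    F.Ex n (fun L => G.Ex m fun K => f L K) = G.Ex m fun K => F.Ex n fun L => f L K := by
  induction n generalizing f with
  | zero => rfl
  | succ n ih =>
    simp only [Ex_succ, ih]
    rw [G.Ex_sum]
    exact Finset.sum_congr rfl fun b _ => (G.Ex_mul_left m _ _).symm
theorem Ex_append (n m : ℕ) (f : List (Pa d) → ℝ) :
    F.Ex (n + m) f = F.Ex n fun L => F.Ex m fun K => f (L ++ K) := by
  induction n generalizing f with
  | zero => simp only [Nat.zero_add, Ex_zero, List.nil_append]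
  | succ n ih =>
    rw [Nat.add_right_comm, Ex_succ, Ex_succ]
    simp only [ih, List.cons_append]
theorem Ex_split {a n : ℕ} (h : a ≤ n) (f : List (Pa d) → List (Pa d) → ℝ) :
    F.Ex n (fun L => f (L.take a) (L.drop a)) =
      F.Ex a fun L₁ => F.Ex (n - a) fun L₂ => f L₁ L₂ := by
  obtain ⟨k, rfl⟩ := Nat.exists_eq_add_of_le h
  rw [F.Ex_append, Nat.add_sub_cancel_left]
  refine F.Ex_congr fun L hL => F.Ex_congr fun K _ => ?_
  rw [List.take_left' hL.1, List.drop_left' hL.1]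
theorem Ex_take {a n : ℕ} (h : a ≤ n) (f : List (Pa d) → ℝ) :
    F.Ex n (fun L => f (L.take a)) = F.Ex a f := by
  rw [F.Ex_split h fun L _ => f L]
  simp only [Ex_const]
theorem Ex_drop {a n : ℕ} (h : a ≤ n) (f : List (Pa d) → ℝ) :
    F.Ex n (fun L => f (L.drop a)) = F.Ex (n - a) f := by
  rw [F.Ex_split h fun _ K => f K, Ex_const]
theorem Ex_seg {a b n : ℕ} (h : a + b ≤ n) (f : List (Pa d) → ℝ) :
    F.Ex n (fun L => f ((L.drop a).take b)) = F.Ex b f := by
  rw [F.Ex_drop (show a ≤ n by omega) fun K => f (K.take b), F.Ex_take (by omega)]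
theorem Ex_split3 {a b c n : ℕ} (h : a + b + c ≤ n)
    (f : List (Pa d) → List (Pa d) → List (Pa d) → ℝ) :
    F.Ex n (fun L => f (L.take a) ((L.drop a).take b) ((L.drop (a + b)).take c)) =
      F.Ex a fun L₁ => F.Ex b fun L₂ => F.Ex c fun L₃ => f L₁ L₂ L₃ := by
  have e : ∀ L : List (Pa d), L.drop (a + b) = (L.drop a).drop b := fun L => by
    rw [List.drop_drop]
  simp only [e]
  rw [F.Ex_split (show a ≤ n by omega) fun L K => f L (K.take b) ((K.drop b).take c)]
  refine F.Ex_congr fun L _ => ?_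
  rw [F.Ex_split (show b ≤ n - a by omega) fun K M => f L K (M.take c)]
  refine F.Ex_congr fun K _ => ?_
  rw [F.Ex_take (show c ≤ n - a - b by omega) fun M => f L K M]
theorem Ex_one (f : List (Pa d) → ℝ) : F.Ex 1 f = ∑ b ∈ F.S, F.ν b * f [b] := by
  rfl
theorem Ex_sum_map (n : ℕ) (f : Pa d → ℝ) :
    F.Ex n (fun L => (L.map f).sum) = n * ∑ b ∈ F.S, F.ν b * f b := by
  induction n with
  | zero => simp [Ex_zero]
  | succ n ih =>
    simp only [Ex_succ, List.map_cons, List.sum_cons, Ex_add, Ex_const, ih, mul_add,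
      Finset.sum_add_distrib]
    rw [← Finset.sum_mul, F.sum_one]
    push_cast
    ring
theorem Ex_exists_le (n : ℕ) (Q : Pa d → Prop) :
    F.Ex n (fun L => ind (∃ b ∈ L, Q b)) ≤ n * ∑ b ∈ F.S, F.ν b * ind (Q b) := by
  rw [← F.Ex_sum_map n fun b => ind (Q b)]
  refine F.Ex_mono fun L _ => ?_
  by_cases h : ∃ b ∈ L, Q b
  · obtain ⟨b, hb, hQ⟩ := h
    refine (ind_le_one _).trans ?_
    rw [← ind_pos hQ]
    refine List.single_le_sum (fun x hx => ?_) _ (List.mem_map.2 ⟨b, hb, rfl⟩)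
    obtain ⟨c, -, rfl⟩ := List.mem_map.1 hx
    exact ind_nonneg _
  · rw [ind_neg h]
    refine List.sum_nonneg fun x hx => ?_
    obtain ⟨c, -, rfl⟩ := List.mem_map.1 hx
    exact ind_nonneg _
theorem EE_law (φ : V d → ℝ) : EE F.law φ = ∑ b ∈ F.S, F.ν b * φ (disp b) := by
  rw [law, EE_sum_left]
  exact Finset.sum_congr rfl fun b _ => EE_single _ _ _
theorem Ex_law (n : ℕ) (φ : V d → ℝ) :
    F.Ex n (fun L => φ (sumd L)) = EE (F.law ^ n) φ := by
  induction n generalizing φ with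
  | zero => rw [Ex_zero, pow_zero, EE_one, sumd_nil]
  | succ n ih =>
    rw [Ex_succ, pow_succ', EE_mul, EE_law]
    refine Finset.sum_congr rfl fun b _ => ?_
    simp only [sumd_cons]
    rw [ih fun u => φ (disp b + u)]
theorem law_isP : IsP F.law := by
  refine ⟨fun z => ?_, ?_⟩
  · rw [coeff_eq_EE, EE_law]
    exact Finset.sum_nonneg fun b _ => mul_nonneg (F.nn b) (ind_nonneg _)
  · rw [EE_law]
    simp only [mul_one, F.sum_one]
theorem one_le_h : 1 ≤ F.h := by
  rw [← F.sum_one, h]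
  exact Finset.sum_le_sum fun b hb => le_mul_of_one_le_right (F.nn b) (F.blk b hb).one_le_H

variable {F}

theorem Good.supp {hs : ℕ} {om : ℕ → ℝ} {Wd : ℕ} (h : F.Good hs om Wd) : Supp F.law Wd := by
  intro z hz
  by_contra hc
  refine hz ?_
  rw [coeff_eq_EE, EE_law]
  refine Finset.sum_eq_zero fun b hb => ?_
  rw [ind_neg, mul_zero]
  rintro rfl
  exact hc ((nrm_disp_le_rad b).trans (h.rad_le b hb))
theorem Good.om_nonneg {hs : ℕ} {om : ℕ → ℝ} {Wd : ℕ} (h : F.Good hs om Wd) (M : ℕ) :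
    0 ≤ om M := by
  refine le_trans (Finset.sum_nonneg fun b hb => ?_) (h.om_le M)
  exact mul_nonneg (F.nn b) (mul_nonneg (ind_nonneg _)
    (zero_le_one.trans (F.blk b hb).one_le_H))
theorem Good.nrm_sumd_le {hs : ℕ} {om : ℕ → ℝ} {Wd n : ℕ} (h : F.Good hs om Wd)
    {L : List (Pa d)} (hL : F.Ok n L) : nrm (sumd L) ≤ n * Wd := by
  refine (Vale.Agent.P147.nrm_sumd_le L).trans ?_
  have := List.sum_le_card_nsmul (L.map rad) Wd fun x hx => by
    obtain ⟨b, hb, rfl⟩ := List.mem_map.1 hx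
    exact h.rad_le b (hL.2 b hb)
  rwa [List.length_map, hL.1, smul_eq_mul] at this
theorem Good.Ex_far {hs : ℕ} {om : ℕ → ℝ} {Wd : ℕ} (h : F.Good hs om Wd) (n M : ℕ) :
    F.Ex n (fun L => ind (n * M < nrm (sumd L))) ≤ n * om M := by
  have h1 : F.Ex n (fun L => ind (n * M < nrm (sumd L))) ≤
      F.Ex n fun L => ind (∃ b ∈ L, M < rad b) := by
    refine F.Ex_mono fun L hL => ind_mono fun hh => ?_
    by_contra hc
    push Not at hc
    have := List.sum_le_card_nsmul (L.map rad) M fun x hx => by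
      obtain ⟨b, hb, rfl⟩ := List.mem_map.1 hx
      exact hc b hb
    rw [List.length_map, hL.1, smul_eq_mul] at this
    have := Vale.Agent.P147.nrm_sumd_le L
    omega
  refine h1.trans ((F.Ex_exists_le n _).trans ?_)
  refine mul_le_mul_of_nonneg_left (le_trans (Finset.sum_le_sum fun b hb => ?_) (h.om_le M))
    (Nat.cast_nonneg n)
  exact mul_le_mul_of_nonneg_left
    (le_mul_of_one_le_right (ind_nonneg _) (F.blk b hb).one_le_H) (F.nn b)
theorem Ok.blk {n : ℕ} {L : List (Pa d)} (h : F.Ok n L) : ∀ b ∈ L, D.Blk b := by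
  exact fun b hb => F.blk b (h.2 b hb)
theorem Ok.take {n a : ℕ} {L : List (Pa d)} (h : F.Ok n L) (ha : a ≤ n) : F.Ok a (L.take a) := by
  refine ⟨?_, fun b hb => h.2 b (List.mem_of_mem_take hb)⟩
  rw [List.length_take, h.1, min_eq_left ha]
theorem Ok.drop {n : ℕ} {L : List (Pa d)} (h : F.Ok n L) (a : ℕ) : F.Ok (n - a) (L.drop a) := by
  refine ⟨?_, fun b hb => h.2 b (List.mem_of_mem_drop hb)⟩
  rw [List.length_drop, h.1]
theorem Al.drop_iff {L : List (Pa d)} {a b n : ℕ} {tol : ℝ} :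
    F.Al (L.drop a) b n tol ↔ F.Al L (a + b) n tol := by
  simp only [Al, List.drop_drop]
theorem Al.take_iff {L : List (Pa d)} {a b n : ℕ} {tol : ℝ} (h : b + n ≤ a) :
    F.Al (L.take a) b n tol ↔ F.Al L b n tol := by
  refine forall₂_congr fun r hr => ?_
  rw [List.drop_take, List.take_take, min_eq_left (by omega)]
theorem Al.append {L : List (Pa d)} {a n : ℕ} {t t' : ℝ} (h : F.Al L 0 a t) (h' : F.Al L a n t') :
    F.Al L 0 (a + n) (t + t') := by
  have ht : 0 ≤ t := (abs_nonneg _).trans (h 0 (Nat.zero_le _))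
  have ht' : 0 ≤ t' := (abs_nonneg _).trans (h' 0 (Nat.zero_le _))
  intro r hr
  rcases le_total r a with hra | hra
  · have := h r hra
    linarith
  · obtain ⟨k, rfl⟩ := Nat.exists_eq_add_of_le hra
    have h1 := h a le_rfl
    have h2 := h' k (by omega)
    rw [List.drop_zero] at h1 ⊢
    rw [sumd_take_add, Dir.lev_add]
    push_cast
    rw [abs_le] at h1 h2 ⊢
    constructor <;> linarith [h1.1, h1.2, h2.1, h2.2]

end FM

/-- expectation over both lists -/
noncomputable def E2 {D : Dir d} (Fp : FM D) (Fm : FM D.neg) (np nm : ℕ)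
    (φ : List (Pa d) → List (Pa d) → ℝ) : ℝ := Fp.Ex np fun L => Fm.Ex nm fun K => φ L K

section
variable {D : Dir d} (Fp : FM D) (Fm : FM D.neg) (np nm : ℕ)

theorem E2_mono {φ ψ : List (Pa d) → List (Pa d) → ℝ}
    (h : ∀ L K, Fp.Ok np L → Fm.Ok nm K → φ L K ≤ ψ L K) :
    E2 Fp Fm np nm φ ≤ E2 Fp Fm np nm ψ := by
  exact Fp.Ex_mono fun L hL => Fm.Ex_mono fun K hK => h L K hL hK
theorem E2_nonneg {φ : List (Pa d) → List (Pa d) → ℝ}
    (h : ∀ L K, Fp.Ok np L → Fm.Ok nm K → 0 ≤ φ L K) : 0 ≤ E2 Fp Fm np nm φ := by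
  exact Fp.Ex_nonneg fun L hL => Fm.Ex_nonneg fun K hK => h L K hL hK
theorem E2_const (c : ℝ) : E2 Fp Fm np nm (fun _ _ => c) = c := by
  simp only [E2, FM.Ex_const]
theorem E2_add (φ ψ : List (Pa d) → List (Pa d) → ℝ) :
    E2 Fp Fm np nm (fun L K => φ L K + ψ L K) = E2 Fp Fm np nm φ + E2 Fp Fm np nm ψ := by
  simp only [E2, FM.Ex_add]
theorem E2_sub (φ ψ : List (Pa d) → List (Pa d) → ℝ) :
    E2 Fp Fm np nm (fun L K => φ L K - ψ L K) = E2 Fp Fm np nm φ - E2 Fp Fm np nm ψ := by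
  simp only [E2, FM.Ex_sub]
theorem E2_sum {ι : Type} (s : Finset ι) (φ : ι → List (Pa d) → List (Pa d) → ℝ) :
    E2 Fp Fm np nm (fun L K => ∑ i ∈ s, φ i L K) = ∑ i ∈ s, E2 Fp Fm np nm (φ i) := by
  simp only [E2, FM.Ex_sum]
theorem E2_left (f : List (Pa d) → ℝ) : E2 Fp Fm np nm (fun L _ => f L) = Fp.Ex np f := by
  simp only [E2, FM.Ex_const]
theorem E2_right (f : List (Pa d) → ℝ) : E2 Fp Fm np nm (fun _ K => f K) = Fm.Ex nm f := by
  simp only [E2, FM.Ex_const]

end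

end Vale.Agent.P147
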