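import Vale.Agent.P147.CA

open Filter Topology

namespace Vale.Agent.P147

variable {d : ℕ}

namespace Par

variable {p : Par} {D : Dir d} {Fp : FM D} {Fm : FM D.neg}

theorem pi_isP (q : ℕ) : IsP (p.pi Fp Fm q) :=
  ((Fp.law_isP.pow _).mul (Fm.law_isP.pow _)).mul (Fm.law_isP.avp Nat.one_le_two_pow)
theorem aa_nonneg (q : ℕ) : 0 ≤ p.aa Fp Fm q := by
  have hP := (Fp.law_isP.mul Fm.law_isP).pow (p.tt q)
  have := ent_le_mul hP hP
  rw [← pow_add, ← two_mul] at this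
  exact sub_nonneg.mpr this
theorem th_spec (q : ℕ) : 0 < p.th Fp Fm q ∧
    EE (p.pi Fp Fm q) (fun z => ind (p.th Fp Fm q < (p.pi Fp Fm q).coeff z)) ≤ 1 / 100 ∧
    1 / 100 ≤ EE (p.pi Fp Fm q) fun z => ind (p.th Fp Fm q ≤ (p.pi Fp Fm q).coeff z) :=
  Classical.epsilon_spec (exists_quantile (pi_isP (p := p) (Fp := Fp) (Fm := Fm) q)
    (δ := 1 / 100) (by norm_num) (by norm_num))
theorem card_TT (q : ℕ) : p.th Fp Fm q * ((p.TT Fp Fm q).card : ℝ) ≤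
    Real.exp (p.ss Fp Fm q) * (2 * p.M₀ + 1) ^ d := by
  have ht := (th_spec (p := p) (Fp := Fp) (Fm := Fm) q).1
  have hn : 1 ≤ (p.Cc + 2) * 2 ^ (q + 1) := Nat.mul_pos (by omega) (by positivity)
  have h1 : p.th Fp Fm q * Real.exp (-p.ss Fp Fm q) * ((p.T₀ Fp Fm q).card : ℝ) ≤ 1 :=
    card_heavy (Fm.law_isP.avp hn) (mul_pos ht (Real.exp_pos _))
  have h2 : (p.TT Fp Fm q).card ≤ (p.T₀ Fp Fm q).card * (2 * p.M₀ + 1) ^ d := by
    rw [← card_ball d p.M₀]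
    exact Finset.card_image₂_le _ _ _
  have h3 : ((p.TT Fp Fm q).card : ℝ) ≤ (p.T₀ Fp Fm q).card * (2 * p.M₀ + 1) ^ d := by
    exact_mod_cast h2
  have h4 : p.th Fp Fm q * ((p.T₀ Fp Fm q).card : ℝ) ≤ Real.exp (p.ss Fp Fm q) := by
    have h5 := mul_le_mul_of_nonneg_right h1 (Real.exp_pos (p.ss Fp Fm q)).le
    have h6 : Real.exp (-p.ss Fp Fm q) * Real.exp (p.ss Fp Fm q) = 1 := by
      rw [← Real.exp_add]; simp
    calc p.th Fp Fm q * ((p.T₀ Fp Fm q).card : ℝ)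
        = p.th Fp Fm q * ((p.T₀ Fp Fm q).card : ℝ) *
            (Real.exp (-p.ss Fp Fm q) * Real.exp (p.ss Fp Fm q)) := by rw [h6, mul_one]
      _ = p.th Fp Fm q * Real.exp (-p.ss Fp Fm q) * ((p.T₀ Fp Fm q).card : ℝ) *
            Real.exp (p.ss Fp Fm q) := by ring
      _ ≤ Real.exp (p.ss Fp Fm q) := by linarith
  calc p.th Fp Fm q * ((p.TT Fp Fm q).card : ℝ)
      ≤ p.th Fp Fm q * ((p.T₀ Fp Fm q).card * (2 * p.M₀ + 1) ^ d) :=
        mul_le_mul_of_nonneg_left h3 ht.le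
    _ = p.th Fp Fm q * (p.T₀ Fp Fm q).card * (2 * p.M₀ + 1) ^ d := by ring
    _ ≤ _ := mul_le_mul_of_nonneg_right h4 (by positivity)
theorem aa_sum (n : ℕ) : ∑ q ∈ Finset.range n, p.aa Fp Fm q ≤
    ent ((Fp.law * Fm.law) ^ p.tt n) := by
  induction n with
  | zero => simpa using ent_nonneg ((Fp.law_isP.mul Fm.law_isP).pow _)
  | succ n ih =>
    have e : p.tt (n + 1) = 2 * p.tt n := by unfold tt; ring
    rw [Finset.sum_range_succ, e]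
    unfold aa at ih ⊢
    linarith

theorem Ar.cpi_k (h : p.Ar Fp Fm) : 2 ≤ p.k' := by
  have := h.hs1
  have := h.k2
  omega

theorem Ar.cpi_tt (h : p.Ar Fp Fm) (q : ℕ) : 1 ≤ p.tt q :=
  Nat.mul_pos (by have := h.cpi_k; omega) (by positivity)

theorem Ar.cpi_inc (h : p.Ar Fp Fm) (q u : ℕ) :
    ent (p.pi Fp Fm q * Fp.law ^ u) - ent (p.pi Fp Fm q) ≤ u * (p.aa Fp Fm q / p.tt q) ∧
    ent (p.pi Fp Fm q * Fm.law ^ u) - ent (p.pi Fp Fm q) ≤ u * (p.aa Fp Fm q / p.tt q) := by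
  obtain ⟨a, ha⟩ := Nat.exists_eq_add_of_le (h.tt_le_M q)
  obtain ⟨b, hb⟩ : ∃ b, p.A Fp Fm (q + 1) - p.A Fp Fm q = 2 * p.tt q + b :=
    Nat.exists_eq_add_of_le (by have := h.tt_le_A q; omega)
  have e : p.pi Fp Fm q = (Fp.law * Fm.law) ^ (2 * p.tt q) *
      (Fp.law ^ a * Fm.law ^ b * avp Fm.law (2 ^ (q + 1))) := by
    unfold pi
    rw [ha, hb, pow_add, pow_add, mul_pow]
    ring
  rw [e]
  exact ent_inc Fp.law_isP Fm.law_isP
    (((Fp.law_isP.pow _).mul (Fm.law_isP.pow _)).mul (Fm.law_isP.avp Nat.one_le_two_pow))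
    (h.cpi_tt q) u

theorem Ar.II_fail (h : p.Ar Fp Fm) (q u : ℕ) {s : ℝ} (hs : 1 < s) :
    EE (p.pi Fp Fm q) (fun z => Fp.Ex u fun up => ind (¬ p.II Fp Fm q s u z (sumd up))) ≤
      u * (p.aa Fp Fm q / p.tt q) / (s - 1) := by
  have e : (fun z => Fp.Ex u fun up => ind (¬ p.II Fp Fm q s u z (sumd up))) =
      fun z => EE (Fp.law ^ u) fun U => ind (¬ p.II Fp Fm q s u z U) :=
    funext fun z => Fp.Ex_law u fun U => ind (¬ p.II Fp Fm q s u z U)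
  rw [e]
  refine (gibbs_tail_mul (pi_isP q) (Fp.law_isP.pow u) hs).trans ?_
  exact div_le_div_of_nonneg_right (h.cpi_inc q u).1 (by linarith)

namespace Ctx

variable {om : ℕ → ℝ} {Wd : ℕ} (h : p.Ctx Fp Fm om Wd)
include h

theorem cpi_ss (q : ℕ) : 4 ≤ p.ss Fp Fm q ∧ p.s₀ ≤ p.ss Fp Fm q ∧
    p.η₀ * p.aa Fp Fm q ≤ p.ss Fp Fm q :=
  ⟨h.s4.trans (le_max_left _ _), le_max_left _ _, le_max_right _ _⟩

theorem II_win (q : ℕ) :
    EE (p.pi Fp Fm q) (fun z => Fp.Ex (2 * 2 ^ (q + 1)) fun up =>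
      ind (¬ p.II Fp Fm q (p.ss Fp Fm q) (2 * 2 ^ (q + 1)) z (sumd up))) ≤
      8 / (p.k' * p.η₀) := by
  obtain ⟨h1, -, h3⟩ := h.cpi_ss q
  refine (h.ar.II_fail q _ (by linarith)).trans ?_
  have hk : (0 : ℝ) < p.k' := by exact_mod_cast (by have := h.ar.cpi_k; omega : 0 < p.k')
  have he := h.eta
  have e : ((2 * 2 ^ (q + 1) : ℕ) : ℝ) * (p.aa Fp Fm q / p.tt q) = 4 * p.aa Fp Fm q / p.k' := by
    unfold tt
    push_cast
    field_simp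
    ring
  rw [e, div_div, div_le_div_iff₀ (mul_pos hk (by linarith)) (mul_pos hk he)]
  have h4 : p.η₀ * p.aa Fp Fm q ≤ 2 * (p.ss Fp Fm q - 1) := by linarith
  nlinarith [mul_le_mul_of_nonneg_left h4 hk.le]

theorem II_top {J n : ℕ} (hn : n ≤ 2 * p.M (J + 1)) (ha : p.η₀ * p.aa Fp Fm J ≤ p.s₀) :
    EE (p.pi Fp Fm J) (fun z => Fp.Ex (n + 2 * 2 ^ J) fun up =>
      ind (¬ p.II Fp Fm J p.stop (n + 2 * 2 ^ J) z (sumd up))) ≤ 1 / 100 := by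
  have he := h.eta
  have hs4 := h.s4
  have hhs : (1 : ℝ) ≤ p.hs := by exact_mod_cast h.ar.hs1
  have hst : p.stop - 1 = 100 * (34 * p.hs * p.s₀ / p.η₀) := by unfold stop; ring
  have hpos : 0 < 100 * (34 * p.hs * p.s₀ / p.η₀) := by positivity
  refine (h.ar.II_fail J _ (by linarith)).trans ?_
  have ht : (0 : ℝ) < p.tt J := by exact_mod_cast h.ar.cpi_tt J
  have hu : n + 2 * 2 ^ J ≤ 34 * p.hs * p.tt J := by
    have h1 : 1 ≤ p.hs * p.k' := Nat.mul_pos h.ar.hs1 (by have := h.ar.cpi_k; omega)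
    have h2 := Nat.mul_le_mul_right (2 ^ J) h1
    unfold M k at hn
    unfold tt
    have e1 : 2 * (8 * p.hs * p.k' * 2 ^ (J + 1)) = 32 * (p.hs * p.k' * 2 ^ J) := by ring
    have e2 : 34 * p.hs * (p.k' * 2 ^ J) = 34 * (p.hs * p.k' * 2 ^ J) := by ring
    rw [e1] at hn
    rw [e2]
    omega
  have hu' : ((n + 2 * 2 ^ J : ℕ) : ℝ) ≤ 34 * p.hs * p.tt J := by exact_mod_cast hu
  have ha0 := aa_nonneg (p := p) (Fp := Fp) (Fm := Fm) J
  have h1 : ((n + 2 * 2 ^ J : ℕ) : ℝ) * (p.aa Fp Fm J / p.tt J) ≤ 34 * p.hs * p.aa Fp Fm J := by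
    refine (mul_le_mul_of_nonneg_right hu' (div_nonneg ha0 ht.le)).trans (le_of_eq ?_)
    field_simp
  have h2 : p.aa Fp Fm J ≤ p.s₀ / p.η₀ := by
    rw [le_div_iff₀ he]; linarith
  rw [hst, div_le_iff₀ hpos]
  have h3 := mul_le_mul_of_nonneg_left h2 (by positivity : (0 : ℝ) ≤ 34 * p.hs)
  have e : 1 / 100 * (100 * (34 * p.hs * p.s₀ / p.η₀)) = 34 * p.hs * (p.s₀ / p.η₀) := by ring
  rw [e]
  linarith

theorem cpi_light (q : ℕ) :
    EE (avp Fm.law ((p.Cc + 2) * 2 ^ (q + 1))) (fun v => ind (v ∉ p.T₀ Fp Fm q)) ≤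
      100 * ((4 * (p.Cc + 2) + 2) / p.s₀ + 8 * (p.Cc + 2) / (p.k' * p.η₀)) := by
  obtain ⟨h1, h2, h3⟩ := h.cpi_ss q
  have he := h.eta
  have hs4 := h.s4
  have hk : (0 : ℝ) < p.k' := by exact_mod_cast (by have := h.ar.cpi_k; omega : 0 < p.k')
  have ht : (0 : ℝ) < p.tt q := by exact_mod_cast h.ar.cpi_tt q
  have ha0 := aa_nonneg (p := p) (Fp := Fp) (Fm := Fm) q
  have hn : 1 ≤ (p.Cc + 2) * 2 ^ (q + 1) := Nat.mul_pos (by omega) (by positivity)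
  have hL := light_mass (π₀ := Fp.law ^ p.M q * Fm.law ^ (p.A Fp Fm (q + 1) - p.A Fp Fm q))
    (ν := Fm.law) ((Fp.law_isP.pow _).mul (Fm.law_isP.pow _)) Fm.law_isP (ρ := 2 ^ (q + 1))
    (c := p.Cc + 2) Nat.one_le_two_pow (by omega)
    (X := 2 * (p.Cc + 2) * p.aa Fp Fm q / p.k') (s := p.ss Fp Fm q) (θ := p.th Fp Fm q)
    (δ := 1 / 100) (fun j hj => by
      refine (h.ar.cpi_inc q j).2.trans ?_
      have hj' : (j : ℝ) ≤ (((p.Cc + 2) * 2 ^ (q + 1) : ℕ) : ℝ) := by exact_mod_cast hj.le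
      refine (mul_le_mul_of_nonneg_right hj' (div_nonneg ha0 ht.le)).trans (le_of_eq ?_)
      unfold tt
      push_cast
      field_simp
      ring) (by linarith) (th_spec q).2.2
  have hm : EE (avp Fm.law ((p.Cc + 2) * 2 ^ (q + 1))) (fun v => ind (v ∉ p.T₀ Fp Fm q)) ≤
      EE (avp Fm.law ((p.Cc + 2) * 2 ^ (q + 1))) (fun v => ind (¬ p.th Fp Fm q *
        Real.exp (-p.ss Fp Fm q) < (avp Fm.law ((p.Cc + 2) * 2 ^ (q + 1))).coeff v)) := by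
    refine (Fm.law_isP.avp hn).mono fun v hv => ind_mono fun h4 h5 => h4 ?_
    exact Finset.mem_filter.mpr ⟨Finsupp.mem_support_iff.mpr hv, h5⟩
  obtain ⟨s, hs⟩ : ∃ s, s = p.ss Fp Fm q := ⟨_, rfl⟩
  obtain ⟨a, ha⟩ : ∃ a, a = p.aa Fp Fm q := ⟨_, rfl⟩
  obtain ⟨c, hc⟩ : ∃ c : ℝ, c = (p.Cc : ℝ) + 2 := ⟨_, rfl⟩
  have hc0 : 0 < c := by rw [hc]; positivity
  have hcc : ((p.Cc + 2 : ℕ) : ℝ) = c := by rw [hc]; push_cast; ring
  rw [← hs] at h1 h2 h3 hm hL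
  rw [← ha] at h3 hL ha0
  rw [hcc, ← hc] at hL
  rw [← hc]
  have b1 : Real.log (c + 1) ≤ c := by
    have := Real.log_le_sub_one_of_pos (by linarith : 0 < c + 1)
    linarith
  have b2 : Real.exp (-s / 2) ≤ 2 / p.s₀ := by
    have e1 : -s / 2 = -(s / 2) := by ring
    have h5 := Real.add_one_le_exp (s / 2)
    rw [e1, Real.exp_neg, inv_eq_one_div, div_le_div_iff₀ (Real.exp_pos _) (by linarith)]
    linarith
  have b3 : c / (s / 2 - 1) ≤ 4 * c / p.s₀ := by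
    rw [div_le_div_iff₀ (by linarith) (by linarith)]
    have : p.s₀ ≤ 4 * (s / 2 - 1) := by linarith
    nlinarith [mul_le_mul_of_nonneg_left this hc0.le]
  have b4 : 2 * c * a / p.k' / (s / 2 - 1) ≤ 8 * c / (p.k' * p.η₀) := by
    rw [div_div, div_le_div_iff₀ (mul_pos hk (by linarith)) (mul_pos hk he)]
    have h5 : p.η₀ * a ≤ 4 * (s / 2 - 1) := by linarith
    nlinarith [mul_le_mul_of_nonneg_left h5 (mul_pos hk hc0).le]
  have b5 : (Real.log (c + 1) + 2 * c * a / p.k') / (s / 2 - 1) ≤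
      c / (s / 2 - 1) + 2 * c * a / p.k' / (s / 2 - 1) := by
    rw [← add_div]
    exact div_le_div_of_nonneg_right (by linarith) (by linarith)
  have e2 : (4 * c + 2) / p.s₀ = 4 * c / p.s₀ + 2 / p.s₀ := by ring
  rw [e2]
  linarith

theorem I_fail (q : ℕ) (θ : ℝ) (h0 : 0 ≤ θ) (h1 : θ ≤ (p.Cc * 2 ^ (q + 1) : ℕ)) :
    av (2 ^ (q + 1)) (fun κ => Fm.Ex ((p.Cc + 2) * 2 ^ (q + 1)) fun K =>
      ind (¬ ∃ v ∈ p.TT Fp Fm q, D.FPt (-θ - κ) 0 K.flatten v)) ≤ p.al (om p.M₀) := by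
  have h2 := ifail h.gm (ρ := 2 ^ (q + 1)) (c := p.Cc) Nat.one_le_two_pow θ h0
    (by rw [Nat.cast_mul] at h1; exact h1) (p.T₀ Fp Fm q) p.M₀
  refine h2.trans ?_
  unfold al
  refine mul_le_mul_of_nonneg_left ?_ (by positivity)
  have h3 := mul_le_mul_of_nonneg_left (h.cpi_light q) (Nat.cast_nonneg (α := ℝ) p.hs)
  linarith

theorem supp_pi (q : ℕ) :
    Supp (p.pi Fp Fm q) ((p.M q + p.A Fp Fm (q + 1) + 2 ^ (q + 1)) * Wd) := by
  refine (((h.gp.supp.pow (p.M q)).mul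
    (h.gm.supp.pow (p.A Fp Fm (q + 1) - p.A Fp Fm q))).mul (h.gm.supp.avp (2 ^ (q + 1)))).mono ?_
  rw [← add_mul, ← add_mul]
  exact Nat.mul_le_mul_right _ (by omega)

theorem budget (n : ℕ) :
    ∑ q ∈ Finset.range n, p.aa Fp Fm q ≤ d * Real.log (4 * (p.k' * 2 ^ n) * Wd + 1) := by
  refine (aa_sum n).trans ((ent_le_log_card ((Fp.law_isP.mul Fm.law_isP).pow _)
    ((h.gp.supp.mul h.gm.supp).pow (p.tt n))).trans (le_of_eq ?_))
  unfold tt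
  push_cast
  ring_nf

end Ctx

end Par

end Vale.Agent.P147
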