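import Vale.Agent.P147.CB
import Vale.Agent.P147.CPi

open Filter Topology

namespace Vale.Agent.P147

variable {d : ℕ}

theorem ind_not_and_le (a b : Prop) : ind (¬ (a ∧ b)) ≤ ind (¬ a) + ind (¬ b) :=
  (ind_mono fun h => not_and_or.1 h).trans (ind_or_le _ _)

theorem FM.Conc.al_fail {D : Dir d} {F : FM D} {Cb ρ₀ : ℕ} {ε : ℝ} (hc : F.Conc Cb ρ₀ ε)
    {ρ a n N : ℕ} (hρ : ρ₀ ≤ ρ) (hn : n ≤ Cb * ρ) (h : a + n ≤ N) :
    F.Ex N (fun L => ind (¬ F.Al L a n (ρ / 8))) ≤ ε := by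
  refine le_trans (le_of_eq ?_) (hc ρ hρ n hn).1
  rw [← F.Ex_seg h]
  refine F.Ex_congr fun L _ => ?_
  rw [FM.Al.take_iff (by omega), FM.Al.drop_iff, add_zero]

theorem FM.Conc.tall_fail' {D : Dir d} {F : FM D} {Cb ρ₀ : ℕ} {ε : ℝ} (hc : F.Conc Cb ρ₀ ε)
    {ρ n : ℕ} (hρ : ρ₀ ≤ ρ) (hn : n ≤ Cb * ρ) :
    F.Ex n (fun L => ind (¬ ∀ b ∈ L, D.H b ≤ ρ)) ≤ ε := by
  refine le_trans (le_of_eq ?_) (hc ρ hρ n hn).2
  refine F.Ex_congr fun L _ => ?_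
  congr 1
  push Not
  rfl

theorem FM.Conc.tall_fail {D : Dir d} {F : FM D} {Cb ρ₀ : ℕ} {ε : ℝ} (hc : F.Conc Cb ρ₀ ε)
    {ρ a n N : ℕ} (hρ : ρ₀ ≤ ρ) (hn : n ≤ Cb * ρ) (h : a + n ≤ N) :
    F.Ex N (fun L => ind (¬ ∀ b ∈ (L.drop a).take n, D.H b ≤ ρ)) ≤ ε := by
  rw [F.Ex_seg h fun L => ind (¬ ∀ b ∈ L, D.H b ≤ ρ)]
  exact hc.tall_fail' hρ hn

namespace Par

variable {p : Par} {D : Dir d} {Fp : FM D} {Fm : FM D.neg}

theorem M_eq (p : Par) (q i : ℕ) : p.M (q + i) = 2 ^ i * (p.k * 2 ^ q) := by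
  unfold M; ring

namespace Ctx

variable {om : ℕ → ℝ} {Wd : ℕ} (h : p.Ctx Fp Fm om Wd)
include h

theorem al_nonneg : 0 ≤ p.al (om p.M₀) :=
  le_trans (av_nonneg fun _ _ => Fm.Ex_nonneg fun _ _ => ind_nonneg _)
    (h.I_fail 0 0 le_rfl (Nat.cast_nonneg _))

theorem I_inner (q : ℕ) {i r : ℕ} (h2 : i + (p.Cc + 2) * 2 ^ (q + 1) ≤ r) (y : V d) :
    Fm.Ex r (fun K₂ => av (2 ^ (q + 1)) fun κ₁ =>
      ind ((0 ≤ D.lev (y + sumd (K₂.take i)) ∧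
        D.lev (y + sumd (K₂.take i)) ≤ (p.Cc * 2 ^ (q + 1) : ℕ)) ∧
        ¬ ∃ v ∈ p.TT Fp Fm q, D.FPt (-D.lev (y + sumd (K₂.take i)) - κ₁) 0
          ((K₂.drop i).take ((p.Cc + 2) * 2 ^ (q + 1))).flatten v)) ≤ p.al (om p.M₀) := by
  rw [Fm.Ex_split (a := i) (by omega) fun K₁ K₃ => av (2 ^ (q + 1)) fun κ₁ =>
      ind ((0 ≤ D.lev (y + sumd K₁) ∧ D.lev (y + sumd K₁) ≤ (p.Cc * 2 ^ (q + 1) : ℕ)) ∧
        ¬ ∃ v ∈ p.TT Fp Fm q, D.FPt (-D.lev (y + sumd K₁) - κ₁) 0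
          (K₃.take ((p.Cc + 2) * 2 ^ (q + 1))).flatten v)]
  refine Fm.Ex_le_const fun K₁ _ => ?_
  rw [Fm.Ex_take (a := (p.Cc + 2) * 2 ^ (q + 1)) (by omega) fun K₃ => av (2 ^ (q + 1)) fun κ₁ =>
      ind ((0 ≤ D.lev (y + sumd K₁) ∧ D.lev (y + sumd K₁) ≤ (p.Cc * 2 ^ (q + 1) : ℕ)) ∧
        ¬ ∃ v ∈ p.TT Fp Fm q, D.FPt (-D.lev (y + sumd K₁) - κ₁) 0 K₃.flatten v)]
  by_cases hr : 0 ≤ D.lev (y + sumd K₁) ∧ D.lev (y + sumd K₁) ≤ (p.Cc * 2 ^ (q + 1) : ℕ)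
  · rw [Fm.Ex_av]
    refine le_trans (av_mono fun κ _ => Fm.Ex_mono fun K _ => ind_mono fun h => h.2)
      (h.I_fail q _ hr.1 hr.2)
  · refine Fm.Ex_le_const fun K _ => av_le_const Nat.one_le_two_pow fun κ _ => ?_
    rw [ind_neg fun h => hr h.1]
    exact h.al_nonneg

/-- inner failure bound of the predictor event -/
theorem Wev_fail (q : ℕ) {nL r : ℕ} (h1 : p.M (q + 1) + 2 ^ (q + 1) ≤ nL)
    (h2 : ∀ j < p.k, io Fp Fm (q + 1) j + (p.Cc + 2) * 2 ^ (q + 1) ≤ r) (x : V d) :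
    EE (p.pi Fp Fm q) (fun z => E2 Fp Fm nL r fun L₂ K₂ =>
      av (2 ^ (q + 1)) fun κ₁ => ind (¬ p.Wev Fp Fm q κ₁ x z L₂ K₂)) ≤ 2 / 100 := by
  have hπ : IsP (p.pi Fp Fm q) := pi_isP q
  set nII : ℕ → V d → List (Pa d) → ℝ := fun j z L₂ =>
    ind (¬ p.II Fp Fm q (p.ss Fp Fm q) (2 * 2 ^ (q + 1)) z
      (sumd ((L₂.drop (j * 2 ^ (q + 1))).take (2 * 2 ^ (q + 1))))) with hnII
  set nI : ℕ → V d → List (Pa d) → List (Pa d) → ℕ → ℝ := fun j z L₂ K₂ κ₁ =>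
    ind (p.Rg Fp Fm q j (x + z) L₂ K₂ ∧
      ¬ ∃ v ∈ p.TT Fp Fm q, D.FPt (-D.lev (yy Fp Fm q j (x + z) L₂ K₂) - κ₁) 0
      ((K₂.drop (io Fp Fm (q + 1) j)).take ((p.Cc + 2) * 2 ^ (q + 1))).flatten v) with hnI
  have hpt : ∀ z L₂ K₂ κ₁, ind (¬ p.Wev Fp Fm q κ₁ x z L₂ K₂) ≤
      ind (p.th Fp Fm q < (p.pi Fp Fm q).coeff z) +
        ∑ j ∈ Finset.range p.k, nII j z L₂ * nI j z L₂ K₂ κ₁ := by
    intro z L₂ K₂ κ₁
    refine (ind_not_and_le _ _).trans (add_le_add (ind_mono not_le.1) ?_)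
    simp only [hnII, hnI, ← ind_and]
    refine le_trans (ind_mono fun hn => ?_) (ind_exists_le _ _)
    push Not at hn
    obtain ⟨j, hj, hR, hP⟩ := hn
    exact ⟨j, Finset.mem_range.2 hj, fun h => hP (Or.inl h), hR, fun h => hP (Or.inr h)⟩
  have hin : ∀ z L₂, Fm.Ex r (fun K₂ => av (2 ^ (q + 1)) fun κ₁ =>
      ind (¬ p.Wev Fp Fm q κ₁ x z L₂ K₂)) ≤ ind (p.th Fp Fm q < (p.pi Fp Fm q).coeff z) +
        ∑ j ∈ Finset.range p.k, p.al (om p.M₀) * nII j z L₂ := by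
    intro z L₂
    refine le_trans (Fm.Ex_mono fun K₂ _ => av_mono fun κ₁ _ => hpt z L₂ K₂ κ₁) ?_
    simp only [av_add, av_const Nat.one_le_two_pow, av_sum, av_mul_left, FM.Ex_add, FM.Ex_const,
      FM.Ex_sum, FM.Ex_mul_left]
    refine add_le_add le_rfl (Finset.sum_le_sum fun j hj => ?_)
    rw [mul_comm (p.al _)]
    exact mul_le_mul_of_nonneg_left (h.I_inner q (h2 j (Finset.mem_range.1 hj)) _) (ind_nonneg _)
  refine le_trans (hπ.mono fun z _ => Fp.Ex_mono fun L₂ _ => hin z L₂) ?_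
  simp only [FM.Ex_add, FM.Ex_const, FM.Ex_sum, FM.Ex_mul_left, EE_add, EE_sum, EE_mul_left]
  have hj : ∀ j ∈ Finset.range p.k, p.al (om p.M₀) *
      EE (p.pi Fp Fm q) (fun z => Fp.Ex nL (nII j z)) ≤ p.al (om p.M₀) * (8 / (p.k' * p.η₀)) := by
    intro j hj
    refine mul_le_mul_of_nonneg_left (le_trans (le_of_eq ?_) (h.II_win q)) h.al_nonneg
    refine EE_congr fun z _ => ?_
    have hj' : j + 1 ≤ p.k := Finset.mem_range.1 hj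
    have : (j + 1) * 2 ^ (q + 1) ≤ p.k * 2 ^ (q + 1) := Nat.mul_le_mul_right _ hj'
    exact Fp.Ex_seg (a := j * 2 ^ (q + 1)) (b := 2 * 2 ^ (q + 1)) (by unfold M at h1; nlinarith)
      fun up => ind (¬ p.II Fp Fm q (p.ss Fp Fm q) (2 * 2 ^ (q + 1)) z (sumd up))
  have hs := Finset.sum_le_card_nsmul _ _ _ hj
  rw [Finset.card_range, nsmul_eq_mul] at hs
  have hk : (0 : ℝ) < p.k' := by
    have := h.ar.hs1
    have := h.ar.k2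
    exact_mod_cast (by omega : 0 < p.k')
  have he := h.eta
  have e : (p.k : ℝ) * (p.al (om p.M₀) * (8 / (p.k' * p.η₀))) =
      64 * p.hs / p.η₀ * p.al (om p.M₀) := by
    unfold k; push_cast; field_simp; ring
  have := (th_spec (p := p) (Fp := Fp) (Fm := Fm) q).2.1
  linarith [h.alpha]

theorem Hard_fail {q np nm : ℕ} (hq : p.q₀ ≤ q) (h1 : p.M (q + 3) ≤ np)
    (h2 : p.A Fp Fm (q + 3) ≤ nm) (G : List (Pa d) → List (Pa d) → ℝ) (hG0 : ∀ L K, 0 ≤ G L K)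
    (hG : ∀ L K, G L K = G (L.take (p.M q)) (K.take (p.A Fp Fm q))) :
    E2 Fp Fm np nm (fun L K => G L K * ind (¬ p.Hard Fp Fm q L K)) ≤
      3 / 200 * E2 Fp Fm np nm G := by
  have hs := h.ar.hs1
  have m2 : p.M q ≤ p.M (q + 2) := M_mono (by omega)
  have m3 : p.M (q + 3) = p.M (q + 2) + p.M (q + 2) := M_succ (q + 2)
  have a1 : p.A Fp Fm q ≤ p.A Fp Fm (q + 1) := h.ar.A_mono (by omega)
  have a2 : p.A Fp Fm (q + 1) ≤ p.A Fp Fm (q + 2) := h.ar.A_mono (by omega)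
  have a3 : p.A Fp Fm (q + 2) ≤ p.A Fp Fm (q + 3) := h.ar.A_mono (by omega)
  have a4 := h.ar.A_le_M (q + 3)
  rw [M_eq] at a4
  have e2 : p.M (q + 2) = 2 ^ 2 * (p.k * 2 ^ q) := M_eq p q 2
  have p1 : 2 ^ p.q₀ ≤ 2 ^ (q + 1) := Nat.pow_le_pow_right (by norm_num) (by omega)
  have p2 : 2 ^ p.q₀ ≤ 2 ^ (q + 2) := Nat.pow_le_pow_right (by norm_num) (by omega)
  have hX : p.k * 2 ^ q ≤ p.hs * (p.k * 2 ^ q) := Nat.le_mul_of_pos_left _ hs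
  have c1 : 30 * p.hs * p.k * 2 ^ (q + 1) = 60 * (p.hs * (p.k * 2 ^ q)) := by ring
  have c2 : 30 * p.hs * p.k * 2 ^ (q + 2) = 120 * (p.hs * (p.k * 2 ^ q)) := by ring
  have c3 : p.hs * (2 ^ 3 * (p.k * 2 ^ q)) = 8 * (p.hs * (p.k * 2 ^ q)) := by ring
  refine le_trans (le_of_eq ?_) (indep_le Fp Fm (a₁ := p.M q) (a₂ := p.A Fp Fm q) (by omega)
    (by omega) G hG0 hG (fun L K =>
      ind (¬ (Fp.Al L (p.M (q + 2) - p.M q) (p.M (q + 2)) ((2 ^ (q + 2) : ℕ) / 8) ∧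
        Fm.Al K (p.A Fp Fm (q + 2) - p.A Fp Fm q) (p.A Fp Fm (q + 3) - p.A Fp Fm (q + 2))
          ((2 ^ (q + 2) : ℕ) / 8) ∧
        ∀ b ∈ (K.drop (p.A Fp Fm (q + 1) - p.A Fp Fm q)).take
          (p.A Fp Fm (q + 3) - p.A Fp Fm (q + 1)), D.neg.H b ≤ (2 ^ (q + 1) : ℕ)))) ?_)
  · congr 1
    funext L K
    rw [FM.Al.drop_iff, FM.Al.drop_iff, List.drop_drop, Nat.add_sub_cancel' m2,
      Nat.add_sub_cancel' (a1.trans a2), Nat.add_sub_cancel' a1, Hard, List.drop_take]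
  · refine le_trans (E2_mono _ _ _ _ fun L K _ _ => (ind_not_and_le _ _).trans
      (add_le_add le_rfl (ind_not_and_le _ _))) ?_
    rw [E2_add, E2_add, E2_left, E2_right, E2_right]
    have t1 := h.cp.al_fail (a := p.M (q + 2) - p.M q) (n := p.M (q + 2)) (N := np - p.M q) p2
      (by omega) (by omega)
    have t2 := h.cm.al_fail (a := p.A Fp Fm (q + 2) - p.A Fp Fm q)
      (n := p.A Fp Fm (q + 3) - p.A Fp Fm (q + 2)) (N := nm - p.A Fp Fm q) p2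
      (by omega) (by omega)
    have t3 := h.cm.tall_fail (a := p.A Fp Fm (q + 1) - p.A Fp Fm q)
      (n := p.A Fp Fm (q + 3) - p.A Fp Fm (q + 1)) (N := nm - p.A Fp Fm q) p1
      (by omega) (by omega)
    linarith

theorem HardT_fail {J n : ℕ} (hq : p.q₀ ≤ J) (hn : n ≤ 2 * p.M (J + 1))
    (G : List (Pa d) → List (Pa d) → ℝ) (hG0 : ∀ L K, 0 ≤ G L K)
    (hG : ∀ L K, G L K = G (L.take (p.M J)) (K.take (p.A Fp Fm J))) :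
    E2 Fp Fm (p.np J n) (2 * p.n₁ J) (fun L K => G L K * ind (¬ p.HardT Fp Fm J n L K)) ≤
      2 / 200 * E2 Fp Fm (p.np J n) (2 * p.n₁ J) G := by
  have hs := h.ar.hs1
  have m1 : p.M J ≤ p.M (J + 1) := M_mono (by omega)
  have a1 : p.A Fp Fm J ≤ p.A Fp Fm (J + 2) := h.ar.A_mono (by omega)
  have a2 := h.ar.A_le_n₁ J
  have e1 : p.M (J + 1) = 2 ^ 1 * (p.k * 2 ^ J) := M_eq p J 1
  have e0 := h.ar.pow_le_M J
  unfold M at e0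
  have p1 : 2 ^ p.q₀ ≤ 2 ^ J := Nat.pow_le_pow_right (by norm_num) hq
  have p0 : 1 ≤ 2 ^ J := Nat.one_le_two_pow
  have hX : p.k * 2 ^ J ≤ p.hs * (p.k * 2 ^ J) := Nat.le_mul_of_pos_left _ hs
  have c1 : 30 * p.hs * p.k * 2 ^ J = 30 * (p.hs * (p.k * 2 ^ J)) := by ring
  have c2 : p.n₁ J = 10 * (p.hs * (p.k * 2 ^ J)) + 1 := by unfold n₁ C₂; rw [e1]; ring
  have c3 : p.np J n = p.M (J + 1) + n + 2 * 2 ^ J := rfl
  refine le_trans (le_of_eq ?_) (indep_le Fp Fm (a₁ := p.M J) (a₂ := p.A Fp Fm J) (by omega)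
    (by omega) G hG0 hG (fun L K =>
      ind (¬ (Fp.Al L (p.M (J + 1) - p.M J) (n + 2 * 2 ^ J) ((2 ^ J : ℕ) / 8) ∧
        ∀ b ∈ K, D.neg.H b ≤ (2 ^ J : ℕ)))) ?_)
  · congr 1
    funext L K
    rw [FM.Al.drop_iff, Nat.add_sub_cancel' m1, HardT]
  · refine le_trans (E2_mono _ _ _ _ fun L K _ _ => ind_not_and_le _ _) ?_
    rw [E2_add, E2_left, E2_right]
    have t1 := h.cp.al_fail (a := p.M (J + 1) - p.M J) (n := n + 2 * 2 ^ J)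
      (N := p.np J n - p.M J) p1 (by omega) (by omega)
    have t2 := h.cm.tall_fail' (n := 2 * p.n₁ J - p.A Fp Fm J) p1 (by omega)
    linarith

theorem W0_fail {np nm : ℕ} (h1 : p.M (p.q₀ + 2) ≤ np) (h2 : p.A Fp Fm (p.q₀ + 2) ≤ nm) :
    1 - 1 / 22 ≤ E2 Fp Fm np nm (p.g Fp Fm 1) := by
  have hs := h.ar.hs1
  have a4 := h.ar.A_le_M (p.q₀ + 2)
  have e2 : p.M (p.q₀ + 2) = 2 ^ 2 * (p.k * 2 ^ p.q₀) := M_eq p _ 2
  have e1 : p.M (p.q₀ + 1) = 2 ^ 1 * (p.k * 2 ^ p.q₀) := M_eq p _ 1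
  have e0 := h.ar.pow_le_M p.q₀
  unfold M at e0
  rw [e2] at a4
  have p2 : 2 ^ p.q₀ ≤ 2 ^ (p.q₀ + 2) := Nat.pow_le_pow_right (by norm_num) (by omega)
  have hX : p.k * 2 ^ p.q₀ ≤ p.hs * (p.k * 2 ^ p.q₀) := Nat.le_mul_of_pos_left _ hs
  have c1 : 30 * p.hs * p.k * 2 ^ p.q₀ = 30 * (p.hs * (p.k * 2 ^ p.q₀)) := by ring
  have c2 : 30 * p.hs * p.k * 2 ^ (p.q₀ + 2) = 120 * (p.hs * (p.k * 2 ^ p.q₀)) := by ring
  have c3 : p.hs * (2 ^ 2 * (p.k * 2 ^ p.q₀)) = 4 * (p.hs * (p.k * 2 ^ p.q₀)) := by ring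
  have c4 : p.b₀ = p.M (p.q₀ + 1) + 2 ^ p.q₀ := rfl
  have e : E2 Fp Fm np nm (p.g Fp Fm 1) =
      1 - E2 Fp Fm np nm fun L K => ind (¬ p.W0 Fp Fm L K) := by
    simp only [ind_not, E2_sub, E2_const, sub_sub_cancel]
    rfl
  rw [e]
  have hle : E2 Fp Fm np nm (fun L K => ind (¬ p.W0 Fp Fm L K)) ≤ 4 / 200 := by
    refine le_trans (E2_mono _ _ _ _ fun L K _ _ => (ind_not_and_le _ _).trans
      (add_le_add (ind_mono not_le.1) ((ind_not_and_le _ _).trans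
        (add_le_add le_rfl (ind_not_and_le _ _))))) ?_
    rw [E2_add, E2_add, E2_add, E2_left, E2_left, E2_right, E2_right]
    have t0 := h.gp.Ex_far p.b₀ p.Mx
    rw [← Fp.Ex_take (a := p.b₀) (n := np) (by omega)] at t0
    have t1 := h.cp.al_fail (a := 0) (n := p.M (p.q₀ + 2)) (N := np) p2 (by omega) (by omega)
    have t2 := h.cm.al_fail (a := 0) (n := p.A Fp Fm (p.q₀ + 2)) (N := nm) p2 (by omega) (by omega)
    have t3 := h.cm.tall_fail (a := 0) (n := p.A Fp Fm (p.q₀ + 2)) (N := nm) le_rfl (by omega)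
      (by omega)
    simp only [List.drop_zero] at t3
    have := h.far
    unfold R₀
    linarith
  linarith

end Ctx

end Par

end Vale.Agent.P147
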