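import Vale.Agent.P147.Path2

open Filter Topology

namespace Vale.Agent.P147

variable {d : ℕ}

namespace Dir

variable {D : Dir d}

/-- first common point: `X` ends at `0` where `Y` starts, and `Y` is stopped below `X` -/
theorem first_hit {L K : List (Pa d)} (hL : ∀ b ∈ L, D.Blk b) (hK : ∀ b ∈ K, D.neg.Blk b)
    (h : D.lev (sumd L) < K.length) :
    ∃ π η : Pa d, π <+: L.reverse.flatten ∧ η <+: K.flatten ∧
      D.Exit (-D.lev (sumd L)) 0 0 η ∧ (dep 0 η).Disjoint (dep (-sumd L) π) ∧
      -sumd L + disp π ∈ dep 0 η := by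
  have hLr : ∀ b ∈ L.reverse, D.Blk b := fun b hb => hL b (List.mem_reverse.mp hb)
  have h0 := length_le_lev hL
  have h0' : (0 : ℝ) ≤ L.length := Nat.cast_nonneg _
  have h1 := length_le_lev hK
  rw [neg_lev] at h1
  obtain ⟨η, hη, hQ, hn⟩ := exists_first (x := (0 : V d)) (γ := K.flatten)
    (Q := fun p => D.lev p < -D.lev (sumd L))
    ⟨0 + disp K.flatten, mem_pts.mpr (Or.inr rfl), by
      rw [zero_add, disp_flatten]; linarith⟩
  have hne : η ≠ [] := by
    rintro rfl
    simp only [disp_nil, add_zero, lev_zero] at hQ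
    linarith
  have h00 : (0 : V d) ∈ dep 0 η := mem_dep_iff.mpr ⟨[], η, rfl, hne, by simp⟩
  obtain ⟨π, hπ, hQπ, hnπ⟩ := exists_first (x := -sumd L) (γ := L.reverse.flatten)
    (Q := fun p => p ∈ dep 0 η)
    ⟨-sumd L + disp L.reverse.flatten, mem_pts.mpr (Or.inr rfl), by
      rw [disp_flatten, sumd_reverse, neg_add_cancel]; exact h00⟩
  refine ⟨π, η, hπ, hη, ⟨fun p hp => ⟨not_lt.mp (hn p hp), ?_⟩, hQ⟩, ?_, hQπ⟩
  · have := (dep_flatten_lev hK (dep_prefix hη hp)).1
    rw [neg_lev, neg_lev, lev_zero] at this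
    linarith
  · intro p hp hp'
    exact hnπ p hp' hp

theorem drop_rev_prefix (L : List (Pa d)) (c : ℕ) :
    (L.drop c).reverse.flatten <+: L.reverse.flatten := by
  refine ⟨(L.take c).reverse.flatten, ?_⟩
  rw [← List.flatten_append, ← List.reverse_append, List.take_append_drop]

theorem take_flat_append (K : List (Pa d)) (i : ℕ) :
    (K.take i).flatten ++ (K.drop i).flatten = K.flatten := by
  rw [← List.flatten_append, List.take_append_drop]

/-- position of a prefix among the blocks -/
theorem prefix_cases {L : List (Pa d)} {π : Pa d} (h : π <+: L.reverse.flatten) (c : ℕ) :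
    (L.drop c).reverse.flatten <+: π ∨
      (π <+: (L.drop c).reverse.flatten ∧ π ≠ (L.drop c).reverse.flatten) := by
  rcases List.prefix_or_prefix_of_prefix (drop_rev_prefix L c) h with h' | h'
  · exact Or.inl h'
  · by_cases e : π = (L.drop c).reverse.flatten
    · left; rw [← e]
    · exact Or.inr ⟨h', e⟩

/-- points before a point of block `j` are at most the block height further -/
theorem pts_before {E : Dir d} {K : List (Pa d)} (hK : ∀ b ∈ K, E.Blk b) {z : V d} {β : Pa d}
    (hβ : β <+: K.flatten) (ha : z + disp β ∈ dep z K.flatten) :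
    ∃ j, ∃ h : j < K.length, E.lev (z + sumd (K.take j)) ≤ E.lev (z + disp β) ∧
      ∀ x ∈ pts z β, E.lev x ≤ E.lev (z + disp β) + E.H K[j] := by
  obtain ⟨j, hj, hm⟩ := mem_dep_flatten.mp ha
  have hb := (hK _ (List.getElem_mem hj)).dep_lev hm
  have e : sumd (K.take (j + 1)) = sumd (K.take j) + disp K[j] := by
    rw [List.take_add_one, sumd_append, List.getElem?_eq_getElem hj]
    simp
  refine ⟨j, hj, hb.1, fun x hx => ?_⟩
  have hp : (K.take (j + 1)).flatten <+: K.flatten := ⟨_, take_flat_append K (j + 1)⟩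
  rcases List.prefix_or_prefix_of_prefix hβ hp with h | ⟨γ, h⟩
  · have := (pts_flatten_lev (D := E) (L := K.take (j + 1))
      (fun b hb => hK b (List.mem_of_mem_take hb)) (pts_prefix h hx)).2
    rw [e, lev_add] at this
    have h1 := hb.1
    rw [lev_add] at h1
    unfold H
    linarith
  · exfalso
    have hγ : γ <+: (K.drop (j + 1)).flatten := by
      rw [← h, ← take_flat_append K (j + 1)] at hβ
      exact (List.prefix_append_right_inj _).mp hβ
    have hm2 : z + disp β ∈ pts (z + sumd (K.take (j + 1))) (K.drop (j + 1)).flatten := by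
      refine mem_pts_iff.mpr ⟨γ, hγ, ?_⟩
      rw [← h, disp_append, disp_flatten, add_assoc]
    have := (pts_flatten_lev (D := E) (L := K.drop (j + 1))
      (fun b hb => hK b (List.mem_of_mem_drop hb)) hm2).1
    have h2 := hb.2
    rw [e, ← add_assoc, lev_add (x := z + sumd (K.take j))] at this
    unfold H at h2
    linarith

/-- a hit in a window gives the gluing event -/
theorem geo_window {L K : List (Pa d)} (hL : ∀ b ∈ L, D.Blk b) (hK : ∀ b ∈ K, D.neg.Blk b)
    {π η : Pa d} (hη : η <+: K.flatten) (he : D.Exit (-D.lev (sumd L)) 0 0 η)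
    (hd : (dep 0 η).Disjoint (dep (-sumd L) π)) (ha : -sumd L + disp π ∈ dep 0 η)
    {m c ρ i i₂ : ℕ} (hm : m ≤ c) (hc : c + ρ ≤ L.length)
    (h1 : (L.drop c).reverse.flatten <+: π) (h2 : π <+: (L.drop m).reverse.flatten)
    (hi : D.neg.lev (sumd (K.take i)) ≤ D.lev (sumd (L.take m)))
    (hi₂ : D.lev (sumd (L.take c)) < D.neg.lev (sumd (K.take i₂)))
    (hH : ∀ b ∈ (K.take i₂).drop i, D.neg.H b ≤ ρ) {lam : ℝ}
    (hl : D.lev (sumd (L.take (c + ρ)) + sumd (K.take i)) ≤ lam) :
    D.KE (L.drop (c + ρ)) ((L.drop m).take (c + ρ - m))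
      (sumd (L.take (c + ρ)) + sumd (K.take i)) (K.drop i) lam := by
  obtain ⟨t, ht⟩ : ∃ t, t = sumd (L.take (c + ρ)) := ⟨_, rfl⟩
  obtain ⟨z, hz⟩ : ∃ z, z = sumd (K.take i) := ⟨_, rfl⟩
  obtain ⟨low, hlow⟩ : ∃ low, low = L.drop (c + ρ) := ⟨_, rfl⟩
  obtain ⟨up, hup⟩ : ∃ up, up = (L.drop m).take (c + ρ - m) := ⟨_, rfl⟩
  have hupB : ∀ b ∈ up.reverse, D.Blk b := fun b hb => by
    rw [List.mem_reverse, hup] at hb
    exact hL b (List.mem_of_mem_drop (List.mem_of_mem_take hb))
  have hK' : ∀ b ∈ K.drop i, D.neg.Blk b := fun b hb => hK b (List.mem_of_mem_drop hb)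
  have eL : sumd L = t + sumd low := by
    rw [ht, hlow, ← sumd_append, List.take_append_drop]
  have eup : t = sumd (L.take m) + sumd up := by
    rw [ht, hup, ← sumd_take_add]
    congr 2
    omega
  have edm : (L.drop m).reverse.flatten = low.reverse.flatten ++ up.reverse.flatten := by
    rw [← List.flatten_append, ← List.reverse_append]
    congr 2
    have : low = (L.drop m).drop (c + ρ - m) := by
      rw [hlow, List.drop_drop]
      congr 1
      omega
    rw [this, hup, List.take_append_drop]
  have hlp : low.reverse.flatten <+: π := by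
    refine List.IsPrefix.trans ?_ h1
    have : low = (L.drop c).drop ρ := by rw [hlow, List.drop_drop]
    rw [this]
    exact drop_rev_prefix _ _
  obtain ⟨π', rfl⟩ := hlp
  have hπ' : π' <+: up.reverse.flatten := by
    rw [edm] at h2
    exact (List.prefix_append_right_inj _).mp h2
  have ea : -sumd L + disp (low.reverse.flatten ++ π') = disp π' - t := by
    rw [disp_append, disp_flatten, sumd_reverse, eL]; abel
  rw [ea] at ha
  -- level of the hit point
  have hpl : ∀ x ∈ pts 0 π', 0 ≤ D.lev x ∧ D.lev x ≤ D.lev (sumd up) := by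
    intro x hx
    have := pts_flatten_lev hupB (pts_prefix hπ' hx)
    rwa [lev_zero, zero_add, sumd_reverse] at this
  have hend : disp π' ∈ pts 0 π' := mem_pts.mpr (Or.inr (zero_add _).symm)
  have hlt : D.lev t = D.lev (sumd (L.take m)) + D.lev (sumd up) := by rw [eup, lev_add]
  have ha_up : D.lev (disp π' - t) ≤ -D.lev (sumd (L.take m)) := by
    rw [lev_sub]
    linarith [(hpl _ hend).2]
  have ha_lo : -D.lev (sumd (L.take c)) ≤ D.lev (disp π' - t) := by
    obtain ⟨γ, hγ⟩ := h1
    have hcm : (L.drop c).reverse.flatten <+: L.reverse.flatten := drop_rev_prefix L c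
    have e1 : L.reverse.flatten = (L.drop c).reverse.flatten ++ (L.take c).reverse.flatten := by
      rw [← List.flatten_append, ← List.reverse_append, List.take_append_drop]
    have hγp : γ <+: (L.take c).reverse.flatten := by
      have h3 := h2.trans (drop_rev_prefix L m)
      rw [← hγ, e1] at h3
      exact (List.prefix_append_right_inj _).mp h3
    have hcB : ∀ b ∈ (L.take c).reverse, D.Blk b := fun b hb =>
      hL b (List.mem_of_mem_take (List.mem_reverse.mp hb))
    have h4 := (pts_flatten_lev hcB (x := 0) (p := disp γ)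
      (mem_pts_iff.mpr ⟨γ, hγp, (zero_add _).symm⟩)).1
    have e2 : disp π' - t = disp γ - sumd (L.take c) := by
      rw [← ea, ← hγ, disp_append, disp_flatten, sumd_reverse]
      have : sumd L = sumd (L.take c) + sumd (L.drop c) := by
        rw [← sumd_append, List.take_append_drop]
      rw [this]; abel
    rw [e2, lev_sub]
    rw [lev_zero] at h4
    linarith
  rw [← hz, neg_lev] at hi
  have hnot : disp π' - t ∉ dep 0 (K.take i).flatten := by
    intro hm'
    have := (dep_flatten_lev (D := D.neg) (L := K.take i)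
      (fun b hb => hK b (List.mem_of_mem_take hb)) hm').2
    rw [← hz, neg_lev, neg_lev, neg_lev, lev_zero] at this
    linarith
  have hKi : (K.take i).flatten <+: η := by
    rcases List.prefix_or_prefix_of_prefix hη ⟨_, take_flat_append K i⟩ with h | h
    · exact absurd (dep_prefix h ha) hnot
    · exact h
  obtain ⟨η', rfl⟩ := hKi
  have hη' : η' <+: (K.drop i).flatten := by
    rw [← take_flat_append K i] at hη
    exact (List.prefix_append_right_inj _).mp hη
  have edep : dep 0 ((K.take i).flatten ++ η') = dep 0 (K.take i).flatten ++ dep z η' := by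
    rw [dep_append, zero_add, disp_flatten, hz]
  have ha' : disp π' - t ∈ dep z η' := by
    rw [edep, List.mem_append] at ha
    exact ha.resolve_left hnot
  have htr : ∀ p ∈ dep (t + z) η', p - t ∈ dep 0 ((K.take i).flatten ++ η') := by
    intro p hp
    rw [edep]
    refine List.mem_append_right _ ?_
    rw [mem_dep_zero] at hp ⊢
    have : p - t - z = p - (t + z) := by abel
    rw [this]; exact hp
  have hlL : D.lev (sumd L) = D.lev t + D.lev (sumd low) := by rw [eL, lev_add]
  rw [← ht, ← hz, lev_add] at hl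
  rw [← ht, ← hz, ← hlow, ← hup]
  have eH : D.H low.reverse.flatten = D.lev (sumd low) := by
    unfold H; rw [disp_flatten, sumd_reverse]
  refine ⟨π', η', hπ', hη', fun x hx => ⟨(hpl x hx).1, ?_⟩, ⟨fun p hp => ⟨?_, ?_⟩, ?_⟩, ?_, ?_⟩
  · linarith [(hpl x hx).2]
  · have := (he.1 _ (htr p hp)).1
    rw [lev_sub] at this
    rw [eH]; linarith
  · have := (dep_flatten_lev hK' (dep_prefix hη' hp)).1
    rw [neg_lev, neg_lev, lev_add] at this
    linarith
  · have := he.2
    rw [zero_add, disp_append, disp_flatten, ← hz, lev_add] at this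
    rw [eH, lev_add, lev_add]; linarith
  · intro p hp hp'
    refine hd (htr p hp) ?_
    have e3 : dep (-disp low.reverse.flatten) low.reverse.flatten ++ dep 0 π' =
        dep (-disp low.reverse.flatten) (low.reverse.flatten ++ π') := by
      rw [dep_append, neg_add_cancel]
    rw [e3, mem_dep_zero, disp_flatten, sumd_reverse] at hp'
    rw [mem_dep_zero]
    have : p - t - -sumd L = p - -sumd low := by rw [eL]; abel
    rw [this]; exact hp'
  · obtain ⟨η₁, η₂, e, hne, hae⟩ := mem_dep_iff.mp ha'
    refine ⟨η₁, η₂, e, hne, ?_, fun x hx => ?_⟩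
    · rw [add_assoc, ← hae]; abel
    · have hη₁ : η₁ <+: (K.drop i).flatten := List.IsPrefix.trans ⟨η₂, e.symm⟩ hη'
      have hin : z + disp η₁ ∈ dep z (K.drop i).flatten := by
        rw [← hae]; exact dep_prefix hη' ha'
      obtain ⟨j, hj, hj1, hj2⟩ := pts_before hK' hη₁ hin
      have hx' : x - t ∈ pts z η₁ := by
        rw [mem_pts_zero] at hx ⊢
        have : x - t - z = x - (t + z) := by abel
        rw [this]; exact hx
      have h5 := hj2 _ hx'
      rw [← hae] at h5 hj1
      have hij : i + j < i₂ := by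
        by_contra hcon
        have := lev_take_mono hK (not_lt.mp hcon)
        rw [sumd_take_add, ← hz] at this
        rw [neg_lev, neg_lev] at hj1
        rw [neg_lev, neg_lev] at this
        rw [neg_lev] at hi₂
        linarith
      have hjK : i + j < K.length := by
        rw [List.length_drop] at hj; omega
      have hmem : (K.drop i)[j] ∈ (K.take i₂).drop i := by
        rw [List.mem_iff_getElem]
        refine ⟨j, by rw [List.length_drop, List.length_take]; omega, ?_⟩
        simp
      have h6 := hH _ hmem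
      have h7 := lev_take_add_le hL hc
      rw [← ht] at h7
      rw [neg_lev, neg_lev, lev_sub (x := x)] at h5
      linarith

theorem KE_mono {low up K K' : List (Pa d)} {y : V d} {lam : ℝ} (h : D.KE low up y K lam)
    (hK : K <+: K') : D.KE low up y K' lam := by
  obtain ⟨π, η, hπ, hη, hQ⟩ := h
  refine ⟨π, η, hπ, hη.trans ?_, hQ⟩
  obtain ⟨T, rfl⟩ := hK
  rw [List.flatten_append]
  exact List.prefix_append _ _

end Dir

end Vale.Agent.P147
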