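import Vale.Agent.P147.CPi

open Filter Topology

namespace Vale.Agent.P147

variable {d : ℕ}

namespace Par

variable {p : Par} {D : Dir d} {Fp : FM D} {Fm : FM D.neg}

namespace Ctx

variable {om : ℕ → ℝ} {Wd : ℕ} (h : p.Ctx Fp Fm om Wd) {Ntot : ℕ} {cK : ℝ}
  {R : ℕ → ℕ → ℕ → ℝ} {RR : ℕ → ℕ → ℝ} {eps : ℕ → ℝ} (hk : KeyHyp Fp Fm Ntot cK R RR eps)
include h hk

theorem hit_top {J n : ℕ} (hN : p.np J n + 2 * p.n₁ J ≤ Ntot) (x : V d) :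
    EE (p.pi Fp Fm J) (fun z => E2 Fp Fm (n + 2 * 2 ^ J) (p.n₁ J) fun L₂ K₂ =>
      ind (p.II Fp Fm J p.stop (n + 2 * 2 ^ J) z (sumd L₂) ∧ p.HT D J (x + z) L₂ K₂)) ≤
      Real.exp p.stop * (cK * eps (2 ^ J)) := by
  have _ := h
  have key := hitII Fp (pi_isP (p := p) (Fp := Fp) (Fm := Fm) J) p.stop (n + 2 * 2 ^ J) x
    (fun up y => Fm.Ex (p.n₁ J) fun K => ind (D.TE up y K (2 ^ J : ℕ)))
    (fun up y => Fm.Ex_nonneg fun _ _ => ind_nonneg _) (B := cK * eps (2 ^ J))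
    (fun y => hk.top _ _ (by unfold np at hN; omega) y (2 ^ J) Nat.one_le_two_pow)
  refine le_trans (le_of_eq ?_) key
  refine EE_congr fun z _ => Fp.Ex_congr fun L _ => ?_
  rw [← Fm.Ex_mul_left]
  refine Fm.Ex_congr fun K hK => ?_
  beta_reduce
  rw [ind_and, II, HT, List.take_of_length_le hK.1.le]

theorem hit_first (hcK : 0 ≤ cK) {J n : ℕ} (hq : p.q₀ ≤ J) (hn : p.M (J + 1) ≤ n)
    (hN : p.np J n + 2 * p.n₁ J ≤ Ntot) (i : ℕ) :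
    E2 Fp Fm (p.np J n) (2 * p.n₁ J) (fun L K =>
      ind (nrm (sumd (L.take p.b₀)) ≤ p.R₀ ∧ p.H0 D J n L K)) ≤
      (2 * p.R₀ + 1) ^ d * (cK * (2 * i * R (p.M (J + 1) + n - p.b₀) (d * p.R₀) (p.C₂ J) +
        1 / 2 ^ i)) := by
  have _ := hcK
  have hb : p.b₀ ≤ p.M (J + 1) + n := by
    have h1 : p.M (p.q₀ + 1) ≤ p.M (J + 1) := M_mono (by omega)
    have h2 := h.ar.pow_le_M (J + 1)
    have h3 : 2 ^ p.q₀ ≤ 2 ^ (J + 1) := Nat.pow_le_pow_right (by norm_num) (by omega)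
    unfold b₀
    omega
  set n' := p.M (J + 1) + n - p.b₀ with hn'
  refine (E2_mono Fp Fm _ _ (ψ := fun L K => ∑ y ∈ ball d p.R₀,
    ind (D.lev (sumd ((L.drop p.b₀).take n')) ≤ p.C₂ J ∧
      D.KE ((L.drop p.b₀).take n') (L.take p.b₀) y (K.take (p.n₁ J)) (d * p.R₀ : ℕ)))
    fun L K _ _ => ?_).trans ?_
  · refine le_trans (ind_mono fun hh => ?_) (ind_exists_le _ _)
    exact ⟨_, mem_ball.2 hh.1, hh.2⟩
  rw [E2_sum]
  refine (Finset.sum_le_card_nsmul _ _ (cK * (2 * i * R n' (d * p.R₀) (p.C₂ J) + 1 / 2 ^ i))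
    fun y _ => ?_).trans (le_of_eq ?_)
  · refine le_trans (le_of_eq ?_) (hk.two n' p.b₀ (p.n₁ J) (by unfold np at hN; omega) y
      (d * p.R₀) (p.C₂ J) i)
    unfold E2
    rw [Fp.Ex_split (a := p.b₀) (by unfold np; omega) (fun up L₂ => Fm.Ex (2 * p.n₁ J) fun K =>
      ind (D.lev (sumd (L₂.take n')) ≤ p.C₂ J ∧
        D.KE (L₂.take n') up y (K.take (p.n₁ J)) (d * p.R₀ : ℕ))), Fp.Ex_comm Fp n' p.b₀]
    refine Fp.Ex_congr fun up _ => ?_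
    rw [Fp.Ex_take (a := n') (by unfold np; omega) (fun low => Fm.Ex (2 * p.n₁ J) fun K =>
      ind (D.lev (sumd low) ≤ p.C₂ J ∧ D.KE low up y (K.take (p.n₁ J)) (d * p.R₀ : ℕ)))]
    refine Fp.Ex_congr fun low _ => ?_
    exact Fm.Ex_take (by omega) fun K =>
      ind (D.lev (sumd low) ≤ p.C₂ J ∧ D.KE low up y K (d * p.R₀ : ℕ))
  · rw [card_ball, nsmul_eq_mul]
    push_cast
    ring

end Ctx

end Par

end Vale.Agent.P147
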