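import Vale.Agent.P147.CPi

open Filter Topology

namespace Vale.Agent.P147

variable {d : ℕ}

theorem win_inner {D : Dir d} {Fp : FM D} {Fm : FM D.neg} {Ntot : ℕ} {cK : ℝ}
    {R : ℕ → ℕ → ℕ → ℝ} {RR : ℕ → ℕ → ℝ} {eps : ℕ → ℝ} (hk : KeyHyp Fp Fm Ntot cK R RR eps)
    (hcK : 0 ≤ cK) {π : Di d} (hπ : IsP π) {θ s cT : ℝ} (hθ : 0 ≤ θ) (T : Finset (V d))
    (hT : θ * (T.card : ℝ) ≤ Real.exp s * cT) {b n' n₁ m lam C κ r : ℕ}
    (hN : n' + b + n₁ ≤ Ntot) (hκ : κ ≤ n')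
    (hr : ∀ z up, π.coeff z ≠ 0 → Fp.Ok b up → nrm (z + sumd up) ≤ r) (i : ℕ) (x : V d) :
    EE π (fun z => Fp.Ex b fun up => Fp.Ex n' fun low => Fm.Ex n₁ fun K =>
      ind (π.coeff z ≤ θ ∧ (π.coeff z ≤ Real.exp s * (π * Fp.law ^ b).coeff (z + sumd up) ∨
        ∃ v ∈ T, D.FPt (-D.lev (x + z + sumd up) - κ) 0 (K.take m).flatten v) ∧
        D.lev (sumd low) ≤ C ∧ D.KE low up (x + z + sumd up) K lam)) ≤
      Real.exp s * (1 + cT) * (cK * (2 * i * R n' lam C + (2 * r + 1) ^ d / 2 ^ i)) := by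
  classical
  set Bd := cK * (2 * i * R n' lam C + (2 * r + 1) ^ d / 2 ^ i) with hBd
  have hR := hk.R_nn n' lam C
  have hBd0 : 0 ≤ Bd := by positivity
  have k1 := hitII Fp hπ s b x
    (fun up y => Fp.Ex n' fun low => Fm.Ex n₁ fun K =>
      ind (D.lev (sumd low) ≤ C ∧ D.KE low up y K lam))
    (fun up y => Fp.Ex_nonneg fun _ _ => Fm.Ex_nonneg fun _ _ => ind_nonneg _) (B := Bd)
    (fun y => by
      rw [Fp.Ex_comm Fp b n']
      refine (hk.two n' b n₁ hN y lam C i).trans ?_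
      have : (1 : ℝ) ≤ (2 * r + 1) ^ d := one_le_pow₀ (by linarith [(Nat.cast_nonneg r : (0 : ℝ) ≤ r)])
      rw [hBd]
      gcongr)
  have k2 : ∀ v ∈ T, EE π (fun z => Fp.Ex b fun up => ind (π.coeff z ≤ θ) *
      Fp.Ex n' fun low => Fm.Ex n₁ fun K =>
        ind (D.lev (sumd low) ≤ C ∧ D.KE low up (x + v + z + sumd up - v) K lam ∧
          D.FPt (-κ) (x + v + z + sumd up - v) K.flatten (x + v + z + sumd up))) ≤ θ * Bd := by
    intro v _
    refine (hitI Fp hπ hθ b (x + v)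
      (fun up y => Fp.Ex n' fun low => Fm.Ex n₁ fun K =>
        ind (D.lev (sumd low) ≤ C ∧ D.KE low up (y - v) K lam ∧ D.FPt (-κ) (y - v) K.flatten y))
      (fun up y => Fp.Ex_nonneg fun _ _ => Fm.Ex_nonneg fun _ _ => ind_nonneg _)
      ((ball d r).image fun w => x + v + w) fun z up hz hup =>
        Finset.mem_image.2 ⟨z + sumd up, mem_ball.2 (hr z up hz hup), by abel⟩).trans ?_
    refine mul_le_mul_of_nonneg_left ?_ hθ
    simp only [Fp.Ex_comm Fp b n']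
    refine (hk.one n' b n₁ hN v lam C i κ hκ _).trans ?_
    have h1 : (((ball d r).image fun w => x + v + w).card : ℝ) ≤ (2 * r + 1) ^ d := by
      have := Finset.card_image_le (s := ball d r) (f := fun w => x + v + w)
      rw [card_ball] at this
      exact_mod_cast this
    rw [hBd]
    gcongr
  have k3 := Finset.sum_le_card_nsmul _ _ _ k2
  rw [nsmul_eq_mul, ← EE_sum] at k3
  refine le_trans (hπ.mono fun z _ => ?_) (le_trans (le_of_eq (EE_add _ _ _))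
    ((add_le_add k1 k3).trans ?_))
  · rw [← Fp.Ex_sum, ← Fp.Ex_add]
    refine Fp.Ex_mono fun up _ => ?_
    simp only [← Fp.Ex_mul_left, ← Fm.Ex_mul_left]
    rw [← Fp.Ex_sum, ← Fp.Ex_add]
    refine Fp.Ex_mono fun low _ => ?_
    rw [← Fm.Ex_sum, ← Fm.Ex_add]
    refine Fm.Ex_mono fun K _ => ?_
    simp only [← ind_and]
    refine le_trans (ind_mono ?_) ((ind_or_le _ _).trans (add_le_add le_rfl (ind_exists_le _ _)))
    rintro ⟨h1, h2 | ⟨v, hv, h2⟩, h3, h4⟩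
    · exact Or.inl ⟨h2, h3, h4⟩
    · have e : x + v + z + sumd up - v = x + z + sumd up := by abel
      refine Or.inr ⟨v, hv, h1, h3, by rwa [e], ?_⟩
      have h5 := D.FPt_translate (x + z + sumd up) (D.FPt_prefix (ξ' := K.flatten)
        ⟨(K.drop m).flatten, by rw [← List.flatten_append, List.take_append_drop]⟩ h2)
      rw [e, show x + v + z + sumd up = v + (x + z + sumd up) by abel]
      rwa [zero_add, show -D.lev (x + z + sumd up) - κ + D.lev (x + z + sumd up) = -κ by ring]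
        at h5
  · have : (T.card : ℝ) * (θ * Bd) ≤ Real.exp s * cT * Bd := by
      rw [← mul_assoc, mul_comm (T.card : ℝ)]
      exact mul_le_mul_of_nonneg_right hT hBd0
    linarith

namespace Par

variable {p : Par} {D : Dir d} {Fp : FM D} {Fm : FM D.neg}

namespace Ctx

variable {om : ℕ → ℝ} {Wd : ℕ} (h : p.Ctx Fp Fm om Wd) {Ntot : ℕ} {cK : ℝ}
  {R : ℕ → ℕ → ℕ → ℝ} {RR : ℕ → ℕ → ℝ} {eps : ℕ → ℝ} (hk : KeyHyp Fp Fm Ntot cK R RR eps)
include h hk

/-- inner bound for a hit in a window -/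
theorem hit_win (hcK : 0 ≤ cK) {J n q j κ₁ : ℕ} (hq : q < J) (hj : j < p.k)
    (hκ : κ₁ < 2 ^ (q + 1)) (hn : p.M (J + 1) ≤ n) (hN : p.np J n + 2 * p.n₁ J ≤ Ntot)
    (i : ℕ) (x : V d) :
    EE (p.pi Fp Fm q) (fun z => E2 Fp Fm (p.np J n - p.M (q + 1)) (io Fp Fm (q + 1) j + p.n₁ J)
      fun L₂ K₂ => ind ((p.pi Fp Fm q).coeff z ≤ p.th Fp Fm q ∧ p.Pr Fp Fm q j κ₁ x z L₂ K₂ ∧
        p.HW Fp Fm J n q j (x + z) L₂ K₂)) ≤
      Real.exp (p.ss Fp Fm q) * (1 + (2 * p.M₀ + 1) ^ d) * (cK * (2 * i *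
        R (p.M (J + 1) + n - (p.M (q + 1) + j * 2 ^ (q + 1) + 2 * 2 ^ (q + 1)))
          (p.Cc * 2 ^ (q + 1)) (p.C₂ J) + (2 * (Ntot * Wd) + 1) ^ d / 2 ^ i)) := by
  have w1 := h.ar.M_win (q := q) hj
  have w2 : p.M (q + 2) ≤ p.M (J + 1) := M_mono (by omega)
  have w3 := h.ar.pow_le_M (J + 1)
  have w4 : 2 ^ (q + 1) ≤ 2 ^ (J + 1) := Nat.pow_le_pow_right (by norm_num) (by omega)
  have w5 : p.M q ≤ p.M (J + 1) := M_mono (by omega)
  have w6 : p.A Fp Fm (q + 1) ≤ p.n₁ J := (h.ar.A_mono (by omega)).trans (h.ar.A_le_n₁ J)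
  unfold np at hN
  set a := j * 2 ^ (q + 1) with ha
  set b := 2 * 2 ^ (q + 1) with hb
  set n' := p.M (J + 1) + n - (p.M (q + 1) + a + b) with hn'
  set ψ : V d → V d → List (Pa d) → List (Pa d) → List (Pa d) → ℝ := fun x z up low K =>
    ind ((p.pi Fp Fm q).coeff z ≤ p.th Fp Fm q ∧ ((p.pi Fp Fm q).coeff z ≤
      Real.exp (p.ss Fp Fm q) * (p.pi Fp Fm q * Fp.law ^ b).coeff (z + sumd up) ∨
        ∃ v ∈ p.TT Fp Fm q, D.FPt (-D.lev (x + z + sumd up) - κ₁) 0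
          (K.take ((p.Cc + 2) * 2 ^ (q + 1))).flatten v) ∧
        D.lev (sumd low) ≤ p.C₂ J ∧ D.KE low up (x + z + sumd up) K (p.Cc * 2 ^ (q + 1) : ℕ))
    with hψ
  have inner := fun x' => win_inner hk hcK (pi_isP (p := p) (Fp := Fp) (Fm := Fm) q)
    (th_spec (p := p) (Fp := Fp) (Fm := Fm) q).1.le (p.TT Fp Fm q) (card_TT q)
    (b := b) (n' := n') (n₁ := p.n₁ J) (m := (p.Cc + 2) * 2 ^ (q + 1))
    (lam := p.Cc * 2 ^ (q + 1)) (C := p.C₂ J) (κ := κ₁) (r := Ntot * Wd) (by omega) (by omega)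
    (fun z up hz hup => by
      refine (nrm_add_le _ _).trans ((add_le_add (h.supp_pi q z hz)
        (h.gp.nrm_sumd_le hup)).trans ?_)
      rw [← add_mul]
      exact Nat.mul_le_mul_right _ (by omega)) i x'
  have e : ∀ z, E2 Fp Fm (p.np J n - p.M (q + 1)) (io Fp Fm (q + 1) j + p.n₁ J)
      (fun L₂ K₂ => ind ((p.pi Fp Fm q).coeff z ≤ p.th Fp Fm q ∧ p.Pr Fp Fm q j κ₁ x z L₂ K₂ ∧
        p.HW Fp Fm J n q j (x + z) L₂ K₂)) =
      Fp.Ex a fun sk => Fm.Ex (io Fp Fm (q + 1) j) fun sK => Fp.Ex b fun up =>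
        Fp.Ex n' fun low => Fm.Ex (p.n₁ J) fun K => ψ (x + sumd sk + sumd sK) z up low K := by
    intro z
    have e1 : ∀ sk, (Fm.Ex (io Fp Fm (q + 1) j) fun sK => Fp.Ex b fun up =>
        Fp.Ex n' fun low => Fm.Ex (p.n₁ J) fun K => ψ (x + sumd sk + sumd sK) z up low K) =
        Fp.Ex b fun up => Fp.Ex n' fun low => Fm.Ex (io Fp Fm (q + 1) j + p.n₁ J) fun K₂ =>
          ψ (x + sumd sk + sumd (K₂.take (io Fp Fm (q + 1) j))) z up low
            (K₂.drop (io Fp Fm (q + 1) j)) := by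
      intro sk
      rw [Fm.Ex_comm Fp]
      refine Fp.Ex_congr fun up _ => ?_
      rw [Fm.Ex_comm Fp]
      refine Fp.Ex_congr fun low _ => ?_
      rw [Fm.Ex_split (Nat.le_add_right _ _)
        (fun sK K => ψ (x + sumd sk + sumd sK) z up low K), Nat.add_sub_cancel_left]
    simp only [e1]
    rw [← Fp.Ex_split3 (a := a) (b := b) (c := n') (n := p.np J n - p.M (q + 1))
      (by unfold np; omega) fun sk up low => Fm.Ex (io Fp Fm (q + 1) j + p.n₁ J) fun K₂ =>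
          ψ (x + sumd sk + sumd (K₂.take (io Fp Fm (q + 1) j))) z up low
            (K₂.drop (io Fp Fm (q + 1) j))]
    unfold E2
    refine Fp.Ex_congr fun L _ => Fm.Ex_congr fun K hK => ?_
    have ey : yy Fp Fm q j (x + z) L K = x + sumd (L.take a) +
        sumd (K.take (io Fp Fm (q + 1) j)) + z + sumd ((L.drop a).take b) := by
      unfold yy
      rw [← ha, ← hb, sumd_take_add]
      abel
    have ek : (K.drop (io Fp Fm (q + 1) j)).take (p.n₁ J) = K.drop (io Fp Fm (q + 1) j) :=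
      List.take_of_length_le (by rw [List.length_drop, hK.1]; omega)
    simp only [hψ, Pr, HW, II, ey, ek, ← ha, ← hb, ← hn']
  simp only [e]
  rw [← Fp.Ex_EE]
  refine Fp.Ex_le_const fun sk _ => ?_
  rw [← Fm.Ex_EE]
  refine Fm.Ex_le_const fun sK _ => ?_
  have := inner (x + sumd sk + sumd sK)
  push_cast at this ⊢
  simpa only [hψ, Nat.cast_mul, Nat.cast_pow, Nat.cast_ofNat] using this

end Ctx

end Par

end Vale.Agent.P147
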