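import Vale.Agent.P147.Base

open Filter Topology

namespace Vale.Agent.P147

variable {d : ℕ}

theorem seq_ratio (s : ℕ → ℝ) (n : ℕ) (h0 : s 0 = 1) (h1 : 1 - 1 / 22 ≤ s 1)
    (h : ∀ r, r + 2 ≤ n → s (r + 1) - 1 / 22 * s (r - 1) ≤ s (r + 2)) :
    ∀ a b, a ≤ b → b ≤ n → 0 < s b ∧ s a ≤ (11 / 10) ^ (b - a) * s b := by
  have key : ∀ r, r + 1 ≤ n → 0 < s r ∧ s r ≤ 11 / 10 * s (r + 1) ∧
      s (r - 1) ≤ 11 / 10 * s r := by
    intro r
    induction r with
    | zero => intro _; simp only [h0, zero_add, Nat.zero_sub]; refine ⟨one_pos, ?_, ?_⟩ <;> linarith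
    | succ r ih =>
      intro hr
      obtain ⟨i1, i2, i3⟩ := ih (by omega)
      have := h r (by omega)
      refine ⟨by linarith, by linarith, by simpa using i2⟩
  intro a b hab
  induction b, hab using Nat.le_induction with
  | base =>
    intro hb
    refine ⟨?_, by simp⟩
    cases a with
    | zero => rw [h0]; exact one_pos
    | succ a => obtain ⟨i1, i2, _⟩ := key a hb; linarith
  | succ b hab ih =>
    intro hb
    obtain ⟨i1, i2, _⟩ := key b hb
    refine ⟨by linarith, (ih (by omega)).2.trans ?_⟩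
    rw [show b + 1 - a = b - a + 1 by omega, pow_succ, mul_assoc]
    exact mul_le_mul_of_nonneg_left i2 (by positivity)

open Classical in
/-- rising sun -/
theorem sun (a : ℕ → ℝ) (ha : ∀ q, 0 ≤ a q) (s₀ : ℝ) (hs : 1 ≤ s₀) (T : ℕ)
    (h : 6 * ∑ q ∈ Finset.range (2 * T), a q ≤ T) :
    (T : ℝ) / 2 ≤ ((Finset.Ico T (2 * T)).filter fun J : ℕ =>
      ∀ q ≤ J, a q ≤ s₀ + ((J - q : ℕ) : ℝ) / 3).card := by
  have h1 := Finset.card_filter_add_card_filter_not (s := Finset.Ico T (2 * T))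
    (fun J : ℕ => ∀ q ≤ J, a q ≤ s₀ + ((J - q : ℕ) : ℝ) / 3)
  rw [Nat.card_Ico, show 2 * T - T = T by omega] at h1
  have h2 : ((Finset.Ico T (2 * T)).filter fun J : ℕ =>
      ¬ ∀ q ≤ J, a q ≤ s₀ + ((J - q : ℕ) : ℝ) / 3) ⊆
      (Finset.range (2 * T)).biUnion fun q => Finset.Ico q (q + ⌈3 * (a q - s₀)⌉₊) := by
    intro J hJ
    rw [Finset.mem_filter, Finset.mem_Ico] at hJ
    obtain ⟨hJ1, hJ2⟩ := hJ
    push Not at hJ2
    obtain ⟨q, hq1, hq2⟩ := hJ2
    refine Finset.mem_biUnion.mpr ⟨q, Finset.mem_range.mpr (by omega), Finset.mem_Ico.mpr ⟨hq1, ?_⟩⟩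
    have : J - q < ⌈3 * (a q - s₀)⌉₊ := Nat.lt_ceil.mpr (by linarith)
    omega
  have h3 := (Finset.card_le_card h2).trans Finset.card_biUnion_le
  have h4 : ((∑ q ∈ Finset.range (2 * T), (Finset.Ico q (q + ⌈3 * (a q - s₀)⌉₊)).card : ℕ) : ℝ) ≤
      ∑ q ∈ Finset.range (2 * T), 3 * a q := by
    push_cast
    refine Finset.sum_le_sum fun q _ => ?_
    rw [Nat.card_Ico, Nat.add_sub_cancel_left]
    by_cases hq : 0 ≤ 3 * (a q - s₀)
    · have := Nat.ceil_lt_add_one hq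
      linarith
    · rw [Nat.ceil_eq_zero.mpr (not_le.mp hq).le]
      have := ha q
      simp only [Nat.cast_zero]; linarith
  rw [← Finset.mul_sum] at h4
  have h5 := (Nat.cast_le (α := ℝ)).mpr h3
  have h6 := congrArg (Nat.cast : ℕ → ℝ) h1
  push_cast at h6
  linarith

theorem exp_max_le {s₀ a : ℝ} {n : ℕ} (h : a ≤ s₀ + (n : ℝ) / 3) :
    Real.exp (max s₀ a) ≤ Real.exp s₀ * (3 / 2) ^ n := by
  have h1 : max s₀ a ≤ s₀ + n * (1 / 3) :=
    max_le (le_add_of_nonneg_right (by positivity)) (by linarith)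
  refine (Real.exp_le_exp.mpr h1).trans ?_
  rw [Real.exp_add, Real.exp_nat_mul]
  have h2 : Real.exp (1 / 3) ≤ 3 / 2 := by
    have := Real.exp_bound_div_one_sub_of_interval (x := 1 / 3) (by norm_num) (by norm_num)
    linarith [show (1 : ℝ) / (1 - 1 / 3) = 3 / 2 by norm_num]
  gcongr

theorem geo_sum (r q₀ : ℕ) :
    ∑ r' ∈ Finset.range r, (11 / 10 : ℝ) ^ (r - r' + 2) * (3 / 2) ^ (r - r') * 2 ^ (q₀ + r' + 1) ≤
      6 * 2 ^ (q₀ + r + 1) := by
  induction r with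
  | zero => simp
  | succ r ih =>
    rw [Finset.sum_range_succ]
    have h1 : ∑ r' ∈ Finset.range r,
        (11 / 10 : ℝ) ^ (r + 1 - r' + 2) * (3 / 2) ^ (r + 1 - r') * 2 ^ (q₀ + r' + 1) =
        33 / 20 * ∑ r' ∈ Finset.range r,
          (11 / 10 : ℝ) ^ (r - r' + 2) * (3 / 2) ^ (r - r') * 2 ^ (q₀ + r' + 1) := by
      rw [Finset.mul_sum]
      refine Finset.sum_congr rfl fun r' hr' => ?_
      rw [show r + 1 - r' = r - r' + 1 by have := Finset.mem_range.mp hr'; omega]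
      ring
    rw [h1, show r + 1 - r = 1 by omega, show q₀ + (r + 1) + 1 = q₀ + r + 1 + 1 by ring,
      pow_succ (2 : ℝ) (q₀ + r + 1)]
    have : (0 : ℝ) < 2 ^ (q₀ + r + 1) := by positivity
    nlinarith

theorem geo_sum' (r : ℕ) :
    ∑ r' ∈ Finset.range r, (11 / 10 : ℝ) ^ (r - r' + 2) * (3 / 2) ^ (r - r') ≤ 4 ^ (r + 2) := by
  induction r with
  | zero => simp
  | succ r ih =>
    rw [Finset.sum_range_succ]
    have h1 : ∑ r' ∈ Finset.range r,
        (11 / 10 : ℝ) ^ (r + 1 - r' + 2) * (3 / 2) ^ (r + 1 - r') =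
        33 / 20 * ∑ r' ∈ Finset.range r, (11 / 10 : ℝ) ^ (r - r' + 2) * (3 / 2) ^ (r - r') := by
      rw [Finset.mul_sum]
      refine Finset.sum_congr rfl fun r' hr' => ?_
      rw [show r + 1 - r' = r - r' + 1 by have := Finset.mem_range.mp hr'; omega]
      ring
    rw [h1, show r + 1 - r = 1 by omega, show r + 1 + 2 = r + 2 + 1 by ring,
      pow_succ (4 : ℝ) (r + 2)]
    have : (1 : ℝ) ≤ 4 ^ (r + 2) := one_le_pow₀ (by norm_num)
    nlinarith

end Vale.Agent.P147
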