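import Vale.Agent.P147.CPer
import Vale.Agent.P147.CSeq

open Filter Topology

namespace Vale.Agent.P147

variable {d : ℕ}

namespace Par

variable {p : Par} {D : Dir d} {Fp : FM D} {Fm : FM D.neg}

/-- constant of the main term -/
noncomputable def c1 (p : Par) (d : ℕ) (cK : ℝ) : ℝ :=
  cK * (2 * (2 * p.R₀ + 1) ^ d * (d * p.R₀ + 1) +
    12 * (p.Cc + 1) * Real.exp p.s₀ * (1 + (2 * p.M₀ + 1) ^ d))

/-- constant of the error term -/
noncomputable def c2 (p : Par) (d : ℕ) (cK : ℝ) : ℝ :=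
  cK * ((2 * p.R₀ + 1) ^ d + p.k * Real.exp p.s₀ * (1 + (2 * p.M₀ + 1) ^ d))

namespace Ctx

variable {om : ℕ → ℝ} {Wd : ℕ} (h : p.Ctx Fp Fm om Wd) {Ntot : ℕ} {cK : ℝ}
  {R : ℕ → ℕ → ℕ → ℝ} {RR : ℕ → ℕ → ℝ} {eps : ℕ → ℝ} (hk : KeyHyp Fp Fm Ntot cK R RR eps)
include h hk

theorem per_J (hcK : 0 ≤ cK) {J b : ℕ} (hJ : p.q₀ ≤ J) (hN : 16 * p.hs * p.M (J + 1) ≤ Ntot)
    (ha : ∀ q ≤ J, p.η₀ * p.aa Fp Fm q ≤ p.s₀ + ((J - q : ℕ) : ℝ) / 3)
    (he : Real.exp p.stop * (cK * eps (2 ^ J)) ≤ 1 / 100)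
    (hb : 6 * p.hs * p.M (J + 1) ≤ b) (hR : d * p.R₀ ≤ 2 ^ J) (i : ℕ) :
    1 / 2 ≤ p.c1 d cK * i * RR (p.M J) b +
      p.c2 d cK * (2 * (Ntot * Wd) + 1) ^ d * 4 ^ (J + 2) / 2 ^ i := by
  obtain ⟨r, rfl⟩ := Nat.exists_eq_add_of_le hJ
  set J := p.q₀ + r with hJdef
  set N := p.M (J + 1) with hNdef
  have hs1 := h.ar.hs1
  have hk16 : 16 ≤ p.k := by have := h.ar.k2; unfold Par.k; nlinarith
  have hM2 : ∀ q, p.M (q + 1) = 2 * p.M q := fun q => by unfold Par.M; ring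
  have hMq : ∀ q, 16 * 2 ^ q ≤ p.M q := fun q => Nat.mul_le_mul_right _ hk16
  have hMm : ∀ q q', q ≤ q' → p.M q ≤ p.M q' := fun q q' hq =>
    Nat.mul_le_mul_left _ (Nat.pow_le_pow_right two_pos hq)
  have hN2 : N = 2 * p.M J := hM2 J
  have hMJ := hMq J
  have hpos : 1 ≤ 2 ^ J := Nat.one_le_two_pow
  have hhN : N ≤ p.hs * N := Nat.le_mul_of_pos_left _ hs1
  set X := RR (p.M J) b with hX
  have hX0 : 0 ≤ X := hk.RR_nn _ _
  have hsum : ∀ (e lam : ℕ) (a y : ℝ), e ≤ N + 2 ^ J → lam ≤ p.hs * N → 0 ≤ a →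
      ∑ n ∈ Finset.Ico N (2 * N), a * (2 * i * R (N + n - e) lam (p.C₂ J) + y) ≤
        a * (2 * i * ((lam + 1) * X) + N * y) := by
    intro e lam a y he hl ha
    rw [← Finset.mul_sum, Finset.sum_add_distrib, ← Finset.mul_sum, Finset.sum_const, Nat.card_Ico,
      show 2 * N - N = N by omega, nsmul_eq_mul]
    have h1 : ∑ n ∈ Finset.Ico N (2 * N), R (N + n - e) lam (p.C₂ J) ≤ (lam + 1) * X := by
      refine le_trans ?_ (hk.rsum (p.M J) (3 * N) lam (p.C₂ J) b (by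
        unfold Par.C₂; rw [← hNdef]; nlinarith))
      rw [← Finset.sum_image (s := Finset.Ico N (2 * N)) (g := fun n => N + n - e)
        (f := fun m => R m lam (p.C₂ J)) (fun x hx y hy hxy => by
          simp only [Finset.coe_Ico, Set.mem_Ico] at hx hy hxy; omega)]
      refine Finset.sum_le_sum_of_subset_of_nonneg ?_ fun _ _ _ => hk.R_nn _ _ _
      intro m hm
      obtain ⟨n, hn, rfl⟩ := Finset.mem_image.mp hm
      rw [Finset.mem_Ico] at hn ⊢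
      omega
    gcongr
  set B0 : ℝ := (2 * p.R₀ + 1) ^ d with hB0
  set B1 : ℝ := 1 + (2 * p.M₀ + 1) ^ d with hB1
  set Y : ℝ := (2 * (Ntot * Wd) + 1) ^ d with hY
  have hB00 : 0 ≤ B0 := by positivity
  have hB10 : 0 ≤ B1 := by positivity
  have hY1 : 1 ≤ Y := one_le_pow₀ (by
    have : (0 : ℝ) ≤ Ntot * Wd := by positivity
    linarith)
  have h1 : (N : ℝ) * (1 / 2) ≤ ∑ n ∈ Finset.Ico N (2 * N), ((11 / 10) ^ (r + 1) * B0 * cK *
      (2 * i * R (N + n - p.b₀) (d * p.R₀) (p.C₂ J) + 1 / 2 ^ i) +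
      ∑ r' ∈ Finset.range r, ∑ j ∈ Finset.range p.k, (11 / 10) ^ (r - r' + 2) *
        Real.exp (p.ss Fp Fm (p.q₀ + r')) * B1 * cK * (2 * i *
          R (N + n - (p.M (p.q₀ + r' + 1) + j * 2 ^ (p.q₀ + r' + 1) +
            2 * 2 ^ (p.q₀ + r' + 1))) (p.Cc * 2 ^ (p.q₀ + r' + 1)) (p.C₂ J) + Y / 2 ^ i)) := by
    have h2 := Finset.card_nsmul_le_sum (Finset.Ico N (2 * N)) _ (1 / 2 : ℝ) fun n hn =>
      h.per_n hk hcK (r := r) (n := n) (Finset.mem_Ico.mp hn).1 (Finset.mem_Ico.mp hn).2.le (by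
        have := (Finset.mem_Ico.mp hn).2
        unfold Par.np Par.n₁ Par.C₂
        rw [← hJdef, ← hNdef]
        nlinarith) (by simpa using ha J le_rfl) he i
    rw [Nat.card_Ico, show 2 * N - N = N by omega, nsmul_eq_mul] at h2
    refine h2.trans (le_of_eq (Finset.sum_congr rfl fun n _ => ?_))
    simp only [mul_assoc]
    rfl
  rw [Finset.sum_add_distrib, Finset.sum_comm] at h1
  have h2 := hsum p.b₀ (d * p.R₀) ((11 / 10) ^ (r + 1) * B0 * cK) (1 / 2 ^ i) (by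
    have := hMm (p.q₀ + 1) (J + 1) (by omega)
    have : 2 ^ p.q₀ ≤ 2 ^ J := Nat.pow_le_pow_right two_pos (by omega)
    unfold Par.b₀; omega) (by omega) (by positivity)
  have h3 : ∑ r' ∈ Finset.range r, ∑ n ∈ Finset.Ico N (2 * N), ∑ j ∈ Finset.range p.k,
      (11 / 10) ^ (r - r' + 2) * Real.exp (p.ss Fp Fm (p.q₀ + r')) * B1 * cK * (2 * i *
          R (N + n - (p.M (p.q₀ + r' + 1) + j * 2 ^ (p.q₀ + r' + 1) +
            2 * 2 ^ (p.q₀ + r' + 1))) (p.Cc * 2 ^ (p.q₀ + r' + 1)) (p.C₂ J) + Y / 2 ^ i) ≤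
      ∑ r' ∈ Finset.range r, ((p.k * Real.exp p.s₀ * B1 * cK * 2 * i * (p.Cc + 1) * X) *
        ((11 / 10 : ℝ) ^ (r - r' + 2) * (3 / 2) ^ (r - r') * 2 ^ (p.q₀ + r' + 1)) +
        (p.k * Real.exp p.s₀ * B1 * cK * N * Y / 2 ^ i) *
        ((11 / 10 : ℝ) ^ (r - r' + 2) * (3 / 2) ^ (r - r'))) := by
    refine Finset.sum_le_sum fun r' hr' => ?_
    have hr'' := Finset.mem_range.mp hr'
    rw [Finset.sum_comm]
    have hq : 2 ^ (p.q₀ + r' + 1) ≤ 2 ^ J := Nat.pow_le_pow_right two_pos (by omega)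
    have hexp : Real.exp (p.ss Fp Fm (p.q₀ + r')) ≤ Real.exp p.s₀ * (3 / 2) ^ (r - r') := by
      have := ha (p.q₀ + r') (by omega)
      rw [show J - (p.q₀ + r') = r - r' by omega] at this
      exact exp_max_le this
    refine (Finset.sum_le_card_nsmul _ _ ((11 / 10) ^ (r - r' + 2) *
      (Real.exp p.s₀ * (3 / 2) ^ (r - r')) * B1 * cK *
      (2 * i * ((p.Cc + 1) * 2 ^ (p.q₀ + r' + 1) * X) + N * (Y / 2 ^ i))) fun j hj => ?_).trans
      (le_of_eq ?_)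
    · have hj' := Finset.mem_range.mp hj
      refine (hsum _ _ _ _ ?_ ?_ (by positivity)).trans ?_
      · have h4 := hMm (p.q₀ + r' + 1) J (by omega)
        have h5 : (j + 1) * 2 ^ (p.q₀ + r' + 1) ≤ p.M (p.q₀ + r' + 1) :=
          Nat.mul_le_mul_right _ hj'
        nlinarith
      · unfold Par.Cc
        nlinarith
      · have h4 : ((p.Cc * 2 ^ (p.q₀ + r' + 1) : ℕ) : ℝ) + 1 ≤ (p.Cc + 1) * 2 ^ (p.q₀ + r' + 1) := by
          push_cast
          have : (1 : ℝ) ≤ 2 ^ (p.q₀ + r' + 1) := one_le_pow₀ (by norm_num)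
          linarith
        gcongr
    · rw [Finset.card_range, nsmul_eq_mul]; ring
  rw [Finset.sum_add_distrib, ← Finset.mul_sum, ← Finset.mul_sum] at h3
  have g1 := geo_sum r p.q₀
  have g2 : ∑ r' ∈ Finset.range r, (11 / 10 : ℝ) ^ (r - r' + 2) * (3 / 2) ^ (r - r') ≤
      4 ^ (J + 2) := (geo_sum' r).trans (pow_le_pow_right₀ (by norm_num) (by omega))
  have hNr : (N : ℝ) = p.k * 2 ^ (J + 1) := by rw [hNdef, Par.M]; push_cast; rfl
  have g3 : (11 / 10 : ℝ) ^ (r + 1) ≤ 2 ^ (J + 1) :=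
    (pow_le_pow_left₀ (by norm_num) (by norm_num) _).trans
      (pow_le_pow_right₀ (by norm_num) (by omega))
  have g4 : (2 : ℝ) ^ (J + 1) ≤ N := by
    have : 2 ^ (J + 1) ≤ N := by rw [pow_succ]; omega
    exact_mod_cast this
  have g5 : (11 / 10 : ℝ) ^ (r + 1) ≤ Y * 4 ^ (J + 2) := by
    have : (11 / 10 : ℝ) ^ (r + 1) ≤ 4 ^ (J + 2) :=
      (pow_le_pow_left₀ (by norm_num) (by norm_num) _).trans
        (pow_le_pow_right₀ (by norm_num) (by omega))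
    have h4 : (0 : ℝ) ≤ 4 ^ (J + 2) := by positivity
    nlinarith
  have hNpos : (0 : ℝ) < N := lt_of_lt_of_le (by positivity) g4
  have k1 : (11 / 10) ^ (r + 1) * B0 * cK * (2 * i * ((((d * p.R₀ : ℕ) : ℝ) + 1) * X) +
      N * (1 / 2 ^ i)) ≤ N * (cK * (2 * B0 * (d * p.R₀ + 1)) * i * X) +
      N * (cK * B0 * Y * 4 ^ (J + 2) / 2 ^ i) := by
    rw [mul_add]
    refine add_le_add ?_ ?_
    · calc _ = (11 / 10) ^ (r + 1) * (cK * (2 * B0 * (d * p.R₀ + 1)) * i * X) := by push_cast; ring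
        _ ≤ _ := mul_le_mul_of_nonneg_right (g3.trans g4) (by positivity)
    · calc _ = (11 / 10) ^ (r + 1) * (N * cK * B0 / 2 ^ i) := by ring
        _ ≤ (Y * 4 ^ (J + 2)) * (N * cK * B0 / 2 ^ i) :=
          mul_le_mul_of_nonneg_right g5 (by positivity)
        _ = _ := by ring
  have k2 := mul_le_mul_of_nonneg_left g1
    (show 0 ≤ p.k * Real.exp p.s₀ * B1 * cK * 2 * i * (p.Cc + 1) * X by positivity)
  have k3 := mul_le_mul_of_nonneg_left g2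
    (show 0 ≤ p.k * Real.exp p.s₀ * B1 * cK * N * Y / 2 ^ i by positivity)
  have k4 : p.k * Real.exp p.s₀ * B1 * cK * 2 * i * (p.Cc + 1) * X * (6 * 2 ^ (p.q₀ + r + 1)) =
      N * (cK * (12 * (p.Cc + 1) * Real.exp p.s₀ * B1) * i * X) := by
    rw [hNr]; ring
  refine le_of_mul_le_mul_left ?_ hNpos
  have k5 : N * (p.c1 d cK * i * X + p.c2 d cK * Y * 4 ^ (J + 2) / 2 ^ i) =
      N * (cK * (2 * B0 * (d * p.R₀ + 1)) * i * X) + N * (cK * B0 * Y * 4 ^ (J + 2) / 2 ^ i) +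
      (N * (cK * (12 * (p.Cc + 1) * Real.exp p.s₀ * B1) * i * X) +
      p.k * Real.exp p.s₀ * B1 * cK * N * Y / 2 ^ i * 4 ^ (J + 2)) := by
    unfold c1 c2; ring
  rw [k5]
  linarith

end Ctx

end Par

end Vale.Agent.P147
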