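import Vale.Agent.P147.CF
import Vale.Agent.P147.CSeq

open Filter Topology

namespace Vale.Agent.P147

variable {d : ℕ}

namespace Par

variable {p : Par} {D : Dir d} {Fp : FM D} {Fm : FM D.neg}

theorem cs_Wev_take {q r' : ℕ}
    (h2 : ∀ j < p.k, io Fp Fm (q + 1) j + (p.Cc + 2) * 2 ^ (q + 1) ≤ r') (κ₁ : ℕ) (x z : V d)
    (L K : List (Pa d)) :
    p.Wev Fp Fm q κ₁ x z L K ↔ p.Wev Fp Fm q κ₁ x z L (K.take r') := by
  refine and_congr_right fun _ => forall_congr' fun j => forall_congr' fun hj => ?_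
  have h3 := h2 j hj
  have e1 : ∀ y : V d, yy Fp Fm q j y L (K.take r') = yy Fp Fm q j y L K := by
    intro y
    unfold yy
    rw [List.take_take, min_eq_left (by omega)]
  have e2 : ((K.take r').drop (io Fp Fm (q + 1) j)).take ((p.Cc + 2) * 2 ^ (q + 1)) =
      (K.drop (io Fp Fm (q + 1) j)).take ((p.Cc + 2) * 2 ^ (q + 1)) := by
    rw [List.drop_take, List.take_take, min_eq_left (by omega)]
  unfold Rg Pr
  rw [e1, e2]

theorem cs_one_sub_Wt (q : ℕ) (L K : List (Pa d)) :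
    1 - p.Wt Fp Fm q L K ≤ ind (¬ p.Hard Fp Fm q L K) + av (2 ^ (q + 1)) fun κ =>
      av (2 ^ (q + 1)) fun κ₁ => ind (¬ p.Wev Fp Fm q κ₁ (p.x0 Fp Fm q L K) (p.zz Fp Fm q κ L K)
        (L.drop (p.M (q + 1))) (K.drop (p.A Fp Fm (q + 1) + κ))) := by
  have h1 : 1 ≤ 2 ^ (q + 1) := Nat.one_le_two_pow
  unfold Wt
  by_cases hH : p.Hard Fp Fm q L K
  · rw [ind_pos hH, ind_neg (not_not.mpr hH), one_mul, zero_add]
    simp only [ind_not, av_sub, av_const h1]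
    exact le_rfl
  · rw [ind_neg hH, ind_pos hH, zero_mul, sub_zero]
    exact le_add_of_nonneg_right (av_nonneg fun _ _ => av_nonneg fun _ _ => ind_nonneg _)

namespace Ctx

variable {om : ℕ → ℝ} {Wd : ℕ} (h : p.Ctx Fp Fm om Wd)
include h

theorem Wt_fail {r np nm : ℕ} (h1 : p.M (p.q₀ + r + 3) ≤ np)
    (h2 : 2 * p.A Fp Fm (p.q₀ + r + 3) ≤ nm) :
    E2 Fp Fm np nm (fun L K => p.g Fp Fm (r - 1) L K * (1 - p.Wt Fp Fm (p.q₀ + r) L K)) ≤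
      1 / 22 * E2 Fp Fm np nm (p.g Fp Fm (r - 1)) := by
  have hA : p.A Fp Fm (p.q₀ + r + 1) + 2 ^ (p.q₀ + r + 1) ≤ p.A Fp Fm (p.q₀ + r + 3) :=
    (h.ar.A_add_pow (p.q₀ + r + 1)).trans (h.ar.A_mono (by omega))
  have hio : ∀ j < p.k, io Fp Fm (p.q₀ + r + 1) j + (p.Cc + 2) * 2 ^ (p.q₀ + r + 1) ≤
      p.A Fp Fm (p.q₀ + r + 3) - (p.A Fp Fm (p.q₀ + r + 1) + 2 ^ (p.q₀ + r + 1)) := by
    intro j hj
    have := h.ar.A_io (q := p.q₀ + r) hj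
    omega
  have hM2 : p.M (p.q₀ + r + 2) = p.M (p.q₀ + r + 1) + p.M (p.q₀ + r + 1) := M_succ _
  have hM3 : p.M (p.q₀ + r + 3) = p.M (p.q₀ + r + 2) + p.M (p.q₀ + r + 2) := M_succ _
  have hpM := h.ar.pow_le_M (p.q₀ + r + 1)
  have a1 := h.Hard_fail (q := p.q₀ + r) (np := np) (nm := nm) (Nat.le_add_right _ _) h1
    (by omega) (p.g Fp Fm (r - 1)) (g_nonneg _) (h.ar.g_take r)
  have a2 := h.ar.window_le (r := r) (np := np) (nm := nm)
    (r' := p.A Fp Fm (p.q₀ + r + 3) - (p.A Fp Fm (p.q₀ + r + 1) + 2 ^ (p.q₀ + r + 1)))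
    (by omega) (by omega)
    (fun x z L₂ K₂ => av (2 ^ (p.q₀ + r + 1)) fun κ₁ =>
      ind (¬ p.Wev Fp Fm (p.q₀ + r) κ₁ x z L₂ K₂))
    (fun x z L K => av_congr fun κ₁ _ => by rw [← cs_Wev_take hio])
    fun x => h.Wev_fail (p.q₀ + r) (by omega) hio x
  have a3 := E2_mono Fp Fm np nm fun L K _ _ => (mul_le_mul_of_nonneg_left
    (cs_one_sub_Wt (p := p) (Fp := Fp) (Fm := Fm) (p.q₀ + r) L K)
    (g_nonneg (p := p) (Fp := Fp) (Fm := Fm) (r - 1) L K)).trans_eq (mul_add _ _ _)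
  rw [E2_add] at a3
  have a4 : 0 ≤ E2 Fp Fm np nm (p.g Fp Fm (r - 1)) :=
    E2_nonneg Fp Fm np nm fun L K _ _ => g_nonneg _ L K
  linarith

theorem S_ratio {r n : ℕ} (hn : p.M (p.q₀ + r + 1) ≤ n) {a b : ℕ} (hab : a ≤ b) (hb : b ≤ r + 1) :
    0 < p.S Fp Fm (p.q₀ + r) n b ∧
      p.S Fp Fm (p.q₀ + r) n a ≤ (11 / 10) ^ (b - a) * p.S Fp Fm (p.q₀ + r) n b := by
  have hM2 : p.M (p.q₀ + r + 2) = p.M (p.q₀ + r + 1) + p.M (p.q₀ + r + 1) := M_succ _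
  have hnp : ∀ q ≤ p.q₀ + r + 2, p.M q ≤ p.np (p.q₀ + r) n := by
    intro q hq
    have := M_mono (p := p) hq
    unfold np
    omega
  have hnm : ∀ q ≤ p.q₀ + r + 2, p.A Fp Fm q ≤ p.n₁ (p.q₀ + r) := fun q hq =>
    (h.ar.A_mono hq).trans (h.ar.A_le_n₁ _)
  refine seq_ratio (p.S Fp Fm (p.q₀ + r) n) (r + 1) (E2_const Fp Fm _ _ 1) ?_ ?_ a b hab hb
  · have := hnm (p.q₀ + 2) (by omega)
    exact h.W0_fail (hnp _ (by omega)) (by omega)
  · intro r' hr'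
    have b0 := hnm (p.q₀ + r' + 3) (by omega)
    have b1 := h.Wt_fail (r := r') (np := p.np (p.q₀ + r) n) (nm := 2 * p.n₁ (p.q₀ + r))
      (hnp _ (by omega)) (by omega)
    have b2 := E2_mono Fp Fm (p.np (p.q₀ + r) n) (2 * p.n₁ (p.q₀ + r))
      (φ := fun L K => p.g Fp Fm (r' + 1) L K -
        p.g Fp Fm (r' - 1) L K * (1 - p.Wt Fp Fm (p.q₀ + r') L K))
      (ψ := p.g Fp Fm (r' + 2)) fun L K _ _ => by
        have c1 := mul_le_mul_of_nonneg_right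
          (g_anti (p := p) (Fp := Fp) (Fm := Fm) (show r' - 1 ≤ r' + 1 by omega) L K)
          (sub_nonneg.mpr (Wt_le_one (p := p) (Fp := Fp) (Fm := Fm) (p.q₀ + r') L K))
        have c2 : p.g Fp Fm (r' + 2) L K =
          p.g Fp Fm (r' + 1) L K * p.Wt Fp Fm (p.q₀ + r') L K := rfl
        rw [c2]
        linarith
    rw [E2_sub] at b2
    unfold S
    linarith

end Ctx

end Par

end Vale.Agent.P147
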