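import Vale.Agent.P147.CCov
import Vale.Agent.P147.CS
import Vale.Agent.P147.CHW
import Vale.Agent.P147.CHT

open Filter Topology

namespace Vale.Agent.P147

variable {d : ℕ}

namespace Par

variable {p : Par} {D : Dir d} {Fp : FM D} {Fm : FM D.neg}

/-- window integrand -/
noncomputable def fW (p : Par) (Fp : FM D) (Fm : FM D.neg) (J n q j : ℕ) (x z : V d)
    (L₂ K₂ : List (Pa d)) : ℝ :=
  av (2 ^ (q + 1)) fun κ₁ => ind ((p.pi Fp Fm q).coeff z ≤ p.th Fp Fm q ∧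
    p.Pr Fp Fm q j κ₁ x z L₂ K₂ ∧ p.HW Fp Fm J n q j (x + z) L₂ K₂)

/-- top failure integrand -/
noncomputable def fN (p : Par) (Fp : FM D) (Fm : FM D.neg) (J n : ℕ) (_x z : V d)
    (L₂ _K₂ : List (Pa d)) : ℝ :=
  ind (¬ p.II Fp Fm J p.stop (n + 2 * 2 ^ J) z (sumd L₂))

/-- top hit integrand -/
noncomputable def fT (p : Par) (Fp : FM D) (Fm : FM D.neg) (J n : ℕ) (x z : V d)
    (L₂ K₂ : List (Pa d)) : ℝ :=
  ind (p.II Fp Fm J p.stop (n + 2 * 2 ^ J) z (sumd L₂) ∧ p.HT D J (x + z) L₂ K₂)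

/-- averaged integrand at scale `q` -/
noncomputable def avW (p : Par) (Fp : FM D) (Fm : FM D.neg) (q : ℕ)
    (φ : V d → V d → List (Pa d) → List (Pa d) → ℝ) (L K : List (Pa d)) : ℝ :=
  av (2 ^ (q + 1)) fun κ => φ (p.x0 Fp Fm q L K) (p.zz Fp Fm q κ L K) (L.drop (p.M (q + 1)))
    (K.drop (p.A Fp Fm (q + 1) + κ))

theorem fW_nonneg (J n q j : ℕ) (x z : V d) (L₂ K₂ : List (Pa d)) :
    0 ≤ fW p Fp Fm J n q j x z L₂ K₂ := av_nonneg fun _ _ => ind_nonneg _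

theorem avW_nonneg {q : ℕ} {φ : V d → V d → List (Pa d) → List (Pa d) → ℝ}
    (h : ∀ x z L K, 0 ≤ φ x z L K) (L K : List (Pa d)) : 0 ≤ avW p Fp Fm q φ L K :=
  av_nonneg fun _ _ => h _ _ _ _

theorem Ar.point (h : p.Ar Fp Fm) {r n : ℕ} (hn1 : p.M (p.q₀ + r + 1) ≤ n)
    (hn2 : n ≤ 2 * p.M (p.q₀ + r + 1)) {L K : List (Pa d)}
    (hL : Fp.Ok (p.np (p.q₀ + r) n) L) (hK : Fm.Ok (2 * p.n₁ (p.q₀ + r)) K) :
    p.g Fp Fm (r + 1) L K ≤
      p.g Fp Fm (r - 1) L K * ind (¬ p.HardT Fp Fm (p.q₀ + r) n L K) +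
      p.g Fp Fm (r - 1) L K * avW p Fp Fm (p.q₀ + r) (fN p Fp Fm (p.q₀ + r) n) L K +
      p.g Fp Fm (r - 1) L K * avW p Fp Fm (p.q₀ + r) (fT p Fp Fm (p.q₀ + r) n) L K +
      ind (nrm (sumd (L.take p.b₀)) ≤ p.R₀ ∧ p.H0 D (p.q₀ + r) n L K) +
      ∑ r' ∈ Finset.range r, ∑ j ∈ Finset.range p.k, p.g Fp Fm (r' - 1) L K *
        avW p Fp Fm (p.q₀ + r') (fW p Fp Fm (p.q₀ + r) n (p.q₀ + r') j) L K := by
  have g0 := fun r => g_nonneg (p := p) (Fp := Fp) (Fm := Fm) r L K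
  have a1 : 0 ≤ p.g Fp Fm (r - 1) L K * ind (¬ p.HardT Fp Fm (p.q₀ + r) n L K) :=
    mul_nonneg (g0 _) (ind_nonneg _)
  have a2 : 0 ≤ p.g Fp Fm (r - 1) L K * avW p Fp Fm (p.q₀ + r) (fN p Fp Fm (p.q₀ + r) n) L K :=
    mul_nonneg (g0 _) (avW_nonneg (fun _ _ _ _ => ind_nonneg _) _ _)
  have a3 : 0 ≤ p.g Fp Fm (r - 1) L K * avW p Fp Fm (p.q₀ + r) (fT p Fp Fm (p.q₀ + r) n) L K :=
    mul_nonneg (g0 _) (avW_nonneg (fun _ _ _ _ => ind_nonneg _) _ _)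
  have a4 := ind_nonneg (nrm (sumd (L.take p.b₀)) ≤ p.R₀ ∧ p.H0 D (p.q₀ + r) n L K)
  have a5' : ∀ r' j, 0 ≤ p.g Fp Fm (r' - 1) L K *
        avW p Fp Fm (p.q₀ + r') (fW p Fp Fm (p.q₀ + r) n (p.q₀ + r') j) L K := fun r' j =>
    mul_nonneg (g0 _) (avW_nonneg (fun _ _ _ _ => fW_nonneg _ _ _ _ _ _ _ _) _ _)
  have a5 : 0 ≤ ∑ r' ∈ Finset.range r, ∑ j ∈ Finset.range p.k, p.g Fp Fm (r' - 1) L K *
        avW p Fp Fm (p.q₀ + r') (fW p Fp Fm (p.q₀ + r) n (p.q₀ + r') j) L K :=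
    Finset.sum_nonneg fun _ _ => Finset.sum_nonneg fun _ _ => a5' _ _
  have hle : p.g Fp Fm (r + 1) L K ≤ p.g Fp Fm (r - 1) L K := g_anti (by omega) L K
  by_cases hg : p.g Fp Fm (r + 1) L K = 0
  · rw [hg]; linarith
  by_cases hT : p.HardT Fp Fm (p.q₀ + r) n L K
  swap
  · rw [ind_pos hT] at *; linarith
  rcases h.cover hn1 hn2 hL hK hg hT with h1 | h1 | ⟨r', hr', j, hj, h1⟩
  · have : avW p Fp Fm (p.q₀ + r) (fN p Fp Fm (p.q₀ + r) n) L K +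
        avW p Fp Fm (p.q₀ + r) (fT p Fp Fm (p.q₀ + r) n) L K = 1 := by
      unfold avW
      rw [← av_add, ← av_const (n := 2 ^ (p.q₀ + r + 1)) Nat.one_le_two_pow 1]
      refine av_congr fun κ hκ => ?_
      unfold fN fT
      by_cases hI : p.II Fp Fm (p.q₀ + r) p.stop (n + 2 * 2 ^ (p.q₀ + r))
        (p.zz Fp Fm (p.q₀ + r) κ L K) (sumd (L.drop (p.M (p.q₀ + r + 1))))
      · rw [ind_neg (not_not.2 hI), ind_pos ⟨hI, h1 κ hκ⟩]; ring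
      · rw [ind_pos hI, ind_neg (fun h' => hI h'.1)]; ring
    have e : p.g Fp Fm (r - 1) L K * avW p Fp Fm (p.q₀ + r) (fN p Fp Fm (p.q₀ + r) n) L K +
      p.g Fp Fm (r - 1) L K * avW p Fp Fm (p.q₀ + r) (fT p Fp Fm (p.q₀ + r) n) L K =
        p.g Fp Fm (r - 1) L K := by rw [← mul_add, this, mul_one]
    linarith
  · have hW := g_W0 hg
    rw [ind_pos (p := nrm (sumd (L.take p.b₀)) ≤ p.R₀ ∧ p.H0 D (p.q₀ + r) n L K) ⟨hW.1, h1⟩]
    have : p.g Fp Fm (r + 1) L K ≤ p.g Fp Fm 0 L K := g_anti (by omega) L K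
    have e0 : p.g Fp Fm 0 L K = 1 := rfl
    linarith
  · have b1 : p.g Fp Fm (r + 1) L K ≤ p.g Fp Fm (r' - 1) L K * p.Wt Fp Fm (p.q₀ + r') L K :=
      g_le_Wt (by omega) L K
    have b2 : p.Wt Fp Fm (p.q₀ + r') L K ≤
        avW p Fp Fm (p.q₀ + r') (fW p Fp Fm (p.q₀ + r) n (p.q₀ + r') j) L K := by
      unfold Wt avW
      refine (mul_le_of_le_one_left (av_nonneg fun _ _ => av_nonneg fun _ _ => ind_nonneg _)
        (ind_le_one _)).trans ?_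
      refine av_mono fun κ hκ => ?_
      unfold fW
      refine av_mono fun κ₁ _ => ind_mono fun hw => ?_
      exact ⟨hw.1, hw.2 j hj (h1 κ hκ).1, (h1 κ hκ).2⟩
    have b3 : p.g Fp Fm (r' - 1) L K *
        avW p Fp Fm (p.q₀ + r') (fW p Fp Fm (p.q₀ + r) n (p.q₀ + r') j) L K ≤
        ∑ r' ∈ Finset.range r, ∑ j ∈ Finset.range p.k, p.g Fp Fm (r' - 1) L K *
        avW p Fp Fm (p.q₀ + r') (fW p Fp Fm (p.q₀ + r) n (p.q₀ + r') j) L K := by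
      refine le_trans ?_ (Finset.single_le_sum (f := fun r' => ∑ j ∈ Finset.range p.k,
        p.g Fp Fm (r' - 1) L K *
        avW p Fp Fm (p.q₀ + r') (fW p Fp Fm (p.q₀ + r) n (p.q₀ + r') j) L K)
        (fun _ _ => Finset.sum_nonneg fun _ _ => a5' _ _) (Finset.mem_range.2 hr'))
      exact Finset.single_le_sum (f := fun j => p.g Fp Fm (r' - 1) L K *
        avW p Fp Fm (p.q₀ + r') (fW p Fp Fm (p.q₀ + r) n (p.q₀ + r') j) L K)
        (fun _ _ => a5' _ _) (Finset.mem_range.2 hj)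
    have b4 := mul_le_mul_of_nonneg_left b2 (g0 (r' - 1))
    linarith

theorem take_drop_take {α : Type} (K : List α) {a b c : ℕ} (h : a + b ≤ c) :
    ((K.take c).drop a).take b = (K.drop a).take b := by
  rw [List.drop_take, List.take_take, min_eq_left (by omega)]

theorem fW_take {J n q j : ℕ} (h0 : (p.Cc + 2) * 2 ^ (q + 1) ≤ p.n₁ J) (x z : V d)
    (L K : List (Pa d)) :
    fW p Fp Fm J n q j x z L K = fW p Fp Fm J n q j x z L (K.take (io Fp Fm (q + 1) j + p.n₁ J)) := by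
  have e1 : ∀ x, yy Fp Fm q j x L (K.take (io Fp Fm (q + 1) j + p.n₁ J)) = yy Fp Fm q j x L K := by
    intro x
    unfold yy
    rw [List.take_take, min_eq_left (by omega)]
  unfold fW Pr HW
  simp only [e1]
  rw [take_drop_take K (le_refl _), take_drop_take K (by omega)]

namespace Ctx

variable {om : ℕ → ℝ} {Wd : ℕ} (h : p.Ctx Fp Fm om Wd) {Ntot : ℕ} {cK : ℝ}
  {R : ℕ → ℕ → ℕ → ℝ} {RR : ℕ → ℕ → ℝ} {eps : ℕ → ℝ} (hk : KeyHyp Fp Fm Ntot cK R RR eps)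
include h hk

theorem per_n (hcK : 0 ≤ cK) {r n : ℕ} (hn1 : p.M (p.q₀ + r + 1) ≤ n)
    (hn2 : n ≤ 2 * p.M (p.q₀ + r + 1)) (hN : p.np (p.q₀ + r) n + 2 * p.n₁ (p.q₀ + r) ≤ Ntot)
    (ha : p.η₀ * p.aa Fp Fm (p.q₀ + r) ≤ p.s₀)
    (he : Real.exp p.stop * (cK * eps (2 ^ (p.q₀ + r))) ≤ 1 / 100) (i : ℕ) :
    1 / 2 ≤ (11 / 10) ^ (r + 1) * ((2 * p.R₀ + 1) ^ d * (cK * (2 * i *
        R (p.M (p.q₀ + r + 1) + n - p.b₀) (d * p.R₀) (p.C₂ (p.q₀ + r)) + 1 / 2 ^ i))) +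
      ∑ r' ∈ Finset.range r, ∑ j ∈ Finset.range p.k, (11 / 10) ^ (r - r' + 2) *
        (Real.exp (p.ss Fp Fm (p.q₀ + r')) * (1 + (2 * p.M₀ + 1) ^ d) * (cK * (2 * i *
          R (p.M (p.q₀ + r + 1) + n - (p.M (p.q₀ + r' + 1) + j * 2 ^ (p.q₀ + r' + 1) +
            2 * 2 ^ (p.q₀ + r' + 1))) (p.Cc * 2 ^ (p.q₀ + r' + 1)) (p.C₂ (p.q₀ + r)) +
          (2 * (Ntot * Wd) + 1) ^ d / 2 ^ i))) := by
  have ar := h.ar
  set J := p.q₀ + r with hJ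
  have hnp : p.M (J + 1) ≤ p.np J n := by unfold np; omega
  have hsub : p.np J n - p.M (J + 1) = n + 2 * 2 ^ J := by unfold np; omega
  have hA2 := ar.A_le_n₁ J
  have hAp : p.A Fp Fm (J + 1) + 2 ^ (J + 1) ≤ p.A Fp Fm (J + 2) := ar.A_add_pow (J + 1)
  have pt := E2_mono Fp Fm (p.np J n) (2 * p.n₁ J)
    (fun L K hL hK => ar.point hn1 hn2 hL hK)
  rw [E2_add, E2_add, E2_add, E2_add, E2_sum] at pt
  simp only [E2_sum] at pt
  obtain ⟨S0, -⟩ := h.S_ratio hn1 (le_refl (r + 1)) le_rfl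
  have t1 := h.HardT_fail (J := J) (n := n) (by omega) hn2 (p.g Fp Fm (r - 1))
    (g_nonneg _) (ar.g_take r)
  have t2 : E2 Fp Fm (p.np J n) (2 * p.n₁ J) (fun L K => p.g Fp Fm (r - 1) L K *
      avW p Fp Fm J (fN p Fp Fm J n) L K) ≤
      1 / 100 * E2 Fp Fm (p.np J n) (2 * p.n₁ J) (p.g Fp Fm (r - 1)) := by
    refine ar.window_le (r := r) (r' := 0) hnp (by rw [← hJ]; omega) (fN p Fp Fm J n)
      (fun _ _ _ _ => rfl) fun x => ?_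
    rw [← hJ, hsub]
    have := h.II_top hn2 ha
    refine le_trans (le_of_eq ?_) this
    refine EE_congr fun z _ => ?_
    unfold fN
    exact E2_left Fp Fm _ _ _
  have t3 : E2 Fp Fm (p.np J n) (2 * p.n₁ J) (fun L K => p.g Fp Fm (r - 1) L K *
      avW p Fp Fm J (fT p Fp Fm J n) L K) ≤
      1 / 100 * E2 Fp Fm (p.np J n) (2 * p.n₁ J) (p.g Fp Fm (r - 1)) := by
    refine ar.window_le (r := r) (r' := p.n₁ J) hnp (by rw [← hJ]; omega) (fT p Fp Fm J n)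
      (fun _ _ _ _ => ?_) fun x => ?_
    · unfold fT HT
      rw [List.take_take, min_self]
    · rw [← hJ, hsub]
      exact (h.hit_top hk hN x).trans he
  have t4 := h.hit_first hk hcK (J := J) (n := n) (by omega) hn1 hN i
  have t5 : ∀ r' ∈ Finset.range r, ∀ j ∈ Finset.range p.k,
      E2 Fp Fm (p.np J n) (2 * p.n₁ J) (fun L K => p.g Fp Fm (r' - 1) L K *
        avW p Fp Fm (p.q₀ + r') (fW p Fp Fm J n (p.q₀ + r') j) L K) ≤
      (11 / 10) ^ (r - r' + 2) *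
        (Real.exp (p.ss Fp Fm (p.q₀ + r')) * (1 + (2 * p.M₀ + 1) ^ d) * (cK * (2 * i *
          R (p.M (J + 1) + n - (p.M (p.q₀ + r' + 1) + j * 2 ^ (p.q₀ + r' + 1) +
            2 * 2 ^ (p.q₀ + r' + 1))) (p.Cc * 2 ^ (p.q₀ + r' + 1)) (p.C₂ J) +
          (2 * (Ntot * Wd) + 1) ^ d / 2 ^ i))) * p.S Fp Fm J n (r + 1) := by
    intro r' hr' j hj
    rw [Finset.mem_range] at hr' hj
    have hio := ar.A_io (q := p.q₀ + r') hj
    have hm3 := ar.A_mono (q := p.q₀ + r' + 3) (q' := J + 2) (by omega)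
    have hM := M_mono (p := p) (q := p.q₀ + r' + 1) (q' := J + 1) (by omega)
    have hr0 : (p.Cc + 2) * 2 ^ (p.q₀ + r' + 1) ≤ p.n₁ J :=
      le_trans (le_trans (Nat.le_add_left _ _) hio) (hm3.trans hA2)
    have w := ar.window_le (r := r') (r' := io Fp Fm (p.q₀ + r' + 1) j + p.n₁ J)
      (np := p.np J n) (nm := 2 * p.n₁ J) (by omega) (by omega) (fW p Fp Fm J n (p.q₀ + r') j)
      (fun x z L K => fW_take hr0 x z L K)
      (B := Real.exp (p.ss Fp Fm (p.q₀ + r')) * (1 + (2 * p.M₀ + 1) ^ d) * (cK * (2 * i *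
          R (p.M (J + 1) + n - (p.M (p.q₀ + r' + 1) + j * 2 ^ (p.q₀ + r' + 1) +
            2 * 2 ^ (p.q₀ + r' + 1))) (p.Cc * 2 ^ (p.q₀ + r' + 1)) (p.C₂ J) +
          (2 * (Ntot * Wd) + 1) ^ d / 2 ^ i))) (fun x => by
        unfold fW E2
        simp only [FM.Ex_av, EE_av]
        exact av_le_const Nat.one_le_two_pow fun κ₁ hκ =>
          h.hit_win hk hcK (by omega) hj hκ hn1 hN i x)
    refine w.trans ?_
    obtain ⟨-, s1⟩ := h.S_ratio hn1 (a := r' - 1) (b := r + 1) (by omega) le_rfl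
    have s2 : p.S Fp Fm J n (r' - 1) ≤ (11 / 10) ^ (r - r' + 2) * p.S Fp Fm J n (r + 1) :=
      s1.trans (mul_le_mul_of_nonneg_right (pow_le_pow_right₀ (by norm_num) (by omega)) S0.le)
    have B0 : 0 ≤ Real.exp (p.ss Fp Fm (p.q₀ + r')) * (1 + (2 * p.M₀ + 1) ^ d) * (cK * (2 * i *
          R (p.M (J + 1) + n - (p.M (p.q₀ + r' + 1) + j * 2 ^ (p.q₀ + r' + 1) +
            2 * 2 ^ (p.q₀ + r' + 1))) (p.Cc * 2 ^ (p.q₀ + r' + 1)) (p.C₂ J) +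
          (2 * (Ntot * Wd) + 1) ^ d / 2 ^ i)) := by
      have := hk.R_nn (p.M (J + 1) + n - (p.M (p.q₀ + r' + 1) + j * 2 ^ (p.q₀ + r' + 1) +
            2 * 2 ^ (p.q₀ + r' + 1))) (p.Cc * 2 ^ (p.q₀ + r' + 1)) (p.C₂ J)
      positivity
    calc _ ≤ _ := mul_le_mul_of_nonneg_left s2 B0
      _ = _ := by ring
  have t6 := Finset.sum_le_sum fun r' hr' => Finset.sum_le_sum (t5 r' hr')
  simp only [← Finset.sum_mul] at t6
  obtain ⟨-, s1⟩ := h.S_ratio hn1 (a := r - 1) (b := r + 1) (by omega) le_rfl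
  have s2 : p.S Fp Fm J n (r - 1) ≤ (11 / 10) ^ 2 * p.S Fp Fm J n (r + 1) :=
    s1.trans (mul_le_mul_of_nonneg_right (pow_le_pow_right₀ (by norm_num) (by omega)) S0.le)
  obtain ⟨-, s3⟩ := h.S_ratio hn1 (a := 0) (b := r + 1) (by omega) le_rfl
  have s4 : p.S Fp Fm J n 0 = 1 := E2_const Fp Fm _ _ 1
  rw [s4, Nat.sub_zero] at s3
  have B0 : 0 ≤ (2 * (p.R₀ : ℝ) + 1) ^ d * (cK * (2 * i *
        R (p.M (J + 1) + n - p.b₀) (d * p.R₀) (p.C₂ J) + 1 / 2 ^ i)) := by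
    have := hk.R_nn (p.M (J + 1) + n - p.b₀) (d * p.R₀) (p.C₂ J)
    positivity
  have t7 := mul_le_mul_of_nonneg_left s3 B0
  refine le_of_mul_le_mul_right ?_ S0
  rw [add_mul]
  unfold S at *
  nlinarith

end Ctx

end Par

end Vale.Agent.P147
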