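import Vale.Agent.P147.CEx

open Filter Topology

namespace Vale.Agent.P147

variable {d : ℕ}

/-- concentration of partial heights -/
def FM.Conc {D : Dir d} (F : FM D) (Cb ρ₀ : ℕ) (ε : ℝ) : Prop :=
  ∀ ρ : ℕ, ρ₀ ≤ ρ → ∀ n ≤ Cb * ρ,
    F.Ex n (fun L => ind (¬ F.Al L 0 n (ρ / 8))) ≤ ε ∧
      F.Ex n (fun L => ind (∃ b ∈ L, (ρ : ℝ) < D.H b)) ≤ ε

/-- Kolmogorov maximal inequality -/
theorem FM.cwl_kolm {D : Dir d} (F : FM D) (g : Pa d → ℝ) (v t : ℝ) (ht : 0 ≤ t)
    (hg : ∑ b ∈ F.S, F.ν b * g b = 0) (hv : ∀ b ∈ F.S, g b ^ 2 ≤ v) (hv0 : 0 ≤ v) (n : ℕ)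
    (c : ℝ) :
    F.Ex n (fun L => ind (∃ r ≤ n, t < |c + ((L.take r).map g).sum|)) * t ^ 2 ≤
      c ^ 2 + n * v := by
  induction n generalizing c with
  | zero =>
    by_cases hc : t < |c|
    · have h1 : t ^ 2 ≤ c ^ 2 := by
        rw [← sq_abs c]; exact pow_le_pow_left₀ ht hc.le 2
      have h2 : F.Ex 0 (fun L => ind (∃ r ≤ 0, t < |c + ((L.take r).map g).sum|)) ≤ 1 :=
        F.Ex_le_const fun L _ => ind_le_one _
      have h3 := mul_le_mul_of_nonneg_right h2 (sq_nonneg t)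
      simp only [Nat.cast_zero, zero_mul, add_zero]
      linarith
    · have h2 : F.Ex 0 (fun L => ind (∃ r ≤ 0, t < |c + ((L.take r).map g).sum|)) = 0 := by
        show ind _ = 0
        refine ind_neg ?_
        rintro ⟨r, -, h⟩
        simp only [List.take_nil, List.map_nil, List.sum_nil, add_zero] at h
        exact hc h
      rw [h2]
      simp only [Nat.cast_zero, zero_mul, add_zero]
      exact sq_nonneg c
  | succ n ih =>
    have hn : (0 : ℝ) ≤ ((n + 1 : ℕ) : ℝ) * v := mul_nonneg (Nat.cast_nonneg _) hv0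
    by_cases hc : t < |c|
    · have h1 : t ^ 2 ≤ c ^ 2 := by
        rw [← sq_abs c]; exact pow_le_pow_left₀ ht hc.le 2
      have h2 : F.Ex (n + 1)
          (fun L => ind (∃ r ≤ n + 1, t < |c + ((L.take r).map g).sum|)) ≤ 1 :=
        F.Ex_le_const fun L _ => ind_le_one _
      have h3 := mul_le_mul_of_nonneg_right h2 (sq_nonneg t)
      linarith
    · have key : ∀ b ∈ F.S, F.ν b * F.Ex n
          (fun L => ind (∃ r ≤ n + 1, t < |c + (((b :: L).take r).map g).sum|)) * t ^ 2 ≤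
          F.ν b * (c ^ 2 + (n + 1) * v) + 2 * c * (F.ν b * g b) := by
        intro b hb
        have h1 : F.Ex n
            (fun L => ind (∃ r ≤ n + 1, t < |c + (((b :: L).take r).map g).sum|)) ≤
            F.Ex n (fun L => ind (∃ r ≤ n, t < |c + g b + ((L.take r).map g).sum|)) := by
          refine F.Ex_mono fun L _ => ind_mono ?_
          rintro ⟨r, hr, h⟩
          cases r with
          | zero =>
            simp only [List.take_zero, List.map_nil, List.sum_nil, add_zero] at h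
            exact absurd h hc
          | succ r =>
            refine ⟨r, by omega, ?_⟩
            simpa [add_assoc] using h
        have h2 := (mul_le_mul_of_nonneg_right h1 (sq_nonneg t)).trans (ih (c + g b))
        have h3 := hv b hb
        have h4 : F.Ex n
            (fun L => ind (∃ r ≤ n + 1, t < |c + (((b :: L).take r).map g).sum|)) * t ^ 2 ≤
            c ^ 2 + (n + 1) * v + 2 * c * g b := by nlinarith
        have h5 := mul_le_mul_of_nonneg_left h4 (F.nn b)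
        nlinarith
      have e : F.Ex (n + 1) (fun L => ind (∃ r ≤ n + 1, t < |c + ((L.take r).map g).sum|)) =
          ∑ b ∈ F.S, F.ν b * F.Ex n
            (fun L => ind (∃ r ≤ n + 1, t < |c + (((b :: L).take r).map g).sum|)) := rfl
      rw [e, Finset.sum_mul]
      refine (Finset.sum_le_sum key).trans (le_of_eq ?_)
      rw [Finset.sum_add_distrib, ← Finset.sum_mul, ← Finset.mul_sum, F.sum_one, hg]
      push_cast
      ring

theorem cwl_lev_sumd (D : Dir d) (g u : Pa d → ℝ) (c : ℝ) (h : ∀ b, D.H b = g b + u b + c)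
    (K : List (Pa d)) :
    D.lev (sumd K) = (K.map g).sum + (K.map u).sum + K.length * c := by
  induction K with
  | nil => simp
  | cons b K ih =>
    have := h b
    unfold Dir.H at this
    rw [sumd_cons, Dir.lev_add, ih, this]
    simp only [List.map_cons, List.sum_cons, List.length_cons]
    push_cast
    ring

theorem cwl_sum_nonneg (u : Pa d → ℝ) {K : List (Pa d)} (h : ∀ b ∈ K, 0 ≤ u b) :
    0 ≤ (K.map u).sum :=
  List.sum_nonneg fun x hx => by
    obtain ⟨b, hb, rfl⟩ := List.mem_map.mp hx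
    exact h b hb

theorem cwl_take_le (u : Pa d → ℝ) {K : List (Pa d)} (h : ∀ b ∈ K, 0 ≤ u b) (r : ℕ) :
    ((K.take r).map u).sum ≤ (K.map u).sum := by
  have e : (K.map u).sum = ((K.take r).map u).sum + ((K.drop r).map u).sum := by
    rw [← List.sum_append, ← List.map_append, List.take_append_drop]
  have := cwl_sum_nonneg u (K := K.drop r) fun b hb => h b (List.mem_of_mem_drop hb)
  linarith

theorem FM.cwl_tall {D : Dir d} (F : FM D) {hs Wd : ℕ} {om : ℕ → ℝ} (hG : F.Good hs om Wd)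
    (M ρ n : ℕ) (hρ : d * M ≤ ρ) :
    F.Ex n (fun L => ind (∃ b ∈ L, (ρ : ℝ) < D.H b)) * ρ ≤ n * om M := by
  have h1 := F.Ex_exists_le n fun b => (ρ : ℝ) < D.H b
  have h2 : (∑ b ∈ F.S, F.ν b * ind ((ρ : ℝ) < D.H b)) * ρ ≤ om M := by
    refine le_trans ?_ (hG.om_le M)
    rw [Finset.sum_mul]
    refine Finset.sum_le_sum fun b hb => ?_
    rw [mul_assoc]
    refine mul_le_mul_of_nonneg_left ?_ (F.nn b)
    have hb1 := (F.blk b hb).one_le_H
    by_cases h : (ρ : ℝ) < D.H b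
    · have h3 := (F.blk b hb).H_le_rad
      have h4 : M < rad b := by
        by_contra h5
        have h6 : (rad b : ℝ) ≤ M := by exact_mod_cast not_lt.mp h5
        have h7 : (d : ℝ) * M ≤ ρ := by exact_mod_cast hρ
        have h8 := mul_le_mul_of_nonneg_left h6 (Nat.cast_nonneg (α := ℝ) d)
        linarith
      rw [ind_pos h, ind_pos h4]
      linarith
    · rw [ind_neg h, zero_mul]
      exact mul_nonneg (ind_nonneg _) (by linarith)
  have h3 := mul_le_mul_of_nonneg_right h1 (Nat.cast_nonneg (α := ℝ) ρ)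
  have h4 := mul_le_mul_of_nonneg_left h2 (Nat.cast_nonneg (α := ℝ) n)
  nlinarith

theorem FM.cwl_al {D : Dir d} (F : FM D) {hs Wd : ℕ} {om : ℕ → ℝ} (hG : F.Good hs om Wd)
    (M n : ℕ) (t : ℝ) (ht : 0 < t) (hn : n * om M ≤ t) :
    F.Ex n (fun L => ind (¬ F.Al L 0 n (3 * t))) ≤
      n * ((d : ℝ) * M) ^ 2 / t ^ 2 + n * om M / t := by
  obtain ⟨u, hu⟩ : ∃ u : Pa d → ℝ, u = fun b => ind (M < rad b) * D.H b := ⟨_, rfl⟩
  obtain ⟨m₂, hm₂⟩ : ∃ m₂ : ℝ, m₂ = ∑ b ∈ F.S, F.ν b * u b := ⟨_, rfl⟩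
  obtain ⟨g, hg⟩ : ∃ g : Pa d → ℝ, g = fun b => D.H b - u b - (F.h - m₂) := ⟨_, rfl⟩
  have hm : m₂ ≤ om M := by rw [hm₂, hu]; exact hG.om_le M
  have hu0 : ∀ b ∈ F.S, 0 ≤ u b := fun b hb => by
    rw [hu]
    exact mul_nonneg (ind_nonneg _) (by linarith [(F.blk b hb).one_le_H])
  have hm0 : 0 ≤ m₂ := by
    rw [hm₂]
    exact Finset.sum_nonneg fun b hb => mul_nonneg (F.nn b) (hu0 b hb)
  have hb1 : ∀ b ∈ F.S, 0 ≤ D.H b - u b ∧ D.H b - u b ≤ d * M := fun b hb => by
    have h1 := (F.blk b hb).one_le_H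
    have h0 : (0 : ℝ) ≤ d * M := by positivity
    rw [hu]
    by_cases h : M < rad b
    · simp only [ind_pos h]
      constructor <;> linarith
    · simp only [ind_neg h]
      have h3 := (F.blk b hb).H_le_rad
      have h6 : (rad b : ℝ) ≤ M := by exact_mod_cast not_lt.mp h
      have h8 := mul_le_mul_of_nonneg_left h6 (Nat.cast_nonneg (α := ℝ) d)
      constructor <;> linarith
  have e1 : F.h - m₂ = ∑ b ∈ F.S, F.ν b * (D.H b - u b) := by
    rw [hm₂, FM.h, ← Finset.sum_sub_distrib]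
    exact Finset.sum_congr rfl fun b _ => by ring
  have hc0 : 0 ≤ F.h - m₂ := by
    rw [e1]
    exact Finset.sum_nonneg fun b hb => mul_nonneg (F.nn b) (hb1 b hb).1
  have hc1 : F.h - m₂ ≤ d * M := by
    rw [e1]
    refine (Finset.sum_le_sum fun b hb =>
      mul_le_mul_of_nonneg_left (hb1 b hb).2 (F.nn b)).trans (le_of_eq ?_)
    rw [← Finset.sum_mul, F.sum_one, one_mul]
  have hg0 : ∑ b ∈ F.S, F.ν b * g b = 0 := by
    have e2 : ∑ b ∈ F.S, F.ν b * g b =
        ∑ b ∈ F.S, F.ν b * (D.H b - u b) - (∑ b ∈ F.S, F.ν b) * (F.h - m₂) := by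
      rw [Finset.sum_mul, ← Finset.sum_sub_distrib, hg]
      exact Finset.sum_congr rfl fun b _ => by ring
    rw [e2, F.sum_one, ← e1]
    ring
  have hgv : ∀ b ∈ F.S, g b ^ 2 ≤ ((d : ℝ) * M) ^ 2 := fun b hb => by
    have := hb1 b hb
    refine sq_le_sq' ?_ ?_
    · rw [hg]; beta_reduce; linarith [this.1]
    · rw [hg]; beta_reduce; linarith [this.2]
  have hK := F.cwl_kolm g _ t ht.le hg0 hgv (sq_nonneg _) n 0
  have hH : ∀ b, D.H b = g b + u b + (F.h - m₂) := fun b => by rw [hg]; ring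
  have hmain : F.Ex n (fun L => ind (¬ F.Al L 0 n (3 * t))) ≤
      F.Ex n (fun L => ind (∃ r ≤ n, t < |0 + ((L.take r).map g).sum|) +
        t⁻¹ * (L.map u).sum) := by
    refine F.Ex_mono fun L hL => ?_
    have hL0 : ∀ b ∈ L, 0 ≤ u b := fun b hb => hu0 b (hL.2 b hb)
    have hS0 := cwl_sum_nonneg u hL0
    have hi0 : 0 ≤ t⁻¹ * (L.map u).sum := mul_nonneg (inv_nonneg.mpr ht.le) hS0
    by_cases h1 : ∃ r ≤ n, t < |0 + ((L.take r).map g).sum|
    · rw [ind_pos h1]
      linarith [ind_le_one (¬ F.Al L 0 n (3 * t))]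
    · rw [ind_neg h1, zero_add]
      by_cases h2 : t ≤ (L.map u).sum
      · refine (ind_le_one _).trans ?_
        rw [inv_mul_eq_div, le_div_iff₀ ht]
        linarith
      · refine le_trans (le_of_eq (ind_neg (not_not.mpr ?_))) hi0
        intro r hr
        rw [List.drop_zero, cwl_lev_sumd D g u _ hH]
        have h3 : |((L.take r).map g).sum| ≤ t := by
          by_contra h4
          exact h1 ⟨r, hr, by rw [zero_add]; exact not_le.mp h4⟩
        have h4 := cwl_take_le u hL0 r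
        have h5 := cwl_sum_nonneg u (K := L.take r) fun b hb => hL0 b (List.mem_of_mem_take hb)
        have h6 : (L.take r).length = r := by
          rw [List.length_take, hL.1]; omega
        have h7 : (r : ℝ) ≤ n := by exact_mod_cast hr
        have h8 : (r : ℝ) * m₂ ≤ n * om M :=
          mul_le_mul h7 hm hm0 (Nat.cast_nonneg _)
        have h9 : 0 ≤ (r : ℝ) * m₂ := mul_nonneg (Nat.cast_nonneg _) hm0
        rw [h6, abs_le]
        rw [abs_le] at h3
        constructor <;> nlinarith [h3.1, h3.2]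
  refine hmain.trans ?_
  rw [F.Ex_add, F.Ex_mul_left, F.Ex_sum_map, ← hm₂]
  refine add_le_add ?_ ?_
  · rw [le_div_iff₀ (pow_pos ht 2)]
    simpa using hK
  · rw [inv_mul_eq_div]
    exact div_le_div_of_nonneg_right (mul_le_mul_of_nonneg_left hm (Nat.cast_nonneg _)) ht.le

/-- uniform maximal weak law of large numbers -/
theorem conc_exists (d hs Cb : ℕ) (om : ℕ → ℝ) (hom : Tendsto om atTop (𝓝 0)) (ε : ℝ)
    (hε : 0 < ε) : ∃ ρ₀ : ℕ, ∀ (D : Dir d) (F : FM D) (Wd : ℕ), F.Good hs om Wd →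
      F.Conc Cb ρ₀ ε := by
  have hC : (0 : ℝ) ≤ Cb := Nat.cast_nonneg _
  have hδ : 0 < min ε 1 / (48 * (Cb + 1)) := div_pos (lt_min hε one_pos) (by positivity)
  obtain ⟨M, hM⟩ := (hom.eventually (gt_mem_nhds hδ)).exists
  rw [lt_div_iff₀ (by positivity)] at hM
  have hM1 : om M * (48 * (Cb + 1)) ≤ ε := hM.le.trans (min_le_left _ _)
  have hM2 : om M * (48 * (Cb + 1)) ≤ 1 := hM.le.trans (min_le_right _ _)
  obtain ⟨N, hN⟩ := exists_nat_ge (1152 * Cb * ((d : ℝ) * M) ^ 2 / ε)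
  rw [div_le_iff₀ hε] at hN
  refine ⟨N + d * M + 1, fun D F Wd hG ρ hρ n hn => ?_⟩
  have ho := hG.om_nonneg M
  have hρ0 : (0 : ℝ) < ρ := by exact_mod_cast (by omega : 0 < ρ)
  have hρN : (N : ℝ) ≤ ρ := by exact_mod_cast (by omega : N ≤ ρ)
  have hn' : (n : ℝ) ≤ Cb * ρ := by exact_mod_cast hn
  have h1 : (n : ℝ) * om M ≤ Cb * ρ * om M := mul_le_mul_of_nonneg_right hn' ho
  have h2 : 48 * (Cb * om M) ≤ ε := by nlinarith
  have h3 : 48 * (Cb * om M) ≤ 1 := by nlinarith
  have h4 := mul_le_mul_of_nonneg_right h2 hρ0.le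
  have h5 := mul_le_mul_of_nonneg_right h3 hρ0.le
  constructor
  · have hA := F.cwl_al hG M n (ρ / 24) (by positivity) (by nlinarith)
    have e : 3 * ((ρ : ℝ) / 24) = ρ / 8 := by ring
    rw [e] at hA
    refine hA.trans ?_
    have h6 : n * ((d : ℝ) * M) ^ 2 / (ρ / 24) ^ 2 ≤ ε / 2 := by
      rw [div_le_iff₀ (by positivity)]
      obtain ⟨Q, hQ⟩ : ∃ Q : ℝ, Q = ((d : ℝ) * M) ^ 2 := ⟨_, rfl⟩
      have hQ0 : 0 ≤ Q := by rw [hQ]; positivity
      rw [← hQ] at hN ⊢
      have h7 := mul_le_mul_of_nonneg_right hn' hQ0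
      have h8 : 1152 * Cb * Q ≤ ρ * ε := hN.trans (mul_le_mul_of_nonneg_right hρN hε.le)
      have h9 := mul_le_mul_of_nonneg_right h8 hρ0.le
      nlinarith
    have h7 : n * om M / (ρ / 24) ≤ ε / 2 := by
      rw [div_le_iff₀ (by positivity)]
      nlinarith
    linarith
  · have hT := F.cwl_tall hG M ρ n (by omega)
    refine le_of_mul_le_mul_right (hT.trans ?_) hρ0
    nlinarith [mul_nonneg (mul_nonneg hC hρ0.le) ho]

end Vale.Agent.P147
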