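import Vale.Agent.P147.CJ

open Filter Topology

namespace Vale.Agent.P147

variable {d : ℕ}

theorem core_alpha (hs : ℕ) (hs1 : 1 ≤ hs) (η : ℝ) (hη : 0 < η) :
    ∃ (δ s₀ : ℝ) (k' : ℕ), 0 < δ ∧ 4 ≤ s₀ ∧ 2 * hs ≤ k' ∧ ∀ o : ℝ, o ≤ δ →
      64 * hs / η * (2 * (((8 * hs : ℕ) : ℝ) + 2) *
        (o + 100 * hs * ((4 * (((8 * hs : ℕ) : ℝ) + 2) + 2) / s₀ +
          8 * (((8 * hs : ℕ) : ℝ) + 2) / (k' * η)))) ≤ 1 / 100 := by
  have hh : (1 : ℝ) ≤ hs := by exact_mod_cast hs1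
  obtain ⟨C, hC⟩ : ∃ C : ℝ, C = ((8 * hs : ℕ) : ℝ) + 2 := ⟨_, rfl⟩
  have hC0 : 0 < C := by rw [hC]; positivity
  obtain ⟨B, hB⟩ : ∃ B : ℝ, B = 64 * hs / η * (2 * C) := ⟨_, rfl⟩
  have hB0 : 0 < B := by rw [hB]; positivity
  obtain ⟨X, hX⟩ : ∃ X : ℝ, X = 100 * hs * (4 * C + 2) := ⟨_, rfl⟩
  obtain ⟨Y, hY⟩ : ∃ Y : ℝ, Y = 100 * hs * (8 * C) / η := ⟨_, rfl⟩
  have hX0 : 0 < X := by rw [hX]; positivity
  have hY0 : 0 < Y := by rw [hY]; positivity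
  obtain ⟨k', hk'⟩ := exists_nat_ge (300 * B * Y + 2 * hs)
  have hBY : 0 < 300 * B * Y := by positivity
  have hBX : 0 < 300 * B * X := by positivity
  have hk0 : (0 : ℝ) < k' := by linarith
  refine ⟨1 / (300 * B), 300 * B * X + 4, k', by positivity, by linarith, ?_, fun o ho => ?_⟩
  · have : (2 * hs : ℝ) ≤ k' := by linarith
    exact_mod_cast this
  · rw [← hC]
    have e : 64 * hs / η * (2 * C * (o + 100 * hs * ((4 * C + 2) / (300 * B * X + 4) +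
        8 * C / (k' * η)))) = B * o + B * X / (300 * B * X + 4) + B * Y / k' := by
      generalize 300 * B * X + 4 = s
      rw [hX, hY, hB]
      ring
    rw [e]
    have h1 : B * o ≤ 1 / 300 := by
      have := mul_le_mul_of_nonneg_left ho hB0.le
      have e2 : B * (1 / (300 * B)) = 1 / 300 := by field_simp
      linarith
    have h2 : B * X / (300 * B * X + 4) ≤ 1 / 300 := by
      rw [div_le_div_iff₀ (by positivity) (by norm_num)]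
      nlinarith
    have h3 : B * Y / k' ≤ 1 / 300 := by
      rw [div_le_div_iff₀ hk0 (by norm_num)]
      nlinarith
    linarith

theorem exists_par (d β hs : ℕ) (hs1 : 1 ≤ hs) (om : ℕ → ℝ) (hom : Tendsto om atTop (𝓝 0)) :
    ∃ p : Par, p.hs = hs ∧ p.η₀ = 1 / (12 * (d * (β + 3) + 1)) ∧
      ∀ (D : Dir d) (Fp : FM D) (Fm : FM D.neg) (Wd : ℕ), Fp.Good hs om Wd → Fm.Good hs om Wd →
        p.Ctx Fp Fm om Wd := by
  have hη : (0 : ℝ) < 1 / (12 * (d * (β + 3) + 1)) := by positivity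
  obtain ⟨δ, s₀, k', hδ, hs₀, hk', hal⟩ := core_alpha hs hs1 _ hη
  obtain ⟨M₀, hM₀⟩ := (hom.eventually (gt_mem_nhds hδ)).exists
  obtain ⟨ρ₀, hρ₀⟩ := conc_exists d hs (30 * hs * (8 * hs * k')) om hom (1 / 200) (by norm_num)
  have hb : Tendsto (fun M => ((8 * hs * k' * 2 ^ (ρ₀ + 1) + 2 ^ ρ₀ : ℕ) : ℝ) * om M) atTop
      (𝓝 0) := by
    simpa using hom.const_mul ((8 * hs * k' * 2 ^ (ρ₀ + 1) + 2 ^ ρ₀ : ℕ) : ℝ)
  obtain ⟨Mx, hMx⟩ := (hb.eventually (gt_mem_nhds (by norm_num : (0 : ℝ) < 1 / 200))).exists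
  have hρ : ρ₀ ≤ 2 ^ ρ₀ := Nat.lt_two_pow_self.le
  refine ⟨⟨hs, k', ρ₀, M₀, Mx, s₀, 1 / (12 * (d * (β + 3) + 1))⟩, rfl, rfl,
    fun D Fp Fm Wd gp gm => ⟨⟨hs1, hk', gp.h_le, gm.h_le⟩, hη, hs₀, gp, gm, ?_, ?_, ?_, ?_⟩⟩
  · exact fun ρ h => hρ₀ D Fp Wd gp ρ (hρ.trans h)
  · exact fun ρ h => hρ₀ D.neg Fm Wd gm ρ (hρ.trans h)
  · exact hal _ hM₀.le
  · exact hMx.le

theorem core_budget (d β k' T : ℕ) (hT : 4 * k' + 1 ≤ T) :
    (d : ℝ) * Real.log (4 * (k' * 2 ^ (2 * T)) * ((2 ^ (β * T) : ℕ) : ℝ) + 1) ≤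
      d * (β + 3) * T := by
  have h1 : ((4 * k' + 1 : ℕ) : ℝ) ≤ 2 ^ T := by
    exact_mod_cast (hT.trans Nat.lt_two_pow_self.le)
  push_cast at h1 ⊢
  have h2 : (1 : ℝ) ≤ 2 ^ (2 * T) * 2 ^ (β * T) :=
    one_le_mul_of_one_le_of_one_le (one_le_pow₀ (by norm_num)) (one_le_pow₀ (by norm_num))
  have h3 : (4 * (k' * 2 ^ (2 * T)) * 2 ^ (β * T) + 1 : ℝ) ≤ 2 ^ ((β + 3) * T) := by
    have e : (2 : ℝ) ^ ((β + 3) * T) = 2 ^ T * (2 ^ (2 * T) * 2 ^ (β * T)) := by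
      rw [← pow_add, ← pow_add]; congr 1; ring
    rw [e]
    have hk : (0 : ℝ) ≤ k' := Nat.cast_nonneg _
    nlinarith
  have h4 : Real.log (4 * (k' * 2 ^ (2 * T)) * 2 ^ (β * T) + 1 : ℝ) ≤ (β + 3) * T := by
    refine (Real.log_le_log (by positivity) h3).trans ?_
    rw [Real.log_pow]
    have := Real.log_two_lt_d9
    have h5 : (0 : ℝ) ≤ (((β + 3) * T : ℕ) : ℝ) := Nat.cast_nonneg _
    have h6 : (((β + 3) * T : ℕ) : ℝ) = (β + 3) * T := by push_cast; ring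
    nlinarith
  rw [mul_assoc (d : ℝ)]
  exact mul_le_mul_of_nonneg_left h4 (Nat.cast_nonneg _)

theorem core_err (d β T J : ℕ) (c₂ : ℝ) (hT1 : 1 ≤ T) (hc : c₂ ≤ T) (hJ : J < 2 * T) :
    c₂ * (2 * (((2 ^ (3 * T) : ℕ) : ℝ) * ((2 ^ (β * T) : ℕ) : ℝ)) + 1) ^ d * 4 ^ (J + 2) /
      2 ^ ((d * (β + 5) + 9) * T) ≤ 1 / 4 := by
  have h1 : c₂ ≤ 2 ^ T := hc.trans (by exact_mod_cast Nat.lt_two_pow_self.le)
  push_cast
  have h4 : (4 : ℝ) ≤ 2 ^ (2 * T) := by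
    calc (4 : ℝ) = 2 ^ 2 := by norm_num
      _ ≤ 2 ^ (2 * T) := pow_le_pow_right₀ (by norm_num) (by omega)
  have h2 : (1 : ℝ) ≤ 2 ^ (3 * T) * 2 ^ (β * T) :=
    one_le_mul_of_one_le_of_one_le (one_le_pow₀ (by norm_num)) (one_le_pow₀ (by norm_num))
  have h3 : (2 * (2 ^ (3 * T) * 2 ^ (β * T)) + 1 : ℝ) ≤ 2 ^ ((β + 5) * T) := by
    have e : (2 : ℝ) ^ ((β + 5) * T) = 2 ^ (2 * T) * (2 ^ (3 * T) * 2 ^ (β * T)) := by
      rw [← pow_add, ← pow_add]; congr 1; ring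
    rw [e]
    nlinarith
  have h5 : (2 * (2 ^ (3 * T) * 2 ^ (β * T)) + 1 : ℝ) ^ d ≤ 2 ^ ((β + 5) * T * d) := by
    rw [pow_mul (2 : ℝ) ((β + 5) * T) d]
    exact pow_le_pow_left₀ (by positivity) h3 d
  have h6 : (4 : ℝ) ^ (J + 2) ≤ 2 ^ (6 * T) := by
    calc (4 : ℝ) ^ (J + 2) = 2 ^ (2 * (J + 2)) := by rw [pow_mul]; norm_num
      _ ≤ 2 ^ (6 * T) := pow_le_pow_right₀ (by norm_num) (by omega)
  rw [div_le_div_iff₀ (by positivity) (by norm_num)]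
  have e : (2 : ℝ) ^ ((d * (β + 5) + 9) * T) =
      2 ^ T * 2 ^ ((β + 5) * T * d) * 2 ^ (6 * T) * 2 ^ (2 * T) := by
    rw [← pow_add, ← pow_add, ← pow_add]; congr 1; ring
  rw [e, one_mul]
  gcongr

theorem core (d β hs : ℕ) (hs1 : 1 ≤ hs) (cK : ℝ) (hcK : 0 < cK) (om eps : ℕ → ℝ)
    (hom : Tendsto om atTop (𝓝 0)) (heps : Tendsto eps atTop (𝓝 0)) :
    ∃ (k m : ℕ) (c : ℝ), 1 ≤ k ∧ 0 < c ∧ ∀ᶠ T : ℕ in atTop, ∀ (D : Dir d) (Fp : FM D)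
      (Fm : FM D.neg) (R : ℕ → ℕ → ℕ → ℝ) (RR : ℕ → ℕ → ℝ), Fp.Good hs om (2 ^ (β * T)) →
      Fm.Good hs om (2 ^ (β * T)) → KeyHyp Fp Fm (2 ^ (3 * T)) cK R RR eps →
      c ≤ ∑ J ∈ Finset.Ico T (2 * T), RR (k * 2 ^ J) (2 ^ m * k * 2 ^ J) := by
  classical
  obtain ⟨p, hp, hη, hctx⟩ := exists_par d β hs hs1 om hom
  have hc1 : 0 < p.c1 d cK := by unfold Par.c1; positivity
  have he : Tendsto (fun n => Real.exp p.stop * (cK * eps n)) atTop (𝓝 0) := by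
    simpa using (heps.const_mul cK).const_mul (Real.exp p.stop)
  obtain ⟨N₀, hN₀⟩ := eventually_atTop.mp
    (he.eventually (ge_mem_nhds (by norm_num : (0 : ℝ) < 1 / 100)))
  obtain ⟨N₂, hN₂⟩ := exists_nat_ge (p.c2 d cK)
  obtain ⟨I, hI⟩ : ∃ I : ℕ, I = d * (β + 5) + 9 := ⟨_, rfl⟩
  have hI0 : (0 : ℝ) < I := by rw [hI]; positivity
  refine ⟨max p.k 1, 12 * hs, 1 / (8 * p.c1 d cK * I), le_max_right _ _, by positivity, ?_⟩
  filter_upwards [eventually_ge_atTop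
    (N₀ + N₂ + p.q₀ + 16 * hs * p.k + d * p.R₀ + (4 * p.k' + 1))] with T hT D Fp Fm R RR gp gm hk
  have h := hctx D Fp Fm _ gp gm
  have hk16 := h.ar.k16
  have hkm : max p.k 1 = p.k := max_eq_left (by omega)
  rw [hkm]
  have hT0 : (0 : ℝ) < T := by exact_mod_cast (by omega : 0 < T)
  have hbud : 6 * ∑ q ∈ Finset.range (2 * T), p.η₀ * p.aa Fp Fm q ≤ T := by
    rw [← Finset.mul_sum]
    have h1 := (h.budget (2 * T)).trans (core_budget d β p.k' T (by omega))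
    have h2 := mul_le_mul_of_nonneg_left h1 h.eta.le
    have h3 : p.η₀ * (d * (β + 3) * T) ≤ T / 12 := by
      rw [hη, div_mul_eq_mul_div, one_mul, div_le_div_iff₀ (by positivity) (by norm_num)]
      have : (0 : ℝ) ≤ d * (β + 3) := by positivity
      nlinarith
    linarith
  have hsun := sun (fun q => p.η₀ * p.aa Fp Fm q)
    (fun q => mul_nonneg h.eta.le (Par.aa_nonneg q)) p.s₀ (by linarith [h.s4]) T hbud
  have hgood : ∀ J ∈ (Finset.Ico T (2 * T)).filter (fun J : ℕ =>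
      ∀ q ≤ J, p.η₀ * p.aa Fp Fm q ≤ p.s₀ + ((J - q : ℕ) : ℝ) / 3),
      1 / (4 * p.c1 d cK * I * T) ≤ RR (p.k * 2 ^ J) (2 ^ (12 * hs) * p.k * 2 ^ J) := by
    intro J hJ
    obtain ⟨hJ1, hJ2⟩ := Finset.mem_filter.mp hJ
    obtain ⟨hJa, hJb⟩ := Finset.mem_Ico.mp hJ1
    have hJp : J ≤ 2 ^ J := Nat.lt_two_pow_self.le
    have hN : 16 * p.hs * p.M (J + 1) ≤ 2 ^ (3 * T) := by
      have a1 : 16 * hs * p.k ≤ 2 ^ T := le_trans (by omega) Nat.lt_two_pow_self.le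
      have a2 : 2 ^ (J + 1) ≤ 2 ^ (2 * T) := Nat.pow_le_pow_right (by norm_num) (by omega)
      calc 16 * p.hs * p.M (J + 1) = 16 * hs * p.k * 2 ^ (J + 1) := by
            rw [hp, Par.M]; ring
        _ ≤ 2 ^ T * 2 ^ (2 * T) := Nat.mul_le_mul a1 a2
        _ = 2 ^ (3 * T) := by rw [← pow_add]; congr 1; ring
    have hb : 6 * p.hs * p.M (J + 1) ≤ 2 ^ (12 * hs) * p.k * 2 ^ J := by
      have a1 : 12 * hs ≤ 2 ^ (12 * hs) := Nat.lt_two_pow_self.le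
      calc 6 * p.hs * p.M (J + 1) = 12 * hs * (p.k * 2 ^ J) := by
            rw [hp, Par.M]; ring
        _ ≤ 2 ^ (12 * hs) * (p.k * 2 ^ J) := Nat.mul_le_mul_right _ a1
        _ = _ := by ring
    have key := h.per_J hk hcK.le (J := J) (by omega) hN hJ2 (hN₀ _ (by omega)) hb (by omega)
      (I * T)
    have herr := core_err d β T J (p.c2 d cK) (by omega)
      (hN₂.trans (by exact_mod_cast (by omega : N₂ ≤ T))) hJb
    rw [← hI] at herr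
    have h4 : 1 / 4 ≤ p.c1 d cK * ((I * T : ℕ) : ℝ) *
        RR (p.k * 2 ^ J) (2 ^ (12 * hs) * p.k * 2 ^ J) := by
      have e : p.M J = p.k * 2 ^ J := rfl
      rw [e] at key
      linarith
    rw [div_le_iff₀ (by positivity)]
    push_cast at h4
    linarith
  have hsum := Finset.card_nsmul_le_sum _ _ _ hgood
  rw [nsmul_eq_mul] at hsum
  refine le_trans ?_ (hsum.trans (Finset.sum_le_sum_of_subset_of_nonneg (Finset.filter_subset _ _)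
    fun J _ _ => hk.RR_nn _ _))
  have e : 1 / (8 * p.c1 d cK * I) = T / 2 * (1 / (4 * p.c1 d cK * I * T)) := by
    field_simp
    ring
  rw [e]
  refine mul_le_mul_of_nonneg_right ?_ (by positivity)
  convert hsun

end Vale.Agent.P147
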