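import Vale.Agent.P147.Path2

open MeasureTheory Filter Topology
open scoped ENNReal

namespace Vale.Agent.P147

variable {d : ℕ}

namespace Dir

variable {D : Dir d}

theorem up_of_stay {γ : Pa d} {s : ℕ → St d} (hs : s ∈ cyl γ) (ht : s ∈ D.Stay) : D.Up γ := by
  obtain ⟨n, rfl⟩ := mem_cyl_iff.1 hs
  intro x hx
  obtain ⟨i, -, rfl⟩ := mem_pts_pre.1 hx
  exact ht i

theorem Up.of_prefix {a b : Pa d} (h : D.Up b) (hp : a <+: b) : D.Up a :=
  fun x hx => h x (pts_prefix hp hx)

theorem stay_of_up' {γ : Pa d} (hu : D.Up γ) {s : ℕ → St d} (hs : s ∈ cyl γ)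
    (ht : sh γ.length s ∈ D.Stay) : s ∈ D.Stay := by
  intro n
  have e : pre s γ.length = γ := hs
  rcases le_total n γ.length with h | h
  · refine hu _ ?_
    rw [← e]
    exact mem_pts_pre.2 ⟨n, h, rfl⟩
  · obtain ⟨m, rfl⟩ := Nat.exists_eq_add_of_le h
    rw [pos_add, lev_add]
    have h1 : 0 ≤ D.lev (pos s γ.length) := by
      refine hu _ ?_
      conv_lhs => rw [← e]
      exact mem_pts_pre.2 ⟨γ.length, le_rfl, rfl⟩
    exact add_nonneg h1 (ht m)

theorem blk_eq_of_prefix {b b' : Pa d} (h : D.Blk b) (h' : D.Blk b') (hp : b <+: b')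
    (hu : ∀ c, b' = b ++ c → D.Up c) : b = b' := by
  obtain ⟨c, rfl⟩ := hp
  by_cases hc : c = []
  · simp [hc]
  · exact absurd ⟨h.2.2.1, hu c rfl⟩ (h'.2.2.2 b c rfl h.1 hc)

theorem blk_eq_stay {b b' : Pa d} (h : D.Blk b) (h' : D.Blk b') {s : ℕ → St d}
    (hs : s ∈ cyl b) (ht : sh b.length s ∈ D.Stay) (hs' : s ∈ cyl b')
    (ht' : sh b'.length s ∈ D.Stay) : b = b' := by
  rcases prefix_or_of_mem_cyl hs hs' with hp | hp
  · refine blk_eq_of_prefix h h' hp fun c hc => ?_
    rw [hc] at hs'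
    exact up_of_stay (mem_cyl_append.1 hs').2 ht
  · refine (blk_eq_of_prefix h' h hp fun c hc => ?_).symm
    rw [hc] at hs
    exact up_of_stay (mem_cyl_append.1 hs).2 ht'

theorem stay_tail {b : Pa d} {L : List (Pa d)} (h : ∀ c ∈ L, D.Blk c) {s : ℕ → St d}
    (hs : s ∈ cyl (b :: L).flatten) (ht : sh (b :: L).flatten.length s ∈ D.Stay) :
    s ∈ cyl b ∧ sh b.length s ∈ cyl L.flatten ∧ sh L.flatten.length (sh b.length s) ∈ D.Stay ∧
      sh b.length s ∈ D.Stay := by
  rw [List.flatten_cons] at hs ht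
  obtain ⟨h1, h2⟩ := mem_cyl_append.1 hs
  rw [List.length_append, ← sh_sh] at ht
  exact ⟨h1, h2, ht, stay_of_up' (up_flatten h) h2 ht⟩

theorem flatten_inj_stay {n : ℕ} {L L' : List (Pa d)} (h : D.BL n L) (h' : D.BL n L')
    {s : ℕ → St d} (hs : s ∈ cyl L.flatten) (ht : sh L.flatten.length s ∈ D.Stay)
    (hs' : s ∈ cyl L'.flatten) (ht' : sh L'.flatten.length s ∈ D.Stay) : L = L' := by
  induction n generalizing L L' s with
  | zero => rw [List.length_eq_zero_iff.1 h.1, List.length_eq_zero_iff.1 h'.1]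
  | succ n ih =>
    obtain ⟨b, L1, rfl⟩ := List.exists_cons_of_length_eq_add_one h.1
    obtain ⟨b', L1', rfl⟩ := List.exists_cons_of_length_eq_add_one h'.1
    have g : ∀ c ∈ L1, D.Blk c := fun c hc => h.2 c (List.mem_cons_of_mem _ hc)
    have g' : ∀ c ∈ L1', D.Blk c := fun c hc => h'.2 c (List.mem_cons_of_mem _ hc)
    obtain ⟨a1, a2, a3, a4⟩ := stay_tail g hs ht
    obtain ⟨c1, c2, c3, c4⟩ := stay_tail g' hs' ht'
    have e : b = b' := blk_eq_stay (h.2 b List.mem_cons_self) (h'.2 b' List.mem_cons_self)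
      a1 a4 c1 c4
    subst e
    rw [ih ⟨by simpa using h.1, g⟩ ⟨by simpa using h'.1, g'⟩ a2 a3 c2 c3]

theorem flatten_inj {L L' : List (Pa d)} (h : ∀ b ∈ L, D.Blk b) (h' : ∀ b ∈ L', D.Blk b)
    (he : L.flatten = L'.flatten) : L = L' := by
  induction L generalizing L' with
  | nil =>
    cases L' with
    | nil => rfl
    | cons b' L1' =>
      have := (h' b' List.mem_cons_self).1
      simp only [List.flatten_nil, List.flatten_cons] at he
      exact absurd (List.append_eq_nil_iff.1 he.symm).1 this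
  | cons b L1 ih =>
    cases L' with
    | nil =>
      have := (h b List.mem_cons_self).1
      simp only [List.flatten_nil, List.flatten_cons] at he
      exact absurd (List.append_eq_nil_iff.1 he).1 this
    | cons b' L1' =>
      have g : ∀ c ∈ L1, D.Blk c := fun c hc => h c (List.mem_cons_of_mem _ hc)
      have g' : ∀ c ∈ L1', D.Blk c := fun c hc => h' c (List.mem_cons_of_mem _ hc)
      have hb := h b List.mem_cons_self
      have hb' := h' b' List.mem_cons_self
      simp only [List.flatten_cons] at he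
      have e : b = b' := by
        rcases List.prefix_or_prefix_of_prefix (List.prefix_append b L1.flatten)
          (he ▸ List.prefix_append b' L1'.flatten) with hp | hp
        · refine blk_eq_of_prefix hb hb' hp fun c hc => ?_
          rw [hc, List.append_assoc] at he
          exact (up_flatten g).of_prefix ⟨_, (List.append_cancel_left he).symm⟩
        · refine (blk_eq_of_prefix hb' hb hp fun c hc => ?_).symm
          rw [hc, List.append_assoc] at he
          exact (up_flatten g').of_prefix ⟨_, List.append_cancel_left he⟩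
      subst e
      rw [ih g g' (List.append_cancel_left he)]

theorem exists_dec {γ : Pa d} (hu : D.Up γ) (hg : D.Gap γ) :
    ∃ L : List (Pa d), (∀ b ∈ L, D.Blk b) ∧ L.flatten = γ := by
  induction hn : γ.length using Nat.strong_induction_on generalizing γ with
  | _ n ih =>
    by_cases h0 : γ = []
    · exact ⟨[], by simp, by simp [h0]⟩
    by_cases hb : D.Blk γ
    · exact ⟨[γ], by simpa using hb, by simp⟩
    have h1 : ∃ a b : Pa d, γ = a ++ b ∧ a ≠ [] ∧ b ≠ [] ∧ D.Gap a ∧ D.Up b := by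
      by_contra hc
      exact hb ⟨h0, hu, hg, fun a b e ha hb' hab => hc ⟨a, b, e, ha, hb', hab⟩⟩
    obtain ⟨a, b, rfl, ha, hb', ga, ub⟩ := h1
    have ua : D.Up a := hu.of_prefix (List.prefix_append a b)
    have gb : D.Gap b := by
      intro x hx
      have h2 : disp a + x ∈ dep 0 (a ++ b) := by
        rw [dep_append, List.mem_append]
        refine Or.inr (mem_dep_zero.2 ?_)
        simpa using hx
      have h3 := hg _ h2
      rw [disp_append, lev_add, lev_add] at h3
      linarith
    have la : 0 < a.length := List.length_pos_iff.2 ha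
    have lb : 0 < b.length := List.length_pos_iff.2 hb'
    rw [List.length_append] at hn
    obtain ⟨La, a1, a2⟩ := ih a.length (by omega) ua ga rfl
    obtain ⟨Lb, b1, b2⟩ := ih b.length (by omega) ub gb rfl
    refine ⟨La ++ Lb, fun c hc => ?_, by rw [List.flatten_append, a2, b2]⟩
    rcases List.mem_append.1 hc with hc | hc
    · exact a1 c hc
    · exact b1 c hc

theorem first_block {s : ℕ → St d} (hs : s ∈ D.Stay)
    (h : ∃ n, 1 ≤ n ∧ D.Gap (pre s n) ∧ sh n s ∈ D.Stay) :
    ∃ b, D.Blk b ∧ s ∈ cyl b ∧ sh b.length s ∈ D.Stay := by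
  obtain ⟨n, hn, hg, ht⟩ := h
  obtain ⟨L, hL, e⟩ := exists_dec (up_of_stay (mem_cyl_pre s n) hs) hg
  cases L with
  | nil =>
    have := congrArg List.length e
    simp at this
    omega
  | cons b L1 =>
    have h1 : s ∈ cyl (b :: L1).flatten := by rw [e]; exact mem_cyl_pre s n
    have h2 : sh (b :: L1).flatten.length s ∈ D.Stay := by rw [e, pre_length]; exact ht
    obtain ⟨a1, -, -, a4⟩ := stay_tail (fun c hc => hL c (List.mem_cons_of_mem _ hc)) h1 h2
    exact ⟨b, hL b List.mem_cons_self, a1, a4⟩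

theorem stay_of_up {γ : Pa d} (hu : D.Up γ) {s : ℕ → St d} (hs : s ∈ cyl γ)
    (ht : sh γ.length s ∈ D.Stay) : s ∈ D.Stay := stay_of_up' hu hs ht

end Dir

end Vale.Agent.P147
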