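import Vale.Agent.P147.Base

open MeasureTheory Filter Topology
open scoped ENNReal

namespace Vale.Agent.P147

variable {d : ℕ}

open Classical in
/-- real indicator -/
noncomputable def ind (p : Prop) : ℝ := if p then 1 else 0

open Classical in
/-- extended indicator -/
noncomputable def indE (p : Prop) : ℝ≥0∞ := if p then 1 else 0

/-- finite paths are lists of steps -/
abbrev Pa (d : ℕ) : Type := List (St d)

/-- displacement of a finite path -/
def disp (γ : Pa d) : V d := (γ.map stp).sum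

/-- departure sites of the path started at `x` -/
def dep : V d → Pa d → List (V d)
  | _, [] => []
  | x, u :: γ => x :: dep (x + stp u) γ

/-- all points of the path started at `x` -/
def pts (x : V d) (γ : Pa d) : List (V d) := dep x γ ++ [x + disp γ]

/-- the first `n` steps -/
def pre (s : ℕ → St d) (n : ℕ) : Pa d := (List.range n).map s

/-- cylinder of a finite path -/
def cyl (γ : Pa d) : Set (ℕ → St d) := {s | pre s γ.length = γ}

/-- shift of a step sequence -/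
def sh (n : ℕ) (s : ℕ → St d) : ℕ → St d := fun i => s (n + i)

/-- prefix-free family -/
def PF (F : Set (Pa d)) : Prop := ∀ a ∈ F, ∀ b ∈ F, a <+: b → a = b

/-- quenched weight -/
noncomputable def qw (ω : V d → St d → ℝ≥0∞) : V d → Pa d → ℝ≥0∞
  | _, [] => 1
  | x, u :: γ => ω x u * qw ω (x + stp u) γ

/-- sup norm -/
def nrm (x : V d) : ℕ := Finset.univ.sup fun i => (x i).natAbs

/-- radius of a path from the origin -/
def rad (γ : Pa d) : ℕ := ((pts 0 γ).map nrm).foldr max 0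

/-- lattice ball -/
noncomputable def ball (d r : ℕ) : Finset (V d) := Fintype.piFinset fun _ => Finset.Icc (-(r : ℤ)) r

/-- total displacement of a list of paths -/
def sumd (L : List (Pa d)) : V d := (L.map disp).sum

/-- abstract random walk in iid random environment -/
structure RW (d : ℕ) where
  Ω : Type
  m : MeasurableSpace Ω
  E : Measure Ω
  probE : IsProbabilityMeasure E
  ω : Ω → V d → St d → ℝ≥0∞
  meas : ∀ x u, Measurable fun o => ω o x u
  sum_one : ∀ o x, ∑ u, ω o x u = 1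
  ell : ∀ᵐ o ∂E, ∀ x u, 0 < ω o x u
  w : Pa d → ℝ≥0∞
  w_eq : ∀ x γ, ∫⁻ o, qw (ω o) x γ ∂E = w γ
  fact : ∀ x γ y η, (dep x γ).Disjoint (dep y η) →
    ∫⁻ o, qw (ω o) x γ * qw (ω o) y η ∂E = w γ * w η
  P : Measure (ℕ → St d)
  probP : IsProbabilityMeasure P
  P_cyl : ∀ γ, P (cyl γ) = w γ

attribute [instance] RW.m RW.probE RW.probP

/-- normalized direction -/
structure Dir (d : ℕ) where
  l : Fin d → ℝ
  e : St d
  abs_le : ∀ i, |l i| ≤ 1
  he : ∑ i, l i * (stp e i : ℝ) = 1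

/-- level of a site -/
def Dir.lev (D : Dir d) (x : V d) : ℝ := ∑ i, D.l i * (x i : ℝ)

/-- the opposite direction -/
def Dir.neg (D : Dir d) : Dir d where
  l := fun i => -D.l i
  e := (D.e.1, !D.e.2)
  abs_le := fun i => by simpa using D.abs_le i
  he := by
    rw [← D.he]
    refine Finset.sum_congr rfl fun i _ => ?_
    rcases D.e with ⟨j, b⟩
    by_cases h : i = j
    · subst h; cases b <;> simp [stp]
    · simp [stp, Pi.single_eq_of_ne h]

namespace Dir

variable (D : Dir d)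

/-- the path from the origin stays at nonnegative level -/
def Up (γ : Pa d) : Prop := ∀ x ∈ pts 0 γ, 0 ≤ D.lev x

/-- the end point is at least one above all earlier points -/
def Gap (γ : Pa d) : Prop := ∀ x ∈ dep 0 γ, D.lev x + 1 ≤ D.lev (disp γ)

/-- regeneration block -/
def Blk (γ : Pa d) : Prop :=
  γ ≠ [] ∧ D.Up γ ∧ D.Gap γ ∧ ∀ a b : Pa d, γ = a ++ b → a ≠ [] → b ≠ [] → ¬ (D.Gap a ∧ D.Up b)

/-- list of `n` blocks -/
def BL (n : ℕ) (L : List (Pa d)) : Prop := L.length = n ∧ ∀ b ∈ L, D.Blk b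

/-- never below the starting level -/
def Stay : Set (ℕ → St d) := {s | ∀ n, 0 ≤ D.lev (pos s n)}

/-- escape in the direction -/
def Esc : Set (ℕ → St d) := {s | Tendsto (fun n => D.lev (pos s n)) atTop atTop}

/-- height of a path -/
def H (γ : Pa d) : ℝ := D.lev (disp γ)

/-- path from `x` inside the slab `[a, b]` leaving it at the bottom with its last step -/
def Exit (a b : ℝ) (x : V d) (ξ : Pa d) : Prop :=
  (∀ p ∈ dep x ξ, a ≤ D.lev p ∧ D.lev p ≤ b) ∧ D.lev (x + disp ξ) < a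

/-- the first point of the path from `x` below level `c` is `b` -/
def FPt (c : ℝ) (x : V d) (ξ : Pa d) (b : V d) : Prop :=
  ∃ ξ₁ ξ₂ : Pa d, ξ = ξ₁ ++ ξ₂ ∧ x + disp ξ₁ = b ∧ D.lev b < c ∧ ∀ p ∈ dep x ξ₁, c ≤ D.lev p

/-- gluing configuration: `lp` ends at `0`, `π` starts at `0`, `η` starts at `y` -/
def QE (lp π η : Pa d) (y : V d) (lam : ℝ) : Prop :=
  (∀ x ∈ pts 0 π, 0 ≤ D.lev x ∧ D.lev x ≤ lam) ∧ D.Exit (-D.H lp) lam y η ∧
    (dep y η).Disjoint (dep (-disp lp) lp ++ dep 0 π) ∧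
    ∃ η₁ η₂ : Pa d, η = η₁ ++ η₂ ∧ η₂ ≠ [] ∧ y + disp η₁ = disp π ∧ ∀ x ∈ pts y η₁, 0 ≤ D.lev x

/-- gluing event for block lists (`low`, `up` listed from top to bottom) -/
def KE (low up : List (Pa d)) (y : V d) (K : List (Pa d)) (lam : ℝ) : Prop :=
  ∃ π η : Pa d, π <+: up.reverse.flatten ∧ η <+: K.flatten ∧ D.QE low.reverse.flatten π η y lam

/-- head-on configuration -/
def QT (π η : Pa d) (y : V d) (K₀ : ℝ) : Prop :=
  (∀ x ∈ pts 0 π, 0 ≤ D.lev x ∧ D.lev x ≤ D.lev y - K₀) ∧ D.Exit K₀ (D.lev y) y η ∧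
    (dep y η).Disjoint (dep 0 π) ∧ disp π ∈ dep y η

/-- head-on event for block lists -/
def TE (up : List (Pa d)) (y : V d) (K : List (Pa d)) (K₀ : ℝ) : Prop :=
  ∃ π η : Pa d, π <+: up.reverse.flatten ∧ η <+: K.flatten ∧ D.QT π η y K₀

/-- falls below the start after a maximum in `[a, b]` -/
def RS (a b : ℝ) : Set (ℕ → St d) :=
  {s | ∃ n, D.lev (pos s n) < 0 ∧ (∀ i < n, 0 ≤ D.lev (pos s i) ∧ D.lev (pos s i) ≤ b) ∧
    ∃ i < n, a ≤ D.lev (pos s i)}

/-- falls below the start after reaching level `a` -/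
def ES (a : ℝ) : Set (ℕ → St d) :=
  {s | ∃ n, D.lev (pos s n) < 0 ∧ (∀ i < n, 0 ≤ D.lev (pos s i)) ∧ ∃ i < n, a ≤ D.lev (pos s i)}

end Dir

namespace RW

variable (W : RW d) (D : Dir d)

/-- weighted sum over lists of `n` blocks -/
noncomputable def BE (n : ℕ) (f : List (Pa d) → ℝ≥0∞) : ℝ≥0∞ :=
  ∑' L : List (Pa d), indE (D.BL n L) * (L.map W.w).prod * f L

/-- block mass of a property -/
noncomputable def nu (p : Pa d → Prop) : ℝ≥0∞ := ∑' b : Pa d, indE (D.Blk b ∧ p b) * W.w b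

/-- `n` blocks and then an exit below the start before climbing `lam` more -/
noncomputable def Rt (n : ℕ) (lam C : ℝ) : ℝ≥0∞ :=
  ∑' low : List (Pa d), ∑' ξ : Pa d,
    indE (D.BL n low ∧ D.lev (sumd low) ≤ C ∧ D.Exit (-D.lev (sumd low)) lam 0 ξ) *
      W.w (low.reverse.flatten ++ ξ)

/-- truncated height moment -/
noncomputable def om (M : ℕ) : ℝ≥0∞ :=
  ∑' b : Pa d, indE (D.Blk b ∧ M < rad b) * W.w b * ENNReal.ofReal (D.H b)

end RW

/-- finitely supported functions with convolution -/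
abbrev Di (d : ℕ) : Type := AddMonoidAlgebra ℝ (V d)

/-- expectation against a finitely supported weight -/
noncomputable def EE (f : Di d) (φ : V d → ℝ) : ℝ := f.coeff.sum fun z r => r * φ z

/-- probability weight -/
def IsP (f : Di d) : Prop := (∀ z, 0 ≤ f.coeff z) ∧ EE f (fun _ => 1) = 1

/-- entropy -/
noncomputable def ent (f : Di d) : ℝ := EE f fun z => -Real.log (f.coeff z)

/-- average of the first `n` powers -/
noncomputable def avp (ν : Di d) (n : ℕ) : Di d := (1 / (n : ℝ)) • ∑ j ∈ Finset.range n, ν ^ j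

/-- average over `range n` -/
noncomputable def av (n : ℕ) (f : ℕ → ℝ) : ℝ := (∑ j ∈ Finset.range n, f j) / n

/-- finite block model -/
structure FM (D : Dir d) where
  S : Finset (Pa d)
  ν : Pa d → ℝ
  blk : ∀ b ∈ S, D.Blk b
  nn : ∀ b, 0 ≤ ν b
  sum_one : ∑ b ∈ S, ν b = 1

namespace FM

variable {D : Dir d} (F : FM D)

/-- expectation over iid lists -/
noncomputable def Ex : ℕ → (List (Pa d) → ℝ) → ℝ
  | 0, f => f []
  | n + 1, f => ∑ b ∈ F.S, F.ν b * Ex n fun L => f (b :: L)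

/-- lists of length `n` in the support -/
def Ok (n : ℕ) (L : List (Pa d)) : Prop := L.length = n ∧ ∀ b ∈ L, b ∈ F.S

/-- mean height -/
noncomputable def h : ℝ := ∑ b ∈ F.S, F.ν b * D.H b

/-- law of the displacement -/
noncomputable def law : Di d := ∑ b ∈ F.S, AddMonoidAlgebra.single (disp b) (F.ν b)

/-- partial heights from index `a` follow the mean -/
def Al (L : List (Pa d)) (a n : ℕ) (tol : ℝ) : Prop :=
  ∀ r ≤ n, |D.lev (sumd ((L.drop a).take r)) - F.h * r| ≤ tol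

/-- uniform hypotheses on a finite model -/
structure Good (hs : ℕ) (om : ℕ → ℝ) (Wd : ℕ) : Prop where
  h_le : F.h ≤ hs
  om_le : ∀ M, ∑ b ∈ F.S, F.ν b * (ind (M < rad b) * D.H b) ≤ om M
  rad_le : ∀ b ∈ F.S, rad b ≤ Wd

end FM

/-- the three probabilistic inputs of the core argument -/
structure KeyHyp {D : Dir d} (Fp : FM D) (Fm : FM D.neg) (Ntot : ℕ) (cK : ℝ)
    (R : ℕ → ℕ → ℕ → ℝ) (RR : ℕ → ℕ → ℝ) (eps : ℕ → ℝ) : Prop where
  R_nn : ∀ n lam C, 0 ≤ R n lam C
  RR_nn : ∀ a b, 0 ≤ RR a b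
  two : ∀ (n m r : ℕ), n + m + r ≤ Ntot → ∀ (y : V d) (lam C i : ℕ),
    Fp.Ex n (fun low => Fp.Ex m fun up => Fm.Ex r fun K =>
      ind (D.lev (sumd low) ≤ C ∧ D.KE low up y K lam)) ≤ cK * (2 * i * R n lam C + 1 / 2 ^ i)
  one : ∀ (n m r : ℕ), n + m + r ≤ Ntot → ∀ (v : V d) (lam C i κ : ℕ), κ ≤ n →
    ∀ B : Finset (V d),
    ∑ b ∈ B, Fp.Ex n (fun low => Fp.Ex m fun up => Fm.Ex r fun K =>
      ind (D.lev (sumd low) ≤ C ∧ D.KE low up (b - v) K lam ∧ D.FPt (-κ) (b - v) K.flatten b)) ≤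
      cK * (2 * i * R n lam C + B.card / 2 ^ i)
  top : ∀ (m r : ℕ), m + r ≤ Ntot → ∀ (y : V d) (K₀ : ℕ), 1 ≤ K₀ →
    Fp.Ex m (fun up => Fm.Ex r fun K => ind (D.TE up y K K₀)) ≤ cK * eps K₀
  rsum : ∀ (a a' lam C b : ℕ), C + lam ≤ b →
    ∑ n ∈ Finset.Ico a a', R n lam C ≤ (lam + 1) * RR a b

end Vale.Agent.P147
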