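import Vale.Agent.P147.BEl

open MeasureTheory Filter Topology
open scoped ENNReal

namespace Vale.Agent.P147

variable {d : ℕ}

theorem tsum_indE_le_of_sec {α β : Type} (p : α → Prop) (f : α → ℝ≥0∞) (g : β → ℝ≥0∞)
    (r : β → α) (h : ∀ a, p a → ∃ b, r b = a ∧ f a ≤ g b) :
    ∑' a, indE (p a) * f a ≤ ∑' b, g b := by
  choose φ h1 h2 using h
  have e : ∑' a, indE (p a) * f a = ∑' a : {a | p a}, f a := by
    rw [tsum_subtype]
    refine tsum_congr fun a => ?_
    by_cases ha : p a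
    · rw [indE_pos ha, Set.indicator_of_mem (show a ∈ {a | p a} from ha), one_mul]
    · rw [indE_neg ha, Set.indicator_of_notMem (show a ∉ {a | p a} from ha), zero_mul]
  rw [e]
  have hi : Function.Injective fun a : {a | p a} => φ a.1 a.2 := fun a a' haa => by
    apply Subtype.ext
    rw [← h1 a.1 a.2, ← h1 a'.1 a'.2]
    exact congrArg r haa
  exact (ENNReal.tsum_le_tsum fun a : {a | p a} => h2 a.1 a.2).trans
    (ENNReal.tsum_comp_le_tsum_of_injective hi g)

theorem sum_indE_le_of_uniq {N : ℕ} (p : ℕ → Prop) (x : ℕ → ℝ≥0∞) (y : ℝ≥0∞)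
    (hu : ∀ i j, p i → p j → i = j) (h : ∀ j, p j → x j ≤ y) :
    ∑ j ∈ Finset.range N, indE (p j) * x j ≤ y := by
  by_cases hex : ∃ j ∈ Finset.range N, p j
  · obtain ⟨j, hj, hp⟩ := hex
    rw [Finset.sum_eq_single j]
    · rw [indE_pos hp, one_mul]; exact h j hp
    · intro i _ hij
      rw [indE_neg fun hi => hij (hu i j hi hp), zero_mul]
    · intro hn; exact absurd hj hn
  · rw [Finset.sum_eq_zero]
    · exact zero_le
    · intro i hi
      rw [indE_neg fun h => hex ⟨i, hi, h⟩, zero_mul]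

theorem ofReal_le_count (h : ℝ) :
    ENNReal.ofReal h ≤ 1 + ∑' j : ℕ, indE ((j : ℝ) + 1 < h) := by
  have h1 : h ≤ 1 + ((⌈h⌉₊ - 1 : ℕ) : ℝ) := by
    have := Nat.le_ceil h
    have h2 : (⌈h⌉₊ : ℝ) ≤ 1 + ((⌈h⌉₊ - 1 : ℕ) : ℝ) := by
      have : ⌈h⌉₊ ≤ 1 + (⌈h⌉₊ - 1) := by omega
      exact_mod_cast this
    linarith
  refine (ENNReal.ofReal_le_ofReal h1).trans ?_
  rw [ENNReal.ofReal_add zero_le_one (Nat.cast_nonneg _), ENNReal.ofReal_one,
    ENNReal.ofReal_natCast]
  gcongr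
  refine le_trans ?_ (ENNReal.sum_le_tsum (Finset.range (⌈h⌉₊ - 1)))
  rw [Finset.sum_congr rfl (g := fun _ => 1)]
  · simp
  · intro j hj
    apply indE_pos
    have hj' := Finset.mem_range.1 hj
    have : j + 1 < ⌈h⌉₊ := by omega
    have := Nat.lt_ceil.1 this
    exact_mod_cast this

theorem dyadic_le (x : ℝ) (hx : 0 < x) (N : ℕ) :
    ∑ i ∈ Finset.range N, (2 : ℝ) ^ i * ind ((2 : ℝ) ^ i < x) ≤ 2 ^ N ∧
      ∑ i ∈ Finset.range N, (2 : ℝ) ^ i * ind ((2 : ℝ) ^ i < x) ≤ 2 * x := by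
  induction N with
  | zero => simp; positivity
  | succ N ih =>
    rw [Finset.sum_range_succ, pow_succ]
    have hp : (0 : ℝ) < 2 ^ N := by positivity
    by_cases h : (2 : ℝ) ^ N < x
    · rw [ind_pos h]; constructor <;> linarith [ih.1]
    · rw [ind_neg h]; constructor <;> linarith [ih.1, ih.2]

theorem dyadic_tsum_le (h : ℝ) (hh : 1 ≤ h) :
    ∑' i : ℕ, (2 : ℝ≥0∞) ^ i * indE ((2 : ℝ) ^ i - 2 < h) ≤ 6 * ENNReal.ofReal h := by
  refine ENNReal.tsum_le_of_sum_range_le fun N => ?_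
  have h1 := (dyadic_le (h + 2) (by linarith) N).2
  have e : ∑ i ∈ Finset.range N, (2 : ℝ≥0∞) ^ i * indE ((2 : ℝ) ^ i - 2 < h) =
      ENNReal.ofReal (∑ i ∈ Finset.range N, (2 : ℝ) ^ i * ind ((2 : ℝ) ^ i < h + 2)) := by
    rw [ENNReal.ofReal_sum_of_nonneg fun i _ => mul_nonneg (by positivity) (ind_nonneg _)]
    refine Finset.sum_congr rfl fun i _ => ?_
    rw [ENNReal.ofReal_mul (by positivity), ofReal_ind, ENNReal.ofReal_pow zero_le_two]
    simp only [ENNReal.ofReal_ofNat, sub_lt_iff_lt_add]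
  rw [e]
  have : (6 : ℝ≥0∞) * ENNReal.ofReal h = ENNReal.ofReal (6 * h) := by
    rw [ENNReal.ofReal_mul (by norm_num)]; simp
  rw [this]
  exact ENNReal.ofReal_le_ofReal (by linarith)

namespace RW

variable (W : RW d) (D : Dir d)

theorem nu_mono' {p q : Pa d → Prop} (h : ∀ b, D.Blk b → p b → q b) : W.nu D p ≤ W.nu D q :=
  ENNReal.tsum_le_tsum fun b => by
    gcongr
    exact indE_mono fun hb => ⟨hb.1, h b hb.1 hb.2⟩

/-- weight of a block list of any length -/
noncomputable def ML (L : List (Pa d)) : ℝ≥0∞ := indE (∀ b ∈ L, D.Blk b) * (L.map W.w).prod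

theorem tsum_ML_le (f : List (Pa d) → ℝ≥0∞) :
    ∑' L, W.ML D L * f L ≤ ∑' n, W.BE D n f := by
  unfold BE
  rw [ENNReal.tsum_comm]
  refine ENNReal.tsum_le_tsum fun L => le_trans ?_ (ENNReal.le_tsum L.length)
  unfold ML
  gcongr
  exact indE_mono fun h => ⟨rfl, h⟩

theorem last_step (hp : 0 < W.P D.Stay) (t : ℝ) (n : ℕ) :
    W.BE D (n + 1) (fun L => indE (D.lev (sumd L) ≤ t)) +
      W.BE D n (fun L => indE (D.lev (sumd L) ≤ t) *
        W.nu D fun b => t - D.lev (sumd L) < D.H b) ≤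
      W.BE D n (fun L => indE (D.lev (sumd L) ≤ t)) := by
  rw [BE_succ]
  simp only [← BE_mul]
  rw [← BE_tsum, ← BE_add_fun]
  refine BE_mono W D fun L _ => ?_
  have h1 := W.nu_true D hp
  conv_rhs => rw [← mul_one (indE (D.lev (sumd L) ≤ t)), ← h1]
  unfold nu
  rw [← ENNReal.tsum_mul_left, ← ENNReal.tsum_mul_left, ← ENNReal.tsum_add]
  refine ENNReal.tsum_le_tsum fun b => ?_
  by_cases hb : D.Blk b
  · have hH := hb.one_le_H
    have e : D.lev (sumd (b :: L)) = D.H b + D.lev (sumd L) := by simp [Dir.H]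
    rw [e]
    by_cases hS : D.lev (sumd L) ≤ t
    · by_cases h2 : D.H b + D.lev (sumd L) ≤ t
      · rw [indE_neg (p := D.Blk b ∧ _) fun h => by linarith [h.2], indE_pos h2, indE_pos hS,
          indE_pos hb, indE_pos (p := D.Blk b ∧ True) ⟨hb, trivial⟩]
        simp
      · rw [indE_neg h2, indE_pos hS, indE_pos (p := D.Blk b ∧ True) ⟨hb, trivial⟩,
          indE_pos (p := D.Blk b ∧ _) ⟨hb, by linarith [not_le.1 h2]⟩]
        simp
    · rw [indE_neg hS, indE_neg (p := D.H b + D.lev (sumd L) ≤ t) fun h => hS (by linarith)]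
      simp
  · rw [indE_neg hb, indE_neg (p := D.Blk b ∧ _) fun h => hb h.1]
    simp

theorem last_le_one (hp : 0 < W.P D.Stay) (t : ℝ) :
    ∑' L, W.ML D L * (indE (D.lev (sumd L) ≤ t) *
      W.nu D fun b => t - D.lev (sumd L) < D.H b) ≤ 1 := by
  refine (W.tsum_ML_le D _).trans (ENNReal.tsum_le_of_sum_range_le fun N => ?_)
  have key : ∀ N, ∑ n ∈ Finset.range N, W.BE D n (fun L => indE (D.lev (sumd L) ≤ t) *
        W.nu D fun b => t - D.lev (sumd L) < D.H b) +
      W.BE D N (fun L => indE (D.lev (sumd L) ≤ t)) ≤ 1 := by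
    intro N
    induction N with
    | zero => rw [BE_zero]; simpa using indE_le_one _
    | succ N ih =>
      rw [Finset.sum_range_succ, add_assoc, add_comm (W.BE D N _)]
      exact le_trans (by gcongr; exact W.last_step D hp t N) ih
  exact le_trans le_self_add (key N)

theorem passage_mass (t : ℝ) :
    W.P D.Stay ≤ ∑' g : Pa d,
      indE (g ∈ {g : Pa d | D.Up g ∧ t ≤ D.H g ∧ ∀ x ∈ dep 0 g, D.lev x < t}) * W.w g := by
  refine le_trans ?_ (W.P_le_tsum _)
  have hsub : D.Stay ⊆ (D.Stay ∩ {s | ∀ n, D.lev (pos s n) ≤ t}) ∪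
      ⋃ g ∈ {g : Pa d | D.Up g ∧ t ≤ D.H g ∧ ∀ x ∈ dep 0 g, D.lev x < t}, cyl g := by
    intro s hs
    by_cases hb : ∀ n, D.lev (pos s n) ≤ t
    · exact Or.inl ⟨hs, hb⟩
    · right
      have hex : ∃ n, t ≤ D.lev (pos s n) := by
        push Not at hb
        obtain ⟨n, hn⟩ := hb
        exact ⟨n, hn.le⟩
      classical
      refine Set.mem_biUnion (x := pre s (Nat.find hex)) ⟨?_, ?_, ?_⟩ (mem_cyl_pre s _)
      · intro x hx
        obtain ⟨i, _, rfl⟩ := mem_pts_pre.1 hx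
        exact hs i
      · unfold Dir.H
        rw [disp_pre]
        exact Nat.find_spec hex
      · intro x hx
        obtain ⟨i, hi, rfl⟩ := mem_dep_pre.1 hx
        exact not_le.1 (Nat.find_min hex hi)
  refine (measure_mono hsub).trans ((measure_union_le _ _).trans ?_)
  rw [W.stay_bdd D t, zero_add]

theorem level_mass (t : ℝ) (ht : 0 < t) :
    W.P D.Stay * W.w [D.e] ≤
      ∑' L, W.ML D L * indE (t + 1 ≤ D.lev (sumd L) ∧ D.lev (sumd L) < t + 2) := by
  refine le_trans (mul_le_mul_left (W.passage_mass D t) _) ?_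
  rw [← ENNReal.tsum_mul_right]
  simp only [mul_assoc]
  refine tsum_indE_le_of_sec _ _ _ (fun L : List (Pa d) => L.flatten.dropLast) fun g hg => ?_
  obtain ⟨hu, hH, hd⟩ := hg
  unfold Dir.H at hH
  have he := D.lev_e
  have hdep : dep 0 (g ++ [D.e]) = dep 0 g ++ [disp g] := by
    rw [dep_append]; simp [dep]
  have hu' : D.Up (g ++ [D.e]) := by
    intro x hx
    rcases mem_pts.1 hx with h | h
    · rw [hdep, List.mem_append] at h
      rcases h with h | h
      · exact hu x (mem_pts.2 (Or.inl h))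
      · rw [List.mem_singleton.1 h]; linarith
    · rw [h]; simp; linarith
  have hg' : D.Gap (g ++ [D.e]) := by
    intro x hx
    rw [hdep, List.mem_append] at hx
    have e : D.lev (disp (g ++ [D.e])) = D.lev (disp g) + 1 := by simp [he]
    rw [e]
    rcases hx with h | h
    · linarith [hd x h]
    · rw [List.mem_singleton.1 h]
  obtain ⟨L, hL, hf⟩ := Dir.exists_dec hu' hg'
  refine ⟨L, by simp [hf], ?_⟩
  have hS : D.lev (sumd L) = D.lev (disp g) + 1 := by
    rw [← disp_flatten, hf]; simp [he]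
  have hlt : D.lev (disp g) < t + 1 := by
    rcases List.eq_nil_or_concat g with h | ⟨g', u, h⟩
    · rw [h] at hH; simp at hH; linarith
    · rw [List.concat_eq_append] at h
      have h1 := hd (disp g') (mem_dep_iff.2 ⟨g', [u], h, by simp, by simp⟩)
      have h2 := (abs_le.1 (D.abs_lev_stp u)).2
      rw [h]; simp; linarith
  have hw : W.w (g ++ [D.e]) = W.w g * W.w [D.e] := by
    apply W.w_append
    intro x hx hx'
    simp only [dep, List.mem_singleton] at hx'
    have := hd x hx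
    rw [hx'] at this
    linarith
  unfold ML
  rw [indE_pos hL, indE_pos (p := _ ∧ _) ⟨by linarith, by linarith⟩, ← W.w_flatten D hL, hf, hw]
  simp

theorem tail_sum_le (hp : 0 < W.P D.Stay) :
    W.P D.Stay * W.w [D.e] * ∑' j : ℕ, W.nu D (fun b => (j : ℝ) + 1 < D.H b) ≤ 1 := by
  rw [← ENNReal.tsum_mul_left]
  refine ENNReal.tsum_le_of_sum_range_le fun N => ?_
  refine le_trans ?_ (W.last_le_one D hp ((N : ℝ) + 2))
  calc ∑ j ∈ Finset.range N, W.P D.Stay * W.w [D.e] * W.nu D (fun b => (j : ℝ) + 1 < D.H b)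
      ≤ ∑ j ∈ Finset.range N, ∑' L, W.ML D L *
          (indE (((N : ℝ) - j) + 1 ≤ D.lev (sumd L) ∧ D.lev (sumd L) < ((N : ℝ) - j) + 2) *
            W.nu D (fun b => (j : ℝ) + 1 < D.H b)) := by
        refine Finset.sum_le_sum fun j hj => ?_
        have hj' : (j : ℝ) < N := by exact_mod_cast Finset.mem_range.1 hj
        simp only [← mul_assoc]
        rw [ENNReal.tsum_mul_right]
        gcongr
        exact W.level_mass D _ (by linarith)
    _ = ∑' L, W.ML D L * ∑ j ∈ Finset.range N,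
          (indE (((N : ℝ) - j) + 1 ≤ D.lev (sumd L) ∧ D.lev (sumd L) < ((N : ℝ) - j) + 2) *
            W.nu D (fun b => (j : ℝ) + 1 < D.H b)) := by
        simp only [Finset.mul_sum]
        exact (Summable.tsum_finsetSum fun _ _ => ENNReal.summable).symm
    _ ≤ _ := by
        refine ENNReal.tsum_le_tsum fun L => ?_
        gcongr
        refine sum_indE_le_of_uniq _ _ _ (fun i j hi hj => ?_) fun j hj => ?_
        · have h1 : (i : ℝ) < j + 1 := by linarith [hi.1, hi.2, hj.1, hj.2]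
          have h2 : (j : ℝ) < i + 1 := by linarith [hi.1, hi.2, hj.1, hj.2]
          have h1' : i < j + 1 := by exact_mod_cast h1
          have h2' : j < i + 1 := by exact_mod_cast h2
          omega
        · have hj0 : (0 : ℝ) ≤ j := Nat.cast_nonneg j
          rw [indE_pos (p := D.lev (sumd L) ≤ (N : ℝ) + 2) (by linarith [hj.2]), one_mul]
          exact W.nu_mono' D fun b _ hb => by linarith [hj.1]

/-- the block height has a finite mean -/
theorem EH_lt_top (hp : 0 < W.P D.Stay) :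
    ∑' b : Pa d, indE (D.Blk b) * W.w b * ENNReal.ofReal (D.H b) < ⊤ := by
  have h1 := W.tail_sum_le D hp
  have hc : W.P D.Stay * W.w [D.e] ≠ 0 := mul_ne_zero hp.ne' (W.w_pos _).ne'
  have h2 : ∑' j : ℕ, W.nu D (fun b => (j : ℝ) + 1 < D.H b) < ⊤ := by
    by_contra h
    rw [not_lt_top_iff.1 h, ENNReal.mul_top hc] at h1
    exact absurd h1 (by simp)
  have h3 : ∑' b : Pa d, indE (D.Blk b) * W.w b * ENNReal.ofReal (D.H b) ≤
      W.nu D (fun _ => True) + ∑' j : ℕ, W.nu D (fun b => (j : ℝ) + 1 < D.H b) := by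
    unfold nu
    rw [ENNReal.tsum_comm, ← ENNReal.tsum_add]
    refine ENNReal.tsum_le_tsum fun b => ?_
    refine le_trans (mul_le_mul_right (ofReal_le_count (D.H b)) _) (le_of_eq ?_)
    rw [mul_add, ← ENNReal.tsum_mul_left]
    congr 1
    · simp
    · refine tsum_congr fun j => ?_
      rw [indE_and]; ring
  rw [W.nu_true D hp] at h3
  exact lt_of_le_of_lt h3 (ENNReal.add_lt_top.2 ⟨ENNReal.one_lt_top, h2⟩)

theorem om_tendsto (hp : 0 < W.P D.Stay) : Tendsto (W.om D) atTop (𝓝 0) := by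
  have h := ENNReal.tendsto_tsum_compl_atTop_zero (W.EH_lt_top D hp).ne
  rw [ENNReal.tendsto_nhds_zero] at h ⊢
  intro ε hε
  obtain ⟨s, hs⟩ := (h ε hε).exists
  filter_upwards [eventually_ge_atTop (s.sup rad)] with M hM
  refine le_trans ?_ hs
  unfold om
  simp only [mul_assoc]
  refine tsum_indE_le_of_sec _ _ _ Subtype.val fun b hb => ?_
  have : b ∉ s := fun h => by
    have := Finset.le_sup (f := rad) h
    have := hb.2
    omega
  exact ⟨⟨b, this⟩, rfl, by rw [indE_pos hb.1, one_mul]⟩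

theorem om_lt_top (hp : 0 < W.P D.Stay) (M : ℕ) : W.om D M < ⊤ := by
  refine lt_of_le_of_lt (ENNReal.tsum_le_tsum fun b => ?_) (W.EH_lt_top D hp)
  gcongr
  exact indE_mono fun h => h.1

theorem nu_rad_le_om (M : ℕ) : W.nu D (fun b => M < rad b) ≤ W.om D M := by
  refine ENNReal.tsum_le_tsum fun b => ?_
  by_cases hb : D.Blk b
  · have : 1 ≤ ENNReal.ofReal (D.H b) := ENNReal.one_le_ofReal.2 hb.one_le_H
    exact le_mul_of_one_le_right' this
  · rw [indE_neg (p := D.Blk b ∧ _) fun h => hb h.1]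
    simp

theorem summable_H (hp : 0 < W.P D.Stay) :
    Summable fun i : ℕ => 2 ^ i * (W.nu D fun b => (2 : ℝ) ^ i - 2 < D.H b).toReal := by
  have h : ∑' i : ℕ, (2 : ℝ≥0∞) ^ i * (W.nu D fun b => (2 : ℝ) ^ i - 2 < D.H b) ≤
      6 * ∑' b : Pa d, indE (D.Blk b) * W.w b * ENNReal.ofReal (D.H b) := by
    unfold nu
    simp only [← ENNReal.tsum_mul_left]
    rw [ENNReal.tsum_comm]
    refine ENNReal.tsum_le_tsum fun b => ?_
    by_cases hb : D.Blk b
    · calc ∑' i : ℕ, (2 : ℝ≥0∞) ^ i * (indE (D.Blk b ∧ (2 : ℝ) ^ i - 2 < D.H b) * W.w b)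
          = (∑' i : ℕ, (2 : ℝ≥0∞) ^ i * indE ((2 : ℝ) ^ i - 2 < D.H b)) * W.w b := by
            rw [← ENNReal.tsum_mul_right]
            refine tsum_congr fun i => ?_
            rw [indE_and, indE_pos hb]; ring
        _ ≤ (6 * ENNReal.ofReal (D.H b)) * W.w b := by
            gcongr; exact dyadic_tsum_le _ hb.one_le_H
        _ = _ := by rw [indE_pos hb]; ring
    · simp [indE_neg (p := D.Blk b ∧ _) fun h => hb h.1]
  have h2 := ENNReal.summable_toReal
    (lt_of_le_of_lt h (ENNReal.mul_lt_top (by simp) (W.EH_lt_top D hp))).ne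
  simpa using h2

end RW

end Vale.Agent.P147
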