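import Vale.Agent.P147.Wt

open MeasureTheory Filter Topology
open scoped ENNReal

namespace Vale.Agent.P147

variable {d : ℕ}

theorem measurable_qw_gen {Ω : Type} [MeasurableSpace Ω] (F : Ω → V d → St d → ℝ≥0∞)
    (hF : ∀ x u, Measurable fun o => F o x u) (x : V d) (γ : Pa d) :
    Measurable fun o => qw (F o) x γ := by
  induction γ generalizing x with
  | nil => simp [qw]
  | cons u γ ih => exact (hF x u).mul (ih _)

theorem qw_congr_dep {ω ω' : V d → St d → ℝ≥0∞} {x : V d} {γ : Pa d}
    (h : ∀ p ∈ dep x γ, ω p = ω' p) : qw ω x γ = qw ω' x γ := by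
  induction γ generalizing x with
  | nil => simp [qw]
  | cons u γ ih =>
    simp only [qw]
    rw [h x (by simp [dep]), ih fun p hp => h p (by simp [dep, hp])]

theorem qw_shift (ω : V d → St d → ℝ≥0∞) (x y : V d) (γ : Pa d) :
    qw (fun p => ω (x + p)) y γ = qw ω (x + y) γ := by
  induction γ generalizing y with
  | nil => simp [qw]
  | cons u γ ih => simp only [qw]; rw [ih, add_assoc]

theorem qw_pre (ω : V d → St d → ℝ≥0∞) (t : ℕ → St d) (n : ℕ) :
    qw ω 0 (pre t n) = ∏ i ∈ Finset.range n, ω (pos t i) (t i) := by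
  induction n with
  | zero => simp [pre_zero, qw]
  | succ n ih =>
    rw [pre_succ, qw_append, ih, Finset.prod_range_succ, disp_pre]
    simp [qw]

theorem cyl_pre_eq (t : ℕ → St d) (n : ℕ) : cyl (pre t n) = {s | ∀ i < n, s i = t i} := by
  ext s
  simp only [cyl, pre_length, Set.mem_ofPred_eq]
  unfold pre
  rw [List.map_inj_left]
  simp

theorem exists_pre (hd : 1 ≤ d) (γ : Pa d) : ∃ t : ℕ → St d, pre t γ.length = γ := by
  refine ⟨fun i => γ.getD i (⟨0, hd⟩, true), ?_⟩
  apply List.ext_getElem
  · simp
  · intro i h1 h2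
    simp [pre, h2]

/-- the environment weights -/
noncomputable def envW (o : V d → stdSimplex ℝ (St d)) (x : V d) (u : St d) : ℝ≥0∞ :=
  ENNReal.ofReal (o x u)

theorem measurable_simplex (u : St d) : Measurable fun p : stdSimplex ℝ (St d) => p u :=
  (measurable_pi_apply u).comp measurable_subtype_coe

theorem measurable_envW (x : V d) (u : St d) : Measurable fun o => envW (d := d) o x u :=
  ((measurable_simplex u).comp (measurable_pi_apply x)).ennreal_ofReal

theorem env_shift (μ : Measure (stdSimplex ℝ (St d))) [IsProbabilityMeasure μ] (x : V d)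
    (γ : Pa d) : ∫⁻ o, qw (envW o) x γ ∂(Measure.infinitePi fun _ : V d => μ) =
      ∫⁻ o, qw (envW o) 0 γ ∂(Measure.infinitePi fun _ : V d => μ) := by
  have h := Measure.map_infinitePi_infinitePi_of_inj (P := fun _ : V d => μ)
    (f := fun p => x + p) (add_right_injective x)
  conv_rhs => rw [← h]
  rw [lintegral_map (measurable_qw_gen _ measurable_envW _ _) (by fun_prop)]
  refine lintegral_congr fun o => ?_
  have := qw_shift (envW o) x 0 γ
  rw [add_zero] at this
  exact this.symm

open Classical in
/-- weights read off finitely many rows -/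
noncomputable def envF (S : Finset (V d)) (z : S → stdSimplex ℝ (St d)) (p : V d) (u : St d) :
    ℝ≥0∞ := if h : p ∈ S then ENNReal.ofReal (z ⟨p, h⟩ u) else 0

theorem measurable_envF (S : Finset (V d)) (p : V d) (u : St d) :
    Measurable fun z => envF S z p u := by
  unfold envF
  split_ifs with h
  · exact ((measurable_simplex u).comp (measurable_pi_apply (X := fun _ : S => stdSimplex ℝ (St d))
      ⟨p, h⟩)).ennreal_ofReal
  · exact measurable_const

theorem qw_envF (o : V d → stdSimplex ℝ (St d)) (x : V d) (γ : Pa d) :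
    qw (envF (dep x γ).toFinset fun i => o i) x γ = qw (envW o) x γ := by
  refine qw_congr_dep fun p hp => funext fun u => ?_
  unfold envF envW
  rw [dif_pos (List.mem_toFinset.2 hp)]

theorem env_fact (μ : Measure (stdSimplex ℝ (St d))) [IsProbabilityMeasure μ] (x : V d)
    (γ : Pa d) (y : V d) (η : Pa d) (h : (dep x γ).Disjoint (dep y η)) :
    ∫⁻ o, qw (envW o) x γ * qw (envW o) y η ∂(Measure.infinitePi fun _ : V d => μ) =
      (∫⁻ o, qw (envW o) x γ ∂(Measure.infinitePi fun _ : V d => μ)) *
        ∫⁻ o, qw (envW o) y η ∂(Measure.infinitePi fun _ : V d => μ) := by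
  refine ProbabilityTheory.lintegral_mul_eq_lintegral_mul_lintegral_of_indepFun''
    (measurable_qw_gen _ measurable_envW _ _).aemeasurable
    (measurable_qw_gen _ measurable_envW _ _).aemeasurable ?_
  have hi := ProbabilityTheory.iIndepFun_infinitePi (P := fun _ : V d => μ)
    (X := fun _ ω => ω) (fun _ => measurable_id)
  have h2 := hi.indepFun_finset (dep x γ).toFinset (dep y η).toFinset
    (List.disjoint_toFinset_iff_disjoint.2 h) (fun i => measurable_pi_apply i)
  have h3 := h2.comp (measurable_qw_gen _ (measurable_envF (dep x γ).toFinset) x γ)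
    (measurable_qw_gen _ (measurable_envF (dep y η).toFinset) y η)
  simpa only [Function.comp_def, qw_envF] using h3

theorem exists_RW (μ : Measure (stdSimplex ℝ (St d))) [IsProbabilityMeasure μ]
    (hell : ∀ᵐ p ∂μ, ∀ u, 0 < p u) (P : Measure (ℕ → St d)) [IsProbabilityMeasure P]
    (hd : 1 ≤ d)
    (hP : ∀ (n : ℕ) (t : ℕ → St d), P {s | ∀ i < n, s i = t i} =
      ∫⁻ ω, ∏ i ∈ Finset.range n, ENNReal.ofReal (ω (pos t i) (t i))
        ∂(Measure.infinitePi fun _ : V d => μ)) :
    ∃ W : RW d, W.P = P := by
  refine ⟨{ Ω := V d → stdSimplex ℝ (St d)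
            m := inferInstance
            E := Measure.infinitePi fun _ : V d => μ
            probE := inferInstance
            ω := envW
            meas := measurable_envW
            sum_one := fun o x => ?_
            ell := ?_
            w := fun γ => ∫⁻ o, qw (envW o) 0 γ ∂(Measure.infinitePi fun _ : V d => μ)
            w_eq := env_shift μ
            fact := fun x γ y η h => ?_
            P := P
            probP := inferInstance
            P_cyl := fun γ => ?_ }, rfl⟩
  · unfold envW
    rw [← ENNReal.ofReal_sum_of_nonneg fun u _ => stdSimplex.zero_le _ u, stdSimplex.sum_eq_one,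
      ENNReal.ofReal_one]
  · rw [ae_all_iff]
    intro x
    have := (measurePreserving_eval_infinitePi (fun _ : V d => μ) x).quasiMeasurePreserving.ae hell
    filter_upwards [this] with o ho u
    exact ENNReal.ofReal_pos.2 (ho u)
  · rw [env_fact μ x γ y η h, env_shift μ x, env_shift μ y]
  · obtain ⟨t, ht⟩ := exists_pre hd γ
    rw [← ht, cyl_pre_eq, hP]
    refine lintegral_congr fun o => ?_
    rw [qw_pre]
    rfl

theorem exists_Dir (l : Fin d → ℝ) (hl : l ≠ 0) :
    ∃ D : Dir d, D.Esc =
      {s | Tendsto (fun n => ∑ i, l i * (pos s n i : ℝ)) atTop atTop} := by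
  obtain ⟨k, hk⟩ := Function.ne_iff.1 hl
  obtain ⟨j, -, hj⟩ := Finset.exists_max_image Finset.univ (fun i => |l i|) ⟨k, Finset.mem_univ k⟩
  have hpos : 0 < |l j| := lt_of_lt_of_le (abs_pos.2 hk) (hj k (Finset.mem_univ k))
  refine ⟨⟨fun i => l i / |l j|, (j, decide (0 < l j)), fun i => ?_, ?_⟩, ?_⟩
  · rw [abs_div, abs_abs, div_le_one hpos]
    exact hj i (Finset.mem_univ i)
  · rw [Finset.sum_eq_single j]
    · by_cases h : 0 < l j
      · simp [stp, h, abs_of_pos h, h.ne']
      · have h0 : l j ≠ 0 := abs_pos.1 hpos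
        have h1 : l j < 0 := lt_of_le_of_ne (not_lt.1 h) h0
        simp [stp, h, abs_of_neg h1, h0]
    · intro i _ hij
      simp [stp, Pi.single_eq_of_ne hij]
    · simp
  · ext s
    simp only [Dir.Esc, Dir.lev, Set.mem_ofPred_eq]
    have e : ∀ n, ∑ i, l i / |l j| * (pos s n i : ℝ) = (∑ i, l i * (pos s n i : ℝ)) / |l j| := by
      intro n
      rw [Finset.sum_div]
      exact Finset.sum_congr rfl fun i _ => by ring
    simp only [e]
    exact tendsto_div_const_atTop_of_pos hpos

end Vale.Agent.P147
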