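import Vale.Agent.P147.Base

open MeasureTheory Filter Topology
open scoped ENNReal

namespace Vale.Agent.P147

variable {d : ℕ}

theorem measurable_simplex' (u : St d) : Measurable fun p : stdSimplex ℝ (St d) => p u :=
  (measurable_pi_apply u).comp measurable_subtype_coe

/-- the step kernel of a row -/
noncomputable def rowK (d : ℕ) : ProbabilityTheory.Kernel (stdSimplex ℝ (St d)) (St d) where
  toFun p := ∑ u, ENNReal.ofReal (p u) • Measure.dirac u
  measurable' := by
    refine Measure.measurable_of_measurable_coe _ fun s hs => ?_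
    simp only [Measure.coe_finsetSum, Finset.sum_apply, Measure.smul_apply, smul_eq_mul]
    exact Finset.measurable_sum _ fun u _ =>
      ((measurable_simplex' u).ennreal_ofReal).mul_const _

theorem rowK_apply (p : stdSimplex ℝ (St d)) (s : Set (St d)) :
    rowK d p s = ∑ u, ENNReal.ofReal (p u) * Measure.dirac u s := by
  change (∑ u, ENNReal.ofReal (p u) • Measure.dirac u) s = _
  simp only [Measure.coe_finsetSum, Finset.sum_apply, Measure.smul_apply, smul_eq_mul]

theorem rowK_singleton (p : stdSimplex ℝ (St d)) (u : St d) :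
    rowK d p {u} = ENNReal.ofReal (p u) := by
  rw [rowK_apply, Finset.sum_eq_single u]
  · simp
  · intro v _ hv
    simp [hv]
  · simp

theorem rowK_markov : ProbabilityTheory.IsMarkovKernel (rowK d) := ⟨fun p => ⟨by
  rw [rowK_apply]
  simp only [measure_univ, mul_one]
  rw [← ENNReal.ofReal_sum_of_nonneg fun u _ => stdSimplex.zero_le _ u, stdSimplex.sum_eq_one,
    ENNReal.ofReal_one]⟩⟩

/-- positions of the walk driven by uniform variables -/
def drv (f : stdSimplex ℝ (St d) → unitInterval → St d)
    (z : (V d → stdSimplex ℝ (St d)) × (ℕ → unitInterval)) : ℕ → V d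
  | 0 => 0
  | n + 1 => drv f z n + stp (f (z.1 (drv f z n)) (z.2 n))

/-- steps of the walk driven by uniform variables -/
def drs (f : stdSimplex ℝ (St d) → unitInterval → St d)
    (z : (V d → stdSimplex ℝ (St d)) × (ℕ → unitInterval)) (n : ℕ) : St d :=
  f (z.1 (drv f z n)) (z.2 n)

theorem pos_drs (f : stdSimplex ℝ (St d) → unitInterval → St d)
    (z : (V d → stdSimplex ℝ (St d)) × (ℕ → unitInterval)) (n : ℕ) :
    pos (drs f z) n = drv f z n := by
  induction n with
  | zero => simp [pos, drv]
  | succ n ih =>
    unfold pos at ih ⊢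
    rw [Finset.sum_range_succ, ih]
    rfl

theorem measurable_step {f : stdSimplex ℝ (St d) → unitInterval → St d}
    (hf : Measurable (Function.uncurry f))
    {X : (V d → stdSimplex ℝ (St d)) × (ℕ → unitInterval) → V d} (hX : Measurable X) (n : ℕ) :
    Measurable fun z : (V d → stdSimplex ℝ (St d)) × (ℕ → unitInterval) =>
      f (z.1 (X z)) (z.2 n) := by
  have h1 : Measurable fun q : ((V d → stdSimplex ℝ (St d)) × (ℕ → unitInterval)) × V d =>
      q.1.1 q.2 := measurable_from_prod_countable_left fun x =>
    (measurable_pi_apply (X := fun _ : V d => stdSimplex ℝ (St d)) x).comp measurable_fst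
  have h2 : Measurable fun z : (V d → stdSimplex ℝ (St d)) × (ℕ → unitInterval) => z.1 (X z) :=
    h1.comp (measurable_id.prodMk hX)
  exact hf.comp (h2.prodMk ((measurable_pi_apply n).comp measurable_snd))

theorem measurable_drv {f : stdSimplex ℝ (St d) → unitInterval → St d}
    (hf : Measurable (Function.uncurry f)) (n : ℕ) : Measurable fun z => drv f z n := by
  induction n with
  | zero => exact measurable_const
  | succ n ih =>
    exact ih.add ((measurable_of_countable stp).comp (measurable_step hf ih n))

theorem pos_congr {s t : ℕ → St d} {n : ℕ} (h : ∀ i < n, s i = t i) : pos s n = pos t n :=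
  Finset.sum_congr rfl fun i hi => by rw [h i (Finset.mem_range.1 hi)]

theorem drs_iff (f : stdSimplex ℝ (St d) → unitInterval → St d)
    (z : (V d → stdSimplex ℝ (St d)) × (ℕ → unitInterval)) (t : ℕ → St d) (n : ℕ) :
    (∀ i < n, drs f z i = t i) ↔ ∀ i < n, f (z.1 (pos t i)) (z.2 i) = t i := by
  induction n with
  | zero => simp
  | succ n ih =>
    simp only [Nat.forall_lt_succ_right, ← ih]
    refine and_congr_right fun h => ?_
    rw [← pos_congr h, pos_drs]
    rfl

theorem exists_annealed (μ : Measure (stdSimplex ℝ (St d))) [IsProbabilityMeasure μ] :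
    ∃ P : Measure (ℕ → St d), IsProbabilityMeasure P ∧
      ∀ (n : ℕ) (t : ℕ → St d), P {s | ∀ i < n, s i = t i} =
        ∫⁻ ω, ∏ i ∈ Finset.range n, ENNReal.ofReal (ω (pos t i) (t i))
          ∂(Measure.infinitePi fun _ : V d => μ) := by
  have hne : Nonempty (St d) := by
    obtain ⟨p⟩ := nonempty_of_isProbabilityMeasure μ
    by_contra h
    rw [not_nonempty_iff] at h
    have := stdSimplex.sum_eq_one p
    simp at this
  have := rowK_markov (d := d)
  obtain ⟨f, hf, hfk⟩ := (rowK d).exists_measurable_map_eq_unitInterval
  have hm : Measurable (drs f) :=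
    measurable_pi_lambda _ fun n => measurable_step hf (measurable_drv hf n) n
  refine ⟨((Measure.infinitePi fun _ : V d => μ).prod
    (Measure.infinitePi fun _ : ℕ => (volume : Measure unitInterval))).map (drs f),
    Measure.isProbabilityMeasure_map hm.aemeasurable, fun n t => ?_⟩
  have hs : MeasurableSet {s : ℕ → St d | ∀ i < n, s i = t i} := by
    simp only [Set.ofPred_forall]
    exact MeasurableSet.iInter fun i => MeasurableSet.iInter fun _ =>
      measurable_pi_apply (X := fun _ : ℕ => St d) i (measurableSet_singleton (t i))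
  rw [Measure.map_apply hm hs, Measure.prod_apply (hm hs)]
  refine lintegral_congr fun ω => ?_
  have e : Prod.mk ω ⁻¹' (drs f ⁻¹' {s | ∀ i < n, s i = t i}) =
      Set.pi (Finset.range n : Set ℕ) fun i => f (ω (pos t i)) ⁻¹' {t i} := by
    ext U
    simp only [Set.mem_preimage, Set.mem_ofPred_eq, drs_iff, Set.mem_pi, Finset.coe_range,
      Set.mem_Iio, Set.mem_singleton_iff]
  have hf' : ∀ p, Measurable (f p) := fun p => hf.comp (measurable_const.prodMk measurable_id)
  rw [e, Measure.infinitePi_pi _ fun i _ => hf' _ (measurableSet_singleton _)]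
  refine Finset.prod_congr rfl fun i _ => ?_
  rw [← Measure.map_apply (hf' _) (measurableSet_singleton _), hfk, rowK_singleton]

end Vale.Agent.P147
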