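import Vale.Agent.P147.Wt

open MeasureTheory Filter Topology
open scoped ENNReal

namespace Vale.Agent.P147

variable {d : ℕ}

/-- paths stopped at the first point of negative level -/
def Dir.XS (D : Dir d) : Set (Pa d) :=
  {a : Pa d | D.lev (0 + disp a) < 0 ∧ ∀ p ∈ dep 0 a, ¬ D.lev p < 0}

theorem Dir.pf_XS (D : Dir d) : PF D.XS := pf_first 0 fun p => D.lev p < 0

theorem Dir.compl_stay (D : Dir d) : D.Stayᶜ = ⋃ ξ ∈ D.XS, cyl ξ := by
  ext s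
  simp only [Set.mem_compl_iff, Set.mem_iUnion, exists_prop]
  constructor
  · intro h
    simp only [Dir.Stay, Set.mem_ofPred_eq, not_forall, not_le] at h
    obtain ⟨n, hn⟩ := h
    obtain ⟨a, ha, h1, h2⟩ := exists_first (x := 0) (γ := pre s n) (Q := fun p => D.lev p < 0)
      ⟨pos s n, mem_pts_pre.2 ⟨n, le_rfl, rfl⟩, hn⟩
    exact ⟨a, ⟨h1, h2⟩, cyl_mono ha (mem_cyl_pre s n)⟩
  · rintro ⟨a, ⟨h1, -⟩, hs⟩ h
    have := h a.length
    rw [pos_of_mem_cyl hs] at this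
    rw [zero_add] at h1
    linarith

theorem fresh_aux {q t : ℝ≥0∞} (hq : q ≤ 1) (ht : t ≤ 1) : q + t ≤ 1 + q * t := by
  lift q to NNReal using (ne_top_of_le_ne_top ENNReal.one_ne_top hq)
  lift t to NNReal using (ne_top_of_le_ne_top ENNReal.one_ne_top ht)
  have hq' : (q : ℝ) ≤ 1 := by exact_mod_cast hq
  have ht' : (t : ℝ) ≤ 1 := by exact_mod_cast ht
  have : (q : ℝ) + t ≤ 1 + q * t := by nlinarith
  exact_mod_cast this

namespace RW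

variable (W : RW d) (D : Dir d)

theorem P_pf_app (γ : Pa d) {F : Set (Pa d)} (hF : PF F) :
    W.P (cyl γ ∩ sh γ.length ⁻¹' (⋃ ξ ∈ F, cyl ξ)) = ∑' ξ, indE (ξ ∈ F) * W.w (γ ++ ξ) := by
  have h1 : cyl γ ∩ sh γ.length ⁻¹' (⋃ ξ ∈ F, cyl ξ) = ⋃ η ∈ (fun ξ => γ ++ ξ) '' F, cyl η := by
    ext s
    simp only [Set.mem_inter_iff, Set.mem_preimage, Set.mem_iUnion, exists_prop, Set.mem_image]
    constructor
    · rintro ⟨hs, ξ, hξ, h⟩
      exact ⟨γ ++ ξ, ⟨ξ, hξ, rfl⟩, mem_cyl_append.2 ⟨hs, h⟩⟩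
    · rintro ⟨η, ⟨ξ, hξ, rfl⟩, h⟩
      exact ⟨(mem_cyl_append.1 h).1, ξ, hξ, (mem_cyl_append.1 h).2⟩
  have h2 : PF ((fun ξ => γ ++ ξ) '' F) := by
    rintro _ ⟨a, ha, rfl⟩ _ ⟨b, hb, rfl⟩ hab
    have := hF a ha b hb ((List.prefix_append_right_inj γ).1 hab)
    simp only [this]
  have hinj : Function.Injective (fun ξ : Pa d => γ ++ ξ) := List.append_right_injective γ
  rw [h1, W.P_pf h2, ← hinj.tsum_eq]
  · refine tsum_congr fun ξ => ?_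
    congr 2
    exact propext (hinj.mem_set_image)
  · intro η hη
    by_contra hc
    apply hη
    have : ¬ η ∈ (fun ξ => γ ++ ξ) '' F := fun ⟨ξ, _, h⟩ => hc ⟨ξ, h⟩
    simp only [indE_neg this, zero_mul]

theorem P_split (γ : Pa d) :
    W.P (cyl γ ∩ sh γ.length ⁻¹' D.Stay) + ∑' ξ, indE (ξ ∈ D.XS) * W.w (γ ++ ξ) = W.w γ := by
  rw [← W.P_pf_app γ D.pf_XS, ← D.compl_stay, ← W.P_cyl γ, Set.preimage_compl]
  exact measure_inter_add_sdiff (cyl γ) (measurable_sh _ D.measurableSet_Stay)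

theorem P_split0 : W.P D.Stay + ∑' ξ, indE (ξ ∈ D.XS) * W.w ξ = 1 := by
  rw [← W.P_pf D.pf_XS, ← D.compl_stay]
  exact prob_add_prob_compl D.measurableSet_Stay

/-- after a strict ladder point the future half space is fresh -/
theorem P_cyl_stay {γ : Pa d} (h : ∀ x ∈ dep 0 γ, D.lev x < D.H γ) :
    W.P (cyl γ ∩ sh γ.length ⁻¹' D.Stay) = W.w γ * W.P D.Stay := by
  have h1 := W.P_split D γ
  have h2 := W.P_split0 D
  have h3 : ∑' ξ, indE (ξ ∈ D.XS) * W.w (γ ++ ξ) = W.w γ * ∑' ξ, indE (ξ ∈ D.XS) * W.w ξ := by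
    rw [← ENNReal.tsum_mul_left]
    refine tsum_congr fun ξ => ?_
    by_cases hξ : ξ ∈ D.XS
    · rw [W.w_append, mul_left_comm]
      intro p hp hp'
      have h4 := hξ.2 _ (mem_dep_zero.1 hp')
      have h5 := h p hp
      rw [D.lev_sub] at h4
      unfold Dir.H at h5
      linarith
    · simp only [indE_neg hξ, zero_mul, mul_zero]
  set T := ∑' ξ, indE (ξ ∈ D.XS) * W.w ξ
  have hT : T ≤ 1 := h2 ▸ le_add_self
  have hne : W.w γ * T ≠ ⊤ :=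
    ENNReal.mul_ne_top (ne_top_of_le_ne_top ENNReal.one_ne_top (W.w_le_one γ))
      (ne_top_of_le_ne_top ENNReal.one_ne_top hT)
  rw [h3] at h1
  have h6 : W.w γ * W.P D.Stay + W.w γ * T = W.w γ := by rw [← mul_add, h2, mul_one]
  exact (ENNReal.add_left_inj hne).1 (h1.trans h6.symm)

theorem P_cyl_stay_le (γ : Pa d) : W.P (cyl γ ∩ sh γ.length ⁻¹' D.Stay) ≤ W.P D.Stay := by
  have h1 := W.P_split D γ
  have h2 := W.P_split0 D
  set ψ : W.Ω → ℝ≥0∞ := fun o => ∑' ξ, indE (ξ ∈ D.XS) * qw (W.ω o) (disp γ) ξ with hψ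
  have hm : ∀ ξ, Measurable fun o => indE (ξ ∈ D.XS) * qw (W.ω o) (disp γ) ξ :=
    fun ξ => (W.measurable_qw _ ξ).const_mul _
  have hψm : Measurable ψ := Measurable.tsum hm
  have hT : ∑' ξ, indE (ξ ∈ D.XS) * W.w ξ = ∫⁻ o, ψ o ∂W.E := by
    rw [hψ, lintegral_tsum fun ξ => (hm ξ).aemeasurable]
    refine tsum_congr fun ξ => ?_
    rw [lintegral_const_mul _ (W.measurable_qw _ ξ), W.w_eq]
  have hT' : ∑' ξ, indE (ξ ∈ D.XS) * W.w (γ ++ ξ) = ∫⁻ o, qw (W.ω o) 0 γ * ψ o ∂W.E := by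
    simp only [hψ, ← ENNReal.tsum_mul_left]
    have hm' : ∀ ξ, Measurable fun o =>
        qw (W.ω o) 0 γ * (indE (ξ ∈ D.XS) * qw (W.ω o) (disp γ) ξ) :=
      fun ξ => (W.measurable_qw 0 γ).mul (hm ξ)
    rw [lintegral_tsum fun ξ => (hm' ξ).aemeasurable]
    refine tsum_congr fun ξ => ?_
    rw [← W.w_eq 0, ← lintegral_const_mul _ (W.measurable_qw _ _)]
    refine lintegral_congr fun o => ?_
    rw [qw_append, zero_add, mul_left_comm]
  have key : W.w γ + ∫⁻ o, ψ o ∂W.E ≤ 1 + ∫⁻ o, qw (W.ω o) 0 γ * ψ o ∂W.E := by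
    rw [← W.w_eq 0, ← lintegral_add_left (W.measurable_qw 0 γ)]
    calc ∫⁻ o, qw (W.ω o) 0 γ + ψ o ∂W.E ≤ ∫⁻ o, 1 + qw (W.ω o) 0 γ * ψ o ∂W.E :=
          lintegral_mono fun o =>
            fresh_aux (qw_le_one (W.sum_one o) _ _) (qw_pf (W.sum_one o) _ D.pf_XS)
      _ = 1 + ∫⁻ o, qw (W.ω o) 0 γ * ψ o ∂W.E := by
          rw [lintegral_add_left measurable_const, lintegral_const, measure_univ, mul_one]
  rw [← hT, ← hT'] at key
  set T := ∑' ξ, indE (ξ ∈ D.XS) * W.w ξ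
  set T' := ∑' ξ, indE (ξ ∈ D.XS) * W.w (γ ++ ξ)
  have hT1 : T ≠ ⊤ := ne_top_of_le_ne_top ENNReal.one_ne_top (h2 ▸ le_add_self)
  have hT2 : T' ≠ ⊤ := ne_top_of_le_ne_top ENNReal.one_ne_top
    (le_trans (h1 ▸ le_add_self) (W.w_le_one γ))
  rw [← h1, ← h2] at key
  rw [add_right_comm (W.P D.Stay)] at key
  exact (ENNReal.add_le_add_iff_right hT2).1 ((ENNReal.add_le_add_iff_right hT1).1 key)

/-- repeated trials -/
theorem trial (S : ℕ → Set (Pa d)) (c : ℝ≥0∞) (hPF : ∀ r, PF (S r))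
    (hpre : ∀ r, ∀ γ' ∈ S (r + 1), ∃ γ ∈ S r, γ <+: γ')
    (hkill : ∀ r, ∀ γ ∈ S r, ∃ A, MeasurableSet A ∧ A ⊆ cyl γ ∧ c * W.w γ ≤ W.P A ∧
      ∀ γ' ∈ S (r + 1), γ <+: γ' → Disjoint A (cyl γ')) (r : ℕ) :
    W.P (⋃ γ ∈ S r, cyl γ) ≤ (1 - c) ^ r := by
  induction r with
  | zero => rw [pow_zero]; exact prob_le_one
  | succ r ih =>
    choose! A hA using hkill r
    classical
    have hsub : (⋃ γ ∈ S (r + 1), cyl γ) ⊆ ⋃ γ, if γ ∈ S r then cyl γ \ A γ else ∅ := by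
      intro s hs
      simp only [Set.mem_iUnion, exists_prop] at hs ⊢
      obtain ⟨γ', hγ', hs⟩ := hs
      obtain ⟨γ, hγ, hp⟩ := hpre r γ' hγ'
      refine ⟨γ, ?_⟩
      rw [if_pos hγ]
      exact ⟨cyl_mono hp hs, fun h => Set.disjoint_left.1 ((hA γ hγ).2.2.2 γ' hγ' hp) h hs⟩
    calc W.P (⋃ γ ∈ S (r + 1), cyl γ) ≤ ∑' γ, W.P (if γ ∈ S r then cyl γ \ A γ else ∅) :=
          (measure_mono hsub).trans (measure_iUnion_le _)
      _ ≤ ∑' γ, (1 - c) * (indE (γ ∈ S r) * W.w γ) := by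
          refine ENNReal.tsum_le_tsum fun γ => ?_
          by_cases hγ : γ ∈ S r
          · obtain ⟨h1, h2, h3, -⟩ := hA γ hγ
            rw [if_pos hγ, indE_pos hγ, one_mul,
              measure_sdiff h2 h1.nullMeasurableSet (measure_ne_top _ _), W.P_cyl,
              ENNReal.sub_mul fun _ _ => ne_top_of_le_ne_top ENNReal.one_ne_top (W.w_le_one γ),
              one_mul]
            exact tsub_le_tsub_left h3 _
          · rw [if_neg hγ, measure_empty]; exact zero_le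
      _ = (1 - c) * W.P (⋃ γ ∈ S r, cyl γ) := by rw [ENNReal.tsum_mul_left, W.P_pf (hPF r)]
      _ ≤ (1 - c) ^ (r + 1) := by rw [pow_succ']; gcongr

theorem trial_null (S : ℕ → Set (Pa d)) (c : ℝ≥0∞) (hc : 0 < c) (hPF : ∀ r, PF (S r))
    (hpre : ∀ r, ∀ γ' ∈ S (r + 1), ∃ γ ∈ S r, γ <+: γ')
    (hkill : ∀ r, ∀ γ ∈ S r, ∃ A, MeasurableSet A ∧ A ⊆ cyl γ ∧ c * W.w γ ≤ W.P A ∧
      ∀ γ' ∈ S (r + 1), γ <+: γ' → Disjoint A (cyl γ')) :
    W.P (⋂ r, ⋃ γ ∈ S r, cyl γ) = 0 := by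
  have h1 : (1 - c : ℝ≥0∞) < 1 := ENNReal.sub_lt_self ENNReal.one_ne_top one_ne_zero hc.ne'
  refine le_antisymm ?_ zero_le
  refine ge_of_tendsto' (ENNReal.tendsto_pow_atTop_nhds_zero_of_lt_one h1) fun r => ?_
  exact (measure_mono (Set.iInter_subset _ r)).trans (W.trial S c hPF hpre hkill r)

end RW

end Vale.Agent.P147
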