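import Vale.Agent.P147.KeyQ
import Vale.Agent.P147.BEl

open MeasureTheory Filter Topology
open scoped ENNReal

namespace Vale.Agent.P147

variable {d : ℕ}

theorem sum_indE_uniq {α : Type} (B : Finset α) (A : Prop) (p : α → Prop)
    (h : ∀ b b', p b → p b' → b = b') : ∑ b ∈ B, indE (A ∧ p b) ≤ indE A := by
  by_cases hb : ∃ b ∈ B, p b
  · obtain ⟨b, hb, hp⟩ := hb
    rw [Finset.sum_eq_single_of_mem b hb fun b' _ hne => indE_neg fun hh => hne (h _ _ hh.2 hp)]
    exact indE_mono And.left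
  · rw [Finset.sum_eq_zero fun b hb' => indE_neg fun hh => hb ⟨b, hb', hh.2⟩]
    exact zero_le

theorem mem_dep_of_pts {x p : V d} {a b : Pa d} (hb : b ≠ []) (hp : p ∈ pts x a) :
    p ∈ dep x (a ++ b) := by
  obtain ⟨c, ⟨t, rfl⟩, rfl⟩ := mem_pts_iff.1 hp
  exact mem_dep_iff.2 ⟨c, t ++ b, by simp, by simp [hb], rfl⟩

theorem Dir.exit_append (D : Dir d) {a b : ℝ} {x : V d} {ζ : Pa d} (ξ : Pa d)
    (h : ∀ p ∈ dep x ζ, a ≤ D.lev p ∧ D.lev p ≤ b) :
    D.Exit a b x (ζ ++ ξ) ↔ D.Exit a b (x + disp ζ) ξ := by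
  simp only [Dir.Exit, dep_append, List.mem_append, disp_append, add_assoc]
  exact ⟨fun hh => ⟨fun p hp => hh.1 p (Or.inr hp), hh.2⟩,
    fun hh => ⟨fun p hp => hp.elim (h p) (hh.1 p), hh.2⟩⟩

theorem Dir.FPt_append (D : Dir d) {c : ℝ} {x b : V d} {ζ : Pa d} (ξ : Pa d)
    (h : ∀ p ∈ pts x ζ, c ≤ D.lev p) : D.FPt c x (ζ ++ ξ) b ↔ D.FPt c (x + disp ζ) ξ b := by
  constructor
  · rintro ⟨ξ₁, ξ₂, h1, h2, h3, h4⟩
    rcases List.append_eq_append_iff.1 h1 with ⟨t, rfl, rfl⟩ | ⟨t, rfl, rfl⟩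
    · refine ⟨t, ξ₂, rfl, by rw [← h2, disp_append, add_assoc], h3, fun p hp => h4 p ?_⟩
      rw [dep_append]
      exact List.mem_append_right _ hp
    · exact absurd (h b (mem_pts_iff.2 ⟨ξ₁, List.prefix_append _ _, h2.symm⟩)) (not_le.2 h3)
  · rintro ⟨ξ₁, ξ₂, rfl, h2, h3, h4⟩
    refine ⟨ζ ++ ξ₁, ξ₂, by simp, by rw [← h2, disp_append, add_assoc], h3, fun p hp => ?_⟩
    rw [dep_append] at hp
    exact (List.mem_append.1 hp).elim (fun hp => h p (mem_pts.2 (Or.inl hp))) (h4 p)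

namespace RW

variable (W : RW d) (D : Dir d)

/-- reduction of a block event to pairs of paths -/
theorem BE_pair (m r : ℕ) (Q : Pa d → Pa d → Prop) :
    W.P D.Stay * W.P D.neg.Stay * W.BE D m (fun up => W.BE D.neg r fun K =>
      indE (∃ π η : Pa d, π <+: up.reverse.flatten ∧ η <+: K.flatten ∧ Q π η)) ≤
      ∑' π : Pa d, ∑' η : Pa d, indE (Q π η) * (W.w π * W.w η) := by
  have h1 : W.BE D m (fun up => W.BE D.neg r fun K =>
      indE (∃ π η : Pa d, π <+: up.reverse.flatten ∧ η <+: K.flatten ∧ Q π η)) ≤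
      W.BE D m (fun up => W.BE D.neg r fun K => ∑' π : Pa d, ∑' η : Pa d,
        indE (π <+: up.reverse.flatten) * indE (Q π η) * indE (η <+: K.flatten)) := by
    refine W.BE_mono D fun up _ => W.BE_mono D.neg fun K _ => ?_
    by_cases h : ∃ π η : Pa d, π <+: up.reverse.flatten ∧ η <+: K.flatten ∧ Q π η
    · rw [indE_pos h]
      obtain ⟨π, η, h1, h2, h3⟩ := h
      refine le_trans ?_ ((ENNReal.le_tsum η).trans (ENNReal.le_tsum (f := fun π => ∑' η : Pa d,
        indE (π <+: up.reverse.flatten) * indE (Q π η) * indE (η <+: K.flatten)) π))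
      rw [indE_pos h1, indE_pos h2, indE_pos h3]
      simp
    · rw [indE_neg h]
      exact zero_le
  refine (mul_le_mul_right h1 _).trans ?_
  simp only [BE_tsum, BE_mul]
  rw [← ENNReal.tsum_mul_left]
  refine ENNReal.tsum_le_tsum fun π => ?_
  rw [← ENNReal.tsum_mul_left]
  refine ENNReal.tsum_le_tsum fun η => ?_
  have h2 : (fun up : List (Pa d) => indE (π <+: up.reverse.flatten) * indE (Q π η) *
      W.BE D.neg r fun K => indE (η <+: K.flatten)) = fun up =>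
      (indE (Q π η) * W.BE D.neg r fun K => indE (η <+: K.flatten)) *
        indE (π <+: up.reverse.flatten) := by
    funext up
    ring
  rw [h2, BE_mul, W.BE_reverse D m fun L => indE (π <+: L.flatten)]
  refine le_trans (le_of_eq ?_) (mul_le_mul_right
    (mul_le_mul' (W.BE_pre D m π) (W.BE_pre D.neg r η)) (indE (Q π η)))
  ring

/-- annealed gluing for a fixed lower path, `Z` an extra condition on the exit path -/
theorem key_lp {lp : Pa d} (hu : D.Up lp) (hg : D.Gap lp) (y : V d) (lam : ℝ) (i : ℕ)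
    (Z : V d → Pa d → Prop)
    (hZ : ∀ x ζ ξ, (∀ p ∈ pts x ζ, 0 ≤ D.lev p) → (Z x (ζ ++ ξ) ↔ Z (x + disp ζ) ξ)) :
    W.w lp * ∑' π : Pa d, ∑' η : Pa d, indE (D.QE lp π η y lam ∧ Z y η) * (W.w π * W.w η) ≤
      2 * i * (∑' ξ : Pa d, indE (D.Exit (-D.H lp) lam 0 ξ ∧ Z 0 ξ) * W.w (lp ++ ξ)) +
        W.w lp / 2 ^ i := by
  have hH : 0 ≤ D.H lp := hu _ (mem_pts.2 (Or.inr (zero_add _).symm))
  have mq := W.measurable_qw
  have e1 : ∀ π η : Pa d, W.w lp * (indE (D.QE lp π η y lam ∧ Z y η) * (W.w π * W.w η)) =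
      ∫⁻ o, qw (W.ω o) (-disp lp) lp * (indE (D.QE lp π η y lam ∧ Z y η) *
        (qw (W.ω o) 0 π * qw (W.ω o) y η)) ∂W.E := by
    intro π η
    by_cases h : D.QE lp π η y lam ∧ Z y η
    · simp only [indE_pos h, one_mul]
      obtain ⟨⟨h1, -, h3, -⟩, -⟩ := h
      have e2 : W.w (lp ++ π) = W.w lp * W.w π := by
        refine W.w_append fun p hp hp' => ?_
        have a1 := hg p hp
        have a2 := (h1 _ (mem_pts.2 (Or.inl (mem_dep_zero.1 hp')))).1
        rw [Dir.lev_sub] at a2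
        linarith
      rw [← mul_assoc, ← e2, ← W.fact (-disp lp) (lp ++ π) y η]
      · simp only [qw_append, neg_add_cancel, mul_assoc]
      · rw [dep_append, neg_add_cancel]
        exact h3.symm
    · simp [indE_neg h]
  have e3 : W.w lp * ∑' π : Pa d, ∑' η : Pa d,
      indE (D.QE lp π η y lam ∧ Z y η) * (W.w π * W.w η) =
      ∫⁻ o, qw (W.ω o) (-disp lp) lp * ∑' π : Pa d, ∑' η : Pa d,
        (indE (D.QE lp π η y lam ∧ Z y η) * (qw (W.ω o) 0 π * qw (W.ω o) y η)) ∂W.E := by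
    simp only [← ENNReal.tsum_mul_left, e1]
    have m1 : ∀ π η : Pa d, Measurable fun o => qw (W.ω o) (-disp lp) lp *
        (indE (D.QE lp π η y lam ∧ Z y η) * (qw (W.ω o) 0 π * qw (W.ω o) y η)) := fun π η =>
      (mq _ _).mul (((mq _ _).mul (mq _ _)).const_mul _)
    rw [lintegral_tsum fun π => (Measurable.tsum fun η => m1 π η).aemeasurable]
    refine tsum_congr fun π => ?_
    rw [lintegral_tsum fun η => (m1 π η).aemeasurable]
  have e4 : ∀ o, ∑' π : Pa d, ∑' η : Pa d,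
      (indE (D.QE lp π η y lam ∧ Z y η) * (qw (W.ω o) 0 π * qw (W.ω o) y η)) ≤
      2 * i * qm (W.ω o) 0 {ξ | D.Exit (-D.H lp) lam 0 ξ ∧ Z 0 ξ} + 1 / 2 ^ i := by
    intro o
    refine le_trans ?_ (keyQ (W.sum_one o) {p | 0 ≤ D.lev p ∧ D.lev p ≤ lam}
      (fun x => {ξ | D.Exit (-D.H lp) lam x ξ ∧ Z x ξ})
      (fun x => (D.pf_exit (-D.H lp) lam x).mono fun _ h => h.1) ?_ 0 y i)
    · refine ENNReal.tsum_le_tsum fun π => ENNReal.tsum_le_tsum fun η =>
        mul_le_mul_left (indE_mono ?_) _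
      rintro ⟨⟨h1, h2, h3, η₁, η₂, rfl, h5, h6, h7⟩, h8⟩
      refine ⟨h1, ⟨h2, h8⟩, fun p hp hp' => h3 hp (List.mem_append_right _ hp'), η₁, η₂, rfl, h5,
        by rw [h6, zero_add], fun p hp => ⟨h7 p hp, (h2.1 p (mem_dep_of_pts h5 hp)).2⟩⟩
    · intro x ζ ξ h
      refine and_congr (D.exit_append ξ fun p hp => ?_) (hZ x ζ ξ fun p hp => (h p hp).1)
      have := h p (mem_pts.2 (Or.inl hp))
      exact ⟨by linarith [this.1], this.2⟩
  rw [e3]
  refine (lintegral_mono fun o => mul_le_mul_right (e4 o) _).trans (le_of_eq ?_)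
  have e5 : ∀ o, qw (W.ω o) (-disp lp) lp *
      (2 * i * qm (W.ω o) 0 {ξ | D.Exit (-D.H lp) lam 0 ξ ∧ Z 0 ξ} + 1 / 2 ^ i) =
      2 * i * (∑' ξ : Pa d, indE (D.Exit (-D.H lp) lam 0 ξ ∧ Z 0 ξ) *
        qw (W.ω o) (-disp lp) (lp ++ ξ)) + (1 / 2 ^ i) * qw (W.ω o) (-disp lp) lp := by
    intro o
    rw [mul_add, mul_comm _ (1 / 2 ^ i : ℝ≥0∞), mul_left_comm, qm, ← ENNReal.tsum_mul_left]
    congr 2
    refine tsum_congr fun ξ => ?_
    rw [qw_append, neg_add_cancel, mul_left_comm]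
    rfl
  simp only [e5]
  rw [lintegral_add_right _ ((mq _ _).const_mul _), lintegral_const_mul _ (mq _ _),
    lintegral_const_mul _ (Measurable.tsum fun ξ => (mq _ _).const_mul _),
    lintegral_tsum fun ξ => ((mq _ _).const_mul _).aemeasurable, W.w_eq, one_div,
    ENNReal.div_eq_inv_mul]
  congr 2
  refine tsum_congr fun ξ => ?_
  rw [lintegral_const_mul _ (mq _ _), W.w_eq]

theorem key_gen (n m r : ℕ) (y : V d) (lam C : ℝ) (i : ℕ) (Z : V d → Pa d → Prop)
    (hZ : ∀ x ζ ξ, (∀ p ∈ pts x ζ, 0 ≤ D.lev p) → (Z x (ζ ++ ξ) ↔ Z (x + disp ζ) ξ))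
    (Y : List (Pa d) → List (Pa d) → List (Pa d) → Prop)
    (hY : ∀ low up K, D.BL n low → Y low up K → D.lev (sumd low) ≤ C ∧ ∃ π η : Pa d,
      π <+: up.reverse.flatten ∧ η <+: K.flatten ∧
        (D.QE low.reverse.flatten π η y lam ∧ Z y η)) :
    W.P D.Stay * W.P D.neg.Stay * W.BE D n (fun low => W.BE D m fun up => W.BE D.neg r fun K =>
      indE (Y low up K)) ≤
      2 * i * (∑' low : List (Pa d), ∑' ξ : Pa d,
        indE ((D.BL n low ∧ D.lev (sumd low) ≤ C ∧ D.Exit (-D.lev (sumd low)) lam 0 ξ) ∧ Z 0 ξ) *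
          W.w (low.reverse.flatten ++ ξ)) + 1 / 2 ^ i := by
  rcases eq_or_lt_of_le (zero_le (a := W.P D.Stay)) with hp | hp
  · rw [← hp]
    simp
  rw [← BE_mul, ← W.BE_const D hp n (1 / 2 ^ i)]
  unfold BE
  rw [← ENNReal.tsum_mul_left, ← ENNReal.tsum_add]
  refine ENNReal.tsum_le_tsum fun low => ?_
  by_cases hL : D.BL n low
  swap
  · simp [indE_neg hL]
  by_cases hC : D.lev (sumd low) ≤ C
  swap
  · have : ∀ up K, indE (Y low up K) = 0 := fun up K => indE_neg fun h => hC (hY _ _ _ hL h).1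
    simp [this]
  have hb : ∀ b ∈ low.reverse, D.Blk b := fun b hb => hL.2 b (List.mem_reverse.1 hb)
  have e1 : (low.map W.w).prod = W.w low.reverse.flatten := by
    rw [W.w_flatten D hb, List.map_reverse, List.prod_reverse]
  have e2 : D.H low.reverse.flatten = D.lev (sumd low) := by simp [Dir.H]
  have h1 := W.key_lp D (Dir.up_flatten hb) (Dir.gap_flatten hb) y lam i Z hZ
  have h2 := W.BE_pair D m r fun π η => D.QE low.reverse.flatten π η y lam ∧ Z y η
  have h3 : (W.BE D m fun up => W.BE D.neg r fun K => indE (Y low up K)) ≤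
      W.BE D m fun up => W.BE D.neg r fun K => indE (∃ π η : Pa d,
      π <+: up.reverse.flatten ∧ η <+: K.flatten ∧
        (D.QE low.reverse.flatten π η y lam ∧ Z y η)) :=
    W.BE_mono D fun up _ => W.BE_mono D.neg fun K _ => indE_mono fun h => (hY _ _ _ hL h).2
  rw [indE_pos hL, one_mul, e1]
  refine (mul_le_mul_right ((mul_le_mul_right h3 _).trans h2) _).trans (h1.trans (le_of_eq ?_))
  simp only [e2, hL, hC, true_and, mul_one_div]

theorem key_two (n m r : ℕ) (y : V d) (lam C : ℝ) (i : ℕ) :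
    W.P D.Stay * W.P D.neg.Stay * W.BE D n (fun low => W.BE D m fun up => W.BE D.neg r fun K =>
      indE (D.lev (sumd low) ≤ C ∧ D.KE low up y K lam)) ≤
      2 * i * W.Rt D n lam C + 1 / 2 ^ i := by
  have := W.key_gen D n m r y lam C i (fun _ _ => True) (fun _ _ _ _ => Iff.rfl)
    (fun low up K => D.lev (sumd low) ≤ C ∧ D.KE low up y K lam) (by
      rintro low up K - ⟨h1, π, η, h2, h3, h4⟩
      exact ⟨h1, π, η, h2, h3, h4, trivial⟩)
  simpa only [and_true, Rt] using this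

theorem key_one (n m r : ℕ) (v : V d) (lam C : ℝ) (i κ : ℕ) (hκ : κ ≤ n) (B : Finset (V d)) :
    ∑ b ∈ B, W.P D.Stay * W.P D.neg.Stay *
      W.BE D n (fun low => W.BE D m fun up => W.BE D.neg r fun K =>
        indE (D.lev (sumd low) ≤ C ∧ D.KE low up (b - v) K lam ∧
          D.FPt (-κ) (b - v) K.flatten b)) ≤
      2 * i * W.Rt D n lam C + B.card / 2 ^ i := by
  have hκ0 : (0 : ℝ) ≤ κ := Nat.cast_nonneg κ
  have h1 := fun b => W.key_gen D n m r (b - v) lam C i (fun x ξ => D.FPt (-κ) x ξ b)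
    (fun x ζ ξ h => D.FPt_append ξ fun p hp => by linarith [h p hp])
    (fun low up K => D.lev (sumd low) ≤ C ∧ D.KE low up (b - v) K lam ∧
          D.FPt (-κ) (b - v) K.flatten b) (by
      rintro low up K hL ⟨h1, ⟨π, η, h2, h3, h4⟩, h5⟩
      refine ⟨h1, π, η, h2, h3, h4, D.FPt_of_prefix h3 h5 ?_⟩
      have a1 := h4.2.1.2
      have a2 := Dir.length_le_lev hL.2
      have a3 : D.H low.reverse.flatten = D.lev (sumd low) := by simp [Dir.H]
      have a4 : (κ : ℝ) ≤ n := by exact_mod_cast hκ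
      rw [hL.1] at a2
      linarith)
  refine (Finset.sum_le_sum fun b _ => h1 b).trans ?_
  rw [Finset.sum_add_distrib, Finset.sum_const, nsmul_eq_mul, mul_one_div, ← Finset.mul_sum]
  refine add_le_add_left (mul_le_mul_right ?_ _) _
  unfold Rt
  rw [← Summable.tsum_finsetSum fun _ _ => ENNReal.summable]
  refine ENNReal.tsum_le_tsum fun low => ?_
  rw [← Summable.tsum_finsetSum fun _ _ => ENNReal.summable]
  refine ENNReal.tsum_le_tsum fun ξ => ?_
  rw [← Finset.sum_mul]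
  exact mul_le_mul_left (sum_indE_uniq B _ _ fun b b' h h' => D.FPt_unique h h') _

end RW

end Vale.Agent.P147
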