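import Vale.Agent.P147.Wt

open MeasureTheory Filter Topology
open scoped ENNReal

namespace Vale.Agent.P147

variable {d : ℕ}

/-- quenched mass of a family of paths from `x` -/
noncomputable def qm (ω : V d → St d → ℝ≥0∞) (x : V d) (F : Set (Pa d)) : ℝ≥0∞ :=
  ∑' ξ : Pa d, indE (ξ ∈ F) * qw ω x ξ

theorem keyQ_tsum_le_one {α : Type} (p : α → Prop) (hu : ∀ a b, p a → p b → a = b) :
    ∑' a, indE (p a) ≤ 1 := by
  by_cases h : ∃ a, p a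
  · obtain ⟨a, ha⟩ := h
    rw [tsum_eq_single a fun b hb => indE_neg fun hp => hb (hu b a hp ha)]
    exact indE_le_one _
  · have : ∀ a, indE (p a) = 0 := fun a => indE_neg fun hp => h ⟨a, hp⟩
    simp [this]

/-- concatenation is injective on a prefix-free first factor -/
theorem qw_concat (ω : V d → St d → ℝ≥0∞) (x : V d) {F : Set (Pa d)} (hF : PF F)
    (G : Pa d → Set (Pa d)) (T : Set (Pa d)) (h : ∀ ζ ∈ F, ∀ ξ ∈ G ζ, ζ ++ ξ ∈ T) :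
    ∑' ζ : Pa d, indE (ζ ∈ F) * qw ω x ζ * qm ω (x + disp ζ) (G ζ) ≤ qm ω x T := by
  have h1 : ∀ ζ : Pa d, indE (ζ ∈ F) * qw ω x ζ * qm ω (x + disp ζ) (G ζ) ≤
      ∑' γ : Pa d, indE (ζ ∈ F ∧ ζ <+: γ) * (indE (γ ∈ T) * qw ω x γ) := by
    intro ζ
    refine le_trans ?_ (ENNReal.tsum_comp_le_tsum_of_injective
      (f := fun ξ : Pa d => ζ ++ ξ) (fun a b hab => List.append_cancel_left hab) _)
    unfold qm
    rw [← ENNReal.tsum_mul_left]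
    refine ENNReal.tsum_le_tsum fun ξ => ?_
    by_cases hζ : ζ ∈ F
    · by_cases hξ : ξ ∈ G ζ
      · rw [indE_pos hζ, indE_pos hξ, indE_pos (h ζ hζ ξ hξ),
          indE_pos (p := ζ ∈ F ∧ ζ <+: ζ ++ ξ) ⟨hζ, List.prefix_append _ _⟩, qw_append]
        simp
      · simp [indE_neg hξ]
    · simp [indE_neg hζ]
  refine (ENNReal.tsum_le_tsum h1).trans ?_
  rw [ENNReal.tsum_comm]
  refine ENNReal.tsum_le_tsum fun γ => ?_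
  rw [ENNReal.tsum_mul_right]
  refine le_trans (mul_le_mul_left (keyQ_tsum_le_one _ fun a b ha hb => ?_) _) (one_mul _).le
  rcases List.prefix_or_prefix_of_prefix ha.2 hb.2 with h2 | h2
  · exact hF a ha.1 b hb.1 h2
  · exact (hF b hb.1 a ha.1 h2).symm

/-- a prefix-free family whose members all have a prefix in `Z` -/
theorem qm_le_of_prefix {ω : V d → St d → ℝ≥0∞} (h : ∀ x, ∑ u, ω x u = 1) (x : V d)
    {F Z : Set (Pa d)} (hF : PF F) (hZ : ∀ γ ∈ F, ∃ ζ ∈ Z, ζ <+: γ) : qm ω x F ≤ qm ω x Z := by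
  have h1 : ∀ γ : Pa d, indE (γ ∈ F) * qw ω x γ ≤
      ∑' ζ : Pa d, indE (ζ ∈ Z) * (indE (γ ∈ F ∧ ζ <+: γ) * qw ω x γ) := by
    intro γ
    by_cases hγ : γ ∈ F
    · obtain ⟨ζ, hζ, hp⟩ := hZ γ hγ
      refine le_trans ?_ (ENNReal.le_tsum ζ)
      rw [indE_pos hζ, indE_pos hγ, indE_pos (p := γ ∈ F ∧ ζ <+: γ) ⟨hγ, hp⟩]
      simp
    · simp [indE_neg hγ]
  refine (ENNReal.tsum_le_tsum h1).trans ?_
  rw [ENNReal.tsum_comm]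
  refine ENNReal.tsum_le_tsum fun ζ => ?_
  rw [ENNReal.tsum_mul_left]
  exact mul_le_mul_right (qw_pf_ext h x hF ζ) _

/-- a family split at a prefix -/
theorem qm_le_concat (ω : V d → St d → ℝ≥0∞) (x : V d) {F Z : Set (Pa d)}
    (G : Pa d → Set (Pa d)) (hZ : ∀ γ ∈ F, ∃ ζ ∈ Z, ∃ ξ ∈ G ζ, γ = ζ ++ ξ) :
    qm ω x F ≤ ∑' ζ : Pa d, indE (ζ ∈ Z) * qw ω x ζ * qm ω (x + disp ζ) (G ζ) := by
  have h1 : ∀ γ : Pa d, indE (γ ∈ F) * qw ω x γ ≤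
      ∑' ζ : Pa d, ∑' ξ : Pa d, indE (γ = ζ ++ ξ) *
        (indE (ζ ∈ Z) * qw ω x ζ * (indE (ξ ∈ G ζ) * qw ω (x + disp ζ) ξ)) := by
    intro γ
    by_cases hγ : γ ∈ F
    · obtain ⟨ζ, hζ, ξ, hξ, e⟩ := hZ γ hγ
      refine le_trans ?_ (ENNReal.le_tsum ζ)
      refine le_trans ?_ (ENNReal.le_tsum ξ)
      rw [indE_pos hζ, indE_pos hγ, indE_pos hξ, indE_pos e, e, qw_append]
      simp
    · simp [indE_neg hγ]
  refine (ENNReal.tsum_le_tsum h1).trans ?_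
  rw [ENNReal.tsum_comm]
  refine ENNReal.tsum_le_tsum fun ζ => ?_
  rw [ENNReal.tsum_comm]
  unfold qm
  rw [← ENNReal.tsum_mul_left]
  refine ENNReal.tsum_le_tsum fun ξ => ?_
  rw [ENNReal.tsum_mul_right]
  exact le_trans (mul_le_mul_left (keyQ_tsum_le_one _ fun a b ha hb => ha.trans hb.symm) _)
    (one_mul _).le

theorem keyQ_eta {ω : V d → St d → ℝ≥0∞} (h : ∀ x, ∑ u, ω x u = 1) (O : Set (V d))
    (Ec : V d → Set (Pa d))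
    (hO : ∀ x ζ ξ, (∀ p ∈ pts x ζ, p ∈ O) → (ζ ++ ξ ∈ Ec x ↔ ξ ∈ Ec (x + disp ζ)))
    (y : V d) (t : ℝ≥0∞) :
    qm ω y {η | η ∈ Ec y ∧ ∃ η₁ η₂ : Pa d, η = η₁ ++ η₂ ∧ (∀ p ∈ pts y η₁, p ∈ O) ∧
      qm ω (y + disp η₁) (Ec (y + disp η₁)) ≤ t} ≤ t := by
  set Q : V d → Prop := fun p => qm ω p (Ec p) ≤ t with hQ
  set Z : Set (Pa d) := {a | (Q (y + disp a) ∧ ∀ p ∈ dep y a, ¬ Q p) ∧ ∀ p ∈ pts y a, p ∈ O}
    with hZ
  have hZp : PF Z := (pf_first y Q).mono fun a ha => ha.1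
  refine (qm_le_concat ω y (Z := Z) (fun ζ => Ec (y + disp ζ)) ?_).trans ?_
  · rintro η ⟨hη, η₁, η₂, e, h1, h2⟩
    obtain ⟨a, ⟨c, hc⟩, ha1, ha2⟩ := exists_first (x := y) (γ := η₁) (Q := Q)
      ⟨_, mem_pts.2 (Or.inr rfl), h2⟩
    have haO : ∀ p ∈ pts y a, p ∈ O := fun p hp => h1 p (pts_prefix ⟨c, hc⟩ hp)
    have e' : η = a ++ (c ++ η₂) := by rw [e, ← hc, List.append_assoc]
    exact ⟨a, ⟨⟨ha1, ha2⟩, haO⟩, c ++ η₂, (hO y a _ haO).1 (e' ▸ hη), e'⟩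
  · calc _ ≤ ∑' ζ : Pa d, indE (ζ ∈ Z) * qw ω y ζ * t := by
          refine ENNReal.tsum_le_tsum fun ζ => ?_
          by_cases hζ : ζ ∈ Z
          · exact mul_le_mul_right hζ.1.1 _
          · simp [indE_neg hζ]
      _ ≤ 1 * t := by
          rw [ENNReal.tsum_mul_right]
          exact mul_le_mul_left (qw_pf h y hZp) _
      _ = t := one_mul _

theorem keyQ_pi {ω : V d → St d → ℝ≥0∞} (h : ∀ x, ∑ u, ω x u = 1) (O : Set (V d))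
    (Ec : V d → Set (Pa d))
    (hO : ∀ x ζ ξ, (∀ p ∈ pts x ζ, p ∈ O) → (ζ ++ ξ ∈ Ec x ↔ ξ ∈ Ec (x + disp ζ)))
    (x : V d) (t : ℝ≥0∞) {F : Set (Pa d)} (hF : PF F)
    (hF' : ∀ π ∈ F, (∀ p ∈ pts x π, p ∈ O) ∧ t < qm ω (x + disp π) (Ec (x + disp π))) :
    qm ω x F * t ≤ qm ω x (Ec x) := by
  set Q : V d → Prop := fun p => t < qm ω p (Ec p) with hQ
  set Z : Set (Pa d) := {a | (Q (x + disp a) ∧ ∀ p ∈ dep x a, ¬ Q p) ∧ ∀ p ∈ pts x a, p ∈ O}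
    with hZ
  have hZp : PF Z := (pf_first x Q).mono fun a ha => ha.1
  have h1 : qm ω x F ≤ qm ω x Z := by
    refine qm_le_of_prefix h x hF fun π hπ => ?_
    obtain ⟨a, hp, ha1, ha2⟩ := exists_first (x := x) (γ := π) (Q := Q)
      ⟨_, mem_pts.2 (Or.inr rfl), (hF' π hπ).2⟩
    exact ⟨a, ⟨⟨ha1, ha2⟩, fun p hp' => (hF' π hπ).1 p (pts_prefix hp hp')⟩, hp⟩
  refine (mul_le_mul_left h1 _).trans (le_trans ?_
    (qw_concat ω x hZp (fun ζ => Ec (x + disp ζ)) (Ec x) fun ζ hζ ξ hξ => (hO x ζ ξ hζ.2).2 hξ))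
  unfold qm
  rw [← ENNReal.tsum_mul_right]
  refine ENNReal.tsum_le_tsum fun ζ => ?_
  by_cases hζ : ζ ∈ Z
  · exact mul_le_mul_right (le_of_lt hζ.1.1) _
  · simp [indE_neg hζ]

theorem keyQ_class {ω : V d → St d → ℝ≥0∞} (h : ∀ x, ∑ u, ω x u = 1) (O : Set (V d))
    (Ec : V d → Set (Pa d))
    (hO : ∀ x ζ ξ, (∀ p ∈ pts x ζ, p ∈ O) → (ζ ++ ξ ∈ Ec x ↔ ξ ∈ Ec (x + disp ζ)))
    (x₀ y : V d) (Cl : V d → Prop) (t m : ℝ≥0∞) (ht : ∀ a, Cl a → qm ω a (Ec a) ≤ t)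
    (hm : ∀ F : Set (Pa d), PF F → (∀ π ∈ F, (∀ p ∈ pts x₀ π, p ∈ O) ∧ Cl (x₀ + disp π)) →
      qm ω x₀ F ≤ m) :
    ∑' π : Pa d, ∑' η : Pa d,
      indE (((∀ p ∈ pts x₀ π, p ∈ O) ∧ η ∈ Ec y ∧ (dep y η).Disjoint (dep x₀ π) ∧
        ∃ η₁ η₂ : Pa d, η = η₁ ++ η₂ ∧ η₂ ≠ [] ∧ y + disp η₁ = x₀ + disp π ∧
          ∀ p ∈ pts y η₁, p ∈ O) ∧ Cl (x₀ + disp π)) * (qw ω x₀ π * qw ω y η) ≤ m * t := by
  refine le_trans ?_ (mul_le_mul_right (keyQ_eta h O Ec hO y t) m)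
  rw [ENNReal.tsum_comm]
  unfold qm
  rw [← ENNReal.tsum_mul_left]
  refine ENNReal.tsum_le_tsum fun η => ?_
  set F : Set (Pa d) := {π | ((∀ p ∈ pts x₀ π, p ∈ O) ∧ η ∈ Ec y ∧
    (dep y η).Disjoint (dep x₀ π) ∧
        ∃ η₁ η₂ : Pa d, η = η₁ ++ η₂ ∧ η₂ ≠ [] ∧ y + disp η₁ = x₀ + disp π ∧
          ∀ p ∈ pts y η₁, p ∈ O) ∧ Cl (x₀ + disp π)} with hFd
  have e : ∑' π : Pa d, indE (π ∈ F) * (qw ω x₀ π * qw ω y η) = qm ω x₀ F * qw ω y η := by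
    unfold qm
    rw [← ENNReal.tsum_mul_right]
    exact tsum_congr fun π => (mul_assoc _ _ _).symm
  refine le_trans (le_of_eq e) ?_
  by_cases hne : F.Nonempty
  · obtain ⟨π, ⟨-, h2, -, η₁, η₂, e1, -, e2, h3⟩, h4⟩ := hne
    rw [indE_pos, one_mul]
    · refine mul_le_mul_left (hm F ?_ fun π hπ => ⟨hπ.1.1, hπ.2⟩) _
      rintro a ⟨⟨-, -, -, ζ₁, ζ₂, f1, f2, f3, -⟩, -⟩ b ⟨⟨-, -, g1, -⟩, -⟩ ⟨c, hc⟩
      by_contra hab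
      have hc0 : c ≠ [] := fun h0 => hab (by rw [← hc, h0, List.append_nil])
      exact g1 (mem_dep_iff.2 ⟨ζ₁, ζ₂, f1, f2, f3.symm⟩) (mem_dep_iff.2 ⟨a, c, hc.symm, hc0, rfl⟩)
    · exact ⟨h2, η₁, η₂, e1, h3, by rw [e2]; exact ht _ h4⟩
  · have : ∀ π, indE (π ∈ F) = 0 := fun π => indE_neg fun hπ => hne ⟨π, hπ⟩
    simp [qm, this]

theorem keyQ_dyadic (u : ℝ≥0∞) (hu : u ≤ 1) (i : ℕ) :
    u ≤ 1 / 2 ^ i ∨ ∃ r ∈ Finset.range i, 1 / 2 ^ (r + 1) < u ∧ u ≤ 1 / 2 ^ r := by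
  induction i with
  | zero => left; simpa using hu
  | succ i ih =>
    rcases ih with h | ⟨r, hr, h⟩
    · by_cases h2 : u ≤ 1 / 2 ^ (i + 1)
      · exact Or.inl h2
      · exact Or.inr ⟨i, Finset.self_mem_range_succ i, not_le.1 h2, h⟩
    · exact Or.inr ⟨r, Finset.mem_range.2 ((Finset.mem_range.1 hr).trans (Nat.lt_succ_self i)), h⟩

/-- quenched gluing inequality -/
theorem keyQ {ω : V d → St d → ℝ≥0∞} (h : ∀ x, ∑ u, ω x u = 1) (O : Set (V d))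
    (Ec : V d → Set (Pa d)) (hPF : ∀ x, PF (Ec x))
    (hO : ∀ x ζ ξ, (∀ p ∈ pts x ζ, p ∈ O) → (ζ ++ ξ ∈ Ec x ↔ ξ ∈ Ec (x + disp ζ)))
    (x₀ y : V d) (i : ℕ) :
    ∑' π : Pa d, ∑' η : Pa d,
      indE ((∀ p ∈ pts x₀ π, p ∈ O) ∧ η ∈ Ec y ∧ (dep y η).Disjoint (dep x₀ π) ∧
        ∃ η₁ η₂ : Pa d, η = η₁ ++ η₂ ∧ η₂ ≠ [] ∧ y + disp η₁ = x₀ + disp π ∧
          ∀ p ∈ pts y η₁, p ∈ O) * (qw ω x₀ π * qw ω y η) ≤
      2 * i * qm ω x₀ (Ec x₀) + 1 / 2 ^ i := by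
  set A : Pa d → Pa d → Prop := fun π η =>
    (∀ p ∈ pts x₀ π, p ∈ O) ∧ η ∈ Ec y ∧ (dep y η).Disjoint (dep x₀ π) ∧
        ∃ η₁ η₂ : Pa d, η = η₁ ++ η₂ ∧ η₂ ≠ [] ∧ y + disp η₁ = x₀ + disp π ∧
          ∀ p ∈ pts y η₁, p ∈ O with hA
  have h1 : ∀ π η : Pa d, indE (A π η) * (qw ω x₀ π * qw ω y η) ≤
      ∑ r ∈ Finset.range i, indE (A π η ∧ (1 / 2 ^ (r + 1) < qm ω (x₀ + disp π) (Ec (x₀ + disp π)) ∧
        qm ω (x₀ + disp π) (Ec (x₀ + disp π)) ≤ 1 / 2 ^ r)) * (qw ω x₀ π * qw ω y η) +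
      indE (A π η ∧ qm ω (x₀ + disp π) (Ec (x₀ + disp π)) ≤ 1 / 2 ^ i) *
        (qw ω x₀ π * qw ω y η) := by
    intro π η
    by_cases ha : A π η
    · rcases keyQ_dyadic _ (qw_pf h (x₀ + disp π) (hPF _)) i with h2 | ⟨r, hr, h2⟩
      · exact le_add_left (mul_le_mul_left (indE_mono fun _ => ⟨ha, h2⟩) _)
      · refine le_add_right (le_trans ?_ (Finset.single_le_sum (f := fun r =>
          indE (A π η ∧ (1 / 2 ^ (r + 1) < qm ω (x₀ + disp π) (Ec (x₀ + disp π)) ∧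
            qm ω (x₀ + disp π) (Ec (x₀ + disp π)) ≤ 1 / 2 ^ r)) * (qw ω x₀ π * qw ω y η))
          (fun _ _ => zero_le) hr))
        exact mul_le_mul_left (indE_mono fun _ => ⟨ha, h2⟩) _
    · simp [indE_neg ha]
  refine (ENNReal.tsum_le_tsum fun π => ENNReal.tsum_le_tsum fun η => h1 π η).trans ?_
  simp only [ENNReal.tsum_add]
  refine add_le_add ?_ ?_
  · simp only [Summable.tsum_finsetSum fun _ _ => ENNReal.summable]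
    refine le_trans (Finset.sum_le_card_nsmul _ _ (2 * qm ω x₀ (Ec x₀)) fun r _ => ?_) ?_
    · refine (keyQ_class h O Ec hO x₀ y
        (fun a => 1 / 2 ^ (r + 1) < qm ω a (Ec a) ∧ qm ω a (Ec a) ≤ 1 / 2 ^ r) (1 / 2 ^ r)
        (2 ^ (r + 1) * qm ω x₀ (Ec x₀)) (fun a ha => ha.2) fun F hF hF' => ?_).trans (le_of_eq ?_)
      · have := keyQ_pi h O Ec hO x₀ (1 / 2 ^ (r + 1)) hF fun π hπ => ⟨(hF' π hπ).1, (hF' π hπ).2.1⟩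
        rw [mul_one_div, ENNReal.div_le_iff (by simp) (by simp), mul_comm] at this
        exact this
      · rw [pow_succ, mul_one_div, mul_assoc, mul_comm ((2 : ℝ≥0∞) ^ r),
          ENNReal.mul_div_cancel_right (by simp) (by simp)]
    · rw [Finset.card_range, nsmul_eq_mul]
      exact le_of_eq (by ring)
  · exact (keyQ_class h O Ec hO x₀ y (fun a => qm ω a (Ec a) ≤ 1 / 2 ^ i) (1 / 2 ^ i) 1
      (fun a ha => ha) fun F hF _ => qw_pf h x₀ hF).trans (one_mul _).le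

end Vale.Agent.P147
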