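import Vale.Agent.P147.KeyA

open MeasureTheory Filter Topology
open scoped ENNReal

namespace Vale.Agent.P147

variable {d : ℕ}

theorem qm_le_one {ω : V d → St d → ℝ≥0∞} (h : ∀ x, ∑ u, ω x u = 1) (x : V d) {F : Set (Pa d)}
    (hF : PF F) : qm ω x F ≤ 1 := qw_pf h x hF

theorem half_first {ω : V d → St d → ℝ≥0∞} (h : ∀ x, ∑ u, ω x u = 1) (D : Dir d) (a b : ℝ)
    (x : V d) (Q : V d → Prop) {F : Set (Pa d)} (hF : PF F)
    (hp : ∀ γ ∈ F, ∃ ζ : Pa d, ζ <+: γ ∧ (∀ p ∈ pts x ζ, a ≤ D.lev p ∧ D.lev p ≤ b) ∧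
      Q (x + disp ζ) ∧ 1 ≤ 2 * qm ω (x + disp ζ) {ξ | D.Exit a b (x + disp ζ) ξ}) :
    qm ω x F ≤ 2 * qm ω x {γ | D.Exit a b x γ ∧ ∃ p ∈ dep x γ, Q p} := by
  set R : V d → Prop := fun p => Q p ∧ 1 ≤ 2 * qm ω p {ξ | D.Exit a b p ξ} with hR
  set Z : Set (Pa d) := {ζ | (R (x + disp ζ) ∧ ∀ p ∈ dep x ζ, ¬ R p) ∧
    ∀ p ∈ pts x ζ, a ≤ D.lev p ∧ D.lev p ≤ b} with hZ
  have h1 : qm ω x F ≤ qm ω x Z := qm_le_of_prefix h x hF fun γ hγ => by
    obtain ⟨ζ, h1, h2, h3⟩ := hp γ hγ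
    obtain ⟨c, c1, c2, c3⟩ := exists_first (x := x) (γ := ζ) (Q := R)
      ⟨_, mem_pts.2 (Or.inr rfl), h3⟩
    exact ⟨c, ⟨⟨c2, c3⟩, fun p hp => h2 p (pts_prefix c1 hp)⟩, c1.trans h1⟩
  have h2 := qw_concat ω x (F := Z) ((pf_first x R).mono fun _ hh => hh.1)
    (fun ζ => {ξ | D.Exit a b (x + disp ζ) ξ}) {γ | D.Exit a b x γ ∧ ∃ p ∈ dep x γ, Q p}
    fun ζ hζ ξ hξ => by
      have e1 : x + disp ζ ∈ pts x ζ := mem_pts.2 (Or.inr rfl)
      refine ⟨(D.exit_append ξ fun p hp => hζ.2 p (mem_pts.2 (Or.inl hp))).2 hξ, _,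
        mem_dep_of_pts ?_ e1, hζ.1.1.1⟩
      rintro rfl
      have a1 := hξ.2
      have a2 := (hζ.2 _ e1).1
      rw [disp_nil, add_zero] at a1
      linarith
  refine h1.trans (le_trans ?_ (mul_le_mul_right h2 2))
  rw [qm, ← ENNReal.tsum_mul_left]
  refine ENNReal.tsum_le_tsum fun ζ => ?_
  by_cases hζ : ζ ∈ Z
  · rw [mul_left_comm]
    exact le_mul_of_one_le_right' hζ.1.1.2
  · simp [indE_neg hζ]

theorem pf_QT (D : Dir d) (η : Pa d) (y : V d) (K₀ : ℝ) : PF {π : Pa d | D.QT π η y K₀} := by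
  rintro a ha b hb ⟨t, rfl⟩
  by_contra hne
  have ht : t ≠ [] := fun h => hne (by simp [h])
  exact hb.2.2.1 ha.2.2.2 (mem_dep_iff.2 ⟨a, t, rfl, ht, (zero_add _).symm⟩)

theorem top_quenched {ω : V d → St d → ℝ≥0∞} (h : ∀ x, ∑ u, ω x u = 1) (D : Dir d) (y : V d)
    (K₀ : ℝ) (hK : 1 ≤ K₀) (he : ∀ x : V d, 0 ≤ D.lev x → D.lev x ≤ D.lev y →
      qm ω x {ξ | D.Exit 0 (D.lev y) x ξ} + qm ω x {ξ | D.neg.Exit (-D.lev y) (-0) x ξ} = 1) :
    ∑' π : Pa d, ∑' η : Pa d, indE (D.QT π η y K₀) * (qw ω 0 π * qw ω y η) ≤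
      2 * qm ω 0 {γ | D.Exit 0 (D.lev y) 0 γ ∧ ∃ p ∈ dep 0 γ, K₀ ≤ D.lev p} +
      2 * qm ω y {γ | D.neg.Exit (-D.lev y) (-0) y γ ∧
        ∃ p ∈ dep y γ, D.lev p ≤ D.lev y - K₀} := by
  set A : V d → Prop := fun p => 1 ≤ 2 * qm ω p {ξ | D.Exit 0 (D.lev y) p ξ} with hA
  set B : V d → Prop := fun p => 1 ≤ 2 * qm ω p {ξ | D.neg.Exit (-D.lev y) (-0) p ξ} with hB
  have hAB : ∀ p, 0 ≤ D.lev p → D.lev p ≤ D.lev y → A p ∨ B p := by
    intro p h1 h2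
    have := he p h1 h2
    rcases le_total (qm ω p {ξ | D.Exit 0 (D.lev y) p ξ})
      (qm ω p {ξ | D.neg.Exit (-D.lev y) (-0) p ξ}) with c | c
    · exact Or.inr (by simp only [hB]; rw [← this, two_mul]; exact add_le_add_left c _)
    · exact Or.inl (by simp only [hA]; rw [← this, two_mul]; exact add_le_add_right c _)
  set F : Set (Pa d) := {η | D.Exit K₀ (D.lev y) y η ∧
    ∃ p ∈ dep y η, D.lev p ≤ D.lev y - K₀ ∧ B p} with hF
  set T1 := qm ω 0 {γ | D.Exit 0 (D.lev y) 0 γ ∧ ∃ p ∈ dep 0 γ, K₀ ≤ D.lev p} with hT1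
  have c1 : ∀ η, qm ω 0 {π | D.QT π η y K₀ ∧ A (disp π)} ≤ 2 * T1 := fun η =>
    half_first h D 0 (D.lev y) 0 _ ((pf_QT D η y K₀).mono fun _ hh => hh.1) fun π hπ => by
      refine ⟨π, List.prefix_rfl, fun p hp => ⟨(hπ.1.1 p hp).1, by linarith [(hπ.1.1 p hp).2]⟩, ?_⟩
      rw [zero_add]
      exact ⟨(hπ.1.2.1.1 _ hπ.1.2.2.2).1, hπ.2⟩
  have c2 : qm ω y F ≤ 2 * qm ω y {γ | D.neg.Exit (-D.lev y) (-0) y γ ∧
        ∃ p ∈ dep y γ, D.lev p ≤ D.lev y - K₀} :=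
    half_first h D.neg (-D.lev y) (-0) y _ ((D.pf_exit K₀ (D.lev y) y).mono fun _ hh => hh.1)
      fun η hη => by
        obtain ⟨h1, p, hp, h2, h3⟩ := hη
        obtain ⟨a, b, rfl, hb, rfl⟩ := mem_dep_iff.1 hp
        refine ⟨a, List.prefix_append _ _, fun q hq => ?_, h2, h3⟩
        have := h1.1 q (mem_dep_of_pts hb hq)
        rw [Dir.neg_lev]
        constructor <;> linarith [this.1, this.2]
  have c3 : ∀ η, ∑' π : Pa d, indE (D.QT π η y K₀) * (qw ω 0 π * qw ω y η) ≤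
      2 * T1 * (indE (η ∈ {η | D.Exit K₀ (D.lev y) y η}) * qw ω y η) +
        indE (η ∈ F) * qw ω y η := by
    intro η
    have d1 : ∀ π, indE (D.QT π η y K₀) * (qw ω 0 π * qw ω y η) ≤
        (indE (π ∈ {π | D.QT π η y K₀ ∧ A (disp π)}) * qw ω 0 π) *
          (indE (η ∈ {η | D.Exit K₀ (D.lev y) y η}) * qw ω y η) +
        (indE (π ∈ {π | D.QT π η y K₀}) * qw ω 0 π) * (indE (η ∈ F) * qw ω y η) := by
      intro π
      by_cases hq : D.QT π η y K₀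
      · have a1 := hq.1 _ (mem_pts.2 (Or.inr (zero_add _).symm))
        rw [indE_pos hq, one_mul]
        rcases hAB (disp π) a1.1 (by linarith [a1.2]) with c | c
        · rw [indE_pos (p := π ∈ {π | D.QT π η y K₀ ∧ A (disp π)}) ⟨hq, c⟩,
            indE_pos (p := η ∈ {η | D.Exit K₀ (D.lev y) y η}) hq.2.1, one_mul, one_mul]
          exact le_self_add
        · rw [indE_pos (p := π ∈ {π | D.QT π η y K₀}) hq,
            indE_pos (p := η ∈ F) ⟨hq.2.1, _, hq.2.2.2, a1.2, c⟩, one_mul, one_mul]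
          exact le_add_self
      · simp [indE_neg hq]
    refine (ENNReal.tsum_le_tsum d1).trans ?_
    rw [ENNReal.tsum_add, ENNReal.tsum_mul_right, ENNReal.tsum_mul_right]
    exact add_le_add (mul_le_mul_left (c1 η) _)
      (mul_le_of_le_one_left' (qw_pf h 0 (pf_QT D η y K₀)))
  rw [ENNReal.tsum_comm]
  refine (ENNReal.tsum_le_tsum c3).trans ?_
  rw [ENNReal.tsum_add, ENNReal.tsum_mul_left]
  exact add_le_add (mul_le_of_le_one_right' (qw_pf h y (D.pf_exit K₀ (D.lev y) y))) c2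

namespace RW

variable (W : RW d) (D : Dir d)

theorem measurable_qm (x : V d) (F : Set (Pa d)) : Measurable fun o => qm (W.ω o) x F :=
  Measurable.tsum fun ξ => (W.measurable_qw x ξ).const_mul _

theorem lint_qm (x : V d) {F : Set (Pa d)} (hF : PF F) :
    ∫⁻ o, qm (W.ω o) x F ∂W.E = W.P (⋃ γ ∈ F, cyl γ) := by
  rw [W.P_pf hF]
  unfold qm
  rw [lintegral_tsum fun ξ => ((W.measurable_qw x ξ).const_mul _).aemeasurable]
  refine tsum_congr fun ξ => ?_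
  rw [lintegral_const_mul _ (W.measurable_qw x ξ), W.w_eq]

theorem lint_ES (x : V d) (a b K : ℝ) (ha : a = D.lev x) (Q : V d → Prop)
    (hQ : ∀ p, Q p → a + K ≤ D.lev p) :
    ∫⁻ o, qm (W.ω o) x {γ | D.Exit a b x γ ∧ ∃ p ∈ dep x γ, Q p} ∂W.E ≤ W.P (D.ES K) := by
  rw [W.lint_qm x ((D.pf_exit a b x).mono fun _ hh => hh.1)]
  refine measure_mono (Set.iUnion₂_subset ?_)
  rintro γ ⟨⟨h1, h2⟩, p, hp, h3⟩ s hs
  obtain ⟨n, rfl⟩ := mem_cyl_iff.1 hs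
  rw [disp_pre, Dir.lev_add] at h2
  refine ⟨n, by linarith, fun i hi => ?_, ?_⟩
  · have := (h1 (x + pos s i) (mem_dep_zero.2 (mem_dep_pre.2 ⟨i, hi, by simp⟩))).1
    rw [Dir.lev_add] at this
    linarith
  · obtain ⟨i, hi, e⟩ := mem_dep_pre.1 (mem_dep_zero.1 hp)
    refine ⟨i, hi, ?_⟩
    rw [← e, Dir.lev_sub]
    linarith [hQ p h3]

/-- the walk leaves a slab almost surely -/
theorem exit_ae (a b : ℝ) : ∀ᵐ o ∂W.E, ∀ x : V d, a ≤ D.lev x → D.lev x ≤ b →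
    qm (W.ω o) x {ξ | D.Exit a b x ξ} + qm (W.ω o) x {ξ | D.neg.Exit (-b) (-a) x ξ} = 1 := by
  refine ae_all_iff.2 fun x => ?_
  by_cases hab : a ≤ b
  swap
  · exact Eventually.of_forall fun o h1 h2 => absurd (h1.trans h2) hab
  set Q : V d → Prop := fun p => D.lev p < a ∨ b < D.lev p with hQ
  have hF := pf_first x Q
  set F : Set (Pa d) := {ξ | Q (x + disp ξ) ∧ ∀ p ∈ dep x ξ, ¬ Q p} with hFd
  have e1 : ∀ o, qm (W.ω o) x {ξ | D.Exit a b x ξ} +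
      qm (W.ω o) x {ξ | D.neg.Exit (-b) (-a) x ξ} = qm (W.ω o) x F := by
    intro o
    unfold qm
    rw [← ENNReal.tsum_add]
    refine tsum_congr fun ξ => ?_
    rw [← add_mul]
    congr 1
    have n1 : ∀ p, ¬ Q p ↔ a ≤ D.lev p ∧ D.lev p ≤ b := fun p => by simp [hQ, not_or]
    have n2 : ξ ∈ {ξ | D.neg.Exit (-b) (-a) x ξ} ↔
        (∀ p ∈ dep x ξ, a ≤ D.lev p ∧ D.lev p ≤ b) ∧ b < D.lev (x + disp ξ) := by
      change D.neg.Exit (-b) (-a) x ξ ↔ _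
      simp only [Dir.Exit, Dir.neg_lev, neg_le_neg_iff, neg_lt_neg_iff, and_comm]
    by_cases c1 : D.Exit a b x ξ
    · rw [indE_pos (p := ξ ∈ {ξ | D.Exit a b x ξ}) c1, indE_neg fun hh => by
        linarith [(n2.1 hh).2, c1.2], indE_pos (p := ξ ∈ F)
          ⟨Or.inl c1.2, fun p hp => (n1 p).2 (c1.1 p hp)⟩, add_zero]
    · rw [indE_neg (p := ξ ∈ {ξ | D.Exit a b x ξ}) c1, zero_add]
      congr 1
      refine propext (n2.trans ⟨fun hh => ⟨Or.inr hh.2, fun p hp => (n1 p).2 (hh.1 p hp)⟩,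
        fun hh => ?_⟩)
      have a1 := fun p hp => (n1 p).1 (hh.2 p hp)
      exact ⟨a1, hh.1.resolve_left fun a2 => c1 ⟨a1, a2⟩⟩
  have e2 : (1 : ℝ≥0∞) ≤ ∫⁻ o, qm (W.ω o) x F ∂W.E := by
    rw [W.lint_qm x hF, ← measure_univ (μ := W.P)]
    refine le_trans (measure_mono fun s _ => ?_) ((measure_union_le _ _).trans
      (le_of_eq ((congrArg _ (W.slab D (a - D.lev x) (b - D.lev x))).trans (add_zero _))))
    by_cases c : ∃ n, Q (x + pos s n)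
    · obtain ⟨n, hn⟩ := c
      obtain ⟨c, c1, c2⟩ := exists_first (x := x) (γ := pre s n) (Q := Q)
        ⟨_, mem_pts.2 (Or.inr (by rw [disp_pre])), hn⟩
      exact Or.inl (Set.mem_iUnion₂.2 ⟨c, c2, cyl_mono c1 (mem_cyl_pre s n)⟩)
    · simp only [hQ, not_exists, not_or, not_lt, Dir.lev_add] at c
      exact Or.inr ⟨fun n => by linarith [(c n).1],
        (Eventually.of_forall fun n => by linarith [(c n).2]).frequently⟩
  have e3 : (fun o => qm (W.ω o) x F) =ᵐ[W.E] fun _ => 1 :=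
    ae_eq_of_ae_le_of_lintegral_le (Eventually.of_forall fun o => qm_le_one (W.sum_one o) x hF)
      (by rw [W.lint_qm x hF]; exact measure_ne_top _ _) aemeasurable_const (by simpa using e2)
  filter_upwards [e3] with o ho _ _
  rw [e1, ho]

theorem key_pair_top (y : V d) (K₀ : ℝ) (hK : 1 ≤ K₀) :
    ∑' π : Pa d, ∑' η : Pa d, indE (D.QT π η y K₀) * (W.w π * W.w η) ≤
      2 * W.P (D.ES K₀) + 2 * W.P (D.neg.ES K₀) := by
  have mq := W.measurable_qw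
  have m1 : ∀ π η : Pa d, Measurable fun o =>
      indE (D.QT π η y K₀) * (qw (W.ω o) 0 π * qw (W.ω o) y η) := fun π η =>
    ((mq _ _).mul (mq _ _)).const_mul _
  have e1 : ∑' π : Pa d, ∑' η : Pa d, indE (D.QT π η y K₀) * (W.w π * W.w η) =
      ∫⁻ o, ∑' π : Pa d, ∑' η : Pa d,
        indE (D.QT π η y K₀) * (qw (W.ω o) 0 π * qw (W.ω o) y η) ∂W.E := by
    rw [lintegral_tsum fun π => (Measurable.tsum fun η => m1 π η).aemeasurable]
    refine tsum_congr fun π => ?_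
    rw [lintegral_tsum fun η => (m1 π η).aemeasurable]
    refine tsum_congr fun η => ?_
    by_cases h : D.QT π η y K₀
    · simp only [indE_pos h, one_mul]
      exact (W.fact 0 π y η h.2.2.1.symm).symm
    · simp [indE_neg h]
  rw [e1]
  refine (lintegral_mono_ae ((W.exit_ae D 0 (D.lev y)).mono fun o ho =>
    top_quenched (W.sum_one o) D y K₀ hK ho)).trans ?_
  rw [lintegral_add_left ((W.measurable_qm _ _).const_mul _),
    lintegral_const_mul _ (W.measurable_qm _ _), lintegral_const_mul _ (W.measurable_qm _ _)]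
  refine add_le_add (mul_le_mul_right (W.lint_ES D 0 0 _ K₀ D.lev_zero.symm _ fun p hp => ?_) _)
    (mul_le_mul_right (W.lint_ES D.neg y _ _ K₀ (D.neg_lev y).symm _ fun p hp => ?_) _)
  · linarith
  · rw [Dir.neg_lev]
    linarith

theorem key_top (m r : ℕ) (y : V d) (K₀ : ℝ) (hK : 1 ≤ K₀) :
    W.P D.Stay * W.P D.neg.Stay * W.BE D m (fun up => W.BE D.neg r fun K =>
      indE (D.TE up y K K₀)) ≤ 2 * W.P (D.ES K₀) + 2 * W.P (D.neg.ES K₀) :=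
  (W.BE_pair D m r fun π η => D.QT π η y K₀).trans (W.key_pair_top D y K₀ hK)

end RW

end Vale.Agent.P147
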