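import Vale.Agent.P147.BEl

open MeasureTheory Filter Topology
open scoped ENNReal

namespace Vale.Agent.P147

variable {d : ℕ}

/-- radii of the first `k` blocks add up to at most `A k` -/
def Thin (A : ℕ) (L : List (Pa d)) : Prop := ∀ k, ((L.take k).map rad).sum ≤ A * k

theorem RW.BE_take_sum (W : RW d) (D : Dir d) (hp : 0 < W.P D.Stay) (g : Pa d → ℝ≥0∞)
    (n k : ℕ) :
    W.BE D n (fun L => ((L.take k).map g).sum) ≤
      k * ∑' b : Pa d, indE (D.Blk b) * W.w b * g b := by
  induction n generalizing k with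
  | zero => simp [W.BE_zero]
  | succ n ih =>
    cases k with
    | zero => simp [W.BE_const D hp]
    | succ k =>
      have h1 := W.nu_true D hp
      simp only [RW.nu, and_true] at h1
      rw [W.BE_succ]
      simp only [List.take_succ_cons, List.map_cons, List.sum_cons]
      set m := ∑' b : Pa d, indE (D.Blk b) * W.w b * g b with hm
      have h2 : ∀ b : Pa d, indE (D.Blk b) * W.w b *
          W.BE D n (fun L => g b + ((L.take k).map g).sum) ≤
          indE (D.Blk b) * W.w b * g b + indE (D.Blk b) * W.w b * (k * m) := by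
        intro b
        rw [← mul_add, W.BE_add_fun, W.BE_const D hp]
        exact mul_le_mul_right (add_le_add_right (ih k) _) _
      refine (ENNReal.tsum_le_tsum h2).trans (le_of_eq ?_)
      rw [ENNReal.tsum_add, ENNReal.tsum_mul_right, h1, ← hm]
      push_cast
      ring

theorem RW.BE_finsum (W : RW d) (D : Dir d) (hp : 0 < W.P D.Stay) (n : ℕ) (s : Finset ℕ)
    (f : ℕ → List (Pa d) → ℝ≥0∞) :
    W.BE D n (fun L => ∑ a ∈ s, f a L) = ∑ a ∈ s, W.BE D n (f a) := by
  induction s using Finset.induction_on with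
  | empty => simp [W.BE_const D hp]
  | insert a s ha ih =>
    simp only [Finset.sum_insert ha]
    rw [W.BE_add_fun, ih]

theorem RW.nu_le_one' (W : RW d) (D : Dir d) (hp : 0 < W.P D.Stay) (Q : Pa d → Prop) :
    W.nu D Q ≤ 1 := by
  rw [← W.nu_true D hp]
  exact ENNReal.tsum_le_tsum fun b =>
    mul_le_mul_left (indE_mono fun h => ⟨h.1, trivial⟩) _

theorem sum_indE_lt (r w : ℕ) (h : r ≤ w) :
    ∑ s ∈ Finset.range w, indE (s < r) = (r : ℝ≥0∞) := by
  induction w, h using Nat.le_induction with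
  | base =>
    rw [Finset.sum_congr rfl fun s hs => indE_pos (Finset.mem_range.mp hs)]
    simp
  | succ w hw ih => rw [Finset.sum_range_succ, ih, indE_neg (by omega), add_zero]

theorem sum_take_mono (L : List (Pa d)) {k k' : ℕ} (h : k ≤ k') :
    ((L.take k).map rad).sum ≤ ((L.take k').map rad).sum := by
  obtain ⟨c, rfl⟩ := Nat.exists_eq_add_of_le h
  rw [List.take_add, List.map_append, List.sum_append]
  exact Nat.le_add_right _ _

theorem thin_point (j w A : ℕ) (hA : 0 < A) (L : List (Pa d)) (hL : L.length = j) :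
    (1 : ℝ≥0∞) ≤ indE (Thin A L) + ((L.take j).map fun b => indE (w < rad b)).sum +
      ∑ a ∈ Finset.range (Nat.log 2 j + 1), ((A * 2 ^ a : ℕ) : ℝ≥0∞)⁻¹ *
        ((L.take (2 ^ (a + 1))).map fun b => ∑ s ∈ Finset.range w, indE (s < rad b)).sum := by
  by_cases hT : Thin A L
  · rw [indE_pos hT, add_assoc]
    exact le_self_add
  by_cases hw : ∃ b ∈ L, w < rad b
  · obtain ⟨b, hb, hb'⟩ := hw
    refine le_trans ?_ (le_add_right le_add_self)
    rw [← indE_pos hb']
    refine List.single_le_sum (fun _ _ => zero_le) _ ?_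
    rw [List.take_of_length_le hL.le]
    exact List.mem_map_of_mem (f := fun b => indE (w < rad b)) hb
  push Not at hw
  unfold Thin at hT
  push Not at hT
  obtain ⟨k, hk⟩ := hT
  have hk2 : ∃ k ≤ j, A * k < ((L.take k).map rad).sum := by
    rcases le_total k j with h | h
    · exact ⟨k, h, hk⟩
    · refine ⟨j, le_rfl, ?_⟩
      rw [List.take_of_length_le (hL.le.trans h)] at hk
      rw [List.take_of_length_le hL.le]
      exact lt_of_le_of_lt (Nat.mul_le_mul_left _ h) hk
  clear hk k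
  obtain ⟨k, hkj, hk⟩ := hk2
  have hk0 : k ≠ 0 := by
    rintro rfl
    simp at hk
  have ha : Nat.log 2 k ∈ Finset.range (Nat.log 2 j + 1) :=
    Finset.mem_range.mpr (Nat.lt_succ_of_le (Nat.log_mono_right hkj))
  refine le_trans ?_ (le_add_left (Finset.single_le_sum (f := fun a =>
    ((A * 2 ^ a : ℕ) : ℝ≥0∞)⁻¹ * ((L.take (2 ^ (a + 1))).map fun b =>
      ∑ s ∈ Finset.range w, indE (s < rad b)).sum) (fun _ _ => zero_le) ha))
  have e : ((L.take (2 ^ (Nat.log 2 k + 1))).map fun b =>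
      ∑ s ∈ Finset.range w, indE (s < rad b)).sum =
      ((((L.take (2 ^ (Nat.log 2 k + 1))).map rad).sum : ℕ) : ℝ≥0∞) := by
    rw [Nat.cast_list_sum, List.map_map]
    congr 1
    exact List.map_congr_left fun b hb => sum_indE_lt _ _ (hw b (List.mem_of_mem_take hb))
  have h3 : A * 2 ^ Nat.log 2 k ≤ ((L.take (2 ^ (Nat.log 2 k + 1))).map rad).sum :=
    ((Nat.mul_le_mul_left _ (Nat.pow_log_le_self 2 hk0)).trans hk.le).trans
      (sum_take_mono L (Nat.lt_pow_succ_log_self (by norm_num) k).le)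
  have h4 : ((A * 2 ^ Nat.log 2 k : ℕ) : ℝ≥0∞) ≠ 0 := by
    have : 0 < A * 2 ^ Nat.log 2 k := by positivity
    exact_mod_cast this.ne'
  rw [e, ← ENNReal.inv_mul_cancel h4 (ENNReal.natCast_ne_top _)]
  exact mul_le_mul_right (Nat.cast_le.mpr h3) _

theorem RW.lemA (W : RW d) (D : Dir d) (hp : 0 < W.P D.Stay) (j w A : ℕ) (hA : 0 < A)
    (h1 : j * (W.nu D fun b => w < rad b).toReal ≤ 1 / 4)
    (h2 : 8 * (Nat.log 2 j + 2 : ℝ) * ∑ s ∈ Finset.range w, (W.nu D fun b => s < rad b).toReal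
      ≤ A) :
    1 / 2 ≤ W.BE D j fun L => indE (Thin A L) := by
  have hfin : ∀ Q : Pa d → Prop, W.nu D Q ≠ ⊤ := fun Q =>
    ne_top_of_le_ne_top ENNReal.one_ne_top (W.nu_le_one' D hp Q)
  have hnu : ∀ Q : Pa d → Prop, ∑' b : Pa d, indE (D.Blk b) * W.w b * indE (Q b) = W.nu D Q :=
    fun Q => tsum_congr fun b => by rw [indE_and]; ring
  set μ : ℝ := ∑ s ∈ Finset.range w, (W.nu D fun b => s < rad b).toReal with hμ
  have hμ0 : 0 ≤ μ := Finset.sum_nonneg fun _ _ => ENNReal.toReal_nonneg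
  have hm : ∑' b : Pa d, indE (D.Blk b) * W.w b * ∑ s ∈ Finset.range w, indE (s < rad b) =
      ENNReal.ofReal μ := by
    simp only [Finset.mul_sum]
    rw [Summable.tsum_finsetSum fun _ _ => ENNReal.summable, hμ,
      ENNReal.ofReal_sum_of_nonneg fun _ _ => ENNReal.toReal_nonneg]
    exact Finset.sum_congr rfl fun s _ => by
      rw [ENNReal.ofReal_toReal (hfin _)]
      exact hnu fun b => s < rad b
  have q4 : ENNReal.ofReal (1 / 4) = 1 / 4 := by
    rw [ENNReal.ofReal_div_of_pos (by norm_num)]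
    simp
  have a1 : W.BE D j (fun L => ((L.take j).map fun b => indE (w < rad b)).sum) ≤ 1 / 4 := by
    refine (W.BE_take_sum D hp _ j j).trans ?_
    rw [hnu fun b => w < rad b, ← ENNReal.ofReal_toReal (hfin fun b => w < rad b),
      ← ENNReal.ofReal_natCast, ← ENNReal.ofReal_mul (Nat.cast_nonneg _), ← q4]
    exact ENNReal.ofReal_le_ofReal h1
  have hAr : (0 : ℝ) < A := by exact_mod_cast hA
  have a2 : ∀ a : ℕ, W.BE D j (fun L => ((A * 2 ^ a : ℕ) : ℝ≥0∞)⁻¹ *
      ((L.take (2 ^ (a + 1))).map fun b => ∑ s ∈ Finset.range w, indE (s < rad b)).sum) ≤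
      ENNReal.ofReal (2 * μ / A) := by
    intro a
    rw [W.BE_mul]
    refine (mul_le_mul_right (W.BE_take_sum D hp _ j _) _).trans (le_of_eq ?_)
    have hpos : (0 : ℝ) < ((A * 2 ^ a : ℕ) : ℝ) := by
      have : 0 < A * 2 ^ a := by positivity
      exact_mod_cast this
    rw [hm, ← ENNReal.ofReal_natCast, ← ENNReal.ofReal_natCast, ← ENNReal.ofReal_inv_of_pos hpos,
      ← ENNReal.ofReal_mul (Nat.cast_nonneg _), ← ENNReal.ofReal_mul (inv_pos.mpr hpos).le]
    congr 1
    push_cast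
    field_simp
    ring
  have a3 : W.BE D j (fun L => ∑ a ∈ Finset.range (Nat.log 2 j + 1), ((A * 2 ^ a : ℕ) : ℝ≥0∞)⁻¹ *
      ((L.take (2 ^ (a + 1))).map fun b => ∑ s ∈ Finset.range w, indE (s < rad b)).sum) ≤
      1 / 4 := by
    rw [W.BE_finsum D hp]
    refine (Finset.sum_le_sum fun a _ => a2 a).trans ?_
    rw [Finset.sum_const, Finset.card_range, nsmul_eq_mul, ← ENNReal.ofReal_natCast,
      ← ENNReal.ofReal_mul (Nat.cast_nonneg _), ← q4]
    refine ENNReal.ofReal_le_ofReal ?_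
    push_cast
    rw [← mul_div_assoc, div_le_iff₀ hAr]
    nlinarith
  have a4 := W.BE_mono D (n := j) fun L hL => thin_point j w A hA L hL.1
  rw [W.BE_const D hp, W.BE_add_fun, W.BE_add_fun] at a4
  have a5 := a4.trans (add_le_add (add_le_add le_rfl a1) a3)
  have e : (1 / 4 + 1 / 4 : ℝ≥0∞) = 1 / 2 := by
    rw [← q4, ← ENNReal.ofReal_add (by norm_num) (by norm_num),
      show (1 / 4 + 1 / 4 : ℝ) = 1 / 2 by norm_num, ENNReal.ofReal_div_of_pos (by norm_num)]
    simp
  rw [add_assoc, e] at a5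
  exact ENNReal.le_of_add_le_add_right (a := 1 / 2) (by simp)
    ((ENNReal.add_halves 1).le.trans a5)

end Vale.Agent.P147
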