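import Vale.Agent.P147.LemA

open MeasureTheory Filter Topology
open scoped ENNReal

namespace Vale.Agent.P147

variable {d : ℕ}

/-- the end point is new and the cone below it is unvisited -/
def Dir.Expo (D : Dir d) (A j : ℕ) (γ : Pa d) : Prop :=
  D.Up γ ∧ D.H γ ≤ j ∧ disp γ ∉ dep 0 γ ∧
    ∀ y ∈ dep 0 γ, ¬ (D.lev y + 1 ≤ D.H γ ∧ (nrm (y - disp γ) : ℝ) ≤ (A + 1) * (D.H γ - D.lev y))

namespace LemT1Aux

theorem rad_single (u : St d) : rad ([u] : Pa d) ≤ 1 := by
  obtain ⟨p, hp, e⟩ := exists_rad ([u] : Pa d)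
  rw [← e]
  rcases mem_pts.1 hp with h | h
  · have : p = 0 := by simpa [dep] using h
    rw [this, nrm_zero]; exact zero_le_one
  · have : p = stp u := by simpa using h
    rw [this]; exact nrm_stp_le u

theorem lev_ne (D : Dir d) : D.lev (stp D.neg.e) = -1 := by
  rw [D.stp_neg_e, D.lev_neg, D.lev_e]

theorem cone (D : Dir d) {A : ℕ} {L : List (Pa d)} (hL : ∀ b ∈ L, D.neg.Blk b) (hT : Thin A L)
    {x p : V d} (hp : p ∈ dep (x + stp D.neg.e) L.flatten) :
    D.lev p + 1 ≤ D.lev x ∧ (nrm (p - x) : ℝ) ≤ (A + 1) * (D.lev x - D.lev p) := by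
  obtain ⟨i, hi, hp⟩ := mem_dep_flatten.1 hp
  have h1 := (Dir.Blk.dep_lev (hL _ (List.getElem_mem hi)) hp).1
  have h2 := Dir.length_le_lev (D := D.neg) (L := L.take i)
    fun b hb => hL b (List.mem_of_mem_take hb)
  rw [List.length_take, min_eq_left hi.le] at h2
  simp only [Dir.neg_lev, Dir.lev_add, lev_ne] at h1 h2
  have h3 : nrm (p - (x + stp D.neg.e + sumd (L.take i))) ≤ rad L[i] :=
    nrm_le_rad (mem_pts.2 (Or.inl (mem_dep_zero.1 hp)))
  have h4 := nrm_sumd_le (L.take i)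
  have h5 := hT (i + 1)
  rw [List.take_succ_eq_append_getElem hi, List.map_append, List.sum_append] at h5
  simp only [List.map_cons, List.map_nil, List.sum_cons, List.sum_nil, add_zero] at h5
  have h6 := nrm_stp_le D.neg.e
  have e : p - x = (p - (x + stp D.neg.e + sumd (L.take i))) +
      (stp D.neg.e + sumd (L.take i)) := by abel
  have h7 := nrm_add_le (p - (x + stp D.neg.e + sumd (L.take i)))
    (stp D.neg.e + sumd (L.take i))
  have h8 := nrm_add_le (stp D.neg.e) (sumd (L.take i))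
  rw [← e] at h7
  have h9 : nrm (p - x) ≤ (A + 1) * (i + 1) := by nlinarith
  have h10 : (nrm (p - x) : ℝ) ≤ (A + 1) * (i + 1) := by exact_mod_cast h9
  have h11 : (0 : ℝ) ≤ i := Nat.cast_nonneg i
  refine ⟨by linarith, h10.trans (mul_le_mul_of_nonneg_left (by linarith) (by positivity))⟩

theorem mem_dep_long (D : Dir d) {γ ξ : Pa d} {y : V d}
    (hy : y ∈ dep 0 ((γ ++ [D.neg.e]) ++ ξ)) :
    y ∈ dep 0 γ ∨ y = disp γ ∨ y ∈ dep (disp γ + stp D.neg.e) ξ := by
  simpa [dep_append, dep] using hy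

theorem H_long (D : Dir d) {j : ℕ} {γ : Pa d} (h : D.H γ ≤ j) {L : List (Pa d)}
    (hL : D.neg.BL (j + 2) L) :
    D.neg.H ((γ ++ [D.neg.e]) ++ L.flatten) = -D.H γ + 1 + D.neg.lev (sumd L) ∧
      (j : ℝ) + 2 ≤ D.neg.lev (sumd L) := by
  constructor
  · simp only [Dir.H, disp_append, disp_flatten, disp_cons, disp_nil, add_zero, Dir.neg_lev,
      Dir.lev_add, lev_ne]
    ring
  · have := Dir.length_le_lev hL.2
    rw [hL.1] at this
    exact_mod_cast this

theorem mass (W : RW d) (D : Dir d) {A j : ℕ} {γ : Pa d} (h : D.Expo A j γ) {L : List (Pa d)}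
    (hL : D.neg.BL (j + 2) L) (hT : Thin A L) :
    W.P (cyl ((γ ++ [D.neg.e]) ++ L.flatten) ∩
      sh ((γ ++ [D.neg.e]) ++ L.flatten).length ⁻¹' D.neg.Stay) =
      W.w γ * W.w [D.neg.e] * (L.map W.w).prod * W.P D.neg.Stay := by
  obtain ⟨hu, hj, hnew, hc⟩ := h
  obtain ⟨e1, e2⟩ := H_long D hj hL
  have hj0 : (0 : ℝ) ≤ j := Nat.cast_nonneg j
  rw [W.P_cyl_stay D.neg]
  · congr 1
    rw [W.w_append, W.w_append, W.w_flatten D.neg hL.2]
    · intro y hy hy'
      have : y = disp γ := by simpa [dep] using hy'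
      exact hnew (this ▸ hy)
    · intro y hy hy'
      have hy2 : y ∈ dep (disp γ + stp D.neg.e) L.flatten := by simpa using hy'
      have hy3 : y ∈ dep 0 γ ∨ y = disp γ := by simpa [dep_append, dep] using hy
      have h1 := cone D hL.2 hT hy2
      rcases hy3 with h2 | h2
      · exact hc y h2 h1
      · rw [h2] at h1; linarith [h1.1]
  · intro y hy
    rw [e1]
    rcases mem_dep_long D hy with h1 | h1 | h1
    · have := hu y (mem_pts.2 (Or.inl h1))
      rw [Dir.neg_lev]; linarith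
    · rw [h1, Dir.neg_lev]; unfold Dir.H; linarith
    · have := (Dir.dep_flatten_lev hL.2 h1).2
      rw [Dir.lev_add, Dir.neg_lev D (disp γ), Dir.lev_e] at this
      unfold Dir.H; linarith

end LemT1Aux

open LemT1Aux in
theorem RW.kill (W : RW d) (D : Dir d) (A j : ℕ)
    (hthin : 1 / 2 ≤ W.BE D.neg (j + 2) fun L => indE (Thin A L)) {γ : Pa d}
    (h : D.Expo A j γ) :
    ∃ S, MeasurableSet S ∧ S ⊆ cyl γ ∧ W.w [D.neg.e] * W.P D.neg.Stay / 2 * W.w γ ≤ W.P S ∧
      ∀ γ', γ <+: γ' → D.Up γ' → (A + 1) * (j + 2) < nrm (disp γ' - disp γ) →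
        Disjoint S (cyl γ') := by
  have hm : ∀ L : List (Pa d), MeasurableSet (cyl ((γ ++ [D.neg.e]) ++ L.flatten) ∩
      sh ((γ ++ [D.neg.e]) ++ L.flatten).length ⁻¹' D.neg.Stay) := fun L =>
    (measurableSet_cyl _).inter (measurable_sh _ D.neg.measurableSet_Stay)
  refine ⟨⋃ L ∈ {L : List (Pa d) | D.neg.BL (j + 2) L ∧ Thin A L},
    cyl ((γ ++ [D.neg.e]) ++ L.flatten) ∩
      sh ((γ ++ [D.neg.e]) ++ L.flatten).length ⁻¹' D.neg.Stay,
    MeasurableSet.biUnion (Set.to_countable _) fun L _ => hm L,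
    Set.iUnion₂_subset fun L _ => Set.inter_subset_left.trans (cyl_mono ?_), ?_, ?_⟩
  · rw [List.append_assoc]; exact List.prefix_append _ _
  · rw [meas_biUnion_ind W.P _ _ hm]
    · have e : ∑' L : List (Pa d), indE (L ∈ {L : List (Pa d) | D.neg.BL (j + 2) L ∧ Thin A L}) *
          W.P (cyl ((γ ++ [D.neg.e]) ++ L.flatten) ∩
            sh ((γ ++ [D.neg.e]) ++ L.flatten).length ⁻¹' D.neg.Stay) =
          (W.w [D.neg.e] * W.P D.neg.Stay * W.w γ) *
            W.BE D.neg (j + 2) fun L => indE (Thin A L) := by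
        unfold RW.BE
        rw [← ENNReal.tsum_mul_left]
        refine tsum_congr fun L => ?_
        simp only [Set.mem_setOf_eq]
        by_cases hL : D.neg.BL (j + 2) L
        · by_cases hT : Thin A L
          · rw [mass W D h hL hT, indE_and]
            ring
          · rw [indE_and, indE_neg hT]
            simp
        · rw [indE_and, indE_neg hL]
          simp
      rw [e]
      calc W.w [D.neg.e] * W.P D.neg.Stay / 2 * W.w γ
          = (W.w [D.neg.e] * W.P D.neg.Stay * W.w γ) * (1 / 2) := by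
            rw [div_eq_mul_inv, one_div]; ring
        _ ≤ _ := by gcongr
    · intro L hL L' hL' hne
      refine Set.disjoint_left.2 fun s hs hs' => hne ?_
      have key : ∀ K : List (Pa d), s ∈ cyl ((γ ++ [D.neg.e]) ++ K.flatten) ∩
          sh ((γ ++ [D.neg.e]) ++ K.flatten).length ⁻¹' D.neg.Stay →
          sh (γ ++ [D.neg.e]).length s ∈ cyl K.flatten ∧
            sh K.flatten.length (sh (γ ++ [D.neg.e]).length s) ∈ D.neg.Stay := fun K hK => by
        refine ⟨(mem_cyl_append.1 hK.1).2, ?_⟩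
        rw [sh_sh, ← List.length_append]
        exact hK.2
      exact Dir.flatten_inj_stay hL.1 hL'.1 (key L hs).1 (key L hs).2 (key L' hs').1 (key L' hs').2
  · intro γ' hpre hup hfar
    refine Set.disjoint_left.2 fun s hs hs' => ?_
    obtain ⟨L, hL, hs⟩ := Set.mem_iUnion₂.1 hs
    rcases prefix_or_of_mem_cyl hs.1 hs' with h1 | h1
    · obtain ⟨e1, e2⟩ := H_long D h.2.1 hL.1
      have h2 := (Dir.Up.of_prefix hup h1) _ (mem_pts.2 (Or.inr rfl))
      have h3 := h.2.1
      rw [zero_add] at h2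
      unfold Dir.H at e1 h3
      rw [Dir.neg_lev] at e1
      linarith
    · obtain ⟨c, rfl⟩ := hpre
      rw [List.append_assoc, List.prefix_append_right_inj] at h1
      have h2 : nrm (disp c) ≤ rad ([D.neg.e] ++ L.flatten) :=
        nrm_le_rad (mem_pts_iff.2 ⟨c, h1, (zero_add _).symm⟩)
      have h3 := rad_append_le [D.neg.e] L.flatten
      have h4 := rad_single D.neg.e
      have h5 := rad_flatten_le L
      have h6 := hL.2 (j + 2)
      rw [List.take_of_length_le hL.1.1.le] at h6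
      rw [disp_append, add_sub_cancel_left] at hfar
      nlinarith

end Vale.Agent.P147
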