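import Vale.Agent.P147.LemT1

open MeasureTheory Filter Topology
open scoped ENNReal

namespace Vale.Agent.P147

variable {d : ℕ}

namespace LemT2Aux

theorem rad_prefix {a b : Pa d} (h : a <+: b) : rad a ≤ rad b := by
  obtain ⟨p, hp, e⟩ := exists_rad a
  rw [← e]
  exact nrm_le_rad (pts_prefix h hp)

theorem first_le {a : Pa d} {τ : ℕ} (h : ∀ p ∈ dep 0 a, ¬ τ ≤ nrm p) : rad a ≤ τ := by
  obtain ⟨p, hp, e⟩ := exists_rad a
  rw [← e]
  rcases mem_pts.1 hp with h1 | h1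
  · exact (not_le.1 (h p h1)).le
  · rcases List.eq_nil_or_concat a with rfl | ⟨a', u, rfl⟩
    · rw [h1, disp_nil, add_zero, nrm_zero]; exact Nat.zero_le _
    · have h2 := not_le.1 (h (0 + disp a') (mem_dep_iff.2 ⟨a', [u], by simp, by simp, rfl⟩))
      have h3 : p = (0 + disp a') + stp u := by rw [h1]; simp
      have h4 := nrm_add_le (0 + disp a') (stp u)
      have h5 := nrm_stp_le u
      rw [h3]
      omega

/-- an exposed far extension -/
def Q (D : Dir d) (A j : ℕ) (g γ : Pa d) : Prop :=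
  g <+: γ ∧ D.Expo A j γ ∧ (A + 1) * (j + 2) < nrm (disp γ - disp g)

/-- successive trials -/
def S (D : Dir d) (A j : ℕ) : ℕ → Set (Pa d)
  | 0 => {[]}
  | r + 1 => {γ | ∃ g ∈ S D A j r, Q D A j g γ ∧ ∀ γ' : Pa d, γ' <+: γ → Q D A j g γ' → γ' = γ}

theorem pf_S (D : Dir d) (A j : ℕ) : ∀ r, PF (S D A j r)
  | 0 => by
    intro a ha b hb _
    simp only [S, Set.mem_singleton_iff] at ha hb
    rw [ha, hb]
  | r + 1 => by
    intro a ha b hb hab
    obtain ⟨g, hg, hq, -⟩ := ha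
    obtain ⟨g', hg', hq', hmin⟩ := hb
    have : g = g' := RegenAux.pf_eq (pf_S D A j r) hg hg' (hq.1.trans hab) hq'.1
    subst this
    exact hmin a hab hq

theorem expo_S (D : Dir d) (A j : ℕ) : ∀ r, ∀ g ∈ S D A j r, D.Expo A j g
  | 0 => by
    intro g hg
    simp only [S, Set.mem_singleton_iff] at hg
    subst hg
    refine ⟨fun x hx => ?_, by simp [Dir.H], by simp [dep], by simp [dep]⟩
    have : x = 0 := by simpa [pts, dep] using hx
    rw [this, D.lev_zero]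
  | r + 1 => by
    intro g hg
    obtain ⟨_, _, hq, -⟩ := hg
    exact hq.2.1

theorem exists_min {P : Pa d → Prop} {γ : Pa d} (h : P γ) :
    ∃ c, c <+: γ ∧ P c ∧ ∀ c', c' <+: c → P c' → c' = c := by
  classical
  have hex : ∃ n, ∃ c : Pa d, c <+: γ ∧ P c ∧ c.length = n := ⟨_, γ, List.prefix_refl _, h, rfl⟩
  obtain ⟨c, h1, h2, h3⟩ := Nat.find_spec hex
  refine ⟨c, h1, h2, fun c' h4 h5 => h4.eq_of_length (le_antisymm h4.length_le ?_)⟩
  rw [h3]
  exact Nat.find_min' hex ⟨c', h4.trans h1, h5, rfl⟩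

end LemT2Aux

open LemT2Aux in
/-- a wide path in a slab has an exposed prefix far out -/
theorem Dir.exists_expo (D : Dir d) (A j : ℕ) {γ : Pa d}
    (hγ : ∀ p ∈ pts 0 γ, 0 ≤ D.lev p ∧ D.lev p ≤ j) (τ : ℕ) (hτ : τ ≤ rad γ) :
    ∃ γ', γ' <+: γ ∧ D.Expo A j γ' ∧ rad γ' ≤ τ ∧ τ ≤ nrm (disp γ') + (A + 1) * (j + 2) := by
  classical
  obtain ⟨p, hp, e⟩ := exists_rad γ
  obtain ⟨a, ha, ha1, ha2⟩ := exists_first (x := 0) (γ := γ) (Q := fun p => τ ≤ nrm p)
    ⟨p, hp, by rw [e]; exact hτ⟩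
  rw [zero_add] at ha1
  have hA : (0 : ℝ) ≤ (A : ℝ) + 1 := by positivity
  obtain ⟨y, hy, hmin⟩ := Finset.exists_min_image ((pts 0 a).toFinset.filter fun y =>
      D.lev y ≤ D.lev (disp a) ∧ (nrm (y - disp a) : ℝ) ≤ (A + 1) * (D.lev (disp a) - D.lev y))
    D.lev ⟨disp a, by
      rw [Finset.mem_filter, List.mem_toFinset]
      exact ⟨mem_pts.2 (Or.inr (zero_add _).symm), le_rfl, by simp [nrm_zero]⟩⟩
  rw [Finset.mem_filter, List.mem_toFinset] at hy
  obtain ⟨hy0, hy1, hy2⟩ := hy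
  obtain ⟨c, hc, hc1, hc2⟩ := exists_first (x := 0) (γ := a) (Q := fun p => p = y) ⟨y, hy0, rfl⟩
  rw [zero_add] at hc1
  have hcy := hγ y (pts_prefix ha hy0)
  have hca := hγ (disp a) (pts_prefix ha (mem_pts.2 (Or.inr (zero_add _).symm)))
  refine ⟨c, hc.trans ha, ⟨fun x hx => (hγ x (pts_prefix (hc.trans ha) hx)).1, ?_,
    fun h => hc2 _ h hc1, fun z hz h => ?_⟩, (rad_prefix hc).trans (first_le ha2), ?_⟩
  · unfold Dir.H; rw [hc1]; exact hcy.2
  · unfold Dir.H at h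
    rw [hc1] at h
    have h1 := nrm_add_le (z - y) (y - disp a)
    rw [sub_add_sub_cancel] at h1
    have h2 : (nrm (z - disp a) : ℝ) ≤ nrm (z - y) + nrm (y - disp a) := by exact_mod_cast h1
    have := hmin z (by
      rw [Finset.mem_filter, List.mem_toFinset]
      exact ⟨mem_pts.2 (Or.inl (dep_prefix hc hz)), by linarith [h.1], by linarith [h.2]⟩)
    linarith [h.1]
  · rw [hc1]
    have h1 := nrm_add_le y (-(y - disp a))
    rw [nrm_neg, show y + -(y - disp a) = disp a by abel] at h1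
    have h2 : (nrm (y - disp a) : ℝ) ≤ (A + 1) * (j + 2) :=
      hy2.trans (mul_le_mul_of_nonneg_left (by linarith [hcy.1, hca.2]) hA)
    have h3 : nrm (y - disp a) ≤ (A + 1) * (j + 2) := by exact_mod_cast h2
    omega

open LemT2Aux in
theorem RW.tailT (W : RW d) (D : Dir d) (A j m t : ℕ)
    (hthin : 1 / 2 ≤ W.BE D.neg (j + 2) fun L => indE (Thin A L))
    (h : m * (2 * ((A + 1) * (j + 2)) + 1) ≤ t) :
    W.P D.Stay * W.nu D (fun b => t ≤ rad b ∧ D.H b ≤ j) ≤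
      (1 - W.w [D.neg.e] * W.P D.neg.Stay / 2) ^ m := by
  have htr := W.trial (S D A j) (W.w [D.neg.e] * W.P D.neg.Stay / 2) (pf_S D A j)
    (fun r γ' hγ' => by
      obtain ⟨g, hg, hq, -⟩ := hγ'
      exact ⟨g, hg, hq.1⟩)
    (fun r γ hγ => by
      obtain ⟨K, h1, h2, h3, h4⟩ := W.kill D A j hthin (expo_S D A j r γ hγ)
      refine ⟨K, h1, h2, h3, fun γ' hγ' hp => ?_⟩
      obtain ⟨g, hg, hq, -⟩ := hγ'
      have : g = γ := RegenAux.pf_eq (pf_S D A j r) hg hγ hq.1 hp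
      subst this
      exact h4 γ' hp hq.2.1.1 hq.2.2) m
  refine le_trans ?_ htr
  rw [← W.BE_one_eq D]
  refine W.BE_le_P D 1 _ _ fun L hL hQ => ?_
  obtain ⟨b, hb, ht, hH⟩ := hQ
  obtain ⟨b', rfl⟩ := List.length_eq_one_iff.1 hL.1
  have e : b = b' := by simpa using hb
  subst e
  have hblk := hL.2 b hb
  have hlev : ∀ p ∈ pts 0 b, 0 ≤ D.lev p ∧ D.lev p ≤ j := fun p hp => by
    refine ⟨hblk.2.1 p hp, ?_⟩
    unfold Dir.H at hH
    rcases mem_pts.1 hp with h1 | h1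
    · have := hblk.2.2.1 p h1
      linarith
    · rw [h1, zero_add]; exact hH
  set B := (A + 1) * (j + 2) with hB
  have key : ∀ r, r ≤ m → ∃ g ∈ S D A j r, g <+: b ∧ rad g ≤ r * (2 * B + 1) := by
    intro r
    induction r with
    | zero => exact fun _ => ⟨[], rfl, List.nil_prefix, by rw [rad_nil]; exact Nat.zero_le _⟩
    | succ r ih =>
      intro hr
      obtain ⟨g, hg, hgb, hrad⟩ := ih (by omega)
      obtain ⟨c, hc, hc1, hc2, hc3⟩ := D.exists_expo A j hlev ((r + 1) * (2 * B + 1))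
        (((Nat.mul_le_mul_right _ hr).trans h).trans ht)
      rw [← hB] at hc3
      have e1 : (r + 1) * (2 * B + 1) = r * (2 * B + 1) + (2 * B + 1) := by ring
      have h1 := nrm_disp_le_rad g
      have hgc : g <+: c := by
        rcases List.prefix_or_prefix_of_prefix hgb hc with h2 | h2
        · exact h2
        · have := (nrm_disp_le_rad c).trans (rad_prefix h2)
          omega
      have h3 := nrm_add_le (disp c - disp g) (disp g)
      rw [sub_add_cancel] at h3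
      obtain ⟨c', h4, h5, h6⟩ := exists_min (P := Q D A j g) (γ := c)
        ⟨hgc, hc1, by rw [← hB]; omega⟩
      exact ⟨c', ⟨g, hg, h5, h6⟩, h4.trans hc, (rad_prefix h4).trans hc2⟩
  obtain ⟨g, hg, hgb, -⟩ := key m le_rfl
  refine Set.inter_subset_left.trans ?_
  rw [List.flatten_singleton]
  exact (cyl_mono hgb).trans (Set.subset_biUnion_of_mem (u := fun γ => cyl γ) hg)

end Vale.Agent.P147
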