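import Vale.Agent.P147.Path2

open MeasureTheory Filter Topology
open scoped ENNReal

namespace Vale.Agent.P147

variable {d : ℕ}

theorem tsum_list {α : Type} (f : List α → ℝ≥0∞) :
    ∑' l, f l = f [] + ∑' a, ∑' l, f (a :: l) := by
  classical
  rw [ENNReal.tsum_eq_add_tsum_ite ([] : List α), ← ENNReal.tsum_prod (f := fun a l => f (a :: l))]
  congr 1
  have hi : Function.Injective fun p : α × List α => p.1 :: p.2 := fun p q h => by
    simp only [List.cons.injEq] at h
    exact Prod.ext h.1 h.2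
  rw [← hi.tsum_eq]
  · simp
  · intro l hl
    cases l with
    | nil => simp at hl
    | cons a l => exact ⟨(a, l), rfl⟩

theorem qw_append (ω : V d → St d → ℝ≥0∞) (x : V d) (a b : Pa d) :
    qw ω x (a ++ b) = qw ω x a * qw ω (x + disp a) b := by
  induction a generalizing x with
  | nil => simp [qw]
  | cons u a ih => simp only [List.cons_append, qw, ih, disp_cons, add_assoc, mul_assoc]

theorem qw_le_one {ω : V d → St d → ℝ≥0∞} (h : ∀ x, ∑ u, ω x u = 1) (x : V d) (γ : Pa d) :
    qw ω x γ ≤ 1 := by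
  induction γ generalizing x with
  | nil => simp [qw]
  | cons u a ih =>
    have h1 : ω x u ≤ 1 := by
      rw [← h x]
      exact Finset.single_le_sum (f := ω x) (fun _ _ => zero_le) (Finset.mem_univ u)
    exact mul_le_one' h1 (ih _)

theorem qw_pf_aux {ω : V d → St d → ℝ≥0∞} (h : ∀ x, ∑ u, ω x u = 1) (n : ℕ) :
    ∀ (x : V d) (F : Set (Pa d)), PF F →
      ∑' γ, indE (γ ∈ F ∧ γ.length ≤ n) * qw ω x γ ≤ 1 := by
  have base : ∀ (x : V d) (p : Pa d → Prop), (∀ u γ, ¬ p (u :: γ)) →
      ∑' γ, indE (p γ) * qw ω x γ ≤ 1 := by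
    intro x p hp
    rw [tsum_list]
    simp only [indE_neg (hp _ _), zero_mul, tsum_zero, add_zero, qw, mul_one]
    exact indE_le_one _
  induction n with
  | zero => exact fun x F _ => base x _ fun u γ hh => by simp at hh
  | succ n ih =>
    intro x F hF
    by_cases h0 : [] ∈ F
    · exact base x _ fun u γ hh => by simpa using hF _ h0 _ hh.1 List.nil_prefix
    rw [tsum_list, indE_neg fun hh => h0 hh.1, zero_mul, zero_add, ← h x, tsum_fintype]
    refine Finset.sum_le_sum fun u _ => ?_
    have h1 := ih (x + stp u) {γ | u :: γ ∈ F} fun a ha b hb hab =>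
      List.tail_eq_of_cons_eq (hF _ ha _ hb (List.cons_prefix_cons.2 ⟨rfl, hab⟩))
    refine le_trans (le_of_eq ?_) (mul_le_of_le_one_right' h1)
    rw [← ENNReal.tsum_mul_left]
    refine tsum_congr fun γ => ?_
    simp only [qw, Set.mem_setOf_eq, List.length_cons, Nat.add_le_add_iff_right]
    ring

theorem qw_pf {ω : V d → St d → ℝ≥0∞} (h : ∀ x, ∑ u, ω x u = 1) (x : V d) {F : Set (Pa d)}
    (hF : PF F) : ∑' γ, indE (γ ∈ F) * qw ω x γ ≤ 1 := by
  rw [ENNReal.tsum_eq_iSup_sum]
  refine iSup_le fun s => le_trans ?_ (qw_pf_aux h (s.sup List.length) x F hF)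
  refine le_trans (Finset.sum_le_sum fun γ hγ => ?_) (ENNReal.sum_le_tsum s)
  exact mul_le_mul_left (indE_mono fun hh => ⟨hh, Finset.le_sup (f := List.length) hγ⟩) _

theorem qw_pf_ext {ω : V d → St d → ℝ≥0∞} (h : ∀ x, ∑ u, ω x u = 1) (x : V d) {F : Set (Pa d)}
    (hF : PF F) (ζ : Pa d) : ∑' γ, indE (γ ∈ F ∧ ζ <+: γ) * qw ω x γ ≤ qw ω x ζ := by
  have hi : Function.Injective fun ξ : Pa d => ζ ++ ξ := fun a b hab =>
    List.append_cancel_left hab
  rw [← hi.tsum_eq (f := fun γ => indE (γ ∈ F ∧ ζ <+: γ) * qw ω x γ)]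
  · have h1 := qw_pf h (x + disp ζ) (F := {ξ | ζ ++ ξ ∈ F}) fun a ha b hb hab =>
      List.append_cancel_left (hF _ ha _ hb ((List.prefix_append_right_inj ζ).2 hab))
    refine le_trans (le_of_eq ?_) (mul_le_of_le_one_right' h1)
    rw [← ENNReal.tsum_mul_left]
    refine tsum_congr fun γ => ?_
    simp only [qw_append, Set.mem_setOf_eq, List.prefix_append, and_true]
    ring
  · intro γ hγ
    by_contra hc
    refine hγ ?_
    beta_reduce
    rw [indE_neg, zero_mul]
    rintro ⟨-, t, ht⟩
    exact hc ⟨t, ht⟩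

namespace RW

variable (W : RW d)

theorem measurable_qw (x : V d) (γ : Pa d) : Measurable fun o => qw (W.ω o) x γ := by
  induction γ generalizing x with
  | nil => exact measurable_const
  | cons u a ih => exact (W.meas x u).mul (ih _)

theorem w_nil : W.w [] = 1 := by
  rw [← W.w_eq 0]
  simp [qw]

theorem w_le_one (γ : Pa d) : W.w γ ≤ 1 := by
  rw [← W.P_cyl]
  exact prob_le_one

theorem w_pos (γ : Pa d) : 0 < W.w γ := by
  rw [← W.w_eq 0, pos_iff_ne_zero, Ne, lintegral_eq_zero_iff (W.measurable_qw 0 γ)]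
  intro h0
  have h1 : ∀ᵐ o ∂W.E, False := by
    filter_upwards [h0, W.ell] with o h1 h2
    have : ∀ (γ : Pa d) (x : V d), qw (W.ω o) x γ ≠ 0 := by
      intro γ
      induction γ with
      | nil => intro x; simp [qw]
      | cons u a ih => exact fun x => mul_ne_zero (h2 x u).ne' (ih _)
    exact this γ 0 h1
  exact h1.exists.elim fun _ h => h

theorem w_append {a b : Pa d} (h : (dep 0 a).Disjoint (dep (disp a) b)) :
    W.w (a ++ b) = W.w a * W.w b := by
  rw [← W.fact 0 a (disp a) b h, ← W.w_eq 0]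
  simp only [qw_append, zero_add]

theorem w_append_le (a b : Pa d) : W.w (a ++ b) ≤ W.w b := by
  rw [← W.w_eq 0, ← W.w_eq (0 + disp a) b]
  refine lintegral_mono fun o => ?_
  simp only [qw_append]
  exact mul_le_of_le_one_left' (qw_le_one (W.sum_one o) _ _)

theorem w_replicate (n : ℕ) (u : St d) : W.w (List.replicate n u) = W.w [u] ^ n := by
  induction n with
  | zero => simp [w_nil]
  | succ n ih =>
    have h1 : List.replicate (n + 1) u = [u] ++ List.replicate n u := rfl
    rw [h1, W.w_append, ih, pow_succ']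
    intro p hp hp'
    have hp0 : p = 0 := by simpa [dep] using hp
    obtain ⟨a, b, hab, -, hpa⟩ := mem_dep_iff.1 hp'
    have ha : a = List.replicate a.length u := by
      refine List.eq_replicate_of_mem fun v hv => ?_
      have : v ∈ List.replicate n u := hab ▸ List.mem_append_left b hv
      exact List.eq_of_mem_replicate this
    rw [ha, disp_replicate, hp0] at hpa
    have h2 := congrFun hpa u.1
    simp only [disp_cons, disp_nil, add_zero, stp, Pi.zero_apply, Pi.add_apply, Pi.smul_apply,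
      Pi.single_eq_same] at h2
    simp only [nsmul_eq_mul] at h2
    split_ifs at h2 <;> omega

theorem P_pf {F : Set (Pa d)} (hF : PF F) :
    W.P (⋃ γ ∈ F, cyl γ) = ∑' γ, indE (γ ∈ F) * W.w γ := by
  rw [measure_biUnion F.to_countable ?_ fun γ _ => measurableSet_cyl γ]
  · simp only [W.P_cyl]
    rw [tsum_subtype F W.w]
    refine tsum_congr fun γ => ?_
    by_cases h : γ ∈ F
    · rw [Set.indicator_of_mem h, indE_pos h, one_mul]
    · rw [Set.indicator_of_notMem h, indE_neg h, zero_mul]
  · intro a ha b hb hab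
    refine Set.disjoint_left.2 fun s hs hs' => hab ?_
    rcases prefix_or_of_mem_cyl hs hs' with h | h
    · exact hF _ ha _ hb h
    · exact (hF _ hb _ ha h).symm

theorem P_le_tsum (F : Set (Pa d)) : W.P (⋃ γ ∈ F, cyl γ) ≤ ∑' γ, indE (γ ∈ F) * W.w γ := by
  refine (measure_biUnion_le W.P F.to_countable _).trans (le_of_eq ?_)
  simp only [W.P_cyl]
  rw [tsum_subtype F W.w]
  refine tsum_congr fun γ => ?_
  by_cases h : γ ∈ F
  · rw [Set.indicator_of_mem h, indE_pos h, one_mul]
  · rw [Set.indicator_of_notMem h, indE_neg h, zero_mul]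

end RW

end Vale.Agent.P147
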