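import Vale.Agent.P147.Dec
import Vale.Agent.P147.Wt

open MeasureTheory Filter Topology
open scoped ENNReal

namespace Vale.Agent.P147

variable {d : ℕ}

namespace Rsx

theorem sum_indE_le_one (s : Finset ℕ) (p : ℕ → Prop)
    (h : ∀ n ∈ s, ∀ n' ∈ s, p n → p n' → n = n') : ∑ n ∈ s, indE (p n) ≤ 1 := by
  by_cases c : ∃ n ∈ s, p n
  · obtain ⟨n, hn, hp⟩ := c
    rw [Finset.sum_eq_single_of_mem n hn fun n' hn' hne => indE_neg fun c => hne (h _ hn' _ hn c hp)]
    exact indE_le_one _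
  · rw [Finset.sum_eq_zero fun n hn => indE_neg fun c' => c ⟨n, hn, c'⟩]
    exact zero_le

theorem tsum_inj {α β : Type} (f : α → β) (S : α → Prop) (X : β → Prop) (g : β → ℝ≥0∞)
    (hX : ∀ a, S a → X (f a)) (hf : ∀ a, S a → ∀ a', S a' → f a = f a' → a = a') :
    ∑' a, indE (S a) * g (f a) ≤ ∑' b, indE (X b) * g b := by
  have h1 := ENNReal.tsum_comp_le_tsum_of_injective (f := fun a : {a | S a} => f a)
    (fun a a' e => Subtype.ext (hf _ a.2 _ a'.2 e)) fun b => indE (X b) * g b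
  refine le_trans (le_of_eq ?_) h1
  rw [tsum_subtype {a | S a} fun a => indE (X (f a)) * g (f a)]
  refine tsum_congr fun a => ?_
  by_cases c : S a
  · rw [Set.indicator_of_mem (s := {a | S a}) c, indE_pos c, indE_pos (hX a c)]
  · rw [Set.indicator_of_notMem (s := {a | S a}) c, indE_neg c, zero_mul]

theorem eq_of_mod {m J J' : ℕ} (h : J % (m + 1) = J' % (m + 1)) (h1 : J ≤ m + J')
    (h2 : J' ≤ m + J) : J = J' := by
  rcases le_total J J' with c | c
  · have := Nat.eq_zero_of_dvd_of_lt ((Nat.modEq_iff_dvd' c).1 h) (by omega)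
    omega
  · have := Nat.eq_zero_of_dvd_of_lt ((Nat.modEq_iff_dvd' c).1 h.symm) (by omega)
    omega

variable (D : Dir d)

theorem first_eq {s : ℕ → St d} {n n' : ℕ} (c1 : D.lev (pos s n) < 0)
    (c2 : ∀ i < n, 0 ≤ D.lev (pos s i)) (e1 : D.lev (pos s n') < 0)
    (e2 : ∀ i < n', 0 ≤ D.lev (pos s i)) : n = n' := by
  rcases lt_trichotomy n n' with c | c | c
  · linarith [e2 n c]
  · exact c
  · linarith [c2 n' c]

/-- admissible pairs -/
def T (a lam C : ℕ) (q : List (Pa d) × Pa d) : Prop :=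
  (∀ b ∈ q.1, D.Blk b) ∧ a ≤ q.1.length ∧ D.lev (sumd q.1) ≤ C ∧
    D.Exit (-D.lev (sumd q.1)) lam 0 q.2

/-- concatenation -/
def cat (q : List (Pa d) × Pa d) : Pa d := q.1.reverse.flatten ++ q.2

/-- target family -/
def X (a b : ℕ) : Set (Pa d) := {γ | D.Exit 0 b 0 γ ∧ ∃ p ∈ dep 0 γ, (a : ℝ) ≤ D.lev p}

theorem T_ne {a lam C : ℕ} {q : List (Pa d) × Pa d} (h : T D a lam C q) : q.2 ≠ [] := by
  intro c
  have h1 := h.2.2.2.2
  have h2 := D.length_le_lev h.1
  have h3 : (0 : ℝ) ≤ q.1.length := Nat.cast_nonneg _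
  rw [c] at h1
  simp only [disp_nil, add_zero, Dir.lev_zero] at h1
  linarith

theorem rev_blk {L : List (Pa d)} (h : ∀ b ∈ L, D.Blk b) : ∀ b ∈ L.reverse, D.Blk b :=
  fun b hb => h b (List.mem_reverse.1 hb)

theorem disp_rev (L : List (Pa d)) : disp L.reverse.flatten = sumd L := by
  rw [disp_flatten, sumd_reverse]

theorem T_mem {a lam C b : ℕ} (hb : (C : ℝ) + lam ≤ b) {q : List (Pa d) × Pa d}
    (h : T D a lam C q) : cat q ∈ X D a b := by
  have hne := T_ne D h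
  obtain ⟨h1, h2, h3, h4, h5⟩ := h
  have hl : (0 : ℝ) ≤ lam := Nat.cast_nonneg _
  refine ⟨⟨fun p hp => ?_, ?_⟩, sumd q.1, ?_, ?_⟩
  · rw [cat, dep_append, List.mem_append, zero_add, disp_rev] at hp
    rcases hp with hp | hp
    · have := D.dep_flatten_lev (rev_blk D h1) hp
      rw [sumd_reverse, Dir.lev_zero] at this
      exact ⟨this.1, by linarith [this.2]⟩
    · have := h4 _ (mem_dep_zero.1 hp)
      rw [Dir.lev_sub] at this
      exact ⟨by linarith [this.1], by linarith [this.2]⟩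
  · rw [cat, zero_add, disp_append, disp_rev, Dir.lev_add]
    rw [zero_add] at h5
    linarith
  · exact mem_dep_iff.2 ⟨_, _, rfl, hne, by rw [zero_add, disp_rev]⟩
  · exact le_trans (by exact_mod_cast h2) (D.length_le_lev h1)

theorem T_aux {a lam C : ℕ} {q q' : List (Pa d) × Pa d} (h : T D a lam C q) (h' : T D a lam C q')
    (hm : ⌊D.lev (sumd q.1)⌋₊ % (lam + 1) = ⌊D.lev (sumd q'.1)⌋₊ % (lam + 1))
    (e : cat q = cat q') (hp : q.1.reverse.flatten <+: q'.1.reverse.flatten) : q = q' := by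
  obtain ⟨c, hc⟩ := hp
  have e1 : q.2 = c ++ q'.2 := by
    unfold cat at e
    rw [← hc, List.append_assoc] at e
    exact List.append_cancel_left e
  have hc0 : c = [] := by
    by_contra hne
    have a1 : D.lev (sumd q.1) + 1 ≤ D.lev (sumd q'.1) := by
      have := D.gap_flatten (rev_blk D h'.1) (sumd q.1)
        (mem_dep_iff.2 ⟨_, _, hc.symm, hne, by rw [zero_add, disp_rev]⟩)
      rwa [disp_rev] at this
    have a2 : D.lev (sumd q'.1) ≤ D.lev (sumd q.1) + lam := by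
      have b1 := (h.2.2.2.1 (disp c) (mem_dep_iff.2 ⟨_, _, e1, T_ne D h', by rw [zero_add]⟩)).2
      have b2 := congrArg (fun γ => D.lev (disp γ)) hc
      simp only [disp_append, disp_rev, Dir.lev_add] at b2
      linarith
    have a0 : 0 ≤ D.lev (sumd q.1) := le_trans (Nat.cast_nonneg _) (D.length_le_lev h.1)
    have a3 := Nat.floor_mono a1
    have a4 := Nat.floor_mono a2
    rw [Nat.floor_add_one a0] at a3
    rw [Nat.floor_add_natCast a0] at a4
    have := eq_of_mod hm (by omega) (by omega)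
    omega
  subst hc0
  rw [List.append_nil] at hc
  exact Prod.ext (List.reverse_injective (D.flatten_inj (rev_blk D h.1) (rev_blk D h'.1) hc)) e1

theorem T_inj {a lam C : ℕ} {q q' : List (Pa d) × Pa d} (h : T D a lam C q) (h' : T D a lam C q')
    (hm : ⌊D.lev (sumd q.1)⌋₊ % (lam + 1) = ⌊D.lev (sumd q'.1)⌋₊ % (lam + 1))
    (e : cat q = cat q') : q = q' := by
  have p1 : q.1.reverse.flatten <+: cat q := List.prefix_append _ _
  have p2 : q'.1.reverse.flatten <+: cat q := e ▸ List.prefix_append _ _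
  rcases List.prefix_or_prefix_of_prefix p1 p2 with c | c
  · exact T_aux D h h' hm e c
  · exact (T_aux D h' h hm.symm e.symm c).symm

end Rsx

namespace RW

variable (W : RW d) (D : Dir d)

theorem rsum (a a' lam C b : ℕ) (h : C + lam ≤ b) :
    ∑ n ∈ Finset.Ico a a', W.Rt D n lam C ≤ (lam + 1) * W.P (D.RS a b) := by
  have hb : (C : ℝ) + lam ≤ b := by exact_mod_cast h
  have h1 : ∑ n ∈ Finset.Ico a a', W.Rt D n lam C ≤
      ∑' q : List (Pa d) × Pa d, indE (Rsx.T D a lam C q) * W.w (Rsx.cat q) := by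
    unfold Rt
    rw [ENNReal.tsum_prod', ← Summable.tsum_finsetSum fun _ _ => ENNReal.summable]
    refine ENNReal.tsum_le_tsum fun low => ?_
    rw [← Summable.tsum_finsetSum fun _ _ => ENNReal.summable]
    refine ENNReal.tsum_le_tsum fun ξ => ?_
    rw [← Finset.sum_mul]
    refine mul_le_mul_left ?_ _
    by_cases hT : Rsx.T D a lam C (low, ξ)
    · rw [indE_pos hT]
      refine Rsx.sum_indE_le_one _ _ fun n _ n' _ c c' => ?_
      rw [← c.1.1, ← c'.1.1]
    · refine le_of_eq_of_le (Finset.sum_eq_zero fun n hn => indE_neg fun c => hT ?_) zero_le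
      exact ⟨c.1.2, c.1.1 ▸ (Finset.mem_Ico.1 hn).1, c.2.1, c.2.2⟩
  have h2 : ∀ q : List (Pa d) × Pa d, indE (Rsx.T D a lam C q) * W.w (Rsx.cat q) ≤
      ∑ j ∈ Finset.range (lam + 1),
        indE (Rsx.T D a lam C q ∧ ⌊D.lev (sumd q.1)⌋₊ % (lam + 1) = j) * W.w (Rsx.cat q) := by
    intro q
    rw [← Finset.sum_mul]
    refine mul_le_mul_left ?_ _
    refine le_trans (indE_mono fun c => ⟨c, rfl⟩) (Finset.single_le_sum
      (f := fun j => indE (Rsx.T D a lam C q ∧ ⌊D.lev (sumd q.1)⌋₊ % (lam + 1) = j))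
      (fun _ _ => zero_le) (Finset.mem_range.2 (Nat.mod_lt _ (Nat.succ_pos lam))))
  refine h1.trans ((ENNReal.tsum_le_tsum h2).trans ?_)
  rw [Summable.tsum_finsetSum fun _ _ => ENNReal.summable]
  have h3 : ∀ j ∈ Finset.range (lam + 1), ∑' q : List (Pa d) × Pa d,
      indE (Rsx.T D a lam C q ∧ ⌊D.lev (sumd q.1)⌋₊ % (lam + 1) = j) * W.w (Rsx.cat q) ≤
        W.P (D.RS a b) := by
    intro j _
    refine (Rsx.tsum_inj Rsx.cat _ (fun γ => γ ∈ Rsx.X D a b) W.w
      (fun q hq => Rsx.T_mem D hb hq.1)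
      fun q hq q' hq' e => Rsx.T_inj D hq.1 hq'.1 (hq.2.trans hq'.2.symm) e).trans ?_
    rw [← W.P_pf ((D.pf_exit 0 b 0).mono fun γ hγ => hγ.1)]
    refine measure_mono (Set.iUnion₂_subset fun γ hγ s hs => ?_)
    obtain ⟨n, rfl⟩ := mem_cyl_iff.1 hs
    obtain ⟨⟨c1, c2⟩, p, c3, c4⟩ := hγ
    rw [zero_add, disp_pre] at c2
    obtain ⟨i, hi, rfl⟩ := mem_dep_pre.1 c3
    exact ⟨n, c2, fun i hi => c1 _ (mem_dep_pre.2 ⟨i, hi, rfl⟩), i, hi, c4⟩
  refine (Finset.sum_le_card_nsmul _ _ _ h3).trans (le_of_eq ?_)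
  rw [Finset.card_range, nsmul_eq_mul]
  push_cast
  rfl

theorem Rt_lt_top (n lam C : ℕ) : W.Rt D n lam C < ⊤ := by
  have h := W.rsum D n (n + 1) lam C (C + lam) le_rfl
  rw [Nat.Ico_succ_singleton, Finset.sum_singleton] at h
  exact h.trans_lt (ENNReal.mul_lt_top (by simp) (measure_lt_top _ _))

theorem RS_sum (k m T T' : ℕ) (hk : 1 ≤ k) :
    ∑ J ∈ Finset.Ico T T', W.P (D.RS (k * 2 ^ J : ℕ) (2 ^ m * k * 2 ^ J : ℕ)) ≤
      (m + 1) * W.P (D.ES (k * 2 ^ T : ℕ)) := by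
  rw [← Finset.sum_fiberwise_of_maps_to (t := Finset.range (m + 1)) (g := fun J => J % (m + 1))
    fun J _ => Finset.mem_range.2 (Nat.mod_lt _ (Nat.succ_pos m))]
  have h3 : ∀ j ∈ Finset.range (m + 1),
      ∑ J ∈ (Finset.Ico T T').filter (fun J => J % (m + 1) = j),
        W.P (D.RS (k * 2 ^ J : ℕ) (2 ^ m * k * 2 ^ J : ℕ)) ≤ W.P (D.ES (k * 2 ^ T : ℕ)) := by
    intro j _
    rw [← measure_biUnion_finset _ fun J _ => D.measurableSet_RS _ _]
    · refine measure_mono (Set.iUnion₂_subset fun J hJ s hs => ?_)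
      obtain ⟨n, c1, c2, i, hi, c3⟩ := hs
      refine ⟨n, c1, fun i hi => (c2 i hi).1, i, hi, le_trans ?_ c3⟩
      have := (Finset.mem_Ico.1 (Finset.mem_filter.1 hJ).1).1
      exact_mod_cast Nat.mul_le_mul_left k (Nat.pow_le_pow_right two_pos this)
    · have key : ∀ J J' : ℕ, ∀ s, s ∈ D.RS (k * 2 ^ J : ℕ) (2 ^ m * k * 2 ^ J : ℕ) →
          s ∈ D.RS (k * 2 ^ J' : ℕ) (2 ^ m * k * 2 ^ J' : ℕ) → J ≤ m + J' := by
        rintro J J' s ⟨n, c1, c2, i, hi, c3⟩ ⟨n', e1, e2, -⟩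
        have hn : n = n' := Rsx.first_eq D c1 (fun i hi => (c2 i hi).1) e1 fun i hi => (e2 i hi).1
        subst hn
        have h4 : k * 2 ^ J ≤ 2 ^ m * k * 2 ^ J' := by exact_mod_cast c3.trans (e2 i hi).2
        rw [mul_comm (2 ^ m) k, mul_assoc, ← pow_add] at h4
        exact (Nat.pow_le_pow_iff_right one_lt_two).1 (Nat.le_of_mul_le_mul_left h4 hk)
      intro J hJ J' hJ' hne
      refine Set.disjoint_left.2 fun s hs hs' => hne ?_
      have a1 := key J J' s hs hs'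
      have a2 := key J' J s hs' hs
      have a3 : J % (m + 1) = J' % (m + 1) :=
        (Finset.mem_filter.1 hJ).2.trans (Finset.mem_filter.1 hJ').2.symm
      exact Rsx.eq_of_mod a3 a1 a2
  refine (Finset.sum_le_card_nsmul _ _ _ h3).trans (le_of_eq ?_)
  rw [Finset.card_range, nsmul_eq_mul]
  push_cast
  rfl

theorem ES_tendsto : Tendsto (fun K : ℕ => W.P (D.ES K)) atTop (𝓝 0) := by
  have hanti : Antitone fun K : ℕ => D.ES K := by
    rintro K K' hK s ⟨n, c1, c2, i, hi, c3⟩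
    exact ⟨n, c1, c2, i, hi, le_trans (by exact_mod_cast hK) c3⟩
  have h := tendsto_measure_iInter_atTop (μ := W.P)
    (fun K : ℕ => (D.measurableSet_ES K).nullMeasurableSet) hanti ⟨0, measure_ne_top _ _⟩
  have e : ⋂ K : ℕ, D.ES K = ∅ := by
    refine Set.eq_empty_of_forall_notMem fun s hs => ?_
    obtain ⟨n, c1, c2, -⟩ := Set.mem_iInter.1 hs 0
    obtain ⟨K, hK⟩ := exists_nat_gt (∑ i ∈ Finset.range n, D.lev (pos s i))
    obtain ⟨n', e1, e2, i, hi, e3⟩ := Set.mem_iInter.1 hs K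
    have hn : n = n' := Rsx.first_eq D c1 c2 e1 e2
    subst hn
    have := Finset.single_le_sum (f := fun i => D.lev (pos s i))
      (fun i hi => c2 i (Finset.mem_range.1 hi)) (Finset.mem_range.2 hi)
    linarith
  rw [e, measure_empty] at h
  exact h

end RW

end Vale.Agent.P147
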