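import Vale.Agent.P147.LemT2
import Vale.Agent.P147.Boot
import Vale.Agent.P147.EH

open MeasureTheory Filter Topology
open scoped ENNReal

namespace Vale.Agent.P147

variable {d : ℕ}

theorem tail_nu_le_one (W : RW d) (D : Dir d) (hp : 0 < W.P D.Stay) (p : Pa d → Prop) :
    W.nu D p ≤ 1 := by
  rw [← W.nu_true D hp]
  exact W.nu_mono' D fun _ _ _ => trivial

theorem tail_nu_ne_top (W : RW d) (D : Dir d) (hp : 0 < W.P D.Stay) (p : Pa d → Prop) :
    W.nu D p ≠ ⊤ :=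
  ne_top_of_le_ne_top ENNReal.one_ne_top (tail_nu_le_one W D hp p)

theorem tail_nu_or (W : RW d) (D : Dir d) (p q : Pa d → Prop) :
    W.nu D (fun b => p b ∨ q b) ≤ W.nu D p + W.nu D q := by
  unfold RW.nu
  rw [← ENNReal.tsum_add]
  refine ENNReal.tsum_le_tsum fun b => ?_
  rw [← add_mul]
  refine mul_le_mul_left ?_ _
  refine le_trans (indE_mono ?_) (indE_or_le (D.Blk b ∧ p b) (D.Blk b ∧ q b))
  rintro ⟨h1, h2 | h2⟩
  · exact Or.inl ⟨h1, h2⟩
  · exact Or.inr ⟨h1, h2⟩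

theorem tail_num (K m i A t : ℕ) (C S : ℝ) (hS : 0 ≤ S) (hC : 32 * (K : ℝ) ≤ C)
    (hA : (A : ℝ) ≤ 8 * ((i : ℝ) + 2) * S + 2)
    (ht : C * (m + 1) * (i + 1) * 2 ^ i * (1 + S) ≤ t) :
    m * K * (2 * ((A + 1) * 2 ^ i) + 1) ≤ t := by
  have h2 : (1 : ℝ) ≤ 2 ^ i := one_le_pow₀ (by norm_num)
  have hi : (0 : ℝ) ≤ i := Nat.cast_nonneg i
  have hK : (0 : ℝ) ≤ K := Nat.cast_nonneg K
  have hm : (0 : ℝ) ≤ m := Nat.cast_nonneg m
  have a1 : 2 * ((A : ℝ) + 1) + 1 ≤ 32 * ((i + 1) * (1 + S)) := by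
    have : 0 ≤ (i : ℝ) * S := mul_nonneg hi hS
    nlinarith
  have a2 : 2 * (((A : ℝ) + 1) * 2 ^ i) + 1 ≤ 32 * ((i + 1) * (1 + S)) * 2 ^ i := by
    have := mul_le_mul_of_nonneg_right a1 (le_trans zero_le_one h2)
    nlinarith
  have hX : (0 : ℝ) ≤ (i + 1) * (1 + S) * 2 ^ i := by positivity
  have a3 : (m : ℝ) * K * (2 * (((A : ℝ) + 1) * 2 ^ i) + 1) ≤
      C * (m + 1) * (i + 1) * 2 ^ i * (1 + S) := by
    calc (m : ℝ) * K * (2 * (((A : ℝ) + 1) * 2 ^ i) + 1)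
        ≤ (m : ℝ) * K * (32 * ((i + 1) * (1 + S)) * 2 ^ i) :=
          mul_le_mul_of_nonneg_left a2 (mul_nonneg hm hK)
      _ = (32 * K) * m * ((i + 1) * (1 + S) * 2 ^ i) := by ring
      _ ≤ C * (m + 1) * ((i + 1) * (1 + S) * 2 ^ i) := by
          refine mul_le_mul_of_nonneg_right ?_ hX
          exact mul_le_mul hC (by linarith) hm (by linarith)
      _ = _ := by ring
  have a4 : (m : ℝ) * K * (2 * (((A : ℝ) + 1) * 2 ^ i) + 1) ≤ t := a3.trans ht
  exact_mod_cast a4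

theorem tail_one (W : RW d) (D : Dir d) (hp : 0 < W.P D.Stay) (hm : 0 < W.P D.neg.Stay) :
    ∃ C : ℝ, 1 ≤ C ∧ ∀ (C' : ℝ) (G : ℕ → ℝ), C ≤ C' →
      (∀ s, (W.nu D.neg fun b => s < rad b).toReal ≤ G s) → ∀ i w m t : ℕ,
      G w ≤ 1 / 2 ^ (i + 2) →
      C' * (m + 1) * (i + 1) * 2 ^ i * (1 + ∑ s ∈ Finset.range w, G s) ≤ t →
      (W.nu D fun b => t < rad b).toReal ≤
        (W.nu D fun b => (2 : ℝ) ^ i - 2 < D.H b).toReal + C' / 2 ^ m := by
  obtain ⟨c, hc⟩ : ∃ c, c = W.w [D.neg.e] * W.P D.neg.Stay / 2 := ⟨_, rfl⟩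
  have hc0 : c ≠ 0 := by
    rw [hc]
    exact (ENNReal.div_pos (mul_ne_zero (W.w_pos _).ne' hm.ne') (by norm_num)).ne'
  have hlt : 1 - c < 1 := ENNReal.sub_lt_self ENNReal.one_ne_top one_ne_zero hc0
  obtain ⟨K, hK⟩ : ∃ K : ℕ, (1 - c) ^ K ≤ 1 / 2 := by
    have h := ENNReal.tendsto_pow_atTop_nhds_zero_of_lt_one hlt
    have h2 : ∀ᶠ n in atTop, (1 - c) ^ n ≤ 1 / 2 :=
      h.eventually (ge_mem_nhds (by norm_num))
    exact h2.exists
  have hpt : W.P D.Stay ≠ ⊤ := measure_ne_top _ _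
  obtain ⟨p, hpd⟩ : ∃ p, p = (W.P D.Stay).toReal := ⟨_, rfl⟩
  have hp0 : 0 < p := by rw [hpd]; exact ENNReal.toReal_pos hp.ne' hpt
  have hKn : (0 : ℝ) ≤ K := Nat.cast_nonneg K
  have hip := one_div_pos.mpr hp0
  refine ⟨1 + 32 * K + 1 / p, by linarith, ?_⟩
  intro C' G hC hG i w m t h1 h2
  have hC0 : 0 ≤ C' / 2 ^ m := div_nonneg (by linarith) (by positivity)
  have hG0 : ∀ s, 0 ≤ G s := fun s => le_trans ENNReal.toReal_nonneg (hG s)
  rcases Nat.eq_zero_or_pos i with rfl | hi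
  · have : (W.nu D fun b => t < rad b) ≤ W.nu D fun b => (2 : ℝ) ^ (0 : ℕ) - 2 < D.H b := by
      refine W.nu_mono' D fun b hb _ => ?_
      have := hb.one_le_H
      norm_num
      linarith
    exact (ENNReal.toReal_mono (tail_nu_ne_top W D hp _) this).trans (le_add_of_nonneg_right hC0)
  obtain ⟨j, hj⟩ : ∃ j : ℕ, j + 2 = 2 ^ i := by
    refine ⟨2 ^ i - 2, Nat.sub_add_cancel ?_⟩
    calc 2 = 2 ^ 1 := by norm_num
      _ ≤ 2 ^ i := Nat.pow_le_pow_right (by norm_num) hi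
  have hjr : (j : ℝ) = 2 ^ i - 2 := by
    have : ((j + 2 : ℕ) : ℝ) = ((2 ^ i : ℕ) : ℝ) := by rw [hj]
    push_cast at this
    linarith
  obtain ⟨S, hS⟩ : ∃ S, S = ∑ s ∈ Finset.range w, G s := ⟨_, rfl⟩
  have hS0 : 0 ≤ S := by rw [hS]; exact Finset.sum_nonneg fun s _ => hG0 s
  rw [← hS] at h2
  obtain ⟨A, hA⟩ : ∃ A : ℕ, A = ⌈8 * ((i : ℝ) + 2) * S⌉₊ + 1 := ⟨_, rfl⟩
  have hX0 : 0 ≤ 8 * ((i : ℝ) + 2) * S := by positivity
  have hA1 : 8 * ((i : ℝ) + 2) * S ≤ A := by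
    rw [hA]; push_cast
    have := Nat.le_ceil (8 * ((i : ℝ) + 2) * S)
    linarith
  have hA2 : (A : ℝ) ≤ 8 * ((i : ℝ) + 2) * S + 2 := by
    rw [hA]; push_cast
    have := (Nat.ceil_lt_add_one hX0).le
    linarith
  have hthin : 1 / 2 ≤ W.BE D.neg (j + 2) fun L => indE (Thin A L) := by
    refine W.lemA D.neg hm (j + 2) w A (by omega) ?_ ?_
    · rw [hj]
      push_cast
      have h3 := (hG w).trans h1
      calc (2 : ℝ) ^ i * (W.nu D.neg fun b => w < rad b).toReal ≤ 2 ^ i * (1 / 2 ^ (i + 2)) :=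
            mul_le_mul_of_nonneg_left h3 (by positivity)
        _ = 1 / 4 := by rw [pow_add]; field_simp; norm_num
    · rw [hj, Nat.log_pow (by norm_num)]
      refine le_trans ?_ hA1
      refine mul_le_mul_of_nonneg_left ?_ (by positivity)
      rw [hS]
      exact Finset.sum_le_sum fun s _ => hG s
  have hnum : m * K * (2 * ((A + 1) * (j + 2)) + 1) ≤ t := by
    rw [hj]
    exact tail_num K m i A t C' S hS0 (by linarith) hA2 h2
  have hT := W.tailT D A j (m * K) t hthin hnum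
  rw [← hc, mul_comm m K, pow_mul] at hT
  have hT2 : W.P D.Stay * W.nu D (fun b => t ≤ rad b ∧ D.H b ≤ j) ≤ (1 / 2) ^ m :=
    hT.trans (pow_le_pow_left' hK m)
  have hT3 := ENNReal.toReal_mono (ENNReal.pow_ne_top (by norm_num)) hT2
  rw [ENNReal.toReal_mul, ← hpd, ENNReal.toReal_pow] at hT3
  have e1 : ((1 : ℝ≥0∞) / 2).toReal = 1 / 2 := by norm_num
  rw [e1] at hT3
  have hT4 : (W.nu D (fun b => t ≤ rad b ∧ D.H b ≤ j)).toReal ≤ C' / 2 ^ m := by
    have h5 : (W.nu D (fun b => t ≤ rad b ∧ D.H b ≤ j)).toReal ≤ (1 / p) * (1 / 2) ^ m := by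
      rw [one_div p, ← div_eq_inv_mul, le_div_iff₀ hp0, mul_comm]
      exact hT3
    refine h5.trans ?_
    rw [div_pow, one_pow, mul_one_div]
    exact div_le_div_of_nonneg_right (by linarith) (by positivity)
  have hsp : (W.nu D fun b => t < rad b) ≤
      W.nu D (fun b => (2 : ℝ) ^ i - 2 < D.H b) + W.nu D (fun b => t ≤ rad b ∧ D.H b ≤ j) := by
    refine le_trans (W.nu_mono' D fun b _ hb => ?_) (tail_nu_or W D _ _)
    by_cases h6 : (2 : ℝ) ^ i - 2 < D.H b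
    · exact Or.inl h6
    · exact Or.inr ⟨hb.le, by rw [hjr]; exact not_lt.mp h6⟩
  have hsp2 := ENNReal.toReal_mono
    (ENNReal.add_ne_top.mpr ⟨tail_nu_ne_top W D hp _, tail_nu_ne_top W D hp _⟩) hsp
  rw [ENNReal.toReal_add (tail_nu_ne_top W D hp _) (tail_nu_ne_top W D hp _)] at hsp2
  linarith

theorem tail_lim (W : RW d) (D : Dir d) (hp : 0 < W.P D.Stay) :
    Tendsto (fun t : ℕ => (W.nu D fun b => t < rad b).toReal) atTop (𝓝 0) := by
  have h1 : Tendsto (fun t : ℕ => W.nu D fun b => t < rad b) atTop (𝓝 0) :=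
    tendsto_of_tendsto_of_tendsto_of_le_of_le tendsto_const_nhds (W.om_tendsto D hp)
      (fun _ => zero_le) (fun t => W.nu_rad_le_om D t)
  have h2 := (ENNReal.tendsto_toReal ENNReal.zero_ne_top).comp h1
  simpa [Function.comp_def] using h2

theorem tail_anti (W : RW d) (D : Dir d) (hp : 0 < W.P D.Stay) :
    Antitone fun t : ℕ => (W.nu D fun b => t < rad b).toReal := by
  intro a b hab
  exact ENNReal.toReal_mono (tail_nu_ne_top W D hp _)
    (W.nu_mono' D fun γ _ h => lt_of_le_of_lt hab h)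

theorem tail_le_one (W : RW d) (D : Dir d) (hp : 0 < W.P D.Stay) (p : Pa d → Prop) :
    (W.nu D p).toReal ≤ 1 := by
  have := ENNReal.toReal_mono ENNReal.one_ne_top (tail_nu_le_one W D hp p)
  simpa using this

theorem RW.tail (W : RW d) (D : Dir d) (hp : 0 < W.P D.Stay) (hm : 0 < W.P D.neg.Stay) :
    ∃ β : ℕ, ∀ᶠ T : ℕ in atTop,
      (W.nu D fun b => 2 ^ (β * T) < rad b).toReal ≤ 1 / 2 ^ (4 * T) ∧
      (W.nu D.neg fun b => 2 ^ (β * T) < rad b).toReal ≤ 1 / 2 ^ (4 * T) := by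
  obtain ⟨C₁, hC₁, h₁⟩ := tail_one W D hp hm
  obtain ⟨C₂, hC₂, h₂⟩ := tail_one W D.neg hm (by rw [D.neg_neg]; exact hp)
  rw [D.neg_neg] at h₂
  obtain ⟨F, hF⟩ : ∃ F : ℕ → ℝ, F = fun t => max (W.nu D fun b => t < rad b).toReal
      (W.nu D.neg fun b => t < rad b).toReal := ⟨_, rfl⟩
  obtain ⟨η, hη⟩ : ∃ η : ℕ → ℝ, η = fun i : ℕ =>
      2 ^ i * (W.nu D fun b => (2 : ℝ) ^ i - 2 < D.H b).toReal +
      2 ^ i * (W.nu D.neg fun b => (2 : ℝ) ^ i - 2 < D.neg.H b).toReal := ⟨_, rfl⟩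
  have hl : ∀ t, (W.nu D fun b => t < rad b).toReal ≤ F t := fun t => by
    rw [hF]; exact le_max_left _ _
  have hr : ∀ t, (W.nu D.neg fun b => t < rad b).toReal ≤ F t := fun t => by
    rw [hF]; exact le_max_right _ _
  have hb := boot F η (max C₁ C₂) (fun t => le_trans ENNReal.toReal_nonneg (hl t))
    (fun t => by rw [hF]; exact max_le (tail_le_one W D hp _) (tail_le_one W D.neg hm _))
    (by rw [hF]; exact (tail_anti W D hp).max (tail_anti W D.neg hm))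
    (by
      rw [hF]
      have := (tail_lim W D hp).max (tail_lim W D.neg hm)
      rwa [max_self] at this)
    (fun i => by rw [hη]; positivity)
    (by rw [hη]; exact (W.summable_H D hp).add (W.summable_H D.neg hm))
    (le_trans hC₁ (le_max_left _ _))
    (by
      intro i w m t h1 h2
      have a1 := h₁ (max C₁ C₂) F (le_max_left _ _) hr i w m t h1 h2
      have a2 := h₂ (max C₁ C₂) F (le_max_right _ _) hl i w m t h1 h2
      have e : η i / 2 ^ i = (W.nu D fun b => (2 : ℝ) ^ i - 2 < D.H b).toReal +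
          (W.nu D.neg fun b => (2 : ℝ) ^ i - 2 < D.neg.H b).toReal := by
        rw [hη]; field_simp
      have n1 : 0 ≤ (W.nu D fun b => (2 : ℝ) ^ i - 2 < D.H b).toReal := ENNReal.toReal_nonneg
      have n2 : 0 ≤ (W.nu D.neg fun b => (2 : ℝ) ^ i - 2 < D.neg.H b).toReal :=
        ENNReal.toReal_nonneg
      rw [e]
      have : F t = max (W.nu D fun b => t < rad b).toReal
          (W.nu D.neg fun b => t < rad b).toReal := by rw [hF]
      rw [this]
      exact max_le (by linarith) (by linarith))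
  obtain ⟨β, hβ⟩ := hb
  refine ⟨β * 4, ?_⟩
  have ht : Tendsto (fun T : ℕ => 4 * T) atTop atTop :=
    tendsto_atTop_mono (fun T => by simp only [id]; omega) tendsto_id
  filter_upwards [ht.eventually hβ] with T hT
  rw [mul_assoc]
  exact ⟨(hl _).trans hT, (hr _).trans hT⟩

end Vale.Agent.P147
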