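import Vale.Agent.P147.Trunc
import Vale.Agent.P147.Tail
import Vale.Agent.P147.KeyT
import Vale.Agent.P147.Rs

open MeasureTheory Filter Topology
open scoped ENNReal

namespace Vale.Agent.P147

variable {d : ℕ}

theorem LinkX.conv {x : ℝ} {X Y p q : ℝ≥0∞} (hp : 0 < p) (hq : 0 < q) (hp' : p ≠ ⊤) (hq' : q ≠ ⊤)
    (hY : Y ≠ ⊤) (h1 : ENNReal.ofReal x ≤ 2 * X) (h2 : p * q * X ≤ Y) :
    x ≤ 2 / (p.toReal * q.toReal) * Y.toReal := by
  have p0 := ENNReal.toReal_pos hp.ne' hp'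
  have q0 := ENNReal.toReal_pos hq.ne' hq'
  have h3 : p * q * ENNReal.ofReal x ≤ 2 * Y := by
    calc p * q * ENNReal.ofReal x ≤ p * q * (2 * X) := mul_le_mul' le_rfl h1
      _ = 2 * (p * q * X) := by ring
      _ ≤ 2 * Y := mul_le_mul' le_rfl h2
  have h4 := ENNReal.toReal_mono (ENNReal.mul_ne_top (by simp) hY) h3
  rw [ENNReal.toReal_mul, ENNReal.toReal_mul, ENNReal.toReal_mul, ENNReal.toReal_ofReal',
    ENNReal.toReal_ofNat] at h4
  rw [div_mul_eq_mul_div, le_div_iff₀ (mul_pos p0 q0)]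
  have := mul_le_mul_of_nonneg_left (le_max_left x 0) (mul_pos p0 q0).le
  linarith

namespace RW

variable (W : RW d) {D : Dir d}

theorem LinkX_ex2 (Fp : FM D) (Fm : FM D.neg) {c : ℝ≥0∞}
    (h1 : ∀ b ∈ Fp.S, ENNReal.ofReal (Fp.ν b) ≤ c * W.w b)
    (h2 : ∀ b ∈ Fm.S, ENNReal.ofReal (Fm.ν b) ≤ c * W.w b) (m r : ℕ)
    (Q : List (Pa d) → List (Pa d) → Prop) :
    ENNReal.ofReal (Fp.Ex m fun up => Fm.Ex r fun K => ind (Q up K)) ≤
      c ^ (m + r) * W.BE D m fun up => W.BE D.neg r fun K => indE (Q up K) := by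
  refine (W.Ex_le_BE Fp h1 m _ (fun up => c ^ r * W.BE D.neg r fun K => indE (Q up K)) fun up =>
    W.Ex_le_BE Fm h2 r _ _ fun K => (TruncX.ofReal_ind _).le).trans (le_of_eq ?_)
  rw [W.BE_mul, pow_add, mul_assoc]

theorem LinkX_ex3 (Fp : FM D) (Fm : FM D.neg) {N : ℕ} {c : ℝ≥0∞} (hc1 : 1 ≤ c) (hc : c ^ N ≤ 2)
    (h1 : ∀ b ∈ Fp.S, ENNReal.ofReal (Fp.ν b) ≤ c * W.w b)
    (h2 : ∀ b ∈ Fm.S, ENNReal.ofReal (Fm.ν b) ≤ c * W.w b) {n m r : ℕ} (h : n + m + r ≤ N)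
    (Q : List (Pa d) → List (Pa d) → List (Pa d) → Prop) :
    ENNReal.ofReal (Fp.Ex n fun low => Fp.Ex m fun up => Fm.Ex r fun K => ind (Q low up K)) ≤
      2 * W.BE D n fun low => W.BE D m fun up => W.BE D.neg r fun K => indE (Q low up K) := by
  refine (W.Ex_le_BE Fp h1 n _ (fun low => c ^ (m + r) * W.BE D m fun up =>
    W.BE D.neg r fun K => indE (Q low up K)) fun low =>
    W.LinkX_ex2 Fp Fm h1 h2 m r (Q low)).trans ?_
  rw [W.BE_mul, ← mul_assoc, ← pow_add]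
  exact mul_le_mul' ((pow_le_pow_right₀ hc1 (by omega)).trans hc) le_rfl

theorem keyHyp (hp : 0 < W.P D.Stay) (hm : 0 < W.P D.neg.Stay) (Fp : FM D) (Fm : FM D.neg)
    (N : ℕ) (c : ℝ≥0∞) (hc1 : 1 ≤ c) (hc : c ^ N ≤ 2)
    (h1 : ∀ b ∈ Fp.S, ENNReal.ofReal (Fp.ν b) ≤ c * W.w b)
    (h2 : ∀ b ∈ Fm.S, ENNReal.ofReal (Fm.ν b) ≤ c * W.w b) :
    KeyHyp Fp Fm N (2 / ((W.P D.Stay).toReal * (W.P D.neg.Stay).toReal))
      (fun n lam C => (W.Rt D n lam C).toReal) (fun a b => (W.P (D.RS a b)).toReal)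
      (fun K => 2 * (W.P (D.ES K)).toReal + 2 * (W.P (D.neg.ES K)).toReal) := by
  have t2 : ∀ i : ℕ, (2 : ℝ≥0∞) ^ i ≠ 0 := fun i => pow_ne_zero _ two_ne_zero
  have f1 : ∀ n lam C i : ℕ, 2 * i * W.Rt D n lam C ≠ ⊤ := fun n lam C i =>
    ENNReal.mul_ne_top (ENNReal.mul_ne_top (by simp) (by simp)) (W.Rt_lt_top D n lam C).ne
  refine ⟨fun _ _ _ => ENNReal.toReal_nonneg, fun _ _ => ENNReal.toReal_nonneg,
    fun n m r h y lam C i => ?_, fun n m r h v lam C i κ hκ B => ?_,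
    fun m r h y K₀ hK => ?_, fun a a' lam C b h => ?_⟩
  · have f2 : (1 : ℝ≥0∞) / 2 ^ i ≠ ⊤ := ENNReal.div_ne_top (by simp) (t2 i)
    refine (LinkX.conv hp hm (measure_ne_top _ _) (measure_ne_top _ _)
      (ENNReal.add_ne_top.2 ⟨f1 n lam C i, f2⟩) (W.LinkX_ex3 Fp Fm hc1 hc h1 h2 h _)
      (W.key_two D n m r y lam C i)).trans (le_of_eq ?_)
    rw [ENNReal.toReal_add (f1 n lam C i) f2]
    simp
  · have f2 : (B.card : ℝ≥0∞) / 2 ^ i ≠ ⊤ := ENNReal.div_ne_top (by simp) (t2 i)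
    have k := W.key_one D n m r v lam C i κ hκ B
    rw [← Finset.mul_sum] at k
    refine (LinkX.conv hp hm (measure_ne_top _ _) (measure_ne_top _ _)
      (ENNReal.add_ne_top.2 ⟨f1 n lam C i, f2⟩) ?_ k).trans (le_of_eq ?_)
    · rw [Finset.mul_sum]
      exact (TruncX.ofReal_sum_le _ _).trans
        (Finset.sum_le_sum fun b _ => W.LinkX_ex3 Fp Fm hc1 hc h1 h2 h _)
    · rw [ENNReal.toReal_add (f1 n lam C i) f2]
      simp
  · have f2 : ∀ A, 2 * W.P A ≠ ⊤ := fun A => ENNReal.mul_ne_top (by simp) (measure_ne_top _ _)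
    refine (LinkX.conv hp hm (measure_ne_top _ _) (measure_ne_top _ _)
      (ENNReal.add_ne_top.2 ⟨f2 _, f2 _⟩) ((W.LinkX_ex2 Fp Fm h1 h2 m r _).trans
        (mul_le_mul' ((pow_le_pow_right₀ hc1 h).trans hc) le_rfl))
      (W.key_top D m r y K₀ (by exact_mod_cast hK))).trans (le_of_eq ?_)
    rw [ENNReal.toReal_add (f2 _) (f2 _)]
    simp
  · have := ENNReal.toReal_mono (ENNReal.mul_ne_top (by simp) (measure_ne_top _ _))
      (W.rsum D a a' lam C b h)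
    rw [ENNReal.toReal_sum fun n _ => (W.Rt_lt_top D n lam C).ne, ENNReal.toReal_mul,
      ENNReal.toReal_add (by simp) (by simp)] at this
    simpa using this

theorem link (hp : 0 < W.P D.Stay) (hm : 0 < W.P D.neg.Stay) :
    ∃ (β hs : ℕ) (cK : ℝ) (om eps : ℕ → ℝ), 1 ≤ hs ∧ 0 < cK ∧ Tendsto om atTop (𝓝 0) ∧
      Tendsto eps atTop (𝓝 0) ∧ ∀ᶠ T : ℕ in atTop, ∃ (Fp : FM D) (Fm : FM D.neg)
        (R : ℕ → ℕ → ℕ → ℝ), Fp.Good hs om (2 ^ (β * T)) ∧ Fm.Good hs om (2 ^ (β * T)) ∧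
          KeyHyp Fp Fm (2 ^ (3 * T)) cK R (fun a b => (W.P (D.RS a b)).toReal) eps := by
  obtain ⟨β, hβ⟩ := W.tail D hp hm
  obtain ⟨s1, o1, a1, a2, a3, a4⟩ := W.good_of hp
  obtain ⟨s2, o2, -, b2, b3, b4⟩ := W.good_of hm
  have p0 := ENNReal.toReal_pos hp.ne' (measure_ne_top _ _)
  have q0 := ENNReal.toReal_pos hm.ne' (measure_ne_top _ _)
  refine ⟨β, max s1 s2, 2 / ((W.P D.Stay).toReal * (W.P D.neg.Stay).toReal),
    fun M => o1 M + o2 M, fun K => 2 * (W.P (D.ES K)).toReal + 2 * (W.P (D.neg.ES K)).toReal,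
    a1.trans (le_max_left _ _), by positivity, by simpa using a3.add b3, ?_, ?_⟩
  · have e1 := ((ENNReal.tendsto_toReal ENNReal.zero_ne_top).comp (W.ES_tendsto D)).const_mul 2
    have e2 := ((ENNReal.tendsto_toReal ENNReal.zero_ne_top).comp
      (W.ES_tendsto D.neg)).const_mul 2
    simpa using e1.add e2
  filter_upwards [hβ, eventually_ge_atTop 3] with T hT h3
  have key : ∀ x : ℝ, x ≤ 1 / 2 ^ (4 * T) → 8 * ((2 ^ (3 * T) : ℕ) : ℝ) * x ≤ 1 := fun x hx => by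
    refine (mul_le_mul_of_nonneg_left hx (by positivity)).trans ?_
    rw [mul_one_div, div_le_one (by positivity)]
    have : 2 ^ 3 * 2 ^ (3 * T) ≤ 2 ^ (4 * T) := by
      rw [← pow_add]
      exact Nat.pow_le_pow_right (by norm_num) (by omega)
    exact_mod_cast this
  have N1 : 1 ≤ 2 ^ (3 * T) := Nat.one_le_two_pow
  obtain ⟨Fp, c1, p1, p2, p3, p4⟩ := W.trunc hp (2 ^ (β * T)) (2 ^ (3 * T)) N1 (key _ hT.1)
  obtain ⟨Fm, c2, q1, q2, q3, q4⟩ := W.trunc hm (2 ^ (β * T)) (2 ^ (3 * T)) N1 (key _ hT.2)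
  have le2 : ∀ c : ℝ≥0∞, 1 ≤ c → c ^ 2 ^ (3 * T) ≤ 2 → c ≤ 2 := fun c h1 h2 =>
    ((pow_one c).symm.le.trans (pow_le_pow_right₀ h1 N1)).trans h2
  refine ⟨Fp, Fm, fun n lam C => (W.Rt D n lam C).toReal,
    (a4 Fp _ p3 fun b hb => (p4 b hb).trans (mul_le_mul' (le2 c1 p1 p2) le_rfl)).mono
      (le_max_left _ _) fun M => le_add_of_nonneg_right (b2 M),
    (b4 Fm _ q3 fun b hb => (q4 b hb).trans (mul_le_mul' (le2 c2 q1 q2) le_rfl)).mono
      (le_max_right _ _) fun M => le_add_of_nonneg_left (a2 M),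
    W.keyHyp hp hm Fp Fm _ (max c1 c2) (p1.trans (le_max_left _ _)) ?_
      (fun b hb => (p4 b hb).trans (mul_le_mul' (le_max_left _ _) le_rfl))
      fun b hb => (q4 b hb).trans (mul_le_mul' (le_max_right _ _) le_rfl)⟩
  rcases max_choice c1 c2 with h | h <;> rw [h] <;> assumption

end RW

end Vale.Agent.P147
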