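import Vale.Agent.P147.Core
import Vale.Agent.P147.Link
import Vale.Agent.P147.Env

open MeasureTheory Filter Topology
open scoped ENNReal

namespace Vale.Agent.P147

variable {d : ℕ}

theorem RW.not_both (W : RW d) (D : Dir d) (hp : 0 < W.P D.Stay) (hm : 0 < W.P D.neg.Stay) :
    False := by
  obtain ⟨β, hs, cK, om, eps, h1, h2, h3, h4, h5⟩ := W.link hp hm
  obtain ⟨k, m, c, hk, hc, h6⟩ := core d β hs h1 cK h2 om eps h3 h4
  have t1 : Tendsto (fun T : ℕ => k * 2 ^ T) atTop atTop :=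
    tendsto_atTop_mono (fun T => (Nat.lt_two_pow_self (n := T)).le.trans
      (Nat.le_mul_of_pos_left _ hk)) tendsto_id
  have t2 : Tendsto (fun T : ℕ => ((m : ℝ) + 1) * (W.P (D.ES (k * 2 ^ T : ℕ))).toReal) atTop
      (𝓝 0) := by
    have := ((ENNReal.tendsto_toReal ENNReal.zero_ne_top).comp
      ((W.ES_tendsto D).comp t1)).const_mul ((m : ℝ) + 1)
    simpa [Function.comp_def] using this
  obtain ⟨T, ⟨⟨Fp, Fm, R, g1, g2, g3⟩, g4⟩, g5⟩ :=
    ((h5.and h6).and (t2.eventually_lt_const hc)).exists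
  have e1 := g4 D Fp Fm R _ g1 g2 g3
  have e2 := ENNReal.toReal_mono
    (ENNReal.mul_ne_top (by simp) (measure_ne_top _ _)) (W.RS_sum D k m T (2 * T) hk)
  rw [ENNReal.toReal_sum fun J _ => measure_ne_top _ _, ENNReal.toReal_mul,
    ENNReal.toReal_add (by simp) (by simp), ENNReal.toReal_natCast, ENNReal.toReal_one] at e2
  exact absurd (e1.trans e2) (not_le.2 g5)

theorem RW.zero_one (W : RW d) (D : Dir d) : W.P D.Esc = 0 ∨ W.P D.Esc = 1 := by
  by_contra h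
  rw [not_or] at h
  have h0 : 0 < W.P D.Esc := pos_iff_ne_zero.2 h.1
  exact W.not_both D (W.stay_pos D h0) (W.stay_pos D.neg (W.kalikow D h0 h.2))

theorem zero_one (hd : 1 ≤ d) (μ : Measure (stdSimplex ℝ (St d))) [IsProbabilityMeasure μ]
    (hell : ∀ᵐ p ∂μ, ∀ u, 0 < p u) (P : Measure (ℕ → St d)) [IsProbabilityMeasure P]
    (hP : ∀ (n : ℕ) (t : ℕ → St d), P {s | ∀ i < n, s i = t i} =
      ∫⁻ ω, ∏ i ∈ Finset.range n, ENNReal.ofReal (ω (pos t i) (t i))
        ∂(Measure.infinitePi fun _ : V d => μ)) (l : Fin d → ℝ) (hl : l ≠ 0) :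
    P {s | Tendsto (fun n => ∑ i, l i * (pos s n i : ℝ)) atTop atTop} = 0 ∨
      P {s | Tendsto (fun n => ∑ i, l i * (pos s n i : ℝ)) atTop atTop} = 1 := by
  obtain ⟨W, rfl⟩ := exists_RW μ hell P hd hP
  obtain ⟨D, hD⟩ := exists_Dir l hl
  rw [← hD]
  exact W.zero_one D

end Vale.Agent.P147
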