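import Vale.Agent.P147.Defs

open MeasureTheory Filter Topology
open scoped ENNReal

namespace Vale.Agent.P147

variable {d : ℕ}

theorem ind_nonneg (p : Prop) : 0 ≤ ind p := by
  unfold ind; split_ifs <;> norm_num
theorem ind_le_one (p : Prop) : ind p ≤ 1 := by
  unfold ind; split_ifs <;> norm_num
theorem ind_pos {p : Prop} (h : p) : ind p = 1 := by
  unfold ind; rw [if_pos h]
theorem ind_neg {p : Prop} (h : ¬ p) : ind p = 0 := by
  unfold ind; rw [if_neg h]
theorem ind_mono {p q : Prop} (h : p → q) : ind p ≤ ind q := by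
  by_cases hp : p
  · rw [ind_pos hp, ind_pos (h hp)]
  · rw [ind_neg hp]; exact ind_nonneg q
theorem ind_and (p q : Prop) : ind (p ∧ q) = ind p * ind q := by
  by_cases hp : p
  · by_cases hq : q
    · rw [ind_pos hp, ind_pos hq, ind_pos ⟨hp, hq⟩, one_mul]
    · rw [ind_neg hq, ind_neg (fun h => hq h.2), mul_zero]
  · rw [ind_neg hp, ind_neg (fun h => hp h.1), zero_mul]
theorem ind_or_le (p q : Prop) : ind (p ∨ q) ≤ ind p + ind q := by
  by_cases hp : p
  · rw [ind_pos hp, ind_pos (Or.inl hp)]
    linarith [ind_nonneg q]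
  · rw [ind_neg hp, zero_add]
    exact ind_mono fun h => h.resolve_left hp
theorem ind_not (p : Prop) : ind (¬ p) = 1 - ind p := by
  by_cases hp : p
  · rw [ind_pos hp, ind_neg (not_not.mpr hp), sub_self]
  · rw [ind_neg hp, ind_pos hp, sub_zero]
theorem ind_exists_le {ι : Type} (s : Finset ι) (p : ι → Prop) :
    ind (∃ i ∈ s, p i) ≤ ∑ i ∈ s, ind (p i) := by
  by_cases h : ∃ i ∈ s, p i
  · rw [ind_pos h]
    obtain ⟨i, hi, hp⟩ := h
    rw [← ind_pos hp]
    exact Finset.single_le_sum (f := fun i => ind (p i)) (fun j _ => ind_nonneg (p j)) hi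
  · rw [ind_neg h]
    exact Finset.sum_nonneg fun j _ => ind_nonneg (p j)
theorem indE_le_one (p : Prop) : indE p ≤ 1 := by
  unfold indE; split_ifs <;> simp
theorem indE_pos {p : Prop} (h : p) : indE p = 1 := by
  unfold indE; rw [if_pos h]
theorem indE_neg {p : Prop} (h : ¬ p) : indE p = 0 := by
  unfold indE; rw [if_neg h]
theorem indE_mono {p q : Prop} (h : p → q) : indE p ≤ indE q := by
  by_cases hp : p
  · rw [indE_pos hp, indE_pos (h hp)]
  · rw [indE_neg hp]; exact zero_le
theorem indE_and (p q : Prop) : indE (p ∧ q) = indE p * indE q := by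
  by_cases hp : p
  · by_cases hq : q
    · rw [indE_pos hp, indE_pos hq, indE_pos ⟨hp, hq⟩, one_mul]
    · rw [indE_neg hq, indE_neg (fun h => hq h.2), mul_zero]
  · rw [indE_neg hp, indE_neg (fun h => hp h.1), zero_mul]
theorem indE_or_le (p q : Prop) : indE (p ∨ q) ≤ indE p + indE q := by
  by_cases hp : p
  · rw [indE_pos hp, indE_pos (Or.inl hp)]
    exact le_self_add
  · rw [indE_neg hp, zero_add]
    exact indE_mono fun h => h.resolve_left hp
theorem ofReal_ind (p : Prop) : ENNReal.ofReal (ind p) = indE p := by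
  by_cases hp : p
  · rw [ind_pos hp, indE_pos hp, ENNReal.ofReal_one]
  · rw [ind_neg hp, indE_neg hp, ENNReal.ofReal_zero]

@[simp] theorem disp_nil : disp ([] : Pa d) = 0 := by simp [disp]
@[simp] theorem disp_cons (u : St d) (γ : Pa d) : disp (u :: γ) = stp u + disp γ := by
  simp [disp]
@[simp] theorem disp_append (a b : Pa d) : disp (a ++ b) = disp a + disp b := by simp [disp]
theorem disp_replicate (n : ℕ) (u : St d) : disp (List.replicate n u) = n • stp u := by
  simp [disp]
theorem dep_append (x : V d) (a b : Pa d) : dep x (a ++ b) = dep x a ++ dep (x + disp a) b := by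
  induction a generalizing x with
  | nil => simp [dep]
  | cons u a ih => simp [dep, ih, add_assoc]
theorem dep_add (x y : V d) (γ : Pa d) : dep (x + y) γ = (dep y γ).map fun p => x + p := by
  induction γ generalizing y with
  | nil => simp [dep]
  | cons u a ih => simp only [dep, List.map_cons, add_assoc, ih]
theorem mem_dep_iff {x p : V d} {γ : Pa d} :
    p ∈ dep x γ ↔ ∃ a b : Pa d, γ = a ++ b ∧ b ≠ [] ∧ p = x + disp a := by
  induction γ generalizing x with
  | nil =>
    simp only [dep, List.not_mem_nil, false_iff]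
    rintro ⟨a, b, h, hb, -⟩
    exact hb (List.append_eq_nil_iff.mp h.symm).2
  | cons u γ ih =>
    simp only [dep, List.mem_cons, ih]
    constructor
    · rintro (h | ⟨a, b, h, hb, hp⟩)
      · exact ⟨[], u :: γ, rfl, List.cons_ne_nil _ _, by simp [h]⟩
      · exact ⟨u :: a, b, by simp [h], hb, by simp [hp, add_assoc]⟩
    · rintro ⟨a, b, h, hb, hp⟩
      cases a with
      | nil => left; simpa using hp
      | cons v a =>
        right
        simp only [List.cons_append, List.cons.injEq] at h
        obtain ⟨rfl, h⟩ := h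
        exact ⟨a, b, h, hb, by simp [hp, add_assoc]⟩
theorem mem_pts {x p : V d} {γ : Pa d} : p ∈ pts x γ ↔ p ∈ dep x γ ∨ p = x + disp γ := by
  simp [pts]
theorem mem_pts_iff {x p : V d} {γ : Pa d} :
    p ∈ pts x γ ↔ ∃ a : Pa d, a <+: γ ∧ p = x + disp a := by
  rw [mem_pts, mem_dep_iff]
  constructor
  · rintro (⟨a, b, h, -, hp⟩ | h)
    · exact ⟨a, ⟨b, h.symm⟩, hp⟩
    · exact ⟨γ, List.prefix_refl γ, h⟩
  · rintro ⟨a, ⟨b, h⟩, hp⟩
    by_cases hb : b = []
    · right
      subst hb
      rw [List.append_nil] at h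
      rw [← h]; exact hp
    · exact Or.inl ⟨a, b, h.symm, hb, hp⟩
theorem mem_pts_append {x p : V d} {a b : Pa d} :
    p ∈ pts x (a ++ b) ↔ p ∈ dep x a ∨ p ∈ pts (x + disp a) b := by
  rw [mem_pts, mem_pts, dep_append, List.mem_append, disp_append, add_assoc, or_assoc]
theorem mem_dep_zero {x p : V d} {γ : Pa d} : p ∈ dep x γ ↔ p - x ∈ dep 0 γ := by
  simp only [mem_dep_iff, zero_add, sub_eq_iff_eq_add']
theorem mem_pts_zero {x p : V d} {γ : Pa d} : p ∈ pts x γ ↔ p - x ∈ pts 0 γ := by
  simp only [mem_pts_iff, zero_add, sub_eq_iff_eq_add']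
theorem self_mem_pts (x : V d) (γ : Pa d) : x ∈ pts x γ :=
  mem_pts_iff.mpr ⟨[], List.nil_prefix, by simp⟩
theorem dep_prefix {x p : V d} {a b : Pa d} (h : a <+: b) (hp : p ∈ dep x a) : p ∈ dep x b := by
  obtain ⟨c, rfl⟩ := h
  rw [dep_append]
  exact List.mem_append_left _ hp
theorem pts_prefix {x p : V d} {a b : Pa d} (h : a <+: b) (hp : p ∈ pts x a) : p ∈ pts x b := by
  obtain ⟨c, hc, rfl⟩ := mem_pts_iff.mp hp
  exact mem_pts_iff.mpr ⟨c, hc.trans h, rfl⟩
/-- first point of a path with a property -/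
theorem exists_first {x : V d} {γ : Pa d} {Q : V d → Prop} (h : ∃ p ∈ pts x γ, Q p) :
    ∃ a : Pa d, a <+: γ ∧ Q (x + disp a) ∧ ∀ p ∈ dep x a, ¬ Q p := by
  induction γ generalizing x with
  | nil =>
    obtain ⟨p, hp, hQ⟩ := h
    refine ⟨[], List.nil_prefix, ?_, by simp [dep]⟩
    rw [mem_pts] at hp
    rcases hp with hp | hp
    · simp [dep] at hp
    · rw [← hp]; exact hQ
  | cons u γ ih =>
    by_cases hx : Q x
    · exact ⟨[], List.nil_prefix, by simpa using hx, by simp [dep]⟩
    · obtain ⟨p, hp, hQ⟩ := h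
      have hp' : p ∈ pts (x + stp u) γ := by
        rw [mem_pts] at hp ⊢
        rcases hp with hp | hp
        · simp only [dep, List.mem_cons] at hp
          rcases hp with rfl | hp
          · exact absurd hQ hx
          · exact Or.inl hp
        · right; rw [hp, disp_cons, add_assoc]
      obtain ⟨a, ha, hQa, hn⟩ := ih ⟨p, hp', hQ⟩
      refine ⟨u :: a, (List.prefix_cons_inj u).mpr ha, ?_, ?_⟩
      · rw [disp_cons, ← add_assoc]; exact hQa
      · intro q hq
        simp only [dep, List.mem_cons] at hq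
        rcases hq with rfl | hq
        · exact hx
        · exact hn q hq
/-- paths stopped at the first point with a property form a prefix-free family -/
theorem pf_first (x : V d) (Q : V d → Prop) :
    PF {a : Pa d | Q (x + disp a) ∧ ∀ p ∈ dep x a, ¬ Q p} := by
  rintro a ⟨ha, -⟩ b ⟨-, hb⟩ ⟨c, rfl⟩
  by_cases hc : c = []
  · simp [hc]
  · exact absurd ha (hb _ (mem_dep_iff.mpr ⟨a, c, rfl, hc, rfl⟩))
theorem PF.mono {F G : Set (Pa d)} (h : PF G) (hs : F ⊆ G) : PF F :=
  fun a ha b hb hab => h a (hs ha) b (hs hb) hab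

@[simp] theorem sumd_nil : sumd ([] : List (Pa d)) = 0 := by simp [sumd]
@[simp] theorem sumd_cons (b : Pa d) (L : List (Pa d)) : sumd (b :: L) = disp b + sumd L := by
  simp [sumd]
@[simp] theorem sumd_append (L K : List (Pa d)) : sumd (L ++ K) = sumd L + sumd K := by
  simp [sumd]
@[simp] theorem sumd_reverse (L : List (Pa d)) : sumd L.reverse = sumd L := by
  induction L with
  | nil => rfl
  | cons b L ih => simp [ih, add_comm]
@[simp] theorem disp_flatten (L : List (Pa d)) : disp L.flatten = sumd L := by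
  induction L with
  | nil => simp
  | cons b L ih => simp [ih]
theorem sumd_take_add (L : List (Pa d)) (a b : ℕ) :
    sumd (L.take (a + b)) = sumd (L.take a) + sumd ((L.drop a).take b) := by
  rw [List.take_add, sumd_append]
theorem mem_dep_flatten {x p : V d} {L : List (Pa d)} :
    p ∈ dep x L.flatten ↔ ∃ i, ∃ h : i < L.length, p ∈ dep (x + sumd (L.take i)) L[i] := by
  induction L generalizing x with
  | nil => simp [dep]
  | cons b L ih =>
    rw [List.flatten_cons, dep_append, List.mem_append, ih]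
    constructor
    · rintro (h | ⟨i, hi, h⟩)
      · exact ⟨0, by simp, by simpa using h⟩
      · refine ⟨i + 1, by simpa using hi, ?_⟩
        simpa [add_assoc] using h
    · rintro ⟨i, hi, h⟩
      cases i with
      | zero => left; simpa using h
      | succ i =>
        right
        refine ⟨i, by simpa using hi, ?_⟩
        simpa [add_assoc] using h
/-- block `i` of a top-to-bottom list starts at `sumd L - sumd (L.take (i+1))` -/
theorem mem_dep_flatten_reverse {x p : V d} {L : List (Pa d)} :
    p ∈ dep x L.reverse.flatten ↔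
      ∃ i, ∃ h : i < L.length, p ∈ dep (x + sumd L - sumd (L.take (i + 1))) L[i] := by
  induction L with
  | nil => simp [dep]
  | cons b L ih =>
    rw [List.reverse_cons, List.flatten_append, dep_append, List.mem_append, ih, disp_flatten,
      sumd_reverse]
    have e0 : x + sumd (b :: L) - sumd ((b :: L).take (0 + 1)) = x + sumd L := by
      simp only [sumd_cons, zero_add, List.take_succ_cons, List.take_zero, sumd_nil]
      abel
    have e1 : ∀ i, x + sumd (b :: L) - sumd ((b :: L).take (i + 1 + 1)) =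
        x + sumd L - sumd (L.take (i + 1)) := by
      intro i
      simp only [sumd_cons, List.take_succ_cons]
      abel
    constructor
    · rintro (⟨i, hi, h⟩ | h)
      · refine ⟨i + 1, by simpa using hi, ?_⟩
        rw [e1]
        simpa using h
      · refine ⟨0, by simp, ?_⟩
        rw [e0]
        simpa using h
    · rintro ⟨i, hi, h⟩
      cases i with
      | zero =>
        right
        rw [e0] at h
        simpa using h
      | succ i =>
        left
        refine ⟨i, by simpa using hi, ?_⟩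
        rw [e1] at h
        simpa using h

theorem nrm_le_iff {x : V d} {r : ℕ} : nrm x ≤ r ↔ ∀ i, (x i).natAbs ≤ r := by
  simp [nrm, Finset.sup_le_iff]
theorem natAbs_le_nrm (x : V d) (i : Fin d) : (x i).natAbs ≤ nrm x :=
  nrm_le_iff.mp le_rfl i
theorem nrm_add_le (x y : V d) : nrm (x + y) ≤ nrm x + nrm y :=
  nrm_le_iff.mpr fun i =>
    (Int.natAbs_add_le _ _).trans (add_le_add (natAbs_le_nrm x i) (natAbs_le_nrm y i))
theorem nrm_neg (x : V d) : nrm (-x) = nrm x := by simp [nrm]
theorem nrm_zero : nrm (0 : V d) = 0 :=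
  Nat.le_zero.mp (nrm_le_iff.mpr fun i => by simp)
theorem nrm_stp_le (u : St d) : nrm (stp u) ≤ 1 := by
  refine nrm_le_iff.mpr fun i => ?_
  rcases u with ⟨j, b⟩
  by_cases h : i = j
  · subst h; cases b <;> simp [stp]
  · simp [stp, Pi.single_eq_of_ne h]
theorem mem_ball {x : V d} {r : ℕ} : x ∈ ball d r ↔ nrm x ≤ r := by
  rw [nrm_le_iff, ball, Fintype.mem_piFinset]
  refine forall_congr' fun i => ?_
  rw [Finset.mem_Icc]
  omega
theorem card_ball (d r : ℕ) : (ball d r).card = (2 * r + 1) ^ d := by
  rw [ball, Fintype.card_piFinset]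
  have : (Finset.Icc (-(r : ℤ)) r).card = 2 * r + 1 := by
    rw [Int.card_Icc]; omega
  simp only [this, Finset.prod_const, Finset.card_univ, Fintype.card_fin]
theorem le_foldr_max {l : List ℕ} {a : ℕ} (h : a ∈ l) : a ≤ l.foldr max 0 := by
  induction l with
  | nil => simp at h
  | cons b l ih =>
    rw [List.foldr_cons]
    rcases List.mem_cons.mp h with rfl | h
    · exact le_max_left _ _
    · exact (ih h).trans (le_max_right _ _)
theorem foldr_max_mem {l : List ℕ} : l.foldr max 0 ∈ l ∨ l.foldr max 0 = 0 := by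
  induction l with
  | nil => simp
  | cons b l ih =>
    rw [List.foldr_cons]
    rcases le_total b (l.foldr max 0) with h | h
    · rw [max_eq_right h]
      rcases ih with ih | ih
      · exact Or.inl (List.mem_cons_of_mem _ ih)
      · exact Or.inr ih
    · rw [max_eq_left h]
      exact Or.inl List.mem_cons_self
theorem nrm_le_rad {p : V d} {γ : Pa d} (h : p ∈ pts 0 γ) : nrm p ≤ rad γ :=
  le_foldr_max (List.mem_map_of_mem h)
theorem exists_rad (γ : Pa d) : ∃ p ∈ pts 0 γ, nrm p = rad γ := by
  rcases foldr_max_mem (l := (pts 0 γ).map nrm) with h | h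
  · obtain ⟨p, hp, e⟩ := List.mem_map.mp h
    exact ⟨p, hp, e⟩
  · exact ⟨0, self_mem_pts 0 γ, by rw [nrm_zero]; exact h.symm⟩
theorem nrm_disp_le_rad (γ : Pa d) : nrm (disp γ) ≤ rad γ :=
  nrm_le_rad (mem_pts.mpr (Or.inr (zero_add _).symm))
theorem nrm_sumd_le (L : List (Pa d)) : nrm (sumd L) ≤ (L.map rad).sum := by
  induction L with
  | nil => simp [nrm_zero]
  | cons b L ih =>
    rw [sumd_cons, List.map_cons, List.sum_cons]
    exact (nrm_add_le _ _).trans (add_le_add (nrm_disp_le_rad b) ih)
theorem rad_append_le (a b : Pa d) : rad (a ++ b) ≤ rad a + rad b := by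
  obtain ⟨p, hp, e⟩ := exists_rad (a ++ b)
  rw [← e]
  rcases mem_pts_append.mp hp with h | h
  · exact (nrm_le_rad (mem_pts.mpr (Or.inl h))).trans (Nat.le_add_right _ _)
  · rw [mem_pts_zero, zero_add] at h
    have e2 : p = disp a + (p - disp a) := by abel
    rw [e2]
    exact (nrm_add_le _ _).trans (add_le_add (nrm_disp_le_rad a) (nrm_le_rad h))
theorem rad_nil : rad ([] : Pa d) = 0 := by
  simp [rad, pts, dep, nrm_zero]
theorem rad_flatten_le (L : List (Pa d)) : rad L.flatten ≤ (L.map rad).sum := by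
  induction L with
  | nil => simp [rad_nil]
  | cons b L ih =>
    rw [List.flatten_cons, List.map_cons, List.sum_cons]
    exact (rad_append_le _ _).trans (Nat.add_le_add_left ih _)

end Vale.Agent.P147
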