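import Vale.Agent.P147.Wt

open MeasureTheory Filter Topology
open scoped ENNReal

namespace Vale.Agent.P147

variable {d : ℕ}

namespace SlabA

theorem exists_visit (x : V d) (γ' : Pa d) : ∀ (y : V d) (r : ℕ), r + 1 ≤ (dep y γ').count x →
    ∃ γ : Pa d, γ <+: γ' ∧ y + disp γ = x ∧ (dep y γ).count x = r := by
  induction γ' with
  | nil => intro y r h; simp [dep] at h
  | cons u γ' ih =>
    intro y r h
    simp only [dep, List.count_cons, beq_iff_eq] at h
    by_cases hy : y = x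
    · rw [if_pos hy] at h
      cases r with
      | zero => exact ⟨[], List.nil_prefix, by simp [hy], by simp [dep]⟩
      | succ r =>
        obtain ⟨γ, h1, h2, h3⟩ := ih (y + stp u) r (by omega)
        refine ⟨u :: γ, (List.prefix_cons_inj u).mpr h1, by rw [disp_cons, ← add_assoc, h2], ?_⟩
        simp only [dep, List.count_cons, beq_iff_eq]
        rw [if_pos hy, h3]
    · rw [if_neg hy] at h
      obtain ⟨γ, h1, h2, h3⟩ := ih (y + stp u) r (by omega)
      refine ⟨u :: γ, (List.prefix_cons_inj u).mpr h1, by rw [disp_cons, ← add_assoc, h2], ?_⟩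
      simp only [dep, List.count_cons, beq_iff_eq]
      rw [if_neg hy, h3, add_zero]

/-- paths staying above `a` that end at `x` after `r` earlier visits -/
def S (D : Dir d) (a : ℝ) (x : V d) (r : ℕ) : Set (Pa d) :=
  {γ | (∀ p ∈ pts 0 γ, a ≤ D.lev p) ∧ disp γ = x ∧ (dep 0 γ).count x = r}

theorem S_pf (D : Dir d) (a : ℝ) (x : V d) (r : ℕ) : PF (S D a x r) := by
  rintro γ ⟨_, h2, h3⟩ _ ⟨_, _, h6⟩ ⟨ξ, rfl⟩
  cases ξ with
  | nil => simp
  | cons u ξ =>
    rw [dep_append, zero_add, h2, List.count_append, h3] at h6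
    simp [dep] at h6

theorem S_pre (D : Dir d) (a : ℝ) (x : V d) (r : ℕ) {γ' : Pa d}
    (h1 : ∀ p ∈ pts 0 γ', a ≤ D.lev p) (h3 : r + 1 ≤ (dep 0 γ').count x) :
    ∃ γ ∈ S D a x r, γ <+: γ' := by
  obtain ⟨γ, h4, h5, h6⟩ := exists_visit x γ' 0 r h3
  exact ⟨γ, ⟨fun p hp => h1 p (pts_prefix h4 hp), by simpa using h5, h6⟩, h4⟩

theorem qw_pos {ω : V d → St d → ℝ≥0∞} (h : ∀ x u, 0 < ω x u) (γ : Pa d) :
    ∀ x, 0 < qw ω x γ := by
  induction γ with
  | nil => intro x; simp [qw]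
  | cons u γ ih => intro x; exact ENNReal.mul_pos (h x u).ne' (ih _).ne'

theorem ext_le (D : Dir d) (a : ℝ) (x : V d) (N : ℕ) (hN : D.lev x - N < a)
    {ω : V d → St d → ℝ≥0∞} (h : ∀ x, ∑ u, ω x u = 1) (r : ℕ) {γ : Pa d} (hγ : γ ∈ S D a x r) :
    ∑' γ', indE (γ' ∈ S D a x (r + 1) ∧ γ <+: γ') * qw ω 0 γ' ≤
      (1 - qw ω x (List.replicate N D.neg.e)) * qw ω 0 γ := by
  set k := List.replicate N D.neg.e with hk
  have hlev : ∀ j : ℕ, D.lev (disp (γ ++ List.replicate j D.neg.e)) = D.lev x - j := by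
    intro j
    rw [disp_append, hγ.2.1, disp_replicate, D.lev_add, D.lev_nsmul, D.stp_neg_e, D.lev_neg,
      D.lev_e]
    ring
  have hnot : ∀ γ' ∈ S D a x (r + 1), ¬ (γ ++ k <+: γ') := by
    intro γ' hγ' hp
    have := hγ'.1 _ (mem_pts_iff.mpr ⟨_, hp, rfl⟩)
    rw [zero_add, hlev] at this
    linarith
  let F : Set (Pa d) := {γ' | (γ' ∈ S D a x (r + 1) ∧ γ <+: γ') ∨ γ' = γ ++ k}
  have hF : PF F := by
    rintro b (⟨hb, hb'⟩ | rfl) b' (⟨hc, hc'⟩ | rfl) hp
    · exact S_pf D a x _ b hb b' hc hp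
    · exfalso
      obtain ⟨ξ, rfl⟩ := hb'
      rw [List.prefix_append_right_inj, hk, List.prefix_replicate_iff] at hp
      have h1 := hlev ξ.length
      rw [← hp.2, hb.2.1] at h1
      have h2 : ξ.length = 0 := by
        have : (ξ.length : ℝ) = 0 := by linarith
        exact_mod_cast this
      have h3 := hb.2.2
      rw [List.length_eq_zero_iff.mp h2, List.append_nil, hγ.2.2] at h3
      omega
    · exact absurd hp (hnot _ hc)
    · rfl
  have h1 := qw_pf_ext h 0 hF γ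
  have h2 : ∑' γ', indE (γ' ∈ F ∧ γ <+: γ') * qw ω 0 γ' =
      ∑' γ', indE (γ' ∈ S D a x (r + 1) ∧ γ <+: γ') * qw ω 0 γ' + qw ω 0 (γ ++ k) := by
    classical
    rw [← tsum_ite_eq (γ ++ k) (fun γ' => qw ω 0 γ'), ← ENNReal.tsum_add]
    refine tsum_congr fun γ' => ?_
    by_cases hc : γ' = γ ++ k
    · rw [if_pos hc, indE_pos ⟨Or.inr hc, hc ▸ List.prefix_append _ _⟩,
        indE_neg (fun h => hnot _ h.1 (hc ▸ List.prefix_rfl))]
      simp
    · rw [if_neg hc, add_zero]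
      congr 2
      exact propext ⟨fun h => h.1.resolve_right hc, fun h => ⟨Or.inl h, h.2⟩⟩
  rw [h2, qw_append, zero_add, hγ.2.1] at h1
  have hne : qw ω 0 γ ≠ ∞ := ne_top_of_le_ne_top ENNReal.one_ne_top (qw_le_one h _ _)
  have hne' : qw ω x k ≠ ∞ := ne_top_of_le_ne_top ENNReal.one_ne_top (qw_le_one h _ _)
  rw [ENNReal.sub_mul (fun _ _ => hne), one_mul, mul_comm (qw ω x k)]
  exact ENNReal.le_sub_of_add_le_right (ENNReal.mul_ne_top hne hne') h1

theorem mass_le (D : Dir d) (a : ℝ) (x : V d) (N : ℕ) (hN : D.lev x - N < a)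
    {ω : V d → St d → ℝ≥0∞} (h : ∀ x, ∑ u, ω x u = 1) (r : ℕ) :
    ∑' γ, indE (γ ∈ S D a x r) * qw ω 0 γ ≤ (1 - qw ω x (List.replicate N D.neg.e)) ^ r := by
  induction r with
  | zero => simpa using qw_pf h 0 (S_pf D a x 0)
  | succ r ih =>
    calc ∑' γ', indE (γ' ∈ S D a x (r + 1)) * qw ω 0 γ'
        ≤ ∑' γ', ∑' γ, indE (γ ∈ S D a x r) *
          (indE (γ' ∈ S D a x (r + 1) ∧ γ <+: γ') * qw ω 0 γ') := by
          refine ENNReal.tsum_le_tsum fun γ' => ?_
          by_cases hc : γ' ∈ S D a x (r + 1)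
          · obtain ⟨γ, h1, h2⟩ := S_pre D a x r hc.1 hc.2.2.ge
            refine le_trans ?_ (ENNReal.le_tsum γ)
            rw [indE_pos hc, indE_pos h1, indE_pos ⟨hc, h2⟩, one_mul, one_mul]
          · rw [indE_neg hc, zero_mul]; exact zero_le
      _ = ∑' γ, indE (γ ∈ S D a x r) *
          ∑' γ', indE (γ' ∈ S D a x (r + 1) ∧ γ <+: γ') * qw ω 0 γ' := by
          rw [ENNReal.tsum_comm]
          exact tsum_congr fun γ => ENNReal.tsum_mul_left
      _ ≤ ∑' γ, (1 - qw ω x (List.replicate N D.neg.e)) * (indE (γ ∈ S D a x r) * qw ω 0 γ) := by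
          refine ENNReal.tsum_le_tsum fun γ => ?_
          by_cases hc : γ ∈ S D a x r
          · rw [indE_pos hc, one_mul, one_mul]
            exact ext_le D a x N hN h r hc
          · rw [indE_neg hc, zero_mul]; exact zero_le
      _ ≤ _ := by
          rw [ENNReal.tsum_mul_left, pow_succ']
          gcongr

theorem count_succ (s : ℕ → St d) (x : V d) (n : ℕ) :
    (dep 0 (pre s (n + 1))).count x = (dep 0 (pre s n)).count x + [pos s n].count x := by
  rw [pre_succ, dep_append, List.count_append, zero_add, disp_pre]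
  rfl

theorem count_unbdd (s : ℕ → St d) (x : V d) (h : ∃ᶠ n in atTop, pos s n = x) (r : ℕ) :
    ∃ n, r ≤ (dep 0 (pre s n)).count x := by
  have hm : Monotone fun n => (dep 0 (pre s n)).count x :=
    monotone_nat_of_le_succ fun n => by rw [count_succ]; omega
  induction r with
  | zero => exact ⟨0, Nat.zero_le _⟩
  | succ r ih =>
    obtain ⟨n, hn⟩ := ih
    obtain ⟨m, hm1, hm2⟩ := frequently_atTop.mp h n
    refine ⟨m + 1, ?_⟩
    have := hm hm1
    rw [count_succ, hm2]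
    simp only [List.count_cons_self, List.count_nil] at this ⊢
    omega

end SlabA

open SlabA in
/-- a site is not visited infinitely often by a walk that stays above a level -/
theorem RW.slabA (W : RW d) (D : Dir d) (a : ℝ) (x : V d) :
    W.P {s | (∀ n, a ≤ D.lev (pos s n)) ∧ ∃ᶠ n in atTop, pos s n = x} = 0 := by
  obtain ⟨N, hN⟩ := exists_nat_gt (D.lev x - a)
  have hN' : D.lev x - N < a := by linarith
  set c : W.Ω → ℝ≥0∞ := fun o => qw (W.ω o) x (List.replicate N D.neg.e) with hc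
  have hcm : Measurable c := W.measurable_qw _ _
  have h1 : ∀ r, W.P {s | (∀ n, a ≤ D.lev (pos s n)) ∧ ∃ᶠ n in atTop, pos s n = x} ≤
      ∫⁻ o, (1 - c o) ^ r ∂W.E := by
    intro r
    have hsub : {s | (∀ n, a ≤ D.lev (pos s n)) ∧ ∃ᶠ n in atTop, pos s n = x} ⊆
        ⋃ γ ∈ S D a x r, cyl γ := by
      rintro s ⟨hs1, hs2⟩
      obtain ⟨n, hn⟩ := count_unbdd s x hs2 (r + 1)
      obtain ⟨γ, h1, h2⟩ := S_pre D a x r (γ' := pre s n) (fun p hp => by
        obtain ⟨i, _, rfl⟩ := mem_pts_pre.mp hp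
        exact hs1 i) hn
      exact Set.mem_biUnion h1 (cyl_mono h2 (mem_cyl_pre s n))
    refine (measure_mono hsub).trans ((W.P_le_tsum _).trans ?_)
    calc ∑' γ, indE (γ ∈ S D a x r) * W.w γ
        = ∑' γ, ∫⁻ o, indE (γ ∈ S D a x r) * qw (W.ω o) 0 γ ∂W.E := by
          refine tsum_congr fun γ => ?_
          rw [lintegral_const_mul _ (W.measurable_qw _ _), W.w_eq]
      _ = ∫⁻ o, ∑' γ, indE (γ ∈ S D a x r) * qw (W.ω o) 0 γ ∂W.E :=
          (lintegral_tsum fun γ => ((W.measurable_qw _ _).const_mul _).aemeasurable).symm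
      _ ≤ _ := lintegral_mono fun o => mass_le D a x N hN' (W.sum_one o) r
  have h2 : Tendsto (fun r : ℕ => ∫⁻ o, (1 - c o) ^ r ∂W.E) atTop (𝓝 (∫⁻ _, 0 ∂W.E)) := by
    refine tendsto_lintegral_of_dominated_convergence (fun _ => 1)
      (fun r => (measurable_const.sub hcm).pow_const r)
      (fun r => Eventually.of_forall fun o => pow_le_one₀ zero_le tsub_le_self) (by simp) ?_
    filter_upwards [W.ell] with o ho
    exact ENNReal.tendsto_pow_atTop_nhds_zero_of_lt_one
      (ENNReal.sub_lt_self ENNReal.one_ne_top one_ne_zero (qw_pos ho _ _).ne')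
  rw [lintegral_zero] at h2
  exact le_antisymm (ge_of_tendsto' h2 h1) zero_le

end Vale.Agent.P147
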