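import Vale.Agent.P147.EH

open MeasureTheory Filter Topology
open scoped ENNReal

namespace Vale.Agent.P147

variable {d : ℕ}

theorem TruncX.ofReal_sum_le {α : Type} (s : Finset α) (f : α → ℝ) :
    ENNReal.ofReal (∑ a ∈ s, f a) ≤ ∑ a ∈ s, ENNReal.ofReal (f a) :=
  Finset.le_sum_of_subadditive ENNReal.ofReal ENNReal.ofReal_zero.le
    (fun _ _ => ENNReal.ofReal_add_le) s f

theorem TruncX.ofReal_ind (p : Prop) : ENNReal.ofReal (ind p) = indE p := by
  unfold ind indE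
  split_ifs <;> simp

namespace RW

variable (W : RW d) {D : Dir d}

theorem TruncX_sum_le (F : FM D) {c : ℝ≥0∞} (hc : ∀ b ∈ F.S, ENNReal.ofReal (F.ν b) ≤ c * W.w b)
    (g : Pa d → ℝ) (G : Pa d → ℝ≥0∞) (hg : ∀ b, ENNReal.ofReal (g b) ≤ G b) :
    ENNReal.ofReal (∑ b ∈ F.S, F.ν b * g b) ≤ c * ∑' b, indE (D.Blk b) * W.w b * G b := by
  refine (TruncX.ofReal_sum_le _ _).trans ?_
  rw [← ENNReal.tsum_mul_left]
  refine le_trans (Finset.sum_le_sum fun b hb => ?_) (ENNReal.sum_le_tsum F.S)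
  rw [ENNReal.ofReal_mul (F.nn b)]
  have : indE (D.Blk b) = 1 := if_pos (F.blk b hb)
  rw [this, one_mul, ← mul_assoc]
  exact mul_le_mul' (hc b hb) (hg b)

theorem trunc (hp : 0 < W.P D.Stay) (Wd N : ℕ) (hN : 1 ≤ N)
    (h : 8 * N * (W.nu D fun b => Wd < rad b).toReal ≤ 1) :
    ∃ (F : FM D) (c : ℝ≥0∞), 1 ≤ c ∧ c ^ N ≤ 2 ∧ (∀ b ∈ F.S, rad b ≤ Wd) ∧
      ∀ b ∈ F.S, ENNReal.ofReal (F.ν b) ≤ c * W.w b := by
  classical
  have hN' : (1 : ℝ) ≤ N := by exact_mod_cast hN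
  obtain ⟨δ, hδ⟩ : ∃ δ : ℝ, δ = 1 / (4 * N) := ⟨_, rfl⟩
  have δ0 : 0 < δ := by rw [hδ]; positivity
  have δN : N * δ = 1 / 4 := by rw [hδ]; field_simp
  have δ1 : δ ≤ 1 / 4 := by nlinarith
  have x1 : (W.nu D fun b => Wd < rad b) ≤ 1 := by
    rw [← W.nu_true D hp]
    exact W.nu_mono' D fun _ _ _ => trivial
  have x2 : (W.nu D fun b => Wd < rad b) ≤ ENNReal.ofReal (δ / 2) := by
    rw [ENNReal.le_ofReal_iff_toReal_le (x1.trans_lt ENNReal.one_lt_top).ne (by positivity)]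
    by_contra hc
    push Not at hc
    nlinarith
  have x3 : 1 ≤ (W.nu D fun b => rad b ≤ Wd) + W.nu D fun b => Wd < rad b := by
    rw [← W.nu_true D hp]
    unfold nu
    rw [← ENNReal.tsum_add]
    refine ENNReal.tsum_le_tsum fun b => ?_
    rw [← add_mul]
    refine mul_le_mul' ?_ le_rfl
    unfold indE
    by_cases h1 : D.Blk b <;> by_cases h2 : rad b ≤ Wd <;> simp [h1, h2, not_le.1]
  have x4 : ENNReal.ofReal (1 - δ) < W.nu D fun b => rad b ≤ Wd := by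
    by_contra hc
    push Not at hc
    have := x3.trans (add_le_add hc x2)
    rw [← ENNReal.ofReal_add (by linarith) (by positivity), ENNReal.one_le_ofReal] at this
    linarith
  unfold nu at x4
  rw [ENNReal.tsum_eq_iSup_sum, lt_iSup_iff] at x4
  obtain ⟨s, hs⟩ := x4
  obtain ⟨S, hS⟩ : ∃ S, S = s.filter fun b => D.Blk b ∧ rad b ≤ Wd := ⟨_, rfl⟩
  have wt : ∀ b, W.w b ≠ ⊤ := fun b => ((W.w_le_one b).trans_lt ENNReal.one_lt_top).ne
  obtain ⟨m, hm⟩ : ∃ m, m = ∑ b ∈ S, (W.w b).toReal := ⟨_, rfl⟩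
  have e : ∑ b ∈ s, indE (D.Blk b ∧ rad b ≤ Wd) * W.w b = ENNReal.ofReal m := by
    rw [hm, ENNReal.ofReal_sum_of_nonneg fun _ _ => ENNReal.toReal_nonneg, hS, Finset.sum_filter]
    refine Finset.sum_congr rfl fun b _ => ?_
    unfold indE
    split_ifs
    · rw [one_mul, ENNReal.ofReal_toReal (wt b)]
    · rw [zero_mul]
  rw [e, ENNReal.ofReal_lt_ofReal_iff_of_nonneg (by linarith)] at hs
  have m0 : 0 < m := by linarith
  have hmem : ∀ b ∈ S, D.Blk b ∧ rad b ≤ Wd := fun b hb => by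
    rw [hS] at hb
    exact (Finset.mem_filter.1 hb).2
  refine ⟨⟨S, fun b => (W.w b).toReal / m, fun b hb => (hmem b hb).1, fun b => by positivity,
    by rw [← Finset.sum_div, ← hm, div_self m0.ne']⟩, ENNReal.ofReal (1 / (1 - δ)), ?_, ?_,
    fun b hb => (hmem b hb).2, fun b _ => ?_⟩
  · rw [ENNReal.one_le_ofReal, le_div_iff₀ (by linarith)]
    linarith
  · have b1 := one_add_mul_le_pow (a := -δ) (by linarith) N
    rw [← ENNReal.ofReal_pow (one_div_nonneg.2 (by linarith)), ← ENNReal.ofReal_ofNat 2]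
    refine ENNReal.ofReal_le_ofReal ?_
    rw [one_div, inv_pow, inv_le_comm₀ (pow_pos (by linarith) N) (by norm_num)]
    rw [← sub_eq_add_neg] at b1
    linarith
  · show ENNReal.ofReal ((W.w b).toReal / m) ≤ _
    rw [div_eq_mul_one_div, mul_comm, ENNReal.ofReal_mul (by positivity),
      ENNReal.ofReal_toReal (wt b)]
    exact mul_le_mul' (ENNReal.ofReal_le_ofReal
      (one_div_le_one_div_of_le (by linarith) hs.le)) le_rfl

theorem Ex_le_BE (F : FM D) {c : ℝ≥0∞} (hc : ∀ b ∈ F.S, ENNReal.ofReal (F.ν b) ≤ c * W.w b)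
    (n : ℕ) (f : List (Pa d) → ℝ) (g : List (Pa d) → ℝ≥0∞)
    (hf : ∀ L, ENNReal.ofReal (f L) ≤ g L) :
    ENNReal.ofReal (F.Ex n f) ≤ c ^ n * W.BE D n g := by
  induction n generalizing f g with
  | zero => rw [W.BE_zero, pow_zero, one_mul]; exact hf []
  | succ n ih =>
    refine (W.TruncX_sum_le F hc (fun b => F.Ex n fun L => f (b :: L))
      (fun b => c ^ n * W.BE D n fun L => g (b :: L)) fun b => ih _ _ fun L => hf _).trans ?_
    rw [W.BE_succ, pow_succ', mul_assoc, ← ENNReal.tsum_mul_left (a := c ^ n)]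
    refine mul_le_mul' le_rfl (le_of_eq (tsum_congr fun b => ?_))
    ring

theorem good_of (hp : 0 < W.P D.Stay) :
    ∃ (hs : ℕ) (om : ℕ → ℝ), 1 ≤ hs ∧ (∀ M, 0 ≤ om M) ∧ Tendsto om atTop (𝓝 0) ∧
      ∀ (F : FM D) (Wd : ℕ), (∀ b ∈ F.S, rad b ≤ Wd) →
        (∀ b ∈ F.S, ENNReal.ofReal (F.ν b) ≤ 2 * W.w b) → F.Good hs om Wd := by
  obtain ⟨X, hX⟩ : ∃ X, X = ∑' b : Pa d, indE (D.Blk b) * W.w b * ENNReal.ofReal (D.H b) :=
    ⟨_, rfl⟩
  have X1 : X < ⊤ := hX ▸ W.EH_lt_top D hp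
  refine ⟨⌈(2 * X).toReal⌉₊ + 1, fun M => (2 * W.om D M).toReal, by omega,
    fun _ => ENNReal.toReal_nonneg, ?_, fun F Wd h1 h2 => ⟨?_, fun M => ?_, h1⟩⟩
  · have := ((ENNReal.tendsto_toReal ENNReal.zero_ne_top).comp (W.om_tendsto D hp)).const_mul 2
    simpa using this
  · have := W.TruncX_sum_le F h2 (fun b => D.H b) (fun b => ENNReal.ofReal (D.H b))
      fun _ => le_rfl
    rw [← hX, ENNReal.ofReal_le_iff_le_toReal (ENNReal.mul_ne_top (by simp) X1.ne)] at this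
    have t := Nat.le_ceil (2 * X).toReal
    unfold FM.h
    push_cast
    linarith
  · have := W.TruncX_sum_le F h2 (fun b => ind (M < rad b) * D.H b)
      (fun b => indE (M < rad b) * ENNReal.ofReal (D.H b)) fun b => by
        unfold ind indE
        split_ifs <;> simp
    have e : ∑' b, indE (D.Blk b) * W.w b * (indE (M < rad b) * ENNReal.ofReal (D.H b)) =
        W.om D M := by
      refine tsum_congr fun b => ?_
      unfold indE
      by_cases h1 : D.Blk b <;> by_cases h2 : M < rad b <;> simp [h1, h2]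
    rwa [e, ENNReal.ofReal_le_iff_le_toReal
      (ENNReal.mul_ne_top (by simp) (W.om_lt_top D hp M).ne)] at this

end RW

theorem FM.Good.mono {D : Dir d} {F : FM D} {hs hs' : ℕ} {om om' : ℕ → ℝ} {Wd : ℕ}
    (h : F.Good hs om Wd) (h1 : hs ≤ hs') (h2 : ∀ M, om M ≤ om' M) : F.Good hs' om' Wd :=
  ⟨h.h_le.trans (by exact_mod_cast h1), fun M => (h.om_le M).trans (h2 M), h.rad_le⟩

end Vale.Agent.P147
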