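import Vale.Agent.P147.Base

open MeasureTheory

namespace Vale.Agent.P147

theorem ext_cyl {α : Type} [Fintype α] [MeasurableSpace α] [MeasurableSingletonClass α]
    (P Q : Measure (ℕ → α)) [IsProbabilityMeasure P] [IsProbabilityMeasure Q]
    (h : ∀ (n : ℕ) (t : ℕ → α), P {s | ∀ i < n, s i = t i} = Q {s | ∀ i < n, s i = t i}) :
    P = Q := by
  classical
  let C : Set (Set (ℕ → α)) := {A | ∃ (n : ℕ) (t : ℕ → α), A = {s | ∀ i < n, s i = t i}}
  have hmeas : ∀ (n : ℕ) (t : ℕ → α), MeasurableSet {s : ℕ → α | ∀ i < n, s i = t i} := by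
    intro n t
    have : {s : ℕ → α | ∀ i < n, s i = t i} = ⋂ i, ⋂ (_ : i < n), (fun s => s i) ⁻¹' {t i} := by
      ext s; simp
    rw [this]
    exact MeasurableSet.iInter fun i => MeasurableSet.iInter fun _ =>
      measurable_pi_apply i (measurableSet_singleton _)
  refine ext_of_generate_finite C ?_ ?_ ?_ (by simp)
  · refine le_antisymm ?_ (MeasurableSpace.generateFrom_le ?_)
    · refine iSup_le fun i => ?_
      rw [← measurable_iff_comap_le]
      refine @measurable_to_countable' _ _ _ _ (MeasurableSpace.generateFrom C) _ fun a => ?_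
      have : (fun s : ℕ → α => s i) ⁻¹' {a} = ⋃ u : Fin (i + 1) → α, ⋃ (_ : u (Fin.last i) = a),
          {s | ∀ j < i + 1, s j = (fun j => if hj : j < i + 1 then u ⟨j, hj⟩ else a) j} := by
        ext s
        simp only [Set.mem_preimage, Set.mem_singleton_iff, Set.mem_iUnion, Set.mem_setOf_eq]
        constructor
        · intro hs
          exact ⟨fun j => s j, by simpa using hs, fun j hj => by simp [hj]⟩
        · rintro ⟨u, hu, hs⟩
          rw [hs i (by omega), dif_pos (by omega)]
          exact hu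
      rw [this]
      exact MeasurableSet.iUnion fun u => MeasurableSet.iUnion fun _ =>
        MeasurableSpace.measurableSet_generateFrom ⟨_, _, rfl⟩
    · rintro _ ⟨n, t, rfl⟩
      exact hmeas n t
  · rintro _ ⟨n, t, rfl⟩ _ ⟨m, u, rfl⟩ ⟨s, hs, hs'⟩
    refine ⟨max n m, s, ?_⟩
    ext x
    simp only [Set.mem_inter_iff, Set.mem_setOf_eq] at *
    constructor
    · rintro ⟨h1, h2⟩ i hi
      rcases lt_max_iff.1 hi with hi | hi
      · rw [h1 i hi, hs i hi]
      · rw [h2 i hi, hs' i hi]
    · intro hx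
      exact ⟨fun i hi => by rw [hx i (lt_max_of_lt_left hi), hs i hi],
        fun i hi => by rw [hx i (lt_max_of_lt_right hi), hs' i hi]⟩
  · rintro _ ⟨n, t, rfl⟩
    exact h n t

end Vale.Agent.P147
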